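import Vale.Agent.P108.Defs

/-!
P108 Area: area comparison through an arbitrary injection Th with g (Th z) = f z.
Partition B into countably many measurable pieces B i on which f is injective and
c i <= |det f'| <= 2 c i (the open set det f' <> 0 is covered by countably many open sets on which
f is injective, by the inverse function theorem HasStrictFDerivAt.toOpenPartialHomeomorph and
Lindeloef; intersect with dyadic ranges of |det| and disjointify), and H into pieces H j likewise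
with constants d j.  Then c i vol (B i) <= vol (f '' B i)
(lintegral_abs_det_fderiv_le_addHaar_image) and vol (g '' H j) <= 2 d j vol (H j)
(addHaar_image_le_lintegral_abs_det_fderiv); images are measurable
(MeasurableSet.image_of_continuousOn_injOn).  Pointwise in y: an i with y in f '' B i gives z i,
and j(i) with Th (z i) in H j(i); i to j(i) is injective and d j(i) <= 2 C c i.  So
sum_i 1_{f B i}(y) / c i <= 2 C sum_j 1_{g H j}(y) / d j.  Integrate in y.
-/

namespace Vale.Agent.P108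

open MeasureTheory Set

theorem loc_Area {f : ℝ × ℝ → ℝ × ℝ} (hf : ContDiff ℝ 1 f) {x : ℝ × ℝ}
    (hx : (fderiv ℝ f x).det ≠ 0) :
    ∃ U : Set (ℝ × ℝ), IsOpen U ∧ x ∈ U ∧ InjOn f U ∧ ∃ c : ℝ, 0 < c ∧
      ∀ z ∈ U, c ≤ |(fderiv ℝ f z).det| ∧ |(fderiv ℝ f z).det| ≤ 2 * c := by
  have hs : HasStrictFDerivAt f
      ((fderiv ℝ f x).toContinuousLinearEquivOfDetNeZero hx : ℝ × ℝ →L[ℝ] ℝ × ℝ) x := by
    rw [ContinuousLinearMap.coe_toContinuousLinearEquivOfDetNeZero]
    exact hf.contDiffAt.hasStrictFDerivAt one_ne_zero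
  have hc : Continuous fun z => |(fderiv ℝ f z).det| :=
    (ContinuousLinearMap.continuous_det.comp (hf.continuous_fderiv one_ne_zero)).abs
  have hp : 0 < |(fderiv ℝ f x).det| := abs_pos.2 hx
  refine ⟨(hs.toOpenPartialHomeomorph f).source ∩ (fun z => |(fderiv ℝ f z).det|) ⁻¹'
    Ioo (2 / 3 * |(fderiv ℝ f x).det|) (4 / 3 * |(fderiv ℝ f x).det|),
    (hs.toOpenPartialHomeomorph f).open_source.inter (isOpen_Ioo.preimage hc),
    ⟨hs.mem_toOpenPartialHomeomorph_source, ?_, ?_⟩,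
    (hs.toOpenPartialHomeomorph f).injOn.mono inter_subset_left,
    2 / 3 * |(fderiv ℝ f x).det|, by positivity, fun z hz => ⟨hz.2.1.le, ?_⟩⟩
  · show 2 / 3 * |(fderiv ℝ f x).det| < |(fderiv ℝ f x).det|
    linarith
  · show |(fderiv ℝ f x).det| < 4 / 3 * |(fderiv ℝ f x).det|
    linarith
  · have : |(fderiv ℝ f z).det| < 4 / 3 * |(fderiv ℝ f x).det| := hz.2.2
    linarith

theorem pieces_Area {f : ℝ × ℝ → ℝ × ℝ} (hf : ContDiff ℝ 1 f) {B : Set (ℝ × ℝ)}
    (hB : MeasurableSet B) (h0 : ∀ z ∈ B, (fderiv ℝ f z).det ≠ 0) :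
    ∃ (P : ℕ → Set (ℝ × ℝ)) (c : ℕ → ℝ), (∀ i, MeasurableSet (P i)) ∧
      Pairwise (Function.onFun Disjoint P) ∧ (⋃ i, P i) = B ∧ (∀ i, 0 < c i) ∧
      (∀ i, InjOn f (P i)) ∧
      ∀ i, ∀ z ∈ P i, c i ≤ |(fderiv ℝ f z).det| ∧ |(fderiv ℝ f z).det| ≤ 2 * c i := by
  rcases B.eq_empty_or_nonempty with rfl | ⟨x0, hx0⟩
  · exact ⟨fun _ => ∅, fun _ => 1, fun _ => MeasurableSet.empty, fun _ _ _ => disjoint_bot_left,
      by simp, fun _ => one_pos, fun _ => injOn_empty _, fun _ _ h => h.elim⟩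
  choose U hUo hUx hUi c hc hUc using fun x : B => loc_Area hf (h0 x x.2)
  obtain ⟨T, hT, hTU⟩ := TopologicalSpace.isOpen_iUnion_countable U hUo
  have hcov : ∀ z ∈ B, z ∈ ⋃ i ∈ T, U i := fun z hz => by
    rw [hTU]; exact mem_iUnion.2 ⟨⟨z, hz⟩, hUx _⟩
  have hne : T.Nonempty := by
    obtain ⟨i, hi, -⟩ := mem_iUnion₂.1 (hcov x0 hx0)
    exact ⟨i, hi⟩
  obtain ⟨e, rfl⟩ := hT.exists_eq_range hne
  have hsub : ∀ i, disjointed (fun n => U (e n) ∩ B) i ⊆ U (e i) := fun i =>
    (disjointed_subset _ i).trans inter_subset_left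
  refine ⟨disjointed fun n => U (e n) ∩ B, fun n => c (e n),
    MeasurableSet.disjointed fun n => (hUo _).measurableSet.inter hB, disjoint_disjointed _, ?_,
    fun n => hc _, fun n => (hUi _).mono (hsub n), fun n z hz => hUc _ z (hsub n hz)⟩
  rw [iUnion_disjointed]
  refine Subset.antisymm (iUnion_subset fun n => inter_subset_right) fun z hz => ?_
  obtain ⟨i, ⟨n, rfl⟩, hi⟩ := mem_iUnion₂.1 (hcov z hz)
  exact mem_iUnion.2 ⟨n, hi, hz⟩

theorem low_Area {f : ℝ × ℝ → ℝ × ℝ} (hf : ContDiff ℝ 1 f) {P : Set (ℝ × ℝ)}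
    (hP : MeasurableSet P) (hi : InjOn f P) {c : ℝ} (hc : 0 < c)
    (h : ∀ z ∈ P, c ≤ |(fderiv ℝ f z).det|) :
    volume P ≤ ENNReal.ofReal c⁻¹ * volume (f '' P) := by
  have h1 := lintegral_abs_det_fderiv_le_addHaar_image volume hP
    (fun x _ => ((hf.differentiable one_ne_zero x).hasFDerivAt).hasFDerivWithinAt) hi
  have h2 : ENNReal.ofReal c * volume P ≤
      ∫⁻ x in P, ENNReal.ofReal |(fderiv ℝ f x).det| := by
    rw [← setLIntegral_const]
    exact setLIntegral_mono' hP fun z hz => ENNReal.ofReal_le_ofReal (h z hz)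
  calc volume P = ENNReal.ofReal c⁻¹ * (ENNReal.ofReal c * volume P) := by
        rw [← mul_assoc, ← ENNReal.ofReal_mul (inv_nonneg.2 hc.le), inv_mul_cancel₀ hc.ne',
          ENNReal.ofReal_one, one_mul]
    _ ≤ _ := by gcongr; exact h2.trans h1

theorem upp_Area {g : ℝ × ℝ → ℝ × ℝ} (hg : ContDiff ℝ 1 g) {Q : Set (ℝ × ℝ)}
    (hQ : MeasurableSet Q) {d : ℝ} (hd : 0 < d)
    (h : ∀ z ∈ Q, |(fderiv ℝ g z).det| ≤ 2 * d) :
    ENNReal.ofReal d⁻¹ * volume (g '' Q) ≤ ENNReal.ofReal 2 * volume Q := by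
  have h1 := addHaar_image_le_lintegral_abs_det_fderiv volume hQ
    (fun x _ => ((hg.differentiable one_ne_zero x).hasFDerivAt).hasFDerivWithinAt)
  have h2 : ∫⁻ x in Q, ENNReal.ofReal |(fderiv ℝ g x).det| ≤
      ENNReal.ofReal (2 * d) * volume Q := by
    rw [← setLIntegral_const]
    exact setLIntegral_mono' hQ fun z hz => ENNReal.ofReal_le_ofReal (h z hz)
  calc ENNReal.ofReal d⁻¹ * volume (g '' Q)
      ≤ ENNReal.ofReal d⁻¹ * (ENNReal.ofReal (2 * d) * volume Q) := by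
        gcongr; exact h1.trans h2
    _ = _ := by
        rw [← mul_assoc, ← ENNReal.ofReal_mul (inv_nonneg.2 hd.le)]
        congr 2
        field_simp

theorem sum_Area {S : ℕ → Set (ℝ × ℝ)} (hS : ∀ i, MeasurableSet (S i)) (a : ℕ → ENNReal) :
    ∑' i, a i * volume (S i) = ∫⁻ y, ∑' i, (S i).indicator (fun _ => a i) y := by
  rw [lintegral_tsum fun i => (measurable_const.indicator (hS i)).aemeasurable]
  exact tsum_congr fun i => (lintegral_indicator_const (hS i) _).symm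

theorem point_Area {S T : ℕ → Set (ℝ × ℝ)} {a b : ℕ → ENNReal} {y : ℝ × ℝ}
    (j : {i // y ∈ S i} → ℕ) (hj : Function.Injective j) (hT : ∀ i, y ∈ T (j i))
    (hab : ∀ i : {i // y ∈ S i}, a i ≤ b (j i)) :
    ∑' i, (S i).indicator (fun _ => a i) y ≤ ∑' i, (T i).indicator (fun _ => b i) y := by
  have e : ∑' i, (S i).indicator (fun _ => a i) y = ∑' i : {i // y ∈ S i}, a i := by
    rw [show (∑' i : {i // y ∈ S i}, a i) = ∑' i : ({i | y ∈ S i} : Set ℕ), a i from rfl,
      tsum_subtype]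
    refine tsum_congr fun i => ?_
    by_cases h : y ∈ S i
    · rw [indicator_of_mem h, indicator_of_mem (show i ∈ {i | y ∈ S i} from h)]
    · rw [indicator_of_notMem h, indicator_of_notMem (show i ∉ {i | y ∈ S i} from h)]
  rw [e]
  refine le_trans ?_ (ENNReal.tsum_comp_le_tsum_of_injective hj
    fun i => (T i).indicator (fun _ => b i) y)
  exact ENNReal.tsum_le_tsum fun i => by rw [indicator_of_mem (hT i)]; exact hab i

theorem area_compare {f g : ℝ × ℝ → ℝ × ℝ} (hf : ContDiff ℝ 1 f) (hg : ContDiff ℝ 1 g)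
    {B H : Set (ℝ × ℝ)} (hB : MeasurableSet B) (hH : MeasurableSet H) (Th : ℝ × ℝ → ℝ × ℝ)
    (hinj : InjOn Th B) (hmap : MapsTo Th B H) (hcomm : ∀ z ∈ B, g (Th z) = f z) {C : ℝ}
    (hC : 0 < C) (hdet0 : ∀ w ∈ H, (fderiv ℝ g w).det ≠ 0)
    (hdet : ∀ z ∈ B, |(fderiv ℝ g (Th z)).det| ≤ C * |(fderiv ℝ f z).det|) :
    volume B ≤ ENNReal.ofReal (4 * C) * volume H := by
  have h0 : ∀ z ∈ B, (fderiv ℝ f z).det ≠ 0 := fun z hz h => by
    have h1 := hdet z hz
    rw [h, abs_zero, mul_zero] at h1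
    exact hdet0 _ (hmap hz) (abs_nonpos_iff.1 h1)
  obtain ⟨P, c, mP, dP, uP, hc, iP, bP⟩ := pieces_Area hf hB h0
  obtain ⟨Q, d, mQ, dQ, uQ, hd, iQ, bQ⟩ := pieces_Area hg hH hdet0
  have mfP : ∀ i, MeasurableSet (f '' P i) := fun i =>
    (mP i).image_of_continuousOn_injOn hf.continuous.continuousOn (iP i)
  have mgQ : ∀ i, MeasurableSet (g '' Q i) := fun i =>
    (mQ i).image_of_continuousOn_injOn hg.continuous.continuousOn (iQ i)
  have sP : ∀ i, P i ⊆ B := fun i => uP ▸ subset_iUnion P i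
  have pt : ∀ y, ∑' i, (f '' P i).indicator (fun _ => ENNReal.ofReal (c i)⁻¹) y ≤
      ∑' i, (g '' Q i).indicator
        (fun _ => ENNReal.ofReal (2 * C) * ENNReal.ofReal (d i)⁻¹) y := by
    intro y
    choose z hz hzy using fun i : {i // y ∈ f '' P i} => i.2
    have hex : ∀ i, ∃ j, Th (z i) ∈ Q j := fun i => by
      have := hmap (sP _ (hz i))
      rw [← uQ] at this
      exact mem_iUnion.1 this
    choose j hj using hex
    have hg' : ∀ i, g (Th (z i)) = y := fun i => (hcomm _ (sP _ (hz i))).trans (hzy i)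
    refine point_Area j (fun i i' e => ?_) (fun i => ⟨_, hj i, hg' i⟩) fun i => ?_
    · have e1 : Th (z i) = Th (z i') := iQ (j i) (hj i) (e ▸ hj i') ((hg' i).trans (hg' i').symm)
      have e2 : z i = z i' := hinj (sP _ (hz i)) (sP _ (hz i')) e1
      by_contra hne
      exact Set.disjoint_left.1 (dP fun h => hne (Subtype.ext h)) (hz i) (e2 ▸ hz i')
    · rw [← ENNReal.ofReal_mul (by positivity)]
      refine ENNReal.ofReal_le_ofReal ?_
      have h1 := (bQ _ _ (hj i)).1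
      have h2 := hdet _ (sP _ (hz i))
      have h3 := (bP _ _ (hz i)).2
      have h4 : d (j i) ≤ 2 * C * c i := by nlinarith
      have h5 := hc i
      have h6 := hd (j i)
      rw [← div_eq_mul_inv, inv_eq_one_div, div_le_div_iff₀ h5 h6]
      linarith
  calc volume B = ∑' i, volume (P i) := by rw [← uP, measure_iUnion dP mP]
    _ ≤ ∑' i, ENNReal.ofReal (c i)⁻¹ * volume (f '' P i) :=
        ENNReal.tsum_le_tsum fun i => low_Area hf (mP i) (iP i) (hc i) fun z hz => (bP i z hz).1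
    _ ≤ ∑' i, ENNReal.ofReal (2 * C) * ENNReal.ofReal (d i)⁻¹ * volume (g '' Q i) := by
        rw [sum_Area mfP, sum_Area mgQ]
        exact lintegral_mono pt
    _ ≤ ∑' i, ENNReal.ofReal (4 * C) * volume (Q i) := by
        refine ENNReal.tsum_le_tsum fun i => ?_
        calc _ = ENNReal.ofReal (2 * C) * (ENNReal.ofReal (d i)⁻¹ * volume (g '' Q i)) :=
              mul_assoc _ _ _
          _ ≤ ENNReal.ofReal (2 * C) * (ENNReal.ofReal 2 * volume (Q i)) :=
              mul_le_mul_right (upp_Area hg (mQ i) (hd i) fun z hz => (bQ i z hz).2) _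
          _ = _ := by
              rw [← mul_assoc, ← ENNReal.ofReal_mul (by positivity)]
              congr 2
              ring
    _ = _ := by rw [ENNReal.tsum_mul_left, ← uQ, measure_iUnion dQ mQ]

end Vale.Agent.P108
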