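import Vale.Agent.P108.Meas

/-!
P108 Avg: averaging over the gap g removes the multiplicity of the classes.
Grid g_i = g0^(2 + 2 i / G), i < G, G = 2 N + 1.  Fix z.  With x = log g / log g0 in [2, 4],
ph j = (j log Lam - log nrm j) / (j log g0), eps = log 2 / log g0 <= 1/8, membership in
Etl g (ns a) N means ph j - eps / j <= x for j <= ns a and x <= ph m + eps / m for some
ns a < m <= ns (a+1).  Let Ph a = max over 1 <= j <= ns a of (ph j - eps / j), monotone in a.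
Then x lies in [Ph a, Ph (a+1) + 2 eps / ns a], so the number of pairs (i, a), a < N, with z in
Etl g_i (ns a) N is at most (2 + 6 eps) G / 2 + N <= 2 G (clamp Ph to [2, 4], telescope,
sum of 1 / ns a <= 3 since ns (a+1) >= 3/2 ns a), and it is zero unless z is in Rsh g0 N.
Sum the measures (lintegral of indicators) and pick a grid point below the average.
-/

namespace Vale.Agent.P108

open MeasureTheory Set

theorem ns_pos (a : ℕ) : 1 ≤ ns a := by
  induction a with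
  | zero => simp [ns]
  | succ a ih =>
    rw [ns]
    omega

theorem ns_class {m : ℕ} (hm : 2 ≤ m) : ∃ a, a < m ∧ ns a < m ∧ 2 * m ≤ 3 * ns a + 1 := by
  induction m, hm using Nat.le_induction with
  | base => exact ⟨0, by norm_num, by simp [ns], by simp [ns]⟩
  | succ m _ ih =>
    obtain ⟨a, h1, h2, h3⟩ := ih
    have h0 := ns_pos a
    by_cases h : 2 * (m + 1) ≤ 3 * ns a + 1
    · exact ⟨a, by omega, by omega, h⟩
    · refine ⟨a + 1, by omega, ?_, ?_⟩ <;> rw [ns] <;> omega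

theorem sum_inv_Avg (N : ℕ) : ∑ a ∈ Finset.range N, 1 / (ns a : ℝ) + 3 / ns N ≤ 3 := by
  induction N with
  | zero => simp [ns]
  | succ N ih =>
    rw [Finset.sum_range_succ]
    have h0 : (0 : ℝ) < ns N := by exact_mod_cast ns_pos N
    have h1 : (0 : ℝ) < ns (N + 1) := by exact_mod_cast ns_pos (N + 1)
    have h2 : 3 * ns N ≤ 2 * ns (N + 1) := by
      rw [ns]
      omega
    have h3 : (3 : ℝ) * ns N ≤ 2 * ns (N + 1) := by exact_mod_cast h2
    have h4 : (3 : ℝ) / ns (N + 1) ≤ 2 / ns N := by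
      rw [div_le_div_iff₀ h1 h0]
      exact h3
    have h5 : (3 : ℝ) / ns N = 1 / ns N + 2 / ns N := by ring
    linarith

theorem step_Avg {G n : ℕ} (hn : 1 ≤ n) {S S' T : Finset ℕ} (h1 : T ⊆ S) (h2 : S' ⊆ S)
    (h3 : ∀ i ∈ T, ∀ i' ∈ S', i' ≤ i → (i - i') * n ≤ G) :
    (T.card : ℝ) ≤ S.card - S'.card + (G / n + 1) := by
  have e1 : T ⊆ (S \ S') ∪ (T ∩ S') := by
    intro i hi
    by_cases h : i ∈ S'
    · exact Finset.mem_union_right _ (Finset.mem_inter.2 ⟨hi, h⟩)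
    · exact Finset.mem_union_left _ (Finset.mem_sdiff.2 ⟨h1 hi, h⟩)
  have e2 : (T ∩ S').card ≤ G / n + 1 := by
    rcases (T ∩ S').eq_empty_or_nonempty with h | h
    · rw [h]
      simp
    · have e3 : T ∩ S' ⊆ Finset.Icc ((T ∩ S').min' h) ((T ∩ S').min' h + G / n) := by
        intro i hi
        have a1 := (T ∩ S').min'_le i hi
        have a2 := h3 i (Finset.mem_inter.1 hi).1 _
          (Finset.mem_inter.1 ((T ∩ S').min'_mem h)).2 a1
        have a3 := (Nat.le_div_iff_mul_le hn).2 a2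
        exact Finset.mem_Icc.2 ⟨a1, by omega⟩
      have e4 := Finset.card_le_card e3
      rw [Nat.card_Icc] at e4
      generalize G / n = q at e4 ⊢
      omega
  have e5 := (Finset.card_le_card e1).trans (Finset.card_union_le _ _)
  have e6 := Finset.card_sdiff_add_card_eq_card h2
  have e7 : T.card + S'.card ≤ S.card + (G / n + 1) := by omega
  have e8 : (T.card : ℝ) + S'.card ≤ S.card + (((G / n : ℕ) : ℝ) + 1) := by exact_mod_cast e7
  have e9 : ((G / n : ℕ) : ℝ) ≤ G / n := Nat.cast_div_le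
  linarith

theorem count_Avg {G N : ℕ} (S T : ℕ → Finset ℕ) (h0 : (S 0).card ≤ G) (h1 : ∀ a, T a ⊆ S a)
    (h2 : ∀ a, S (a + 1) ⊆ S a)
    (h3 : ∀ a, ∀ i ∈ T a, ∀ i' ∈ S (a + 1), i' ≤ i → (i - i') * (4 * ns a) ≤ G) :
    ∑ a ∈ Finset.range N, (T a).card ≤ 2 * G + N := by
  have e1 : ∀ a ∈ Finset.range N, ((T a).card : ℝ) ≤
      (((S a).card : ℝ) - (S (a + 1)).card) + (G / 4 * (1 / ns a) + 1) := by
    intro a _
    have a1 := ns_pos a
    have a2 := step_Avg (n := 4 * ns a) (by omega) (h1 a) (h2 a) (h3 a)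
    have a3 : (G : ℝ) / ((4 * ns a : ℕ) : ℝ) = G / 4 * (1 / ns a) := by
      push_cast
      rw [mul_one_div, div_div]
    rwa [a3] at a2
  have e2 := Finset.sum_le_sum e1
  rw [Finset.sum_add_distrib, Finset.sum_add_distrib, ← Finset.mul_sum,
    Finset.sum_range_sub' (fun a => ((S a).card : ℝ))] at e2
  have e3 := sum_inv_Avg N
  have e4 : (0 : ℝ) ≤ 3 / ns N := by positivity
  have e5 : (G : ℝ) / 4 * ∑ a ∈ Finset.range N, 1 / (ns a : ℝ) ≤ G / 4 * 3 :=
    mul_le_mul_of_nonneg_left (by linarith) (by positivity)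
  have e6 : ((S 0).card : ℝ) ≤ G := by exact_mod_cast h0
  have e7 : (0 : ℝ) ≤ (S N).card := Nat.cast_nonneg _
  have e8 : (0 : ℝ) ≤ G := Nat.cast_nonneg _
  simp only [Finset.sum_const, Finset.card_range, nsmul_eq_mul, mul_one] at e2
  have e9 : ((∑ a ∈ Finset.range N, (T a).card : ℕ) : ℝ) ≤ ((2 * G + N : ℕ) : ℝ) := by
    push_cast
    linarith
  exact_mod_cast e9

open Classical in
theorem mult_Avg {α ι : Type} [MeasurableSpace α] (μ : Measure α) (s : Finset ι) (E : ι → Set α)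
    (R : Set α) (M : ℕ) (hE : ∀ p, MeasurableSet (E p)) (hR : MeasurableSet R)
    (h1 : ∀ p ∈ s, E p ⊆ R) (h2 : ∀ z, ∑ p ∈ s, (if z ∈ E p then 1 else 0) ≤ M) :
    ∑ p ∈ s, μ (E p) ≤ M * μ R := by
  have e1 : ∑ p ∈ s, μ (E p) = ∫⁻ z, ∑ p ∈ s, (E p).indicator (1 : α → ENNReal) z ∂μ := by
    rw [lintegral_finsetSum _ fun p _ => measurable_one.indicator (hE p)]
    exact Finset.sum_congr rfl fun p _ => (lintegral_indicator_one (hE p)).symm
  rw [e1, ← lintegral_indicator_const hR]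
  refine lintegral_mono fun z => ?_
  by_cases hz : z ∈ R
  · rw [indicator_of_mem hz]
    have a1 : ((∑ p ∈ s, (if z ∈ E p then 1 else 0) : ℕ) : ENNReal) ≤ M := by
      exact_mod_cast h2 z
    refine le_trans (le_of_eq ?_) a1
    push_cast
    exact Finset.sum_congr rfl fun p _ => by
      by_cases h : z ∈ E p <;> simp [h]
  · rw [Finset.sum_eq_zero fun p hp => indicator_of_notMem (fun h => hz (h1 p hp h)) _]
    exact zero_le

theorem sub_Avg {k g0 g : ℝ} (hk : 0 < k) (hg0 : 300 ≤ g0) (hg : g0 ^ 2 ≤ g) (n N : ℕ) :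
    Etl k g n N ⊆ Rsh k g0 N := by
  rintro z ⟨-, m, h1, -, h3, h4⟩
  refine ⟨m, by omega, h3, h4.trans ?_⟩
  have hL := Lam_ge hk
  have a0 : 0 < g0 := by linarith
  have a1 : 2 * g0 ≤ g := by nlinarith
  have a2 : 0 < g := by linarith
  have a3 : (2 : ℝ) ≤ 2 ^ m := le_self_pow₀ one_le_two (by omega)
  have a4 : 2 * (Lam k / g) ≤ Lam k / g0 := by
    rw [← mul_div_assoc, div_le_div_iff₀ a2 a0]
    nlinarith
  have a5 : 0 ≤ Lam k / g := by positivity
  calc 2 * (Lam k / g) ^ m ≤ 2 ^ m * (Lam k / g) ^ m :=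
        mul_le_mul_of_nonneg_right a3 (pow_nonneg a5 m)
    _ = (2 * (Lam k / g)) ^ m := (mul_pow _ _ _).symm
    _ ≤ _ := pow_le_pow_left₀ (by positivity) a4 m

theorem gap_Avg {L c r x : ℝ} {G i i' m n : ℕ} (hL : 0 < L) (hc : 0 < c) (hr : 1 < r)
    (hG : 256 ≤ r ^ G) (hi : i' ≤ i) (hm : n ≤ m) (h1 : (L / (c * r ^ i')) ^ m / 2 ≤ x)
    (h2 : x ≤ 2 * (L / (c * r ^ i)) ^ m) : (i - i') * (4 * n) ≤ G := by
  obtain ⟨d, rfl⟩ := Nat.exists_eq_add_of_le hi
  have r0 : 0 < r := by linarith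
  have a1 : L / (c * r ^ i') = L / (c * r ^ (i' + d)) * r ^ d := by
    rw [pow_add]
    field_simp
  have a2 : 0 < (L / (c * r ^ (i' + d))) ^ m := by positivity
  rw [a1, mul_pow] at h1
  have a3 : (r ^ d) ^ m ≤ 4 := by
    by_contra h
    have := mul_lt_mul_of_pos_left (not_le.1 h) a2
    linarith
  have a4 : ((r ^ d) ^ m) ^ 4 ≤ 4 ^ 4 := pow_le_pow_left₀ (by positivity) a3 4
  rw [← pow_mul, ← pow_mul] at a4
  have a5 : d * (m * 4) ≤ G := by
    rw [← pow_le_pow_iff_right₀ hr]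
    linarith
  rw [Nat.add_sub_cancel_left]
  exact (Nat.mul_le_mul_left d (by omega)).trans a5

theorem avg {k g0 : ℝ} (hk : 0 < k) (hg0 : 300 ≤ g0) (N : ℕ) :
    ∃ g, g0 ^ 2 ≤ g ∧ g ≤ g0 ^ 4 ∧
      ∑ a ∈ Finset.range N, Pr (Etl k g (ns a) N) ≤ 4 * Pr (Rsh k g0 N) := by
  classical
  have a0 : (1 : ℝ) < g0 ^ 2 := by nlinarith
  obtain ⟨r, hr, hrG⟩ : ∃ r : ℝ, 1 < r ∧ r ^ (N + 1) = g0 ^ 2 :=
    ⟨(g0 ^ 2) ^ (((N + 1 : ℕ) : ℝ)⁻¹), Real.one_lt_rpow a0 (by positivity),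
      Real.rpow_inv_natCast_pow (by positivity) (by omega)⟩
  have hL : 0 < Lam k := by linarith [Lam_ge hk]
  have hlo : ∀ i : ℕ, g0 ^ 2 ≤ g0 ^ 2 * r ^ i := fun i =>
    le_mul_of_one_le_right (by positivity) (one_le_pow₀ hr.le)
  have key := mult_Avg (volume.restrict box) (Finset.range (N + 1) ×ˢ Finset.range N)
    (fun p => Etl k (g0 ^ 2 * r ^ p.1) (ns p.2) N) (Rsh k g0 N) ((N + 1) * 4)
    (fun p => meas_Etl _ _ _ _) (meas_Rsh _ _ _) (fun p _ => sub_Avg hk hg0 (hlo _) _ _) (by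
      intro z
      have h := count_Avg (G := N + 1) (N := N)
        (fun a => (Finset.range (N + 1)).filter fun i => ∀ j, 1 ≤ j → j ≤ ns a →
          (Lam k / (g0 ^ 2 * r ^ i)) ^ j / 2 ≤ nrm (Vo k z.1 z.2) j)
        (fun a => (Finset.range (N + 1)).filter fun i => z ∈ Etl k (g0 ^ 2 * r ^ i) (ns a) N)
        ((Finset.card_filter_le _ _).trans (Finset.card_range _).le)
        (fun a i hi => Finset.mem_filter.2
          ⟨(Finset.mem_filter.1 hi).1, (Finset.mem_filter.1 hi).2.1⟩)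
        (fun a i hi => Finset.mem_filter.2 ⟨(Finset.mem_filter.1 hi).1, fun j h1 h2 =>
          (Finset.mem_filter.1 hi).2 j h1 (by rw [ns]; omega)⟩)
        (fun a i hi i' hi' hle => by
          obtain ⟨m, b1, b2, -, b4⟩ := (Finset.mem_filter.1 hi).2.2
          have b5 := (Finset.mem_filter.1 hi').2 m (by omega) (by rw [ns]; omega)
          exact gap_Avg hL (by positivity) hr (by rw [hrG]; nlinarith) hle b1.le b5 b4)
      simp only [Finset.card_filter] at h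
      rw [Finset.sum_product_right]
      exact h.trans (by omega))
  rw [Finset.sum_product, Measure.restrict_apply (meas_Rsh _ _ _)] at key
  simp only [Measure.restrict_apply (meas_Etl _ _ _ _)] at key
  have key2 : ∑ i ∈ Finset.range (N + 1), ∑ a ∈ Finset.range N,
      Pr (Etl k (g0 ^ 2 * r ^ i) (ns a) N) ≤ ∑ _i ∈ Finset.range (N + 1), 4 * Pr (Rsh k g0 N) := by
    rw [Finset.sum_const, Finset.card_range, nsmul_eq_mul, ← mul_assoc]
    refine key.trans (le_of_eq ?_)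
    rw [Nat.cast_mul]
    rfl
  obtain ⟨i, hi, h⟩ := ENNReal.exists_le_of_sum_le ⟨0, by simp⟩ key2
  refine ⟨g0 ^ 2 * r ^ i, hlo i, ?_, h⟩
  have b1 : r ^ i ≤ g0 ^ 2 := by
    rw [← hrG]
    exact pow_le_pow_right₀ hr.le (Finset.mem_range.1 hi).le
  calc g0 ^ 2 * r ^ i ≤ g0 ^ 2 * g0 ^ 2 := mul_le_mul_of_nonneg_left b1 (by positivity)
    _ = g0 ^ 4 := by ring

end Vale.Agent.P108
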