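import Vale.Agent.P108.Defs

/-! P108 BlockA: the real-variable core of the block lemma. -/

namespace Vale.Agent.P108

open Classical

theorem exists_notin_BlockA (P0 : Finset ℕ) (a n : ℕ) (h : P0.card < n) :
    ∃ s, a ≤ s ∧ s < a + n ∧ s ∉ P0 := by
  by_contra hc
  push Not at hc
  have : Finset.Ico a (a + n) ⊆ P0 := by
    intro s hs
    rw [Finset.mem_Ico] at hs
    exact hc s hs.1 hs.2
  have := Finset.card_le_card this
  simp at this
  omega

theorem card_BlockA {θ : ℝ} (hθ : 0 < θ) (hθ1 : θ ≤ 1 / 2000) (U : ℕ → ℝ) (r t : ℕ) (H : ℝ)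
    (hH : 0 ≤ H) (P0 : Finset ℕ) (hr : U t - 1 ≤ U r)
    (hlow : ∀ s, r < s → s ≤ t → U t ≤ U s) (hup : ∀ s, r < s → s ≤ t → U s ≤ U t + H)
    (hcl : ∀ s, r < s → s ≤ t → s ∉ P0 →
      (∀ j, j ≤ s → U j ≤ U s - (1 - 2 * θ) * ((s : ℝ) - j) + 2 * θ) ∨
      (∀ n, 2 * n + s ≤ t → U (s + n) ≤ U s - (1 - 3 * θ) * n + 2 * θ)) (hrt : r ≤ t) :
    (t : ℝ) - r ≤ P0.card + 6 * H + 12 := by
  set a : ℕ := ⌊2 * H + 3⌋₊ with ha
  set b : ℕ := ⌊4 * H + 4⌋₊ with hb
  have hsub : Finset.Ioc r t ⊆ P0 ∪ Finset.Ioc r (r + a) ∪ Finset.Icc (t - b) t := by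
    intro s hs
    rw [Finset.mem_Ioc] at hs
    by_cases hp : s ∈ P0
    · simp [hp]
    rcases hcl s hs.1 hs.2 hp with h | h
    · have h1 := h r hs.1.le
      have h2 := hup s hs.1 hs.2
      have hsr : (0 : ℝ) ≤ (s : ℝ) - r := by
        have : (r : ℝ) ≤ s := by exact_mod_cast hs.1.le
        linarith
      have h3 : (s : ℝ) - r ≤ 2 * H + 3 := by nlinarith
      have h4 : s - r ≤ a := by
        apply Nat.le_floor
        rw [Nat.cast_sub hs.1.le]; exact h3
      simp only [Finset.mem_union, Finset.mem_Ioc]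
      left; right; omega
    · have h1 := h ((t - s) / 2) (by omega)
      have h2 := hup s hs.1 hs.2
      have h5 := hlow (s + (t - s) / 2) (by omega) (by omega)
      have hn : (0 : ℝ) ≤ (((t - s) / 2 : ℕ) : ℝ) := Nat.cast_nonneg _
      have h3 : (((t - s) / 2 : ℕ) : ℝ) ≤ 2 * H + 1 := by nlinarith
      have h4 : t - s ≤ b := by
        apply Nat.le_floor
        have : t - s ≤ 2 * ((t - s) / 2) + 1 := by omega
        have : ((t - s : ℕ) : ℝ) ≤ 2 * (((t - s) / 2 : ℕ) : ℝ) + 1 := by exact_mod_cast this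
        linarith
      simp only [Finset.mem_union, Finset.mem_Icc]
      right; omega
  have hc := Finset.card_le_card hsub
  have h1 := Finset.card_union_le (P0 ∪ Finset.Ioc r (r + a)) (Finset.Icc (t - b) t)
  have h2 := Finset.card_union_le P0 (Finset.Ioc r (r + a))
  simp only [Nat.card_Ioc, Nat.card_Icc] at hc h1 h2
  have h3 : t - r ≤ P0.card + a + b + 1 := by omega
  have h4 : ((t - r : ℕ) : ℝ) ≤ P0.card + a + b + 1 := by exact_mod_cast h3
  rw [Nat.cast_sub hrt] at h4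
  have h5 : (a : ℝ) ≤ 2 * H + 3 := Nat.floor_le (by positivity)
  have h6 : (b : ℝ) ≤ 4 * H + 4 := Nat.floor_le (by positivity)
  linarith

theorem noRF_BlockA {θ : ℝ} (hθ : 0 < θ) (hθ1 : θ ≤ 1 / 2000) (U : ℕ → ℝ) (r t c s : ℕ)
    (hlip : ∀ i j, i ≤ j → j ≤ t → |U j - U i| ≤ (j : ℝ) - i)
    (hlow : ∀ s, r < s → s ≤ t → U t ≤ U s) (hup : ∀ s, r < s → s ≤ t → U s ≤ U c)
    (hct : c ≤ t) (hH : 3 ≤ U c - U t) (hs : r < s) (hsc : s < c)
    (h : ∀ n, 2 * n + s ≤ t → U (s + n) ≤ U s - (1 - 3 * θ) * n + 2 * θ) : False := by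
  have hus := hup s hs (by omega)
  by_cases hcase : 2 * (c - s) + s ≤ t
  · have h1 := h (c - s) hcase
    rw [show s + (c - s) = c by omega] at h1
    have : (1 : ℝ) ≤ ((c - s : ℕ) : ℝ) := by exact_mod_cast (show 1 ≤ c - s by omega)
    nlinarith
  · set n := (t - s) / 2 with hn
    have h1 := h n (by omega)
    have h2 := hlow (s + n) (by omega) (by omega)
    have h3 := hlip (s + n) c (by omega) hct
    have h4 := hlip c t hct le_rfl
    have h5 : (t : ℝ) ≤ 2 * n + 1 + s := by exact_mod_cast (show t ≤ 2 * n + 1 + s by omega)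
    rw [abs_le] at h3 h4
    push_cast at h3
    have hn0 : (0 : ℝ) ≤ n := Nat.cast_nonneg _
    have h6 : (1 - 3 * θ) * n ≤ U c - U t + 2 * θ := by linarith
    have h7 : U c - U t ≤ 3 * θ * n + 1 + 2 * θ := by linarith [h3.2, h4.1]
    have h8 : (n : ℝ) ≤ 2 * (U c - U t) := by nlinarith
    nlinarith

theorem fin_BlockA {θ η h p x a u v : ℝ} (hθ : 0 < θ) (ha : a ≤ 3) (ha0 : 0 ≤ a)
    (hθ2 : θ ≤ 1 / 2000) (hp : 1 ≤ p) (hh : 0 ≤ h) (hx : h - p - 1 ≤ x)
    (hkey : 3 * θ * h + (p + 1) + 2 * θ ≤ η * h)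
    (h2 : u ≤ v - (1 - a * θ) * x + 2 * θ) : u ≤ v - (1 - η) * h := by
  have h0 : 0 ≤ 1 - a * θ := by nlinarith
  have h1 := mul_le_mul_of_nonneg_left hx h0
  have h3 : 0 ≤ a * θ * (p + 1) := by positivity
  have h4 : a * θ * h ≤ 3 * θ * h := by gcongr
  nlinarith

theorem fin2_BlockA {θ x u v : ℝ} (hθ2 : θ ≤ 1 / 2000) (hx : 1 ≤ x) (huv : v ≤ u)
    (h2 : u ≤ v - (1 - 2 * θ) * x + 2 * θ) : False := by
  nlinarith

theorem block_core {η θ : ℝ} (hη : 0 < η) (hη1 : η ≤ 1 / 100) (hθ : 0 < θ) (hθ1 : θ ≤ η / 20)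
    (H0 : ℕ) (U : ℕ → ℝ) (r t : ℕ) (hlip : ∀ i j, i ≤ j → j ≤ t → |U j - U i| ≤ (j : ℝ) - i)
    (hrt : r + 2 ≤ t) (hr : U r < U t) (hlow : ∀ s, r < s → s ≤ t → U t ≤ U s)
    (P0 : Finset ℕ) (hP : 1 ≤ P0.card)
    (hcl : ∀ s, r < s → s ≤ t → s ∉ P0 →
      (∀ j, j ≤ s → U j ≤ U s - (1 - 2 * θ) * ((s : ℝ) - j) + 2 * θ) ∨
      (∀ n, 2 * n + s ≤ t → U (s + n) ≤ U s - (1 - 3 * θ) * n + 2 * θ)) :
    (t : ℝ) - r + 1 ≤ (32 + 120 / η) * (H0 + 1) * P0.card ∨
    ∃ c h : ℕ, H0 ≤ h ∧ r + h < c ∧ c + h ≤ t ∧ U (c + h) ≤ U c - (1 - η) * h ∧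
      U (c - h) ≤ U c - (1 - η) * h ∧ (t : ℝ) - r + 1 ≤ 24 * (h + 1) := by
  obtain ⟨c, hc, hmax⟩ := Finset.exists_max_image (Finset.Ioc r t) U
    ⟨t, by rw [Finset.mem_Ioc]; omega⟩
  rw [Finset.mem_Ioc] at hc
  have hup : ∀ s, r < s → s ≤ t → U s ≤ U c := fun s h1 h2 =>
    hmax s (by rw [Finset.mem_Ioc]; exact ⟨h1, h2⟩)
  set H := U c - U t with hHdef
  have hH : 0 ≤ H := by have := hlow c hc.1 hc.2; linarith
  have hr1 : U t - 1 ≤ U r := by
    have h1 := hlip r (r + 1) (by omega) (by omega)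
    have h2 := hlow (r + 1) (by omega) (by omega)
    rw [abs_le] at h1; push_cast at h1; linarith [h1.2]
  have hθ2 : θ ≤ 1 / 2000 := by linarith
  have hcard := card_BlockA hθ hθ2 U r t H hH P0 hr1 hlow
    (fun s h1 h2 => by have := hup s h1 h2; linarith) hcl (by omega)
  set p : ℝ := (P0.card : ℝ) with hp
  have hp1 : 1 ≤ p := by rw [hp]; exact_mod_cast hP
  have hH0 : (0 : ℝ) ≤ H0 := Nat.cast_nonneg _
  have hη' : 0 < 120 / η := by positivity
  by_cases hcase : H ≤ (20 / η + 3) * (H0 + 1) * p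
  · left
    have e : 120 / η = 6 * (20 / η) := by ring
    rw [e]
    have : 0 < 20 / η := by positivity
    nlinarith [mul_nonneg hH0 (show (0:ℝ) ≤ p by linarith)]
  right
  push Not at hcase
  have hq : 2000 ≤ 20 / η := by rw [le_div_iff₀ hη]; linarith
  have hA : 20 / η * p < H := by
    have : 0 ≤ (20 / η) * H0 * p := by positivity
    nlinarith [mul_nonneg hH0 (show (0:ℝ) ≤ p by linarith)]
  have hA' : 20 * p < η * H := by
    have := mul_lt_mul_of_pos_left hA hη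
    rw [← mul_assoc, mul_div_cancel₀ _ hη.ne'] at this; exact this
  have hB : 3 * (H0 + 1 : ℝ) < H := by
    have : 0 ≤ (20 / η) * (H0 + 1) * p := by positivity
    nlinarith
  have hHbig : 2000 < H := by nlinarith
  have htc : H ≤ (t : ℝ) - c := by
    have := hlip c t hc.2 le_rfl
    rw [abs_le] at this; linarith [this.1]
  have hcr : H < (c : ℝ) - r := by
    have h1 := hlip r c hc.1.le hc.2
    rw [abs_le] at h1; linarith [h1.2]
  set h : ℕ := ⌊H / 3⌋₊ with hh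
  have hh1 : (h : ℝ) ≤ H / 3 := Nat.floor_le (by positivity)
  have hh2 : H / 3 < h + 1 := Nat.lt_floor_add_one _
  have hpH : p ≤ H / 2000 := by nlinarith
  have hPh : P0.card + 1 ≤ h := by
    have : (P0.card : ℝ) + 1 ≤ h := by rw [← hp]; linarith
    exact_mod_cast this
  have hrh : r + h < c := by
    have : (r : ℝ) + h < c := by linarith
    exact_mod_cast this
  have hch : c + 3 * h ≤ t := by
    have : (c : ℝ) + 3 * h ≤ t := by linarith
    exact_mod_cast this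
  have hkey : 3 * θ * h + (p + 1) + 2 * θ ≤ η * h := by
    have h1 : η * H ≤ η * (3 * (h + 1)) := mul_le_mul_of_nonneg_left (by linarith) hη.le
    have h2 : θ * h ≤ η / 20 * h := mul_le_mul_of_nonneg_right hθ1 (Nat.cast_nonneg _)
    nlinarith
  refine ⟨c, h, ?_, hrh, by omega, ?_, ?_, ?_⟩
  · have : (H0 : ℝ) < h := by linarith
    exact_mod_cast this.le
  · obtain ⟨s, hs1, hs2, hs3⟩ := exists_notin_BlockA P0 (c + 1) (P0.card + 1) (by omega)
    rcases hcl s (by omega) (by omega) hs3 with h1 | h1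
    · exfalso
      have h2 := h1 c (by omega)
      have h3 := hup s (by omega) (by omega)
      have : (c : ℝ) + 1 ≤ s := by exact_mod_cast hs1
      exact fin2_BlockA hθ2 (by linarith) h3 h2
    · have h2 := h1 (c + h - s) (by omega)
      rw [show s + (c + h - s) = c + h by omega, Nat.cast_sub (by omega)] at h2
      have h3 := hup s (by omega) (by omega)
      have h4 : (s : ℝ) ≤ c + p + 1 := by
        rw [hp]; exact_mod_cast (show s ≤ c + P0.card + 1 by omega)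
      have h5 : (c : ℝ) + 1 ≤ s := by exact_mod_cast hs1
      push_cast at h2
      have := fin_BlockA hθ le_rfl (by norm_num) hθ2 hp1 (Nat.cast_nonneg h) (by linarith) hkey h2
      linarith
  · obtain ⟨s, hs1, hs2, hs3⟩ := exists_notin_BlockA P0 (c - (P0.card + 1)) (P0.card + 1) (by omega)
    rcases hcl s (by omega) (by omega) hs3 with h1 | h1
    · have h2 := h1 (c - h) (by omega)
      rw [Nat.cast_sub (by omega)] at h2
      have h3 := hup s (by omega) (by omega)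
      have h4 : (c : ℝ) ≤ s + p + 1 := by
        rw [hp]; exact_mod_cast (show c ≤ s + P0.card + 1 by omega)
      have h5 : (s : ℝ) ≤ c := by exact_mod_cast (show s ≤ c by omega)
      have := fin_BlockA hθ (by norm_num) (by norm_num) hθ2 hp1 (Nat.cast_nonneg h) (by linarith)
        hkey h2
      linarith
    · exact (noRF_BlockA hθ hθ2 U r t c s hlip hlow hup hc.2 (by linarith) (by omega) (by omega)
        h1).elim
  · linarith

end Vale.Agent.P108
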