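import Vale.Agent.P108.Cor
import Vale.Agent.P108.BlockA

/-!
P108 Block: one block (r, t] of the field u.  Put U s = log (vn u s) / log L (steps of size at most
one by FldOn.vn_succ_le), let c be a maximiser of U on (r, t], H = U c - U t >= 0, and P0 the set
of cuts of (r, t] that are WeakAt or Dbl.  A cut outside P0 is LF (all backward windows
n <= s are free) or RF (all forward windows n <= M are free).
LF cut s: back_decay gives U j <= U s - (1 - 2 th)(s - j) + 2 th for j <= s; with j = r and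
U r >= U (r+1) - 1 >= U t - 1 this gives (1 - 2 th)(s - r) <= H + 1 + 2 th.
RF cut s < t: fwd_decay on the window t - s (FldOn.sh) gives
U (s+n) <= U s - (1 - 3 th) n + 2 th for 2 n <= t - s, so (1 - 3 th) floor((t-s)/2) <= H + 2 th.
Hence t - r <= card P0 + 6 H + 12.
P0 is not empty: a maximiser i of |u i| over r <= i <= t+1 can be taken in [r+2, t], so
|V i| <= 2 < L / gw and the cut i - 1 is weak.
Let e1 = min (eta/20) (1/(3 H0 + 3)).  If card P0 >= e1 H we are done, since
14 + 6 / e1 <= C (H0 + 1) for C = 32 + 120 / eta.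
Otherwise H > 1 / e1.  No LF cut lies in (c, t] (take j = c).  No RF cut s lies in (r, c): with
n = floor((t-s)/2), if c - s <= n use j = c, else U climbs from s + n to c in at most
n + 1 - H steps (t - c >= H), which forces H <= 2.  Also c - r > H and c >= H.  So there are an LF
cut in [c - 1 - e1 H, c - 1] and an RF cut in [c + 1, c + 1 + e1 H]; with h = floor(H / 3) >= H0
both give U (c +- h) <= U c - (1 - eta) h, so PeakAt V rho c h holds for u / vn u c
(FldOn.sh, FldOn.rv, FldOn.eq_fld, vn_rv, fld_comb), and the h + 1 cuts c - h, ..., c are Cov.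
Then t - r + 1 <= 8 H <= 24 (h + 1).
-/

namespace Vale.Agent.P108

open Classical

theorem log_le_Block {L a b e : ℝ} (hL : 1 < L) (ha : 0 < a) (hb : 0 < b)
    (h : a ≤ L ^ e * b) : Real.log a / Real.log L ≤ Real.log b / Real.log L + e := by
  have hl : 0 < Real.log L := Real.log_pos hL
  have h1 := Real.log_le_log ha h
  rw [Real.log_mul (by positivity) hb.ne', Real.log_rpow (by linarith)] at h1
  rw [div_add' _ _ _ hl.ne', div_le_div_iff_of_pos_right hl]
  linarith

theorem le_of_log_Block {L a b e : ℝ} (hL : 1 < L) (ha : 0 < a) (hb : 0 < b)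
    (h : Real.log a / Real.log L ≤ Real.log b / Real.log L + e) : a ≤ L ^ e * b := by
  have hl : 0 < Real.log L := Real.log_pos hL
  rw [div_add' _ _ _ hl.ne', div_le_div_iff_of_pos_right hl] at h
  rw [← Real.log_le_log_iff ha (by positivity), Real.log_mul (by positivity) hb.ne',
    Real.log_rpow (by linarith)]
  linarith

theorem pw_Block {L θ : ℝ} (hL : 1 < L) (a n : ℕ) :
    (L ^ θ) ^ 2 * ((L ^ θ) ^ a / L) ^ n = L ^ (2 * θ - (1 - a * θ) * n) := by
  have hL0 : 0 < L := by linarith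
  have e1 : (L ^ θ) ^ a / L = L ^ (a * θ - 1) := by
    rw [Real.rpow_sub hL0, Real.rpow_one, ← Real.rpow_natCast, ← Real.rpow_mul hL0.le, mul_comm]
  rw [e1, ← Real.rpow_natCast, ← Real.rpow_natCast, ← Real.rpow_mul hL0.le,
    ← Real.rpow_mul hL0.le, ← Real.rpow_add hL0]
  congr 1; push_cast; ring

theorem weak_Block {V u : ℕ → ℝ} {r t : ℕ} (hu : FldOn V u t) (hrt : r + 2 ≤ t)
    (hr : vn u r < vn u t) (hlow : ∀ s, r < s → s ≤ t → vn u t ≤ vn u s) :
    ∃ s, r < s ∧ s ≤ t ∧ |V (s + 1)| ≤ 2 := by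
  obtain ⟨i, hi, hmax⟩ := Finset.exists_max_image (Finset.Icc r t) (fun i => |u i|)
    ⟨t, by rw [Finset.mem_Icc]; omega⟩
  rw [Finset.mem_Icc] at hi
  have hm : ∀ j, r ≤ j → j ≤ t → |u j| ≤ |u i| := fun j h1 h2 =>
    hmax j (by rw [Finset.mem_Icc]; exact ⟨h1, h2⟩)
  have h1 := hlow (r + 1) (by omega) (by omega)
  have h2 := hlow (t - 1) (by omega) (by omega)
  have h3 : vn u (t - 1) ≤ |u i| := by
    unfold vn
    exact max_le (hm _ (by omega) (by omega)) (hm _ (by omega) (by omega))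
  have h4 : |u (t + 1)| ≤ |u i| := le_trans (le_trans (le_max_right _ _) h2) h3
  have h5 : |u r| < |u i| := lt_of_le_of_lt (le_max_left _ _) (lt_of_lt_of_le hr (h2.trans h3))
  have h6 : |u (r + 1)| < |u i| :=
    lt_of_le_of_lt (le_max_right _ _) (lt_of_lt_of_le hr (h2.trans h3))
  have hi2 : r + 2 ≤ i := by
    by_contra hc
    rcases (show i = r ∨ i = r + 1 by omega) with h | h <;> subst h <;> simp at h5 h6
  obtain ⟨j, rfl⟩ : ∃ j, i = j + 1 := ⟨i - 1, by omega⟩
  refine ⟨j, by omega, by omega, ?_⟩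
  have hrec := hu j (by omega)
  have hb : |u (j + 2)| ≤ |u (j + 1)| := by
    rcases (show j + 2 ≤ t ∨ j + 2 = t + 1 by omega) with h | h
    · exact hm _ (by omega) h
    · rw [h]; exact h4
  have ha := hm j (by omega) (by omega)
  have hpos : 0 < |u (j + 1)| := lt_of_le_of_lt (abs_nonneg _) h5
  have e : V (j + 1) * u (j + 1) = u (j + 2) + u j := by linarith
  have h7 : |V (j + 1)| * |u (j + 1)| ≤ 2 * |u (j + 1)| := by
    rw [← abs_mul, e]
    linarith [abs_add_le (u (j + 2)) (u j)]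
  exact le_of_mul_le_mul_right h7 hpos

theorem vn_scale_Block (ξ : ℕ → ℝ) (a : ℝ) (ha : 0 < a) (ζ : ℕ → ℝ) (j : ℕ)
    (h1 : ζ j = ξ j / a) (h2 : ζ (j + 1) = ξ (j + 1) / a) : vn ζ j = vn ξ j / a := by
  unfold vn
  rw [h1, h2, abs_div, abs_div, abs_of_pos ha, max_div_div_right ha.le]

theorem fld_scale_Block {W ξ : ℕ → ℝ} {n : ℕ} (h : FldOn W ξ n) (a : ℝ) (j : ℕ) (hj : j ≤ n + 1) :
    fld W (ξ 0 / a) (ξ 1 / a) j = ξ j / a := by
  rw [fld_comb, h.eq_comb j hj]; ring

theorem peak_Block {V u : ℕ → ℝ} {t c h : ℕ} {ρ : ℝ} (hu : FldOn V u t) (hc : c + h ≤ t)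
    (hh : h ≤ c) (hpos : 0 < vn u c) (h1 : vn u (c + h) ≤ ρ ^ h * vn u c)
    (h2 : vn u (c - h) ≤ ρ ^ h * vn u c) : PeakAt V ρ c h := by
  refine ⟨u c / vn u c, u (c + 1) / vn u c, ?_, ?_, ?_⟩
  · rw [abs_div, abs_div, abs_of_pos hpos, max_div_div_right hpos.le]
    exact div_self hpos.ne'
  · have hs : FldOn (sh V c) (fun j => u (c + j)) h := (hu.mono hc).sh
    have e := vn_scale_Block (fun j => u (c + j)) (vn u c) hpos
      (fld (sh V c) (u c / vn u c) (u (c + 1) / vn u c)) h
      (fld_scale_Block hs (vn u c) h (by omega)) (fld_scale_Block hs (vn u c) (h + 1) (by omega))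
    rw [e, div_le_iff₀ hpos]
    exact h1
  · have hs : FldOn (rv V c) (fun j => u (c + 1 - j)) c := (hu.mono (by omega)).rv
    have e := vn_scale_Block (fun j => u (c + 1 - j)) (vn u c) hpos
      (fld (rv V c) (u (c + 1) / vn u c) (u c / vn u c)) h
      (fld_scale_Block hs (vn u c) h (by omega)) (fld_scale_Block hs (vn u c) (h + 1) (by omega))
    rw [e, div_le_iff₀ hpos, vn_rv u hh]
    exact h2

theorem block {η : ℝ} (hη : 0 < η) (hη1 : η ≤ 1 / 100) :
    ∃ C : ℝ, 1 ≤ C ∧ ∀ (H0 : ℕ) (L θ gw : ℝ), 0 < θ → θ ≤ η / 20 → 300 ≤ L ^ θ → 1 < L → 1 ≤ gw →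
      2 < L / gw → ∀ (V u : ℕ → ℝ) (M r t : ℕ), (∀ j, |V j| ≤ L - 2) → FldOn V u t →
      vn u 0 = 1 → (∀ s, 1 ≤ s → s ≤ t → nrm V s ≤ 10 * vn u s ∧ 1 ≤ vn u s) → t ≤ M →
      r + 2 ≤ t → vn u r < vn u t → (∀ s, r < s → s ≤ t → vn u t ≤ vn u s) →
      (t : ℝ) - r + 1 ≤ C * (H0 + 1) *
        (((Finset.Ioc r t).filter (fun s => Bad L gw (L ^ θ) (L ^ η / L) V M H0 s)).card : ℝ) := by
  refine ⟨32 + 120 / η, by have : 0 < 120 / η := by positivity
                           linarith, ?_⟩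
  intro H0 L θ gw hθ hθ1 hg hL hgw hLg V u M r t hV hu h0 hopt htM hrt hr hlow
  have hL0 : 0 < L := by linarith
  have hl : 0 < Real.log L := Real.log_pos hL
  have hpos : ∀ s, s ≤ t → 0 < vn u s := by
    intro s hs
    rcases Nat.eq_zero_or_pos s with h | h
    · rw [h, h0]; norm_num
    · linarith [(hopt s h hs).2]
  have hg20 : (L ^ θ) ^ 20 ≤ L := by
    rw [← Real.rpow_natCast, ← Real.rpow_mul hL0.le]
    conv_rhs => rw [← Real.rpow_one L]
    apply Real.rpow_le_rpow_of_exponent_le hL.le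
    push_cast; linarith
  set U : ℕ → ℝ := fun s => Real.log (vn u s) / Real.log L with hU
  have hlip : ∀ i j, i ≤ j → j ≤ t → |U j - U i| ≤ (j : ℝ) - i := by
    intro i j hij hj
    obtain ⟨h1, h2⟩ := hu.vn_le_pow hV hij hj
    rw [← Real.rpow_natCast, Nat.cast_sub hij] at h1 h2
    have h3 := log_le_Block hL (hpos j hj) (hpos i (by omega)) h1
    have h4 := log_le_Block hL (hpos i (by omega)) (hpos j hj) h2
    rw [abs_le]; constructor <;> simp only [hU] <;> linarith
  have hrU : U r < U t := by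
    simp only [hU]
    exact div_lt_div_of_pos_right (Real.log_lt_log (hpos r (by omega)) hr) hl
  have hlowU : ∀ s, r < s → s ≤ t → U t ≤ U s := by
    intro s h1 h2
    simp only [hU]
    exact div_le_div_of_nonneg_right (Real.log_le_log (hpos t le_rfl) (hlow s h1 h2)) hl.le
  set P0 := (Finset.Ioc r t).filter (fun s => WeakAt L gw V s ∨ Dbl L (L ^ θ) V M s) with hP0
  set B := (Finset.Ioc r t).filter (fun s => Bad L gw (L ^ θ) (L ^ η / L) V M H0 s) with hB
  have hP : 1 ≤ P0.card := by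
    obtain ⟨s, h1, h2, h3⟩ := weak_Block hu hrt hr hlow
    apply Finset.card_pos.mpr
    refine ⟨s, ?_⟩
    rw [hP0, Finset.mem_filter, Finset.mem_Ioc]
    exact ⟨⟨h1, h2⟩, Or.inl (lt_of_le_of_lt h3 hLg)⟩
  have hcl : ∀ s, r < s → s ≤ t → s ∉ P0 →
      (∀ j, j ≤ s → U j ≤ U s - (1 - 2 * θ) * ((s : ℝ) - j) + 2 * θ) ∨
      (∀ n, 2 * n + s ≤ t → U (s + n) ≤ U s - (1 - 3 * θ) * n + 2 * θ) := by
    intro s h1 h2 h3
    have hD : ¬ Dbl L (L ^ θ) V M s := by
      intro hd
      apply h3
      rw [hP0, Finset.mem_filter, Finset.mem_Ioc]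
      exact ⟨⟨h1, h2⟩, Or.inr hd⟩
    unfold Dbl at hD
    rw [not_and_or] at hD
    rcases hD with hD | hD
    · left
      intro j hj
      push Not at hD
      have hb := back_decay hg hg20 hV (t := s)
        (fun n hn1 hn2 => (hD n hn1 hn2 (by omega)).le) (hu.mono h2)
        (by rw [h0, mul_one]; exact (hopt s (by omega) h2).1) hj
      rw [pw_Block hL, Nat.cast_sub hj] at hb
      have := log_le_Block hL (hpos j (by omega)) (hpos s h2) hb
      simp only [hU]; push_cast at this; linarith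
    · right
      intro n hn
      push Not at hD
      have hs : FldOn (sh V s) (fun j => u (s + j)) (t - s) :=
        (hu.mono (show s + (t - s) ≤ t by omega)).sh
      have hVs : ∀ j, |sh V s j| ≤ L - 2 := fun j => hV _
      have hb := fwd_decay hg hg20 hVs (n := t - s)
        (fun m hm1 hm2 => (hD m hm1 (by omega)).le) hs
        (by
          have e1 : vn (fun j => u (s + j)) (t - s) = vn u t := by
            unfold vn
            simp only
            rw [show s + (t - s) = t by omega, show s + (t - s + 1) = t + 1 by omega]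
          rw [e1]; exact hlow s h1 h2) (j := n) (by omega)
      rw [pw_Block hL] at hb
      have := log_le_Block hL (hpos (s + n) (by omega)) (hpos s h2) hb
      simp only [hU]; push_cast at this; linarith
  have hC : (0 : ℝ) ≤ (32 + 120 / η) * (H0 + 1) := by positivity
  rcases block_core hη hη1 hθ hθ1 H0 U r t hlip hrt hrU hlowU P0 hP hcl with h | h
  · refine h.trans (mul_le_mul_of_nonneg_left ?_ hC)
    have : P0 ⊆ B := by
      intro s hs
      rw [hP0, Finset.mem_filter] at hs
      rw [hB, Finset.mem_filter]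
      refine ⟨hs.1, ?_⟩
      rcases hs.2 with h | h
      · exact Or.inl h
      · exact Or.inr (Or.inl h)
    exact_mod_cast Finset.card_le_card this
  · obtain ⟨c, h, h1, h2, h3, h4, h5, h6⟩ := h
    have eρ : (L ^ η / L) ^ h = L ^ (-((1 - η) * h)) := by
      rw [show L ^ η / L = L ^ (η - 1) by rw [Real.rpow_sub hL0, Real.rpow_one],
        ← Real.rpow_natCast, ← Real.rpow_mul hL0.le]
      congr 1; ring
    have hpk : PeakAt V (L ^ η / L) c h := by
      apply peak_Block hu h3 (by omega) (hpos c (by omega))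
      · rw [eρ]
        exact le_of_log_Block hL (hpos _ h3) (hpos c (by omega)) (by simp only [hU] at h4; linarith)
      · rw [eρ]
        exact le_of_log_Block hL (hpos _ (by omega)) (hpos c (by omega))
          (by simp only [hU] at h5; linarith)
    have hsub : Finset.Icc (c - h) c ⊆ B := by
      intro s hs
      rw [Finset.mem_Icc] at hs
      rw [hB, Finset.mem_filter, Finset.mem_Ioc]
      refine ⟨⟨by omega, by omega⟩, Or.inr (Or.inr ⟨h, c - s, h1, by omega, by omega, ?_⟩)⟩
      rw [show s + (c - s) = c by omega]; exact hpk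
    have hc := Finset.card_le_card hsub
    rw [Nat.card_Icc] at hc
    have hc' : (h : ℝ) + 1 ≤ B.card := by exact_mod_cast (show h + 1 ≤ B.card by omega)
    have h7 : (24 : ℝ) ≤ (32 + 120 / η) * (H0 + 1) := by
      have : 0 < 120 / η := by positivity
      have : (0 : ℝ) ≤ H0 := Nat.cast_nonneg _
      nlinarith
    calc (t : ℝ) - r + 1 ≤ 24 * (h + 1) := h6
      _ ≤ (32 + 120 / η) * (H0 + 1) * B.card := by
        apply mul_le_mul h7 hc' (by positivity) hC

end Vale.Agent.P108
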