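import Vale.Agent.P108.Block

/-!
P108 Comb: a first deficient window has a definite density of bad cuts.
u = fld V 0 1, U s = log (vn u s) / log L, a = 1 - th0 / 2, gw = L^(th0/4) >= 4, so
L / gw - 1 >= L^a.  By nrm_le_three (g = L^th0) nrm V s <= 3 vn u s and vn u s > 1 for 1 <= s < m.
Up s means |u s| <= |u (s+1)|.  B s = number of Bad cuts in [1, s], W s = number of weak cuts
below s, C = (constant of block) * (H0 + 1).  Strong induction on s <= m - 1:
  a * (s + (if Up s then 0 else 1) - C * B s - W s) <= U s.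
Let r be the last cut below s with U r < U s (exists, U 0 = 0).  If r = s - 1 then Up s holds;
if Up (s-1) and the cut s-1 is not weak then U s >= U (s-1) + a, otherwise use the extra unit.
If r <= s - 2 use block.  At s = m - 1: U (m-1) <= 1 + U m <= 1 + (1 - th0) m.
So (C + 1) B >= th0 m / 2 - 2 with B the number of Bad cuts below m.  For m < 8 / th0 some cut
below m is weak (else Up holds all along and U m >= a m), so B >= 1.
-/

namespace Vale.Agent.P108

open Classical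

theorem ind_Comb {a C : ℝ} (ha : 0 ≤ a) (hC : 0 ≤ C) (U : ℕ → ℝ) (Up Wk Bd : ℕ → Prop) (m : ℕ)
    (h0 : U 0 = 0) (hUp0 : Up 0) (hpos : ∀ s, 1 ≤ s → s < m → 0 < U s)
    (hup : ∀ s, U s < U (s + 1) → Up (s + 1))
    (hstep : ∀ s, Up s → ¬ Wk s → U s + a ≤ U (s + 1))
    (hblock : ∀ r t : ℕ, t < m → r + 2 ≤ t → U r < U t → (∀ s, r < s → s ≤ t → U t ≤ U s) →
      (t : ℝ) - r + 1 ≤ C * (((Finset.Ioc r t).filter Bd).card : ℝ)) :
    ∀ s, s < m → a * (s + (if Up s then 0 else 1) - C * (((Finset.Ioc 0 s).filter Bd).card : ℝ) -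
      (((Finset.range s).filter Wk).card : ℝ)) ≤ U s := by
  intro s
  induction s using Nat.strong_induction_on with
  | _ s ih =>
  intro hs
  rcases Nat.eq_zero_or_pos s with rfl | hs0
  · simp [hUp0, h0]
  have hne : ((Finset.range s).filter fun r => U r < U s).Nonempty :=
    ⟨0, by simpa [hs0, h0] using hpos s hs0 hs⟩
  obtain ⟨r, hr, hmax⟩ := Finset.exists_max_image _ (fun r => r) hne
  obtain ⟨hr1, hr2⟩ := Finset.mem_filter.1 hr
  rw [Finset.mem_range] at hr1
  have IH := ih r hr1 (hr1.trans hs)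
  have eB : (((Finset.Ioc 0 s).filter Bd).card : ℝ) =
      ((Finset.Ioc 0 r).filter Bd).card + ((Finset.Ioc r s).filter Bd).card := by
    rw [← Finset.Ioc_union_Ioc_eq_Ioc (Nat.zero_le r) hr1.le, Finset.filter_union,
      Finset.card_union_of_disjoint, Nat.cast_add]
    exact Finset.disjoint_filter_filter (Finset.Ioc_disjoint_Ioc_of_le le_rfl)
  have hW : (((Finset.range r).filter Wk).card : ℝ) ≤ ((Finset.range s).filter Wk).card := by
    exact_mod_cast Finset.card_le_card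
      (Finset.filter_subset_filter _ (Finset.range_subset_range.2 hr1.le))
  have hB0 : 0 ≤ C * (((Finset.Ioc r s).filter Bd).card : ℝ) := by positivity
  have i0 : (0 : ℝ) ≤ if Up r then 0 else 1 := by split_ifs <;> norm_num
  rcases Nat.lt_or_ge s (r + 2) with h2 | h2
  · obtain rfl : s = r + 1 := by omega
    rw [if_pos (hup r hr2), eB]
    push_cast
    by_cases hU : Up r
    · rw [if_pos hU] at IH
      by_cases hw : Wk r
      · have e : (((Finset.range (r + 1)).filter Wk).card : ℝ) =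
            ((Finset.range r).filter Wk).card + 1 := by
          rw [Finset.range_add_one, Finset.filter_insert, if_pos hw,
            Finset.card_insert_of_notMem (by simp), Nat.cast_add_one]
        rw [e]
        refine le_trans (mul_le_mul_of_nonneg_left ?_ ha) (IH.trans hr2.le)
        linarith
      · have := hstep r hU hw
        have h3 := mul_le_mul_of_nonneg_left (show (r : ℝ) + 1 + 0 -
          C * (((Finset.Ioc 0 r).filter Bd).card + ((Finset.Ioc r (r + 1)).filter Bd).card) -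
          ((Finset.range (r + 1)).filter Wk).card ≤ (r + 0 - C * ((Finset.Ioc 0 r).filter Bd).card -
          ((Finset.range r).filter Wk).card) + 1 by linarith) ha
        linarith
    · rw [if_neg hU] at IH
      refine le_trans (mul_le_mul_of_nonneg_left ?_ ha) (IH.trans hr2.le)
      linarith
  · have hb := hblock r s hs h2 hr2 fun j hj1 hj2 => by
      rcases hj2.eq_or_lt with rfl | hj3
      · exact le_rfl
      · by_contra h
        have := hmax j (Finset.mem_filter.2 ⟨Finset.mem_range.2 hj3, not_le.1 h⟩)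
        omega
    have i1 : (if Up s then 0 else 1 : ℝ) ≤ 1 := by split_ifs <;> norm_num
    rw [eB]
    refine le_trans (mul_le_mul_of_nonneg_left ?_ ha) (IH.trans hr2.le)
    linarith

theorem step_Comb {V u : ℕ → ℝ} {q : ℝ} {s : ℕ} (hq : 1 ≤ q)
    (e : u (s + 2) = V (s + 1) * u (s + 1) - u s) (hU : |u s| ≤ |u (s + 1)|)
    (hV : q + 1 ≤ |V (s + 1)|) : |u (s + 1)| ≤ |u (s + 2)| ∧ q * vn u s ≤ vn u (s + 1) := by
  have h1 : |V (s + 1)| * |u (s + 1)| - |u s| ≤ |u (s + 2)| := by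
    rw [e, ← abs_mul]
    exact abs_sub_abs_le_abs_sub _ _
  have h2 := abs_nonneg (u (s + 1))
  have h3 : q * |u (s + 1)| ≤ |u (s + 2)| := by nlinarith
  refine ⟨by nlinarith, ?_⟩
  unfold vn
  rw [max_eq_right hU]
  exact h3.trans (le_max_right _ _)

theorem num_Comb {θ0 L : ℝ} (hθ0 : 0 < θ0) (hθ1 : θ0 ≤ 1 / 8000) (hg : 300 ≤ L ^ θ0) (hL : 1 < L) :
    (L ^ θ0) ^ 20 ≤ L ∧ 3 < L / L ^ θ0 ∧ 1 ≤ L ^ (θ0 / 4) ∧ 1 ≤ L ^ (1 - θ0 / 2) ∧
      L ^ (1 - θ0 / 2) + 1 ≤ L / L ^ (θ0 / 4) ∧ 2 < L / L ^ (θ0 / 4) ∧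
      L / L ^ θ0 = L ^ (1 - θ0) := by
  have L0 : 0 < L := by linarith
  have h1 : (L ^ θ0) ^ 20 ≤ L := by
    rw [← Real.rpow_natCast, ← Real.rpow_mul L0.le]
    calc L ^ (θ0 * (20 : ℕ)) ≤ L ^ (1 : ℝ) :=
          Real.rpow_le_rpow_of_exponent_le hL.le (by push_cast; linarith)
      _ = L := Real.rpow_one L
  have h2 : 3 < L / L ^ θ0 := by
    rw [lt_div_iff₀ (by linarith)]
    have : (L ^ θ0) ^ 2 ≤ (L ^ θ0) ^ 20 := pow_le_pow_right₀ (by linarith) (by norm_num)
    nlinarith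
  have h4 : 1 ≤ L ^ (1 - θ0 / 2) := Real.one_le_rpow hL.le (by linarith)
  have h5 : 4 ≤ L ^ (θ0 / 4) := by
    by_contra h
    have h6 : (L ^ (θ0 / 4)) ^ 4 < 4 ^ 4 :=
      pow_lt_pow_left₀ (not_le.1 h) (Real.rpow_nonneg L0.le _) (by norm_num)
    rw [← Real.rpow_natCast, ← Real.rpow_mul L0.le] at h6
    have e : θ0 / 4 * (4 : ℕ) = θ0 := by push_cast; ring
    rw [e] at h6
    linarith
  have h7 : L / L ^ (θ0 / 4) = L ^ (1 - θ0 / 2) * L ^ (θ0 / 4) := by
    rw [← Real.rpow_add L0, show 1 - θ0 / 2 + θ0 / 4 = 1 - θ0 / 4 by ring, Real.rpow_sub L0,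
      Real.rpow_one]
  refine ⟨h1, h2, by linarith, h4, ?_, ?_, ?_⟩
  · rw [h7]; nlinarith
  · rw [h7]; nlinarith
  · rw [Real.rpow_sub L0, Real.rpow_one]

theorem comb {η θ0 : ℝ} (hη : 0 < η) (hη1 : η ≤ 1 / 100) (hθ0 : 0 < θ0) (hθ1 : θ0 ≤ η / 80) :
    ∃ c : ℝ, 0 < c ∧ c ≤ 1 ∧ ∀ (H0 : ℕ) (L θ : ℝ), θ0 ≤ θ → θ ≤ η / 20 → 300 ≤ L ^ θ0 → 1 < L →
      ∀ (V : ℕ → ℝ) (M m : ℕ), (∀ j, |V j| ≤ L - 2) → 1 ≤ m → m ≤ M + 1 →
      nrm V m ≤ (L / L ^ θ0) ^ m → (∀ s, 1 ≤ s → s < m → (L / L ^ θ0) ^ s < nrm V s) →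
      c / (H0 + 1) * m ≤ (((Finset.range m).filter
        (fun s => Bad L (L ^ (θ0 / 4)) (L ^ θ) (L ^ η / L) V M H0 s)).card : ℝ) := by
  obtain ⟨C, hC, hblk⟩ := block hη hη1
  refine ⟨θ0 / (8 * C), by positivity, ?_, fun H0 L θ hθ hθ' hg hL V M m hV hm hM hdef hfree => ?_⟩
  · rw [div_le_one (by positivity)]
    linarith
  have L0 : 0 < L := by linarith
  obtain ⟨n1, n2, n3, n4, n5, n6, n7⟩ := num_Comb hθ0 (by linarith) hg hL
  set u := fld V (0 : ℝ) 1 with hu
  set a := 1 - θ0 / 2 with ha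
  set Bd := fun s => Bad L (L ^ (θ0 / 4)) (L ^ θ) (L ^ η / L) V M H0 s with hBd
  have v0 : vn u 0 = 1 := by simp [vn, hu, fld]
  have vpos : ∀ s, 0 < vn u s := fun s => by
    induction s with
    | zero => rw [v0]; exact one_pos
    | succ s ih =>
      have := ((fld_fldOn V (0 : ℝ) 1 (s + 1)).vn_succ_le hV (Nat.lt_succ_self s)).2
      by_contra h
      have := mul_nonpos_of_nonneg_of_nonpos L0.le (not_lt.1 h)
      linarith
  have opt : ∀ s, 1 ≤ s → s < m → nrm V s ≤ 3 * vn u s ∧ 1 < vn u s := fun s h1 h2 => by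
    have h3 := nrm_le_three hg n1 hV h1 fun j j1 j2 => by
      have := hfree j j1 (by omega)
      have : 0 ≤ (L / L ^ θ0) ^ j := by positivity
      linarith
    have h4 := hfree s h1 h2
    have h5 : L / L ^ θ0 ≤ (L / L ^ θ0) ^ s := le_self_pow₀ (by linarith) (by omega)
    exact ⟨h3, by linarith⟩
  have stp : ∀ s, |u s| ≤ |u (s + 1)| → ¬ WeakAt L (L ^ (θ0 / 4)) V s →
      |u (s + 1)| ≤ |u (s + 2)| ∧ Real.logb L (vn u s) + a ≤ Real.logb L (vn u (s + 1)) := by
    intro s h1 h2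
    obtain ⟨h3, h4⟩ := step_Comb (V := V) (u := u) (s := s) n4 rfl h1 (n5.trans (not_lt.1 h2))
    refine ⟨h3, ?_⟩
    have h5 := (Real.logb_le_logb hL (mul_pos (by linarith) (vpos s)) (vpos _)).2 h4
    rw [Real.logb_mul (by linarith) (vpos s).ne', Real.logb_rpow L0 hL.ne'] at h5
    linarith
  have top : Real.logb L (vn u m) ≤ (1 - θ0) * m := by
    have h1 := (fld_fldOn V (0 : ℝ) 1 m).vn_le_nrm
    rw [← hu, v0, mul_one] at h1
    have h2 := h1.trans hdef
    rw [n7, ← Real.rpow_natCast, ← Real.rpow_mul L0.le] at h2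
    exact (Real.logb_le_iff_le_rpow hL (vpos m)).2 h2
  have hH : (1 : ℝ) ≤ H0 + 1 := by linarith [Nat.cast_nonneg (α := ℝ) H0]
  have hm1 : (1 : ℝ) ≤ m := by exact_mod_cast hm
  have one : (1 : ℝ) ≤ (((Finset.range m).filter Bd).card : ℝ) := by
    by_contra h
    have h1 : ((Finset.range m).filter Bd).card = 0 := by
      have : ((Finset.range m).filter Bd).card < 1 := by exact_mod_cast not_le.1 h
      omega
    rw [Finset.card_eq_zero, Finset.filter_eq_empty_iff] at h1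
    have h2 : ∀ s, s ≤ m → |u s| ≤ |u (s + 1)| ∧ a * s ≤ Real.logb L (vn u s) := fun s hs => by
      induction s with
      | zero => exact ⟨by simp [hu, fld], by simp [v0]⟩
      | succ s ih =>
        obtain ⟨i1, i2⟩ := ih (by omega)
        obtain ⟨j1, j2⟩ := stp s i1 fun hw => h1 (Finset.mem_range.2 (by omega)) (Or.inl hw)
        refine ⟨j1, ?_⟩
        push_cast
        linarith
    have h3 := (h2 m le_rfl).2
    nlinarith
  obtain ⟨k, rfl⟩ : ∃ k, m = k + 1 := ⟨m - 1, by omega⟩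
  have key := ind_Comb (a := a) (C := C * (H0 + 1)) (by linarith) (by positivity)
    (fun s => Real.logb L (vn u s)) (fun s => |u s| ≤ |u (s + 1)|)
    (fun s => WeakAt L (L ^ (θ0 / 4)) V s) Bd (k + 1) (by simp [v0]) (by simp [hu, fld])
    (fun s h1 h2 => Real.logb_pos hL (opt s h1 h2).2)
    (fun s h => by
      have h1 := (Real.logb_lt_logb_iff hL (vpos _) (vpos _)).1 h
      unfold vn at h1
      by_contra h2
      rw [max_eq_left (not_le.1 h2).le] at h1
      exact absurd (le_max_right _ _) (not_le.2 h1))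
    (fun s h1 h2 => (stp s h1 h2).2)
    (fun r t ht hrt h1 h2 => hblk H0 L θ _ (by linarith) hθ'
      (hg.trans (Real.rpow_le_rpow_of_exponent_le hL.le hθ)) hL n3 n6 V u M r t hV
      (fld_fldOn V 0 1 t) v0
      (fun s s1 s2 => by
        obtain ⟨o1, o2⟩ := opt s s1 (by omega)
        exact ⟨by linarith, o2.le⟩)
      (by omega) hrt ((Real.logb_lt_logb_iff hL (vpos _) (vpos _)).1 h1)
      fun s s1 s2 => (Real.logb_le_logb hL (vpos _) (vpos _)).1 (h2 s s1 s2)) k (Nat.lt_succ_self k)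
  have last : Real.logb L (vn u k) ≤ 1 + Real.logb L (vn u (k + 1)) := by
    have h1 := ((fld_fldOn V (0 : ℝ) 1 (k + 1)).vn_succ_le hV (Nat.lt_succ_self k)).2
    have h2 := (Real.logb_le_logb hL (vpos k) (mul_pos L0 (vpos _))).2 h1
    rwa [Real.logb_mul L0.ne' (vpos _).ne', Real.logb_self_eq_one hL] at h2
  set B : ℝ := (((Finset.range (k + 1)).filter Bd).card : ℝ) with hB
  have b1 : (((Finset.Ioc 0 k).filter Bd).card : ℝ) ≤ B := by
    rw [hB]
    exact_mod_cast Finset.card_le_card (Finset.filter_subset_filter _ fun j hj =>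
      Finset.mem_range.2 (Nat.lt_succ_of_le (Finset.mem_Ioc.1 hj).2))
  have b2 : (((Finset.range k).filter fun s => WeakAt L (L ^ (θ0 / 4)) V s).card : ℝ) ≤ B := by
    rw [hB]
    refine Nat.cast_le.2 (Finset.card_le_card fun j hj => ?_)
    rw [Finset.mem_filter, Finset.mem_range] at hj ⊢
    exact ⟨Nat.lt_succ_of_lt hj.1, Or.inl hj.2⟩
  set D := C * (H0 + 1) with hD
  have D1 : 1 ≤ D := one_le_mul_of_one_le_of_one_le hC hH
  have i0 : (0 : ℝ) ≤ if |u k| ≤ |u (k + 1)| then 0 else 1 := by split_ifs <;> norm_num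
  have a0 : 0 ≤ a := by linarith
  have a1 : a ≤ 1 := by linarith
  have k1 : a * (k - 2 * D * B) ≤ 1 + (1 - θ0) * (k + 1) := by
    push_cast at top
    refine le_trans (mul_le_mul_of_nonneg_left ?_ a0) (key.trans (by linarith))
    have := mul_le_mul_of_nonneg_left b1 (by linarith : 0 ≤ D)
    nlinarith
  have DB : 1 ≤ D * B := one_le_mul_of_one_le_of_one_le D1 one
  have k2 : θ0 * (k + 1) ≤ 8 * (D * B) := by
    have : a * (D * B) ≤ D * B := mul_le_of_le_one_left (by linarith) a1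
    rw [ha] at k1 this
    nlinarith
  push_cast
  rw [div_div, mul_assoc, ← hD, div_mul_eq_mul_div, div_le_iff₀ (by positivity)]
  linarith

end Vale.Agent.P108
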