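import Vale.Agent.P108.LemC

/-!
P108 CorA (part of Cor): consequences of lemC.
cone_row: apply lemC with j = 1 to the field xi = (P i * Q - Q i * P) / max |P i| |Q i|, which
vanishes at i and has the other entry of size 1 / max <= 6 / nrm V n at cut n (Wronskian).
It gives |xi 1| <= 1/10, so the maximum is |P i|.
decay_row: xi 0 = 1, xi i = 0 forces xi = Q - (Q i / P i) P; vn xi 0 = 1, vn xi n <= 1 / |P i|.
nrm_le_three: take i the larger row, write (1,0) through the field of decay_row and (0,1).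
back_decay: lemC for rv V t and the reversed field (FldOn.rv, vn_rv, nrm_rv with s = 0).
fwd_decay: second term of lemC is 2^(n-j+2) (g^2/L)^j (g/L)^(n-2j) <= 4 2^j (g^2/L)^j.
-/

namespace Vale.Agent.P108

theorem zero_row_CorA {V ξ : ℕ → ℝ} {n i : ℕ} (hi : i = n ∨ i = n + 1) (hξ : FldOn V ξ n)
    (hz : ξ i = 0) : vn ξ n * |fld V 0 1 i| = |ξ 0| ∧ vn ξ n * |fld V 1 0 i| = |ξ 1| := by
  have h1 := hξ.wronsk (fld_fldOn V 0 1 n) n le_rfl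
  have h2 := hξ.wronsk (fld_fldOn V 1 0 n) n le_rfl
  simp only [fld, mul_one, mul_zero, sub_zero, zero_sub] at h1 h2
  rcases hi with rfl | rfl
  · rw [hz, zero_mul, zero_sub] at h1 h2
    rw [vn, hz, abs_zero, max_eq_right (abs_nonneg _), ← abs_mul, ← abs_mul, ← h1, neg_inj.1 h2,
      abs_neg]
    exact ⟨rfl, rfl⟩
  · rw [hz, zero_mul, sub_zero] at h1 h2
    rw [vn, hz, abs_zero, max_eq_left (abs_nonneg _), ← abs_mul, ← abs_mul, h1, h2, abs_neg]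
    exact ⟨rfl, rfl⟩

theorem num_CorA {a b r v x N M D : ℝ} (hN : 0 < N) (hx : 0 ≤ x) (hr : 0 ≤ r)
    (hxN : x * N ≤ 6 * v) (hM0 : 0 ≤ M) (hM : M ≤ r * a ^ 2) (hD : D ≤ b ^ 2)
    (hab0 : 0 ≤ a * b) (hab : a * b / 2 ≤ N) : D * 4 * (M / N) * x ≤ 96 * r * v := by
  have h1 : D * M ≤ b ^ 2 * (r * a ^ 2) := mul_le_mul hD hM hM0 (sq_nonneg b)
  have h2 : (a * b) ^ 2 ≤ (2 * N) ^ 2 := pow_le_pow_left₀ hab0 (by linarith) 2
  have h3 := mul_le_mul_of_nonneg_left h2 hr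
  have h4 : D * M ≤ r * (2 * N) ^ 2 := by linarith
  have h5 := mul_le_mul h4 hxN (mul_nonneg hx hN.le) (by positivity)
  have e : D * 4 * (M / N) * x = 4 * (D * M * (x * N)) / N ^ 2 := by field_simp
  rw [e, div_le_iff₀ (by positivity)]
  linarith

theorem big_CorA {L g : ℝ} (hg : 300 ≤ g) (hL : g ^ 20 ≤ L) : 10 * g ^ 4 ≤ L ∧ 2 * g ≤ L := by
  have h0 : 0 < g := by linarith
  have h1 : g ^ 5 ≤ g ^ 20 := pow_le_pow_right₀ (by linarith) (by norm_num)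
  have h2 : g ^ 1 ≤ g ^ 4 := pow_le_pow_right₀ (by linarith) (by norm_num)
  have h3 : 10 * g ^ 4 ≤ g * g ^ 4 := mul_le_mul_of_nonneg_right (by linarith) (by positivity)
  constructor <;> linarith

theorem dec_CorA {L g : ℝ} (hg : 300 ≤ g) (hL : g ^ 20 ≤ L) {V : ℕ → ℝ} (hV : ∀ j, |V j| ≤ L - 2)
    {n : ℕ} (hfree : ∀ j, 1 ≤ j → j ≤ n → (L / g) ^ j / 2 ≤ nrm V j) {i : ℕ}
    (hi : i = n ∨ i = n + 1) (hrow : nrm V n / 3 ≤ |fld V 1 0 i| + |fld V 0 1 i|)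
    {ξ : ℕ → ℝ} (hξ : FldOn V ξ n) (hz : ξ i = 0) {j : ℕ} (hj1 : 1 ≤ j) (hjn : j ≤ n) :
    vn ξ j ≤ g ^ 2 * (g ^ 2 / L) ^ j * vn ξ 0 := by
  have h0 : 0 < g := by linarith
  have h2g := (big_CorA hg hL).2
  have hL0 : 0 < L := by linarith
  have hl : 2 ≤ L / g := (le_div_iff₀ h0).2 h2g
  obtain ⟨e1, e2⟩ := zero_row_CorA hi hξ hz
  have hx := vn_nonneg ξ n
  have hv := vn_nonneg ξ 0
  have a0 : |ξ 0| ≤ vn ξ 0 := le_max_left _ _
  have a1 : |ξ 1| ≤ vn ξ 0 := le_max_right _ _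
  have hxN : vn ξ n * nrm V n ≤ 6 * vn ξ 0 := by
    have := mul_le_mul_of_nonneg_left hrow hx
    linarith
  have hr : 0 ≤ (g ^ 2 / L) ^ j := by positivity
  have hM : nrm V j ≤ (g ^ 2 / L) ^ j * ((L / g) ^ j) ^ 2 := by
    have e : g ^ 2 / L * (L / g) ^ 2 = L := by field_simp
    rw [pow_right_comm, ← mul_pow, e]
    exact nrm_le_pow hV hj1
  have hD : (2 : ℝ) ^ (n - j) ≤ ((L / g) ^ (n - j)) ^ 2 := by
    rw [pow_right_comm]
    exact pow_le_pow_left₀ zero_le_two (by nlinarith) _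
  have hab : (L / g) ^ j * (L / g) ^ (n - j) / 2 ≤ nrm V n := by
    rw [← pow_add, Nat.add_sub_cancel' hjn]
    exact hfree n (hj1.trans hjn) le_rfl
  have h1 := num_CorA (by linarith [two_le_nrm V n]) hx hr hxN (by linarith [two_le_nrm V j]) hM hD
    (by positivity) hab
  have h2 := lemC hg hL hV hfree hξ hj1 hjn
  rw [pow_add, show (2 : ℝ) ^ 2 = 4 by norm_num] at h2
  have h3 : 200 * g + 96 ≤ g ^ 2 := by nlinarith
  have h4 := mul_le_mul_of_nonneg_right h3 (mul_nonneg hr hv)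
  linarith

theorem cone_row {L g : ℝ} (hg : 300 ≤ g) (hL : g ^ 20 ≤ L) {V : ℕ → ℝ} (hV : ∀ j, |V j| ≤ L - 2)
    {n : ℕ} (hn : 1 ≤ n) (hfree : ∀ j, 1 ≤ j → j ≤ n → (L / g) ^ j / 2 ≤ nrm V j) {i : ℕ}
    (hi : i = n ∨ i = n + 1) (hrow : nrm V n / 3 ≤ |fld V 1 0 i| + |fld V 0 1 i|) :
    |fld V 1 0 i| ≤ |fld V 0 1 i| / 10 := by
  have h0 : 0 < g := by linarith
  obtain ⟨h1, h2⟩ := big_CorA hg hL
  have hL0 : 0 < L := by linarith
  have h3 := dec_CorA hg hL hV hfree hi hrow (fld_fldOn V (fld V 0 1 i) (-fld V 1 0 i) n)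
    (by rw [fld_comb]; ring) le_rfl hn
  have h4 : g ^ 2 * (g ^ 2 / L) ^ 1 ≤ 1 / 10 := by
    rw [pow_one, ← mul_div_assoc, div_le_div_iff₀ hL0 (by norm_num)]
    linarith
  have h5 := mul_le_mul_of_nonneg_right h4 (vn_nonneg (fld V (fld V 0 1 i) (-fld V 1 0 i)) 0)
  have h6 : |-fld V 1 0 i| ≤ vn (fld V (fld V 0 1 i) (-fld V 1 0 i)) 1 := le_max_left _ _
  have h7 : vn (fld V (fld V 0 1 i) (-fld V 1 0 i)) 0 = max |fld V 0 1 i| |-fld V 1 0 i| := rfl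
  rw [abs_neg] at h6 h7
  have h8 := abs_nonneg (fld V 0 1 i)
  rcases max_choice |fld V 0 1 i| |fld V 1 0 i| with h | h <;> rw [h] at h7 <;> linarith

theorem decay_row {L g : ℝ} (hg : 300 ≤ g) (hL : g ^ 20 ≤ L) {V : ℕ → ℝ} (hV : ∀ j, |V j| ≤ L - 2)
    {n : ℕ} (hn : 1 ≤ n) (hfree : ∀ j, 1 ≤ j → j ≤ n → (L / g) ^ j / 2 ≤ nrm V j) {i : ℕ}
    (hi : i = n ∨ i = n + 1) (hrow : nrm V n / 3 ≤ |fld V 1 0 i| + |fld V 0 1 i|)
    {ξ : ℕ → ℝ} (hξ : FldOn V ξ n) (h0 : ξ 0 = 1) (hz : ξ i = 0) :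
    vn ξ 0 = 1 ∧ vn ξ n ≤ 4 / nrm V n ∧
      ∀ j, 1 ≤ j → j ≤ n → vn ξ j ≤ g ^ 2 * (g ^ 2 / L) ^ j := by
  have h1 := cone_row hg hL hV hn hfree hi hrow
  obtain ⟨e1, e2⟩ := zero_row_CorA hi hξ hz
  rw [h0, abs_one] at e1
  have hx := vn_nonneg ξ n
  have h2 := mul_le_mul_of_nonneg_left h1 hx
  have h3 := mul_le_mul_of_nonneg_left hrow hx
  have h4 : vn ξ 0 = 1 := by
    rw [vn, h0, abs_one]
    exact max_eq_left (by linarith)
  refine ⟨h4, (le_div_iff₀ (by linarith [two_le_nrm V n])).2 (by linarith), fun j hj1 hjn => ?_⟩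
  have h5 := dec_CorA hg hL hV hfree hi hrow hξ hz hj1 hjn
  rwa [h4, mul_one] at h5

theorem nrm_le_three {L g : ℝ} (hg : 300 ≤ g) (hL : g ^ 20 ≤ L) {V : ℕ → ℝ}
    (hV : ∀ j, |V j| ≤ L - 2) {n : ℕ} (hn : 1 ≤ n)
    (hfree : ∀ j, 1 ≤ j → j ≤ n → (L / g) ^ j / 2 ≤ nrm V j) :
    nrm V n ≤ 3 * vn (fld V 0 1) n := by
  have a0 : |fld V 0 1 n| ≤ vn (fld V 0 1) n := le_max_left _ _
  have a1 : |fld V 0 1 (n + 1)| ≤ vn (fld V 0 1) n := le_max_right _ _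
  have hN := two_le_nrm V n
  have e : nrm V n = |fld V 1 0 n| + |fld V 1 0 (n + 1)| + |fld V 0 1 n| + |fld V 0 1 (n + 1)| :=
    rfl
  have hv := vn_nonneg (fld V 0 1) n
  rcases le_total (|fld V 1 0 n| + |fld V 0 1 n|) (|fld V 1 0 (n + 1)| + |fld V 0 1 (n + 1)|)
    with h | h
  · have := cone_row hg hL hV hn hfree (Or.inr rfl) (by linarith)
    linarith
  · have := cone_row hg hL hV hn hfree (Or.inl rfl) (by linarith)
    linarith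

end Vale.Agent.P108
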