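import Vale.Agent.P108.LemC
import Vale.Agent.P108.CorA

/-!
P108 Cor: consequences of lemC.
cone_row: apply lemC with j = 1 to the field xi = (P i * Q - Q i * P) / max |P i| |Q i|, which
vanishes at i and has the other entry of size 1 / max <= 6 / nrm V n at cut n (Wronskian).
It gives |xi 1| <= 1/10, so the maximum is |P i|.
decay_row: xi 0 = 1, xi i = 0 forces xi = Q - (Q i / P i) P; vn xi 0 = 1, vn xi n <= 1 / |P i|.
nrm_le_three: take i the larger row, write (1,0) through the field of decay_row and (0,1).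
back_decay: lemC for rv V t and the reversed field (FldOn.rv, vn_rv, nrm_rv with s = 0).
fwd_decay: second term of lemC is 2^(n-j+2) (g^2/L)^j (g/L)^(n-2j) <= 4 2^j (g^2/L)^j.
-/

namespace Vale.Agent.P108

theorem back_decay {L g : ℝ} (hg : 300 ≤ g) (hL : g ^ 20 ≤ L) {V : ℕ → ℝ}
    (hV : ∀ j, |V j| ≤ L - 2) {t : ℕ}
    (hfree : ∀ n, 1 ≤ n → n ≤ t → (L / g) ^ n ≤ nrm (rv V t) n) {ξ : ℕ → ℝ} (hξ : FldOn V ξ t)
    (hopt : nrm V t * vn ξ 0 ≤ 10 * vn ξ t) {j : ℕ} (hj : j ≤ t) :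
    vn ξ j ≤ g ^ 2 * (g ^ 2 / L) ^ (t - j) * vn ξ t := by
  have h0 : 0 < g := by linarith
  have h2g := (big_CorA hg hL).2
  have hL0 : 0 < L := by linarith
  have hl : 2 ≤ L / g := (le_div_iff₀ h0).2 h2g
  have hx := vn_nonneg ξ 0
  have hv := vn_nonneg ξ t
  rcases hj.eq_or_lt with rfl | hlt
  · rw [Nat.sub_self, pow_zero, mul_one]
    exact le_mul_of_one_le_left hv (by nlinarith)
  obtain ⟨i, hi⟩ : ∃ i, t - j = i := ⟨_, rfl⟩
  have hi1 : 1 ≤ i := by omega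
  have hit : i ≤ t := by omega
  have hW : ∀ l, |rv V t l| ≤ L - 2 := fun l => hV _
  have hfree' : ∀ n, 1 ≤ n → n ≤ t → (L / g) ^ n / 2 ≤ nrm (rv V t) n := fun n a b =>
    (half_le_self (by positivity)).trans (hfree n a b)
  have h2 := lemC hg hL hW hfree' hξ.rv hi1 hit
  rw [vn_rv ξ hit, vn_rv ξ (Nat.zero_le t), vn_rv ξ le_rfl, Nat.sub_self, Nat.sub_zero,
    show t - i = j by omega, pow_add, show (2 : ℝ) ^ 2 = 4 by norm_num] at h2
  have hxN : vn ξ 0 * nrm (rv V t) t ≤ 6 * (10 / 6 * vn ξ t) := by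
    rw [rv_Lin]
    linarith
  have hr : 0 ≤ (g ^ 2 / L) ^ i := by positivity
  have hM : nrm (rv V t) i ≤ (g ^ 2 / L) ^ i * ((L / g) ^ i) ^ 2 := by
    have e : g ^ 2 / L * (L / g) ^ 2 = L := by field_simp
    rw [pow_right_comm, ← mul_pow, e]
    exact nrm_le_pow hW hi1
  have hD : (2 : ℝ) ^ j ≤ ((L / g) ^ j) ^ 2 := by
    rw [pow_right_comm]
    exact pow_le_pow_left₀ zero_le_two (by nlinarith) _
  have hab : (L / g) ^ i * (L / g) ^ j / 2 ≤ nrm (rv V t) t := by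
    rw [← pow_add, show i + j = t by omega]
    exact hfree' t (hi1.trans hit) le_rfl
  have h1 := num_CorA (by linarith [two_le_nrm (rv V t) t]) hx hr hxN
    (by linarith [two_le_nrm (rv V t) i]) hM hD (by positivity) hab
  have h3 : 200 * g + 160 ≤ g ^ 2 := by nlinarith
  have h4 := mul_le_mul_of_nonneg_right h3 (mul_nonneg hr hv)
  rw [hi]
  linarith

theorem fwd_decay {L g : ℝ} (hg : 300 ≤ g) (hL : g ^ 20 ≤ L) {V : ℕ → ℝ}
    (hV : ∀ j, |V j| ≤ L - 2) {n : ℕ}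
    (hfree : ∀ j, 1 ≤ j → j ≤ n → (L / g) ^ j ≤ nrm V j) {ξ : ℕ → ℝ} (hξ : FldOn V ξ n)
    (hdown : vn ξ n ≤ vn ξ 0) {j : ℕ} (hj : 2 * j ≤ n) :
    vn ξ j ≤ g ^ 2 * (g ^ 3 / L) ^ j * vn ξ 0 := by
  have h0 : 0 < g := by linarith
  have h2g := (big_CorA hg hL).2
  have hL0 : 0 < L := by linarith
  have hv := vn_nonneg ξ 0
  rcases Nat.eq_zero_or_pos j with rfl | hj1
  · rw [pow_zero, mul_one]
    exact le_mul_of_one_le_left hv (by nlinarith)
  obtain ⟨m, rfl⟩ := Nat.exists_eq_add_of_le hj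
  have h2 := lemC hg hL hV (fun l a b => (half_le_self (by positivity)).trans (hfree l a b)) hξ hj1
    (by omega)
  have hr : 0 ≤ (g ^ 3 / L) ^ j := by positivity
  have a1 : 2 * (g ^ 2 / L) ≤ g ^ 3 / L := by
    rw [← mul_div_assoc]
    exact div_le_div_of_nonneg_right (by nlinarith [sq_nonneg g]) hL0.le
  have a0 : 0 ≤ g ^ 2 / L := by positivity
  have a2 : (g ^ 2 / L) ^ j ≤ (g ^ 3 / L) ^ j := pow_le_pow_left₀ a0 (by linarith) j
  have a3 : nrm V j / nrm V (2 * j + m) ≤ L ^ j / (L / g) ^ (2 * j + m) :=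
    div_le_div₀ (by positivity) (nrm_le_pow hV hj1) (by positivity) (hfree _ (by omega) le_rfl)
  have a4 : (2 : ℝ) ^ (2 * j + m - j + 2) * (L ^ j / (L / g) ^ (2 * j + m)) =
      4 * (2 * (g ^ 2 / L)) ^ j * (2 * g / L) ^ m := by
    rw [show 2 * j + m - j + 2 = j + m + 2 by omega]
    simp only [pow_add, div_pow, mul_pow, two_mul j, pow_right_comm g 2 j]
    field_simp
    norm_num
  have a5 : (2 * g / L) ^ m ≤ 1 := pow_le_one₀ (by positivity) ((div_le_one hL0).2 h2g)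
  have a6 : (2 * (g ^ 2 / L)) ^ j ≤ (g ^ 3 / L) ^ j := pow_le_pow_left₀ (by positivity) a1 j
  have a7 : (2 : ℝ) ^ (2 * j + m - j + 2) * (nrm V j / nrm V (2 * j + m)) ≤ 4 * (g ^ 3 / L) ^ j := by
    refine (mul_le_mul_of_nonneg_left a3 (by positivity)).trans ?_
    rw [a4]
    exact (mul_le_of_le_one_right (by positivity) a5).trans (by linarith)
  have a8 := mul_le_mul a7 hdown (vn_nonneg _ _) (by positivity)
  have a9 := mul_le_mul_of_nonneg_right
    (mul_le_mul_of_nonneg_left a2 (by positivity : 0 ≤ 200 * g)) hv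
  have h3 : 200 * g + 4 ≤ g ^ 2 := by nlinarith
  have h4 := mul_le_mul_of_nonneg_right h3 (mul_nonneg hr hv)
  linarith

end Vale.Agent.P108
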