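import Vale.Agent.P108.Cor

/-!
P108 NoiseA (part of Noise): one arm of a peak, real linear algebra.  L = mu^100, u = fld V u1 u2, v = fld V e1 e2,
w = fld V e2 e1, rho = L^eta / L.
dec_nrm: 1 = vn u 0 <= nrm V h * vn u h gives L^((1-eta) h) <= nrm V h <= nrm V t L^(h-t);
vn u t <= L^(h-t) vn u h <= 1 / L; the Wronskian of u and v has size one, so vn v t >= L / 2, and
both columns are combinations of u and v with coefficients at most 1 and 2.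
dec_bd: back_decay with g = mu.
dec_noise: t = i + 2.  vn u t >= 1 / (2 vn v t) >= L^(-t) / 2 >= vn u h, so fwd_decay (j = 1, on
the window h - t >= 2) gives vn u (t+1) <= mu^5 / L vn u t; BD at t and t - 1 gives
|v t| = vn v (t-1) <= mu^4 / L vn v t; the Wronskian gives |u t| <= 2 / vn v t.  Finally
w = (u - (u1 e1 + u2 e2) v) / (u1 e2 + u2 e1) (fld_comb).
count_unclean: greedy covering from the right by deficient windows, nrm_add_le, nrm_rv,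
nrm_le_pow: nrm V h <= L^h / mu^(number of cuts that are not left free); same on the right.
fp_spec: elementary facts on the first passage.
-/

namespace Vale.Agent.P108

open Classical

theorem big_NoiseA {μ : ℝ} (hμ : 300 ≤ μ) : 300 ≤ μ ^ 100 :=
  hμ.trans (le_self_pow₀ (by linarith) (by norm_num))

theorem vn_zero_NoiseA (V : ℕ → ℝ) (a b : ℝ) : vn (fld V a b) 0 = max |a| |b| := rfl

theorem vn_dir_NoiseA (V : ℕ → ℝ) {e1 e2 : ℝ} (he : Dir e1 e2) : vn (fld V e1 e2) 0 = 1 := by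
  rw [vn_zero_NoiseA]
  rcases he with ⟨rfl, rfl⟩ | ⟨rfl, rfl⟩ <;> simp

theorem small_NoiseA {L η : ℝ} (hL : 300 ≤ L) {V : ℕ → ℝ} (hV : ∀ j, |V j| ≤ L - 2)
    {e1 e2 u1 u2 : ℝ} {h : ℕ} (hd : Dec V e1 e2 u1 u2 (L ^ η / L) h) {t : ℕ} (ht : t ≤ h) :
    vn (fld V u1 u2) t * L ^ ((t : ℝ) - η * h) ≤ 1 := by
  have hL0 : 0 < L := by linarith
  have h1 := ((fld_fldOn V u1 u2 h).vn_le_pow hV ht le_rfl).2
  have h2 := mul_le_mul_of_nonneg_left hd.2.2.2 (pow_pos hL0 (h - t)).le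
  have e : L ^ (h - t) * (L ^ η / L) ^ h * L ^ ((t : ℝ) - η * h) = 1 := by
    rw [← Real.rpow_sub_one hL0.ne', ← Real.rpow_natCast, ← Real.rpow_natCast,
      ← Real.rpow_mul hL0.le, ← Real.rpow_add hL0, ← Real.rpow_add hL0, Nat.cast_sub ht]
    rw [show (h : ℝ) - t + (η - 1) * h + (t - η * h) = 0 by ring, Real.rpow_zero]
  rw [← e]
  exact mul_le_mul_of_nonneg_right (h1.trans h2) (Real.rpow_nonneg hL0.le _)

theorem wr_NoiseA {V : ℕ → ℝ} {e1 e2 u1 u2 ρ : ℝ} (he : Dir e1 e2) {h : ℕ}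
    (hd : Dec V e1 e2 u1 u2 ρ h) (t : ℕ) :
    1 ≤ 2 * (vn (fld V u1 u2) t * vn (fld V e1 e2) t) := by
  have h1 := (fld_fldOn V u1 u2 t).wronsk (fld_fldOn V e1 e2 t) t le_rfl
  have h2 : |fld V u1 u2 0 * fld V e1 e2 1 - fld V u1 u2 1 * fld V e1 e2 0| = 1 := by
    have := hd.2.2.1
    change |u1 * e2 - u2 * e1| = 1
    rcases he with ⟨rfl, rfl⟩ | ⟨rfl, rfl⟩ <;> simpa using this
  rw [← h1] at h2
  have h3 := abs_sub (fld V u1 u2 t * fld V e1 e2 (t + 1)) (fld V u1 u2 (t + 1) * fld V e1 e2 t)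
  rw [abs_mul, abs_mul, h2] at h3
  have a1 : |fld V u1 u2 t| * |fld V e1 e2 (t + 1)| ≤ vn (fld V u1 u2) t * vn (fld V e1 e2) t :=
    mul_le_mul (le_max_left _ _) (le_max_right _ _) (abs_nonneg _) (vn_nonneg _ _)
  have a2 : |fld V u1 u2 (t + 1)| * |fld V e1 e2 t| ≤ vn (fld V u1 u2) t * vn (fld V e1 e2) t :=
    mul_le_mul (le_max_right _ _) (le_max_left _ _) (abs_nonneg _) (vn_nonneg _ _)
  linarith

theorem large_NoiseA {L η : ℝ} (hL : 300 ≤ L) {V : ℕ → ℝ} (hV : ∀ j, |V j| ≤ L - 2)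
    {e1 e2 u1 u2 : ℝ} (he : Dir e1 e2) {h : ℕ} (hd : Dec V e1 e2 u1 u2 (L ^ η / L) h) {t : ℕ}
    (ht : t ≤ h) : L ^ ((t : ℝ) - η * h) ≤ 2 * vn (fld V e1 e2) t := by
  have h1 := small_NoiseA hL hV hd ht
  have h2 := wr_NoiseA he hd t
  have h3 : 0 ≤ L ^ ((t : ℝ) - η * h) := Real.rpow_nonneg (by linarith) _
  have h4 := vn_nonneg (fld V e1 e2) t
  nlinarith [mul_le_mul_of_nonneg_left h2 h3, mul_le_mul_of_nonneg_left h1 h4]

theorem other_NoiseA {a b : ℝ} (ha : |a| ≤ 1) (hb : |b| = 1) {u v w : ℕ → ℝ}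
    (h : ∀ j, u j = a * v j + b * w j) (t : ℕ) : vn w t ≤ vn u t + vn v t := by
  have key : ∀ j, |w j| ≤ |u j| + |v j| := fun j => by
    have e : b * w j = u j - a * v j := by rw [h j]; ring
    have h1 := abs_sub (u j) (a * v j)
    rw [← e, abs_mul, abs_mul, hb, one_mul] at h1
    nlinarith [abs_nonneg (v j)]
  exact max_le ((key t).trans (add_le_add (le_max_left _ _) (le_max_left _ _)))
    ((key _).trans (add_le_add (le_max_right _ _) (le_max_right _ _)))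

theorem nrm_NoiseA {V : ℕ → ℝ} {e1 e2 u1 u2 ρ : ℝ} (he : Dir e1 e2) {h : ℕ}
    (hd : Dec V e1 e2 u1 u2 ρ h) (t : ℕ) :
    nrm V t ≤ 2 * vn (fld V u1 u2) t + 4 * vn (fld V e1 e2) t := by
  have h1 := nrm_le_two_vn V t
  obtain ⟨a1, a2, a3, -⟩ := hd
  rcases he with ⟨rfl, rfl⟩ | ⟨rfl, rfl⟩
  · have := other_NoiseA a1 (by simpa using a3) (fld_comb V u1 u2) t
    linarith
  · have := other_NoiseA (u := fld V u1 u2) (v := fld V 0 1) (w := fld V 1 0) a2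
      (by simpa using a3) (fun j => (fld_comb V u1 u2 j).trans (add_comm _ _)) t
    linarith

theorem dec_nrm {μ η : ℝ} (hμ : 300 ≤ μ) (hη : 0 < η) (hη1 : η ≤ 1 / 100) {V : ℕ → ℝ}
    (hV : ∀ j, |V j| ≤ μ ^ 100 - 2) {e1 e2 u1 u2 : ℝ} (he : Dir e1 e2) {h : ℕ}
    (hd : Dec V e1 e2 u1 u2 ((μ ^ 100) ^ η / μ ^ 100) h) {t : ℕ} (ht1 : η * h + 1 ≤ t)
    (ht2 : t ≤ h) :
    nrm V t ≤ 10 * vn (fld V e1 e2) t ∧ (μ ^ 100) ^ ((t : ℝ) - η * h) ≤ nrm V t := by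
  have hL := big_NoiseA hμ
  generalize μ ^ 100 = L at *
  have h1 := small_NoiseA hL hV hd ht2
  have h2 := large_NoiseA hL hV he hd ht2
  have h3 := nrm_NoiseA he hd t
  have h4 : L ≤ L ^ ((t : ℝ) - η * h) := by
    conv_lhs => rw [← Real.rpow_one L]
    exact Real.rpow_le_rpow_of_exponent_le (by linarith) (by linarith)
  have h5 := vn_nonneg (fld V u1 u2) t
  generalize L ^ ((t : ℝ) - η * h) = X at *
  refine ⟨by nlinarith, ?_⟩
  have h6 := (fld_fldOn V u1 u2 t).vn_zero_le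
  have h7 : 1 ≤ vn (fld V u1 u2) 0 := by
    have a3 := hd.2.2.1
    rw [vn_zero_NoiseA]
    rcases he with ⟨rfl, rfl⟩ | ⟨rfl, rfl⟩
    · exact le_max_of_le_right (by simpa using a3.ge)
    · exact le_max_of_le_left (by simpa using a3.ge)
  have h8 := two_le_nrm V t
  nlinarith [mul_le_mul_of_nonneg_left h1 (show 0 ≤ nrm V t by linarith),
    mul_le_mul_of_nonneg_left (h7.trans h6) (show 0 ≤ X by linarith)]

theorem dec_bd {μ η : ℝ} (hμ : 300 ≤ μ) (hη : 0 < η) (hη1 : η ≤ 1 / 100) {V : ℕ → ℝ}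
    (hV : ∀ j, |V j| ≤ μ ^ 100 - 2) {e1 e2 u1 u2 : ℝ} (he : Dir e1 e2) {h : ℕ}
    (hd : Dec V e1 e2 u1 u2 ((μ ^ 100) ^ η / μ ^ 100) h) {t : ℕ} (ht1 : η * h + 1 ≤ t)
    (ht2 : t ≤ h) (hc : Cl μ (μ ^ 100) V h t) : BD μ (μ ^ 100) (fld V e1 e2) t := by
  intro l hl
  refine back_decay hμ (pow_le_pow_right₀ (by linarith) (by norm_num)) hV hc.1
    (fld_fldOn V e1 e2 t) ?_ hl
  rw [vn_dir_NoiseA V he, mul_one]
  exact (dec_nrm hμ hη hη1 hV he hd ht1 ht2).1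

theorem fp_spec {μ η : ℝ} (hμ : 300 ≤ μ) (hη : 0 < η) (hη1 : η ≤ 1 / 100) {V : ℕ → ℝ}
    (hV : ∀ j, |V j| ≤ μ ^ 100 - 2) {e1 e2 u1 u2 : ℝ} (he : Dir e1 e2) {h : ℕ}
    (hd : Dec V e1 e2 u1 u2 ((μ ^ 100) ^ η / μ ^ 100) h) {T : ℝ}
    (hT1 : (μ ^ 100) ^ (η * h + 3) ≤ T) (hT2 : T ≤ (μ ^ 100) ^ ((1 - 2 * η) * h - 12)) :
    η * h + 3 ≤ fp (fld V e1 e2) T ∧ (fp (fld V e1 e2) T : ℝ) + 10 ≤ (1 - η) * h ∧
      T ≤ vn (fld V e1 e2) (fp (fld V e1 e2) T) ∧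
      vn (fld V e1 e2) (fp (fld V e1 e2) T) ≤ μ ^ 100 * T ∧
      ∀ l, l < fp (fld V e1 e2) T → vn (fld V e1 e2) l < T := by
  have hL := big_NoiseA hμ
  generalize μ ^ 100 = L at *
  have hL1 : 1 < L := by linarith
  have h0 := (Real.rpow_le_rpow_left_iff hL1).1 (hT1.trans hT2)
  have hh : 0 ≤ η * h := by positivity
  have hc1 : (1 - η) * h - 11 ≤ ⌈(1 - η) * h - 11⌉₊ := Nat.le_ceil _
  have hc2 : (⌈(1 - η) * h - 11⌉₊ : ℝ) < (1 - η) * h - 11 + 1 :=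
    Nat.ceil_lt_add_one (by linarith)
  generalize ⌈(1 - η) * h - 11⌉₊ = t at hc1 hc2
  have ht : t ≤ h := by
    have : (t : ℝ) ≤ h := by linarith
    exact_mod_cast this
  have h1 : T ≤ vn (fld V e1 e2) t := by
    have a1 := large_NoiseA hL hV he hd ht
    have a2 : L ^ ((1 - 2 * η) * h - 12 + 1) ≤ L ^ ((t : ℝ) - η * h) :=
      Real.rpow_le_rpow_of_exponent_le hL1.le (by linarith)
    rw [Real.rpow_add_one (by linarith)] at a2
    have a3 : 0 ≤ L ^ ((1 - 2 * η) * h - 12) := Real.rpow_nonneg (by linarith) _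
    nlinarith
  have h2 : fp (fld V e1 e2) T ≤ t := Nat.sInf_le h1
  have h3 : T ≤ vn (fld V e1 e2) (fp (fld V e1 e2) T) :=
    Nat.sInf_mem (s := {i | T ≤ vn (fld V e1 e2) i}) ⟨t, h1⟩
  have h4 : ∀ l, l < fp (fld V e1 e2) T → vn (fld V e1 e2) l < T := fun l hl =>
    not_le.1 (Nat.notMem_of_lt_sInf hl)
  generalize fp (fld V e1 e2) T = i at *
  have h5 : η * h + 3 ≤ i := by
    have a1 := ((fld_fldOn V e1 e2 i).vn_le_pow hV (Nat.zero_le i) le_rfl).1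
    rw [vn_dir_NoiseA V he, mul_one, Nat.sub_zero, ← Real.rpow_natCast] at a1
    exact (Real.rpow_le_rpow_left_iff hL1).1 (hT1.trans (h3.trans a1))
  have h6 : (i : ℝ) ≤ t := by exact_mod_cast h2
  refine ⟨h5, by linarith, h3, ?_, h4⟩
  obtain _ | i := i
  · rw [Nat.cast_zero] at h5
    linarith
  · exact ((fld_fldOn V e1 e2 (i + 1)).vn_succ_le hV (Nat.lt_succ_self i)).1.trans
      (mul_le_mul_of_nonneg_left (h4 i (Nat.lt_succ_self i)).le (by linarith))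

end Vale.Agent.P108
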