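import Vale.Agent.P108.Cor
import Vale.Agent.P108.NoiseA

/-!
P108 Count (part of Noise): one arm of a peak, real linear algebra.  L = mu^100, u = fld V u1 u2, v = fld V e1 e2,
w = fld V e2 e1, rho = L^eta / L.
dec_nrm: 1 = vn u 0 <= nrm V h * vn u h gives L^((1-eta) h) <= nrm V h <= nrm V t L^(h-t);
vn u t <= L^(h-t) vn u h <= 1 / L; the Wronskian of u and v has size one, so vn v t >= L / 2, and
both columns are combinations of u and v with coefficients at most 1 and 2.
dec_bd: back_decay with g = mu.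
dec_noise: t = i + 2.  vn u t >= 1 / (2 vn v t) >= L^(-t) / 2 >= vn u h, so fwd_decay (j = 1, on
the window h - t >= 2) gives vn u (t+1) <= mu^5 / L vn u t; BD at t and t - 1 gives
|v t| = vn v (t-1) <= mu^4 / L vn v t; the Wronskian gives |u t| <= 2 / vn v t.  Finally
w = (u - (u1 e1 + u2 e2) v) / (u1 e2 + u2 e1) (fld_comb).
count_unclean: greedy covering from the right by deficient windows, nrm_add_le, nrm_rv,
nrm_le_pow: nrm V h <= L^h / mu^(number of cuts that are not left free); same on the right.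
fp_spec: elementary facts on the first passage.
-/

namespace Vale.Agent.P108

open Classical

theorem greedy_Count {L μ : ℝ} (hμ : 1 ≤ μ) (hL : 0 ≤ L) (a : ℕ → ℝ) (bad : ℕ → Prop)
    [DecidablePred bad] (h : ℕ) (h0 : a 0 ≤ 2) (hs : ∀ k, k + 1 ≤ h → a (k + 1) ≤ a k * L)
    (hb : ∀ k, k ≤ h → bad k → ∃ s n, 1 ≤ n ∧ k = s + n ∧ a k ≤ a s * (L / μ) ^ n) (k : ℕ)
    (hk : k ≤ h) : a k * μ ^ ((Finset.range (k + 1)).filter bad).card ≤ 2 * L ^ k := by
  have hμ0 : 0 < μ := lt_of_lt_of_le one_pos hμ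
  induction k using Nat.strong_induction_on with
  | _ k ih =>
    by_cases hbk : bad k
    · obtain ⟨s, n, hn, rfl, hle⟩ := hb k hk hbk
      have h1 := ih s (by omega) (by omega)
      have hc : ((Finset.range (s + n + 1)).filter bad).card ≤
          ((Finset.range (s + 1)).filter bad).card + n := by
        have hsub : (Finset.range (s + n + 1)).filter bad ⊆
            (Finset.range (s + 1)).filter bad ∪ Finset.Ico (s + 1) (s + n + 1) := by
          intro x hx
          simp only [Finset.mem_filter, Finset.mem_range, Finset.mem_union, Finset.mem_Ico] at hx ⊢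
          by_cases hxs : x < s + 1
          · exact Or.inl ⟨hxs, hx.2⟩
          · exact Or.inr ⟨by omega, hx.1⟩
        refine (Finset.card_le_card hsub).trans ((Finset.card_union_le _ _).trans ?_)
        rw [Nat.card_Ico]
        omega
      set c := ((Finset.range (s + 1)).filter bad).card with hcdef
      set c' := ((Finset.range (s + n + 1)).filter bad).card with hc'def
      by_cases ha : a (s + n) ≤ 0
      · exact (mul_nonpos_of_nonpos_of_nonneg ha (by positivity)).trans (by positivity)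
      · have ha' : 0 < a (s + n) := lt_of_not_ge ha
        have h2 : μ ^ c' ≤ μ ^ (c + n) := pow_le_pow_right₀ hμ hc
        calc a (s + n) * μ ^ c' ≤ a (s + n) * μ ^ (c + n) := mul_le_mul_of_nonneg_left h2 ha'.le
          _ ≤ a s * (L / μ) ^ n * μ ^ (c + n) := mul_le_mul_of_nonneg_right hle (by positivity)
          _ = a s * μ ^ c * L ^ n := by
              rw [div_pow, pow_add]
              field_simp
          _ ≤ 2 * L ^ s * L ^ n := mul_le_mul_of_nonneg_right h1 (by positivity)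
          _ = 2 * L ^ (s + n) := by rw [pow_add, mul_assoc]
    · rw [Finset.range_add_one, Finset.filter_insert, if_neg hbk]
      cases k with
      | zero => simpa using h0
      | succ k =>
        have h1 := ih k (by omega) (by omega)
        calc a (k + 1) * μ ^ ((Finset.range (k + 1)).filter bad).card
            ≤ a k * L * μ ^ ((Finset.range (k + 1)).filter bad).card :=
              mul_le_mul_of_nonneg_right (hs k hk) (by positivity)
          _ = a k * μ ^ ((Finset.range (k + 1)).filter bad).card * L := by ring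
          _ ≤ 2 * L ^ k * L := mul_le_mul_of_nonneg_right h1 hL
          _ = 2 * L ^ (k + 1) := by rw [pow_succ, mul_assoc]

theorem nrm_nonneg_Count (V : ℕ → ℝ) (n : ℕ) : 0 ≤ nrm V n :=
  le_trans (by norm_num) (two_le_nrm V n)

/-- The cut t is not left free. -/
def LB_Count (L μ : ℝ) (V : ℕ → ℝ) (t : ℕ) : Prop :=
  ¬ ∀ n, 1 ≤ n → n ≤ t → (L / μ) ^ n ≤ nrm (rv V t) n

theorem left_Count {L μ : ℝ} (hμ : 1 ≤ μ) (hL : 0 ≤ L) {V : ℕ → ℝ} (hV : ∀ j, |V j| ≤ L - 2)
    (h : ℕ) : nrm V h * μ ^ ((Finset.range (h + 1)).filter (LB_Count L μ V)).card ≤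
      2 * L ^ h := by
  refine greedy_Count hμ hL (fun k => nrm V k) _ h (nrm_zero V).le (fun k _ => ?_)
    (fun k _ hk => ?_) h le_rfl
  · refine (nrm_add_le V k 1).trans (mul_le_mul_of_nonneg_left ?_ (nrm_nonneg_Count V k))
    have := nrm_le_pow (V := sh V k) (L := L) (fun j => hV _) (n := 1) le_rfl
    rwa [pow_one] at this
  · unfold LB_Count at hk
    push Not at hk
    obtain ⟨n, hn1, hn2, hn⟩ := hk
    obtain ⟨s, rfl⟩ : ∃ s, k = s + n := ⟨k - n, by omega⟩
    refine ⟨s, n, hn1, rfl, (nrm_add_le V s n).trans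
      (mul_le_mul_of_nonneg_left ?_ (nrm_nonneg_Count V s))⟩
    rw [← nrm_rv]
    exact hn.le

/-- The cut t is not right free. -/
def RB_Count (L μ : ℝ) (V : ℕ → ℝ) (h t : ℕ) : Prop :=
  ¬ ∀ n, 1 ≤ n → t + n ≤ h → (L / μ) ^ n ≤ nrm (sh V t) n

theorem right_Count {L μ : ℝ} (hμ : 1 ≤ μ) (hL : 0 ≤ L) {V : ℕ → ℝ} (hV : ∀ j, |V j| ≤ L - 2)
    (h : ℕ) : nrm V h * μ ^ ((Finset.range (h + 1)).filter (RB_Count L μ V h)).card ≤
      2 * L ^ h := by
  have key := greedy_Count hμ hL (fun k => nrm (sh V (h - k)) k)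
    (fun k => RB_Count L μ V h (h - k)) h
    (nrm_zero _).le (fun k hk => ?_) (fun k hkh hk => ?_) h le_rfl
  · have e1 : sh V (h - h) = V := by
      funext j
      simp [sh]
    have e2 : ((Finset.range (h + 1)).filter (RB_Count L μ V h)).card =
        ((Finset.range (h + 1)).filter (fun k => RB_Count L μ V h (h - k))).card := by
      refine Finset.card_bij' (fun t _ => h - t) (fun k _ => h - k) ?_ ?_ ?_ ?_
      · intro t ht
        rw [Finset.mem_filter, Finset.mem_range] at ht ⊢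
        have : h - (h - t) = t := by omega
        rw [this]
        exact ⟨by omega, ht.2⟩
      · intro k hk
        rw [Finset.mem_filter, Finset.mem_range] at hk ⊢
        exact ⟨by omega, hk.2⟩
      · intro t ht
        rw [Finset.mem_filter, Finset.mem_range] at ht
        omega
      · intro t ht
        rw [Finset.mem_filter, Finset.mem_range] at ht
        omega
    rw [e2]
    simpa only [e1] using key
  · have h1 := nrm_add_le (sh V (h - (k + 1))) 1 k
    have h2 := nrm_le_pow (V := sh V (h - (k + 1))) (L := L) (fun j => hV _) (n := 1) le_rfl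
    rw [sh_sh, show h - (k + 1) + 1 = h - k by omega, add_comm 1 k] at h1
    rw [pow_one] at h2
    refine h1.trans ?_
    rw [mul_comm]
    exact mul_le_mul_of_nonneg_left h2 (nrm_nonneg_Count _ _)
  · unfold RB_Count at hk
    push Not at hk
    obtain ⟨n, hn1, hn2, hn⟩ := hk
    obtain ⟨s, rfl⟩ : ∃ s, k = s + n := ⟨k - n, by omega⟩
    refine ⟨s, n, hn1, rfl, ?_⟩
    have h1 := nrm_add_le (sh V (h - (s + n))) n s
    rw [sh_sh, show h - (s + n) + n = h - s by omega, add_comm n s] at h1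
    refine h1.trans ?_
    rw [mul_comm]
    exact mul_le_mul_of_nonneg_left hn.le (nrm_nonneg_Count _ _)

theorem low_Count {V : ℕ → ℝ} {e1 e2 u1 u2 ρ : ℝ} (he : Dir e1 e2) {h : ℕ}
    (hd : Dec V e1 e2 u1 u2 ρ h) : 1 ≤ nrm V h * ρ ^ h := by
  obtain ⟨-, -, h3, h4⟩ := hd
  have h1 : 1 ≤ vn (fld V u1 u2) 0 := by
    show 1 ≤ max |u1| |u2|
    rcases he with ⟨rfl, rfl⟩ | ⟨rfl, rfl⟩
    · simp only [mul_zero, mul_one, zero_add] at h3
      exact h3 ▸ le_max_right _ _
    · simp only [mul_zero, mul_one, add_zero] at h3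
      exact h3 ▸ le_max_left _ _
  exact h1.trans ((fld_fldOn V u1 u2 h).vn_zero_le.trans
    (mul_le_mul_of_nonneg_left h4 (nrm_nonneg_Count V h)))

theorem num_Count {μ η a : ℝ} (hμ : 300 ≤ μ) {h c : ℕ}
    (h1 : 1 ≤ a * ((μ ^ 100) ^ η / μ ^ 100) ^ h) (h2 : a * μ ^ c ≤ 2 * (μ ^ 100) ^ h) :
    (c : ℝ) ≤ 100 * η * h + 1 := by
  have hμ0 : 0 < μ := by linarith
  have hμ1 : 1 < μ := by linarith
  have e : ((μ ^ 100) ^ η) ^ h = μ ^ (100 * η * h) := by
    rw [← Real.rpow_natCast μ 100, ← Real.rpow_mul hμ0.le, ← Real.rpow_natCast,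
      ← Real.rpow_mul hμ0.le]
    norm_num
  have hL : 0 < μ ^ 100 := by positivity
  generalize μ ^ 100 = L at h1 h2 e hL
  have hρ : 0 ≤ (L ^ η / L) ^ h := by positivity
  have h3 : μ ^ (c : ℝ) ≤ μ ^ (100 * η * h + 1) := by
    rw [Real.rpow_natCast, Real.rpow_add hμ0, Real.rpow_one, ← e]
    have h4 : 0 ≤ (L ^ η) ^ h := by positivity
    calc μ ^ c = 1 * μ ^ c := (one_mul _).symm
      _ ≤ a * (L ^ η / L) ^ h * μ ^ c := mul_le_mul_of_nonneg_right h1 (by positivity)
      _ = a * μ ^ c * (L ^ η / L) ^ h := by ring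
      _ ≤ 2 * L ^ h * (L ^ η / L) ^ h := mul_le_mul_of_nonneg_right h2 hρ
      _ = (L ^ η) ^ h * 2 := by
          rw [div_pow]
          field_simp
      _ ≤ (L ^ η) ^ h * μ := mul_le_mul_of_nonneg_left (by linarith) h4
  exact (Real.rpow_le_rpow_left_iff hμ1).1 h3

theorem count_unclean {μ η : ℝ} (hμ : 300 ≤ μ) (hη : 0 < η) {V : ℕ → ℝ}
    (hV : ∀ j, |V j| ≤ μ ^ 100 - 2) {e1 e2 u1 u2 : ℝ} (he : Dir e1 e2) {h : ℕ}
    (hd : Dec V e1 e2 u1 u2 ((μ ^ 100) ^ η / μ ^ 100) h) :
    (((Finset.range (h + 1)).filter (fun t => ¬ Cl μ (μ ^ 100) V h t)).card : ℝ) ≤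
      200 * η * h + 2 := by
  have hμ1 : 1 ≤ μ := by linarith
  have hL : 0 ≤ μ ^ 100 := by positivity
  have h0 := low_Count he hd
  have h1 := num_Count hμ h0 (left_Count hμ1 hL hV h)
  have h2 := num_Count hμ h0 (right_Count hμ1 hL hV h)
  have hsub : (Finset.range (h + 1)).filter (fun t => ¬ Cl μ (μ ^ 100) V h t) ⊆
      (Finset.range (h + 1)).filter (LB_Count (μ ^ 100) μ V) ∪
      (Finset.range (h + 1)).filter (RB_Count (μ ^ 100) μ V h) := by
    intro t ht
    rw [Finset.mem_filter] at ht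
    rw [Finset.mem_union, Finset.mem_filter, Finset.mem_filter]
    rcases not_and_or.1 ht.2 with h3 | h3
    · exact Or.inl ⟨ht.1, h3⟩
    · exact Or.inr ⟨ht.1, h3⟩
  have h3 := (Finset.card_le_card hsub).trans (Finset.card_union_le _ _)
  have h4 := (Nat.cast_le (α := ℝ)).2 h3
  rw [Nat.cast_add] at h4
  refine h4.trans ((add_le_add h1 h2).trans (le_of_eq ?_))
  ring

end Vale.Agent.P108
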