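import Vale.Agent.P108.HoleT

/-!
P108 HoleE: the four-point shift trick.  ph = nxt P + nxt Q and
S s = ph s + 3 ph (s+1/2) + 3 ph (s+1) + ph (s+3/2) = C0 + 32 s + e s with |e| <= 1/100 on [0, 2]:
the sine terms are k tri P s + k tri Q s, and by the mean value inequality P s = P 0 + s + o(1),
Q s = Q 0 + s + o(1), P0 s = P0 0 + o(1), Q0 s = Q0 0 + o(1) on [0, 4].  Take sa in
[1/100, 1 + 1/50] with P sa an integer (IVT) and sb in [sa, sa + 1/32] with C0 + 32 sb in 1/2 + Z.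
For s in [sb, sb + 1/320] the number S s is at distance > 1/4 from Z, while four values within
1/32 of 1/2 + Z would put S s within 8/32 of Z.
-/

namespace Vale.Agent.P108

open Set

theorem mvt_HoleE {f f' : ℝ → ℝ} {c δ : ℝ} (hδ : 0 ≤ δ)
    (hd : ∀ s ∈ Icc (0 : ℝ) 4, HasDerivAt f (f' s) s) (hb : ∀ s ∈ Icc (0 : ℝ) 4, |f' s - c| ≤ δ)
    {s : ℝ} (h0 : 0 ≤ s) (h4 : s ≤ 4) : |f s - f 0 - c * s| ≤ 4 * δ := by
  have h := (convex_Icc (0 : ℝ) 4).norm_image_sub_le_of_norm_hasDerivWithin_le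
    (f := fun x => f x - c * x) (f' := fun x => f' x - c) (C := δ)
    (fun x hx => (((hd x hx).sub ((hasDerivAt_id' x).const_mul c)).congr_deriv
      (by rw [mul_one])).hasDerivWithinAt) hb ⟨le_rfl, by norm_num⟩ ⟨h0, h4⟩
  rw [Real.norm_eq_abs, Real.norm_eq_abs, sub_zero, abs_of_nonneg h0] at h
  have e : f s - f 0 - c * s = f s - c * s - (f 0 - c * 0) := by ring
  rw [e]
  exact h.trans ((mul_le_mul_of_nonneg_left h4 hδ).trans_eq (mul_comm _ _))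

theorem small_HoleE {μ : ℝ} (hμ : 10 ≤ μ) {n : ℕ} (hn : 10 ≤ n) : 1 / μ ^ n ≤ 1 / 1000000 := by
  refine one_div_le_one_div_of_le (by norm_num) ?_
  calc (1000000 : ℝ) = 10 ^ 6 := by norm_num
    _ ≤ μ ^ 6 := pow_le_pow_left₀ (by norm_num) hμ 6
    _ ≤ μ ^ n := pow_le_pow_right₀ (by linarith) (by omega)

theorem lin_HoleE {μ ρ : ℝ} {P Q P0 Q0 P' Q' P0' Q0' : ℝ → ℝ} (hμ : 10 ≤ μ) (h1 : ρ ≤ 1)
    (h2 : 1 - ρ ≤ 1 / μ ^ 40) (H : HoleData μ ρ P Q P0 Q0 P' Q' P0' Q0') {s : ℝ} (h0 : 0 ≤ s)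
    (h4 : s ≤ 4) : |P s - P 0 - 1 * s| ≤ 4 * (1 / 100000) ∧ |Q s - Q 0 - 1 * s| ≤ 4 * (1 / 100000) ∧
      |P0 s - P0 0 - 0 * s| ≤ 4 * (1 / 100000) ∧ |Q0 s - Q0 0 - 0 * s| ≤ 4 * (1 / 100000) := by
  have sub : ∀ x ∈ Icc (0 : ℝ) 4, x ∈ Icc (-1 : ℝ) (μ ^ 60) := fun x hx =>
    ⟨by linarith [hx.1], hx.2.trans (le_trans (by linarith) (le_self_pow₀ (by linarith) (by norm_num)))⟩
  have s90 := small_HoleE hμ (n := 90) (by norm_num)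
  have s40 := small_HoleE hμ (n := 40) (by norm_num)
  have p90 : 0 < μ ^ 90 := pow_pos (by linarith) _
  have b : ∀ x ∈ Icc (0 : ℝ) 4, |x| / μ ^ 90 ≤ 4 / 1000000 := fun x hx => by
    have : |x| / μ ^ 90 ≤ 4 * (1 / μ ^ 90) := by
      rw [mul_one_div, abs_of_nonneg hx.1]
      exact div_le_div_of_nonneg_right hx.2 p90.le
    linarith
  refine ⟨mvt_HoleE (by norm_num) (fun x hx => H.dP x (sub x hx)) (fun x hx => ?_) h0 h4,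
    mvt_HoleE (by norm_num) (fun x hx => H.dQ x (sub x hx)) (fun x hx => ?_) h0 h4,
    mvt_HoleE (by norm_num) (fun x hx => H.dP0 x (sub x hx)) (fun x hx => ?_) h0 h4,
    mvt_HoleE (by norm_num) (fun x hx => H.dQ0 x (sub x hx)) (fun x hx => ?_) h0 h4⟩
  · linarith [H.bP x (sub x hx), b x hx]
  · have h3 : ρ * |x| / μ ^ 90 ≤ |x| / μ ^ 90 :=
      div_le_div_of_nonneg_right (mul_le_of_le_one_left (abs_nonneg x) h1) p90.le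
    have h5 := abs_le.1 ((H.bQ x (sub x hx)).trans (h3.trans (b x hx)))
    exact abs_le.2 ⟨by linarith [h5.1], by linarith [h5.2]⟩
  · rw [sub_zero]
    linarith [H.bP0 x (sub x hx)]
  · rw [sub_zero]
    linarith [H.bQ0 x (sub x hx)]

theorem unlock : ∃ μ0 : ℝ, ∀ (k μ ρ : ℝ) (P Q P0 Q0 P' Q' P0' Q0' : ℝ → ℝ),
    μ0 ≤ μ → ρ ≤ 1 → 1 - ρ ≤ 1 / μ ^ 40 → HoleData μ ρ P Q P0 Q0 P' Q' P0' Q0' →
    (∀ s ∈ Icc (0 : ℝ) 2, |k * tri P s| ≤ 1 / μ ^ 10 ∧ |k * tri Q s| ≤ 1 / μ ^ 10) →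
    ∃ sb : ℝ, 1 / 100 ≤ sb ∧ sb ≤ 11 / 10 ∧ (∃ a : ℤ, |P sb - a| ≤ 1 / 30) ∧
      ∀ s ∈ Icc sb (sb + 1 / 320), ∃ j : ℕ, j ≤ 3 ∧ ∀ m : ℤ,
        1 / 32 < |nxt k P P0 (s + j / 2) + nxt k Q Q0 (s + j / 2) - 1 / 2 - m| := by
  refine ⟨10, fun k μ ρ P Q P0 Q0 P' Q' P0' Q0' hμ h1 h2 H hT => ?_⟩
  have lin : ∀ s, 0 ≤ s → s ≤ 4 → ∃ e : ℝ, |e| ≤ 1 / 4000 ∧ nxt k P P0 s + nxt k Q Q0 s =
      2 * P 0 + 2 * Q 0 - P0 0 - Q0 0 + 4 * s + e + k * Real.sin (2 * Real.pi * P s) +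
        k * Real.sin (2 * Real.pi * Q s) := fun s h0 h4 => by
    obtain ⟨a, b, c, d⟩ := lin_HoleE hμ h1 h2 H h0 h4
    rw [abs_le] at a b c d
    refine ⟨2 * (P s - P 0 - s) + 2 * (Q s - Q 0 - s) - (P0 s - P0 0) - (Q0 s - Q0 0),
      abs_le.2 ⟨by linarith [a.1, b.1, c.2, d.2], by linarith [a.2, b.2, c.1, d.1]⟩, ?_⟩
    rw [nxt, nxt]
    ring
  obtain ⟨C, hC⟩ : ∃ C, C = 8 * (2 * P 0 + 2 * Q 0 - P0 0 - Q0 0) + 24 := ⟨_, rfl⟩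
  obtain ⟨a, a1, a2⟩ : ∃ a : ℤ, P 0 + 1 / 100 ≤ a ∧ a < P 0 + 1 / 100 + 1 :=
    ⟨_, Int.le_ceil _, Int.ceil_lt_add_one _⟩
  obtain ⟨b, b1, b2⟩ : ∃ b : ℤ, C + 32 * (a - P 0) - 1 / 2 ≤ b ∧
      b < C + 32 * (a - P 0) - 1 / 2 + 1 := ⟨_, Int.le_ceil _, Int.ceil_lt_add_one _⟩
  refine ⟨(b + 1 / 2 - C) / 32, by linarith, by linarith, ⟨a, ?_⟩, fun s hs => ?_⟩
  · have := abs_le.1 (lin_HoleE hμ h1 h2 H (s := (b + 1 / 2 - C) / 32) (by linarith)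
      (by linarith)).1
    exact abs_le.2 ⟨by linarith [this.1], by linarith [this.2]⟩
  by_contra hc
  simp only [not_exists, not_and, not_forall, not_lt] at hc
  obtain ⟨m0, g0⟩ := hc 0 (by norm_num)
  obtain ⟨m1, g1⟩ := hc 1 (by norm_num)
  obtain ⟨m2, g2⟩ := hc 2 (by norm_num)
  obtain ⟨m3, g3⟩ := hc 3 le_rfl
  rw [show s + ((0 : ℕ) : ℝ) / 2 = s by norm_num] at g0
  rw [show s + ((1 : ℕ) : ℝ) / 2 = s + 1 / 2 by norm_num] at g1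
  rw [show s + ((2 : ℕ) : ℝ) / 2 = s + 1 by norm_num] at g2
  rw [show s + ((3 : ℕ) : ℝ) / 2 = s + 3 / 2 by norm_num] at g3
  obtain ⟨s1, s2⟩ := hs
  obtain ⟨e0, f0, l0⟩ := lin s (by linarith) (by linarith)
  obtain ⟨e1, f1, l1⟩ := lin (s + 1 / 2) (by linarith) (by linarith)
  obtain ⟨e2, f2, l2⟩ := lin (s + 1) (by linarith) (by linarith)
  obtain ⟨e3, f3, l3⟩ := lin (s + 3 / 2) (by linarith) (by linarith)
  obtain ⟨t1, t2⟩ := hT s ⟨by linarith, by linarith⟩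
  have s10 := small_HoleE hμ (n := 10) le_rfl
  replace t1 := t1.trans s10
  replace t2 := t2.trans s10
  rw [l0] at g0
  rw [l1] at g1
  rw [l2] at g2
  rw [l3] at g3
  rw [tri] at t1 t2
  rw [abs_le] at g0 g1 g2 g3 f0 f1 f2 f3 t1 t2
  have n1 : (0 : ℝ) < 4 + m0 + 3 * m1 + 3 * m2 + m3 - b := by
    linarith [g0.2, g1.2, g2.2, g3.2, f0.1, f1.1, f2.1, f3.1, t1.1, t2.1]
  have n2 : (4 + m0 + 3 * m1 + 3 * m2 + m3 - b : ℝ) < 1 := by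
    linarith [g0.1, g1.1, g2.1, g3.1, f0.2, f1.2, f2.2, f3.2, t1.2, t2.2]
  have n3 : (0 : ℤ) < 4 + m0 + 3 * m1 + 3 * m2 + m3 - b := by exact_mod_cast n1
  have n4 : (4 + m0 + 3 * m1 + 3 * m2 + m3 - b : ℤ) < 1 := by exact_mod_cast n2
  omega

end Vale.Agent.P108
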