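import Vale.Agent.P108.HoleT

/-!
P108 HoleF: a good point near an unlocked point.  Write F sig + H sig = m + d with
|d| <= 1/2 - 1/32.  F moves by at least 0.255 on each side of sig within 0.3 / K (mean value
theorem, constant sign of the slope), so IVT gives s with F s = a / 2 + d / 2.  On
[s - 1/(10000 K), s + 1/(10000 K)] the value F is within 1/4 - 1/64 + 0.0002 of a / 2 and
- H = F - (F + H) is within 1/4 - 1/64 + 0.007 of a / 2 - m.  gd_of_near and gd_neg_right.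
-/

namespace Vale.Agent.P108

open Set

theorem lip_HoleF {f f' : ℝ → ℝ} {a b C : ℝ} (hf : ∀ s ∈ Icc a b, HasDerivAt f (f' s) s)
    (hC : ∀ s ∈ Icc a b, |f' s| ≤ C) {x y : ℝ} (hx : x ∈ Icc a b) (hy : y ∈ Icc a b) :
    |f y - f x| ≤ C * |y - x| := by
  have h := Convex.norm_image_sub_le_of_norm_hasDerivWithin_le (f := f) (f' := f') (C := C)
    (s := Icc a b) (fun s hs => (hf s hs).hasDerivWithinAt)
    (fun s hs => by rw [Real.norm_eq_abs]; exact hC s hs) (convex_Icc a b) hx hy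
  simpa only [Real.norm_eq_abs] using h

theorem mono_HoleF {f f' : ℝ → ℝ} {a b c : ℝ} (hf : ∀ s ∈ Icc a b, HasDerivAt f (f' s) s)
    (hc : ∀ s ∈ Icc a b, c ≤ f' s) {x y : ℝ} (hx : x ∈ Icc a b) (hy : y ∈ Icc a b)
    (hxy : x ≤ y) : c * (y - x) ≤ f y - f x := by
  refine Convex.mul_sub_le_image_sub_of_le_deriv (convex_Icc a b)
    (fun s hs => (hf s hs).continuousAt.continuousWithinAt)
    (fun s hs => (hf s (interior_subset hs)).differentiableAt.differentiableWithinAt)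
    (fun s hs => ?_) x hx y hy hxy
  rw [(hf s (interior_subset hs)).deriv]
  exact hc s (interior_subset hs)

theorem local_good {F H F' H' : ℝ → ℝ} {K sig sg : ℝ} (hK : 0 < K) (hsg : sg = 1 ∨ sg = -1)
    (hF : ∀ s ∈ Icc (sig - 1 / K) (sig + 1 / K), HasDerivAt F (F' s) s)
    (hH : ∀ s ∈ Icc (sig - 1 / K) (sig + 1 / K), HasDerivAt H (H' s) s)
    (h1 : ∀ s ∈ Icc (sig - 1 / K) (sig + 1 / K), 85 / 100 * K ≤ sg * F' s ∧ |F' s| ≤ 101 / 100 * K)
    (h2 : ∀ s ∈ Icc (sig - 1 / K) (sig + 1 / K), |F' s + H' s| ≤ K / 50)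
    (h3 : ∀ m : ℤ, 1 / 32 < |F sig + H sig - 1 / 2 - m|) :
    ∃ s, |s - sig| ≤ 3 / (10 * K) ∧ ∀ s', |s' - s| ≤ 1 / (10000 * K) → Gd (F s') (H s') := by
  obtain ⟨u, hu⟩ : ∃ u : ℝ, u = 1 / K := ⟨_, rfl⟩
  have hu0 : 0 < u := by rw [hu]; positivity
  have hKu : K * u = 1 := by rw [hu]; field_simp
  have e1 : 3 / (10 * K) = 3 / 10 * u := by rw [hu]; field_simp
  have e2 : 1 / (10000 * K) = 1 / 10000 * u := by rw [hu]; field_simp
  rw [e1, e2]
  rw [← hu] at hF hH h1 h2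
  obtain ⟨m, hm⟩ : ∃ m : ℤ, |F sig + H sig - m| ≤ 1 / 2 :=
    ⟨round (F sig + H sig), abs_sub_round _⟩
  obtain ⟨d, hd⟩ : ∃ d : ℝ, d = F sig + H sig - m := ⟨_, rfl⟩
  rw [← hd] at hm
  have hm' := abs_le.1 hm
  have hd1 : d < 1 / 2 - 1 / 32 := by
    have h := h3 m
    have e : F sig + H sig - 1 / 2 - m = -(1 / 2 - d) := by rw [hd]; ring
    rw [e, abs_neg, abs_of_nonneg (by linarith [hm'.2])] at h
    linarith
  have hd2 : -(1 / 2 - 1 / 32) < d := by
    have h := h3 (m - 1)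
    have e : F sig + H sig - 1 / 2 - ((m - 1 : ℤ) : ℝ) = d + 1 / 2 := by
      rw [hd]; push_cast; ring
    rw [e, abs_of_nonneg (by linarith [hm'.1])] at h
    linarith
  obtain ⟨a, ha⟩ : ∃ a : ℤ, |2 * F sig - d - a| ≤ 1 / 2 :=
    ⟨round (2 * F sig - d), abs_sub_round _⟩
  have ha' := abs_le.1 ha
  have hsig : sig ∈ Icc (sig - u) (sig + u) := ⟨by linarith, by linarith⟩
  have hl : sig - 3 / 10 * u ∈ Icc (sig - u) (sig + u) := ⟨by linarith, by linarith⟩
  have hr : sig + 3 / 10 * u ∈ Icc (sig - u) (sig + u) := ⟨by linarith, by linarith⟩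
  have hG : ∀ s ∈ Icc (sig - u) (sig + u), HasDerivAt (fun s => sg * F s) (sg * F' s) s :=
    fun s hs => (hF s hs).const_mul sg
  have g1 := mono_HoleF hG (fun s hs => (h1 s hs).1) hl hsig (by linarith)
  have g2 := mono_HoleF hG (fun s hs => (h1 s hs).1) hsig hr (by linarith)
  have g1' : 255 / 1000 ≤ sg * F sig - sg * F (sig - 3 / 10 * u) := by
    have e : 85 / 100 * K * (sig - (sig - 3 / 10 * u)) = 255 / 1000 * (K * u) := by ring
    rw [e, hKu] at g1
    linarith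
  have g2' : 255 / 1000 ≤ sg * F (sig + 3 / 10 * u) - sg * F sig := by
    have e : 85 / 100 * K * (sig + 3 / 10 * u - sig) = 255 / 1000 * (K * u) := by ring
    rw [e, hKu] at g2
    linarith
  have hsub : Icc (sig - 3 / 10 * u) (sig + 3 / 10 * u) ⊆ Icc (sig - u) (sig + u) :=
    Icc_subset_Icc (by linarith) (by linarith)
  have hcont : ContinuousOn (fun s => sg * F s) (Icc (sig - 3 / 10 * u) (sig + 3 / 10 * u)) :=
    fun s hs => (hG s (hsub hs)).continuousAt.continuousWithinAt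
  have hmem : sg * (a / 2 + d / 2) ∈
      Icc (sg * F (sig - 3 / 10 * u)) (sg * F (sig + 3 / 10 * u)) := by
    rcases hsg with h | h
    · rw [h] at g1' g2' ⊢
      constructor <;> linarith [ha'.1, ha'.2]
    · rw [h] at g1' g2' ⊢
      constructor <;> linarith [ha'.1, ha'.2]
  obtain ⟨s, hs, hFs⟩ := intermediate_value_Icc (by linarith) hcont hmem
  have hFs' : F s = a / 2 + d / 2 := by
    have h0 : sg ≠ 0 := by
      rcases hsg with h | h <;> rw [h] <;> norm_num
    exact mul_left_cancel₀ h0 hFs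
  refine ⟨s, abs_le.2 ⟨by linarith [hs.1], by linarith [hs.2]⟩, fun s' hs' => ?_⟩
  have hs'' := abs_le.1 hs'
  have hs'm : s' ∈ Icc (sig - u) (sig + u) :=
    ⟨by linarith [hs.1, hs''.1], by linarith [hs.2, hs''.2]⟩
  have l1 := lip_HoleF hF (fun s hs => (h1 s hs).2) (hsub hs) hs'm
  have l1' : |F s' - F s| ≤ 101 / 1000000 := by
    refine l1.trans ?_
    calc 101 / 100 * K * |s' - s| ≤ 101 / 100 * K * (1 / 10000 * u) :=
          mul_le_mul_of_nonneg_left hs' (by positivity)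
      _ = 101 / 1000000 * (K * u) := by ring
      _ = 101 / 1000000 := by rw [hKu]; ring
  have hFH : ∀ s ∈ Icc (sig - u) (sig + u),
      HasDerivAt (fun s => F s + H s) (F' s + H' s) s :=
    fun s hs => (hF s hs).add (hH s hs)
  have l2 := lip_HoleF hFH h2 hsig hs'm
  have l2' : |F s' + H s' - (F sig + H sig)| ≤ 7 / 1000 := by
    refine l2.trans ?_
    have hb : |s' - sig| ≤ 35 / 100 * u :=
      abs_le.2 ⟨by linarith [hs.1, hs''.1], by linarith [hs.2, hs''.2]⟩
    calc K / 50 * |s' - sig| ≤ K / 50 * (35 / 100 * u) :=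
          mul_le_mul_of_nonneg_left hb (by positivity)
      _ = 7 / 1000 * (K * u) := by ring
      _ = 7 / 1000 := by rw [hKu]; ring
  have l1'' := abs_le.1 l1'
  have l2'' := abs_le.1 l2'
  refine gd_neg_right.1 (gd_of_near (a := a) (n := -m) ?_ ?_)
  · exact abs_le.2 ⟨by linarith [l1''.1], by linarith [l1''.2]⟩
  · push_cast
    exact abs_le.2 ⟨by linarith [l1''.1, l2''.2], by linarith [l1''.2, l2''.1]⟩

end Vale.Agent.P108
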