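import Vale.Agent.P108.HoleA
import Vale.Agent.P108.HoleE
import Vale.Agent.P108.HoleF

/-!
P108 HoleD (part of HoleC): ratio close to one.  D = P - Q moves by at most 20 / mu^40 on [-1, 5].
holeC (unlocked): D 0 = n + d with |d| <= 1/2 - 1/400.  IVT gives s in [1/2, 3/2] with
P s = a / 2 + d / 2; then Q s = a / 2 - n - d / 2 + o(1); gd_of_near on [s - 2/10000, s + 2/10000].
R = 2.
holeD (locked): K = 2 pi k, Lam k = 2 K + 4, ph = nxt P + nxt Q.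
S s = ph s + 3 ph (s+1/2) + 3 ph (s+1) + ph (s+3/2) = C0 + 32 s + e s with |e| <= 1/100 on [0, 2]
(tri bounds and the slopes of P, Q, P0, Q0).  Take sa in [1/100, 1 + 1/50] with P sa an integer and
sb in [sa, sa + 1/32] with C0 + 32 sb in 1/2 + Z.  For s in [sb, sb + 1/320] the number S s is at
distance > 1/4 from Z, so for some j <= 3 ph (s + j/2) is at distance > 1/32 from 1/2 + Z.
Near sb + j/2 (within 1/100) |cos 2 pi P| >= 0.9 and |cos 2 pi Q| >= 0.85, the slope of nxt P is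
pot k (P) P' - P0', of constant sign and size in [0.85 K, 1.01 K], the slope of nxt Q has size
<= 1.01 K and the slope of ph has size <= K / 50.  For s_n = sb + 4 n / K, n < K / 1280, put
sig = s_n + j(n)/2, ph sig = m + d with |d| <= 1/2 - 1/32, and find by IVT s* within 0.3 / K of
sig with nxt P s* = a/2 + d/2; then - nxt Q = nxt P - ph is within 1/4 - 1/64 + 0.007 of
a/2 - m.  gd_of_near and gd_neg_right on [s* - 2 / (10000 Lam), s* + 2 / (10000 Lam)], vol_points.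
Use unlock (HoleE) for sb and j, and local_good (HoleF) for s*.
-/

namespace Vale.Agent.P108

open MeasureTheory Set

theorem mvt_HoleD {P P' : ℝ → ℝ} (hd : ∀ s ∈ Icc (-1 : ℝ) 5, HasDerivAt P (P' s) s)
    (hb : ∀ s ∈ Icc (-1 : ℝ) 5, |P' s - 1| ≤ 1 / 100000) {s t : ℝ} (hs : s ∈ Icc (-1 : ℝ) 5)
    (ht : t ∈ Icc (-1 : ℝ) 5) : |P s - P t - (s - t)| ≤ 6 / 100000 := by
  have h := (convex_Icc (-1 : ℝ) 5).norm_image_sub_le_of_norm_hasDerivWithin_le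
    (f := fun x => P x - x) (f' := fun x => P' x - 1) (C := 1 / 100000)
    (fun x hx => ((hd x hx).sub (hasDerivAt_id x)).hasDerivWithinAt) (fun x hx => hb x hx) ht hs
  rw [Real.norm_eq_abs, Real.norm_eq_abs] at h
  have h2 : |s - t| ≤ 6 := abs_le.2 ⟨by linarith [hs.1, ht.2], by linarith [hs.2, ht.1]⟩
  have e : P s - P t - (s - t) = P s - s - (P t - t) := by ring
  rw [e]
  linarith

theorem cos_ge_HoleD {p : ℝ} {a : ℤ} {j : ℕ} (h : |p - a - j / 2| ≤ 1 / 25) :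
    96 / 100 ≤ (-1) ^ j * Real.cos (2 * Real.pi * p) := by
  have e : 2 * Real.pi * p = (2 * Real.pi * (p - a - j / 2) + j * Real.pi) + a * (2 * Real.pi) := by
    ring
  rw [e, Real.cos_add_int_mul_two_pi, Real.cos_add_nat_mul_pi, ← mul_assoc, ← mul_pow]
  have h1 := Real.one_sub_sq_div_two_le_cos (x := 2 * Real.pi * (p - a - j / 2))
  have h2 : |2 * Real.pi * (p - a - j / 2)| ≤ 26 / 100 := by
    rw [abs_mul, abs_of_pos (by positivity : 0 < 2 * Real.pi)]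
    nlinarith [Real.pi_lt_d2, abs_nonneg (p - a - j / 2), Real.pi_pos]
  have h3 := sq_le_sq' (abs_le.1 h2).1 (abs_le.1 h2).2
  norm_num
  linarith

theorem cos_add_HoleD {p q : ℝ} {n : ℤ} (h : |p - q - 1 / 2 - n| ≤ 27 / 10000) :
    |Real.cos (2 * Real.pi * p) + Real.cos (2 * Real.pi * q)| ≤ 17 / 1000 := by
  have e : Real.cos (2 * Real.pi * q) =
      -Real.cos (2 * Real.pi * q + Real.pi + n * (2 * Real.pi)) := by
    rw [Real.cos_add_int_mul_two_pi, Real.cos_add_pi, neg_neg]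
  rw [e, ← sub_eq_add_neg]
  refine (Real.abs_cos_sub_cos_le _ _).trans ?_
  have e2 : 2 * Real.pi * p - (2 * Real.pi * q + Real.pi + n * (2 * Real.pi)) =
      2 * Real.pi * (p - q - 1 / 2 - n) := by ring
  rw [e2, abs_mul, abs_of_pos (by positivity : 0 < 2 * Real.pi)]
  nlinarith [Real.pi_lt_d4, abs_nonneg (p - q - 1 / 2 - n), Real.pi_pos]

theorem deriv_HoleD {k s p' p0' : ℝ} {P P0 : ℝ → ℝ} (h : HasDerivAt P p' s)
    (h0 : HasDerivAt P0 p0' s) : HasDerivAt (nxt k P P0)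
      (2 * p' - p0' + 2 * Real.pi * k * (Real.cos (2 * Real.pi * P s) * p')) s := by
  have h1 := ((h.const_mul 2).sub h0).add (((h.const_mul (2 * Real.pi)).sin).const_mul k)
  refine h1.congr_deriv ?_
  ring

theorem slope_HoleD {K sg cp cq p q p0 q0 : ℝ} (hK : 10000 ≤ K) (hsg : sg = 1 ∨ sg = -1)
    (h1 : 96 / 100 ≤ sg * cp) (hc : |cp| ≤ 1) (hc' : |cq| ≤ 1) (h2 : |cp + cq| ≤ 17 / 1000)
    (hp : |p - 1| ≤ 1 / 100000) (hq : |q - 1| ≤ 1 / 100000) (hp0 : |p0| ≤ 1) (hq0 : |q0| ≤ 1) :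
    (85 / 100 * K ≤ sg * (2 * p - p0 + K * (cp * p)) ∧
      |2 * p - p0 + K * (cp * p)| ≤ 101 / 100 * K) ∧
    |2 * p - p0 + K * (cp * p) + (2 * q - q0 + K * (cq * q))| ≤ K / 50 := by
  have a1 : |cp * (p - 1)| ≤ 1 / 100000 := by
    rw [abs_mul]; nlinarith [abs_nonneg cp, abs_nonneg (p - 1)]
  have a2 : |cq * (q - 1)| ≤ 1 / 100000 := by
    rw [abs_mul]; nlinarith [abs_nonneg cq, abs_nonneg (q - 1)]
  obtain ⟨u, hu⟩ : ∃ u, u = cp * (p - 1) := ⟨_, rfl⟩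
  obtain ⟨v, hv⟩ : ∃ v, v = cq * (q - 1) := ⟨_, rfl⟩
  have e1 : cp * p = cp + u := by rw [hu]; ring
  have e2 : cq * q = cq + v := by rw [hv]; ring
  rw [← hu] at a1
  rw [← hv] at a2
  rw [e1, e2]
  rw [abs_le] at hc hc' h2 hp hq hp0 hq0 a1 a2
  refine ⟨⟨?_, ?_⟩, ?_⟩
  · rcases hsg with rfl | rfl <;> nlinarith
  · rw [abs_le]; constructor <;> nlinarith
  · rw [abs_le]; constructor <;> nlinarith

theorem point_HoleD {k sb t : ℝ} {P Q P0 Q0 P' Q' P0' Q0' : ℝ → ℝ} (hK : 10000 ≤ 2 * Real.pi * k)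
    (dP : ∀ s ∈ Icc (-1 : ℝ) 5, HasDerivAt P (P' s) s)
    (dQ : ∀ s ∈ Icc (-1 : ℝ) 5, HasDerivAt Q (Q' s) s)
    (dP0 : ∀ s ∈ Icc (-1 : ℝ) 5, HasDerivAt P0 (P0' s) s)
    (dQ0 : ∀ s ∈ Icc (-1 : ℝ) 5, HasDerivAt Q0 (Q0' s) s)
    (bP : ∀ s ∈ Icc (-1 : ℝ) 5, |P' s - 1| ≤ 1 / 100000)
    (bQ : ∀ s ∈ Icc (-1 : ℝ) 5, |Q' s - 1| ≤ 1 / 100000)
    (bP0 : ∀ s ∈ Icc (-1 : ℝ) 5, |P0' s| ≤ 1) (bQ0 : ∀ s ∈ Icc (-1 : ℝ) 5, |Q0' s| ≤ 1)
    {n a : ℤ} (hn : |P 0 - Q 0 - 1 / 2 - n| < 1 / 400) (h1 : 1 / 100 ≤ sb) (h2 : sb ≤ 11 / 10)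
    (ha : |P sb - a| ≤ 1 / 30) (ht : t ∈ Icc sb (sb + 1 / 320)) {j : ℕ} (hj : j ≤ 3)
    (hm : ∀ m : ℤ, 1 / 32 < |nxt k P P0 (t + j / 2) + nxt k Q Q0 (t + j / 2) - 1 / 2 - m|) :
    ∃ s, |s - (t + j / 2)| ≤ 3 / (10 * (2 * Real.pi * k)) ∧
      ∀ s', |s' - s| ≤ 1 / (10000 * (2 * Real.pi * k)) → Gd (nxt k P P0 s') (nxt k Q Q0 s') ∧
        4 / 5 ≤ |Real.cos (2 * Real.pi * P s')| ∧ 4 / 5 ≤ |Real.cos (2 * Real.pi * Q s')| := by
  obtain ⟨K, hKe⟩ : ∃ K, K = 2 * Real.pi * k := ⟨_, rfl⟩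
  have hK' : 10000 ≤ K := hKe ▸ hK
  have hK0 : 0 < K := by linarith
  have hi : 1 / K ≤ 1 / 10000 := one_div_le_one_div_of_le (by norm_num) hK'
  have hj' : (j : ℝ) ≤ 3 := by exact_mod_cast hj
  have hj0 : (0 : ℝ) ≤ j := Nat.cast_nonneg j
  have hsg : (-1 : ℝ) ^ j = 1 ∨ (-1 : ℝ) ^ j = -1 := neg_one_pow_eq_or ℝ j
  have key : ∀ s ∈ Icc (t + j / 2 - 1 / K) (t + j / 2 + 1 / K), s ∈ Icc (-1 : ℝ) 5 ∧
      96 / 100 ≤ (-1) ^ j * Real.cos (2 * Real.pi * P s) ∧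
      |Real.cos (2 * Real.pi * P s) + Real.cos (2 * Real.pi * Q s)| ≤ 17 / 1000 := by
    intro s hs
    have hs' : s ∈ Icc (-1 : ℝ) 5 := ⟨by linarith [hs.1, ht.1], by linarith [hs.2, ht.2]⟩
    have m1 := abs_le.1 (mvt_HoleD dP bP hs' (t := sb) ⟨by linarith, by linarith⟩)
    have m2 := abs_le.1 (mvt_HoleD dP bP hs' (t := 0) ⟨by norm_num, by norm_num⟩)
    have m3 := abs_le.1 (mvt_HoleD dQ bQ hs' (t := 0) ⟨by norm_num, by norm_num⟩)
    have m4 := abs_le.1 ha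
    have m5 := abs_lt.1 hn
    refine ⟨hs', cos_ge_HoleD (a := a) (abs_le.2 ⟨?_, ?_⟩), cos_add_HoleD (n := n) (abs_le.2 ⟨?_, ?_⟩)⟩
    · linarith [hs.1, ht.1]
    · linarith [hs.2, ht.2]
    · linarith
    · linarith
  have sl : ∀ s ∈ Icc (t + j / 2 - 1 / K) (t + j / 2 + 1 / K), _ := fun s hs =>
    slope_HoleD hK' hsg (key s hs).2.1 (Real.abs_cos_le_one _) (Real.abs_cos_le_one _)
      (key s hs).2.2 (bP s (key s hs).1) (bQ s (key s hs).1) (bP0 s (key s hs).1)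
      (bQ0 s (key s hs).1)
  obtain ⟨s, hs, hg⟩ := local_good (F := nxt k P P0) (H := nxt k Q Q0)
    (F' := fun s => 2 * P' s - P0' s + K * (Real.cos (2 * Real.pi * P s) * P' s))
    (H' := fun s => 2 * Q' s - Q0' s + K * (Real.cos (2 * Real.pi * Q s) * Q' s)) hK0 hsg
    (fun s hs => hKe ▸ deriv_HoleD (dP s (key s hs).1) (dP0 s (key s hs).1))
    (fun s hs => hKe ▸ deriv_HoleD (dQ s (key s hs).1) (dQ0 s (key s hs).1))
    (fun s hs => (sl s hs).1) (fun s hs => (sl s hs).2) hm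
  rw [← hKe]
  refine ⟨s, hs, fun s' hs' => ⟨hg s' hs', ?_⟩⟩
  have e1 : 3 / (10 * K) = 3 / 10 * (1 / K) := by field_simp
  have e2 : 1 / (10000 * K) = 1 / 10000 * (1 / K) := by field_simp
  have hp : 0 < 1 / K := by positivity
  rw [e1, abs_le] at hs
  rw [e2, abs_le] at hs'
  obtain ⟨-, k1, k2⟩ := key s' ⟨by linarith, by linarith⟩
  rw [abs_le] at k2
  rcases hsg with h | h <;> rw [h] at k1
  · exact ⟨le_abs.2 (Or.inl (by linarith)), le_abs.2 (Or.inr (by linarith))⟩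
  · exact ⟨le_abs.2 (Or.inr (by linarith)), le_abs.2 (Or.inl (by linarith))⟩

theorem gap_HoleD {K sb x y : ℝ} (hK : 10000 ≤ K) {a b i j : ℕ} (hab : a ≠ b)
    (ha : (a : ℝ) < K / 1280) (hb : (b : ℝ) < K / 1280)
    (hx : |x - (sb + 4 * a / K + i / 2)| ≤ 3 / (10 * K))
    (hy : |y - (sb + 4 * b / K + j / 2)| ≤ 3 / (10 * K)) : 1 / K < |x - y| := by
  have hK0 : 0 < K := by linarith
  have hi : 1 / K ≤ 1 / 10000 := one_div_le_one_div_of_le (by norm_num) hK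
  have hp : 0 < 1 / K := by positivity
  have e1 : 3 / (10 * K) = 3 / 10 * (1 / K) := by field_simp
  have ea : 4 * (a : ℝ) / K = 4 * (a * (1 / K)) := by ring
  have eb : 4 * (b : ℝ) / K = 4 * (b * (1 / K)) := by ring
  have a1 : (a : ℝ) * (1 / K) ≤ 1 / 1280 := by
    rw [mul_one_div, div_le_iff₀ hK0]; linarith
  have b1 : (b : ℝ) * (1 / K) ≤ 1 / 1280 := by
    rw [mul_one_div, div_le_iff₀ hK0]; linarith
  have a0 : 0 ≤ (a : ℝ) * (1 / K) := by positivity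
  have b0 : 0 ≤ (b : ℝ) * (1 / K) := by positivity
  rw [e1, ea, abs_le] at hx
  rw [e1, eb, abs_le] at hy
  rcases lt_trichotomy i j with h | h | h
  · have : (i : ℝ) + 1 ≤ j := by exact_mod_cast h
    exact lt_abs.2 (Or.inr (by linarith))
  · subst h
    rcases lt_or_gt_of_ne hab with h | h
    · have h' : (a : ℝ) + 1 ≤ b := by exact_mod_cast h
      have := mul_le_mul_of_nonneg_right h' hp.le
      exact lt_abs.2 (Or.inr (by linarith))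
    · have h' : (b : ℝ) + 1 ≤ a := by exact_mod_cast h
      have := mul_le_mul_of_nonneg_right h' hp.le
      exact lt_abs.2 (Or.inl (by linarith))
  · have : (j : ℝ) + 1 ≤ i := by exact_mod_cast h
    exact lt_abs.2 (Or.inl (by linarith))

theorem pack_HoleD {k sb : ℝ} {P Q P0 Q0 : ℝ → ℝ} (hK : 10000 ≤ 2 * Real.pi * k)
    (h1 : 1 / 100 ≤ sb) (h2 : sb ≤ 11 / 10)
    (h : ∀ t ∈ Icc sb (sb + 1 / 320), ∃ j : ℕ, j ≤ 3 ∧
      ∃ s, |s - (t + j / 2)| ≤ 3 / (10 * (2 * Real.pi * k)) ∧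
      ∀ s', |s' - s| ≤ 1 / (10000 * (2 * Real.pi * k)) → Gd (nxt k P P0 s') (nxt k Q Q0 s') ∧
        4 / 5 ≤ |Real.cos (2 * Real.pi * P s')| ∧ 4 / 5 ≤ |Real.cos (2 * Real.pi * Q s')|) :
    HoleII k (1 / 100000000) P Q P0 Q0 := by
  have hL : Lam k = 2 * (2 * Real.pi * k) + 4 := by rw [Lam]; ring
  obtain ⟨K, hKe⟩ : ∃ K, K = 2 * Real.pi * k := ⟨_, rfl⟩
  rw [← hKe] at hK h hL
  have hK0 : 0 < K := by linarith
  have hi : 1 / K ≤ 1 / 10000 := one_div_le_one_div_of_le (by norm_num) hK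
  have hp : 0 < 1 / K := by positivity
  obtain ⟨d, hd⟩ : ∃ d, d = 1 / (10000 * Lam k) := ⟨_, rfl⟩
  have hd0 : 0 < d := by rw [hd, hL]; positivity
  have hd1 : 2 * d ≤ 1 / (10000 * K) := by
    rw [hd, hL, mul_one_div, div_le_div_iff₀ (by positivity) (by positivity)]; linarith
  have hd2 : 1 / (30000 * K) ≤ d := by
    rw [hd, hL]; exact one_div_le_one_div_of_le (by positivity) (by linarith)
  have e1 : 3 / (10 * K) = 3 / 10 * (1 / K) := by field_simp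
  have e2 : 1 / (10000 * K) = 1 / 10000 * (1 / K) := by field_simp
  have hmem : ∀ a : ℕ, a < ⌈K / 1280⌉₊ → sb + 4 * a / K ∈ Icc sb (sb + 1 / 320) := by
    intro a ha
    have ha' : (a : ℝ) < K / 1280 := Nat.lt_ceil.1 ha
    refine ⟨le_add_of_nonneg_right (by positivity), add_le_add_right ?_ _⟩
    rw [div_le_iff₀ hK0]; linarith
  choose! j hj s hs hg using fun a ha => h _ (hmem a ha)
  obtain ⟨v1, v2⟩ := vol_points hd0 ⌈K / 1280⌉₊ s fun a b ha hb hab => by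
    have := gap_HoleD hK hab (Nat.lt_ceil.1 ha) (Nat.lt_ceil.1 hb) (hs a ha) (hs b hb)
    linarith
  refine ⟨_, v1, ?_, (ENNReal.ofReal_le_ofReal ?_).trans v2, ?_⟩
  · intro x hx
    simp only [mem_iUnion, Finset.mem_range] at hx
    obtain ⟨a, ha, hx⟩ := hx
    have k1 := hs a ha
    have k2 := hmem a ha
    have k3 : (j a : ℝ) ≤ 3 := by exact_mod_cast hj a ha
    have k4 : (0 : ℝ) ≤ j a := Nat.cast_nonneg _
    rw [e1, abs_le] at k1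
    exact ⟨by linarith [hx.1, k2.1], by linarith [hx.2, k2.2]⟩
  · have k1 := Nat.le_ceil (K / 1280)
    have k2 : 1 / (30000 * K) * (K / 1280) = 1 / 38400000 := by field_simp; norm_num
    have k3 := mul_le_mul hd2 k1 (by positivity) hd0.le
    linarith
  · intro x hx s' hs'
    simp only [mem_iUnion, Finset.mem_range] at hx
    obtain ⟨a, ha, hx⟩ := hx
    rw [← hd, abs_le] at hs'
    exact hg a ha s' (abs_le.2 ⟨by linarith [hx.1], by linarith [hx.2]⟩)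

theorem holeD : ∃ c : ℝ, 0 < c ∧ ∃ μ0 : ℝ, ∀ (k μ ρ : ℝ) (P Q P0 Q0 P' Q' P0' Q0' : ℝ → ℝ),
    0 < k → μ0 ≤ μ → μ ^ 100 = Lam k → ρ ≤ 1 → 1 - ρ ≤ 1 / μ ^ 40 →
    HoleData μ ρ P Q P0 Q0 P' Q' P0' Q0' → (∃ n : ℤ, |P 0 - Q 0 - 1 / 2 - n| < 1 / 400) →
    (∀ s ∈ Icc (0 : ℝ) 2, |k * tri P s| ≤ 1 / μ ^ 10 ∧ |k * tri Q s| ≤ 1 / μ ^ 10) →
    HoleII k c P Q P0 Q0 := by
  obtain ⟨μ1, hu⟩ := unlock
  refine ⟨1 / 100000000, by norm_num, max μ1 10, ?_⟩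
  intro k μ ρ P Q P0 Q0 P' Q' P0' Q0' hk hμ hL hρ hρ' hD ⟨n, hn⟩ htri
  have hμ2 : 10 ≤ μ := (le_max_right _ _).trans hμ
  obtain ⟨sb, h1, h2, ⟨a, ha⟩, hs⟩ :=
    hu k μ ρ P Q P0 Q0 P' Q' P0' Q0' ((le_max_left _ _).trans hμ) hρ hρ' hD htri
  have hpow : ∀ m : ℕ, 7 ≤ m → (10000000 : ℝ) ≤ μ ^ m := fun m hm =>
    calc (10000000 : ℝ) = 10 ^ 7 := by norm_num
      _ ≤ μ ^ 7 := pow_le_pow_left₀ (by norm_num) hμ2 7
      _ ≤ μ ^ m := pow_le_pow_right₀ (by linarith) hm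
  have hK : 10000 ≤ 2 * Real.pi * k := by
    have := hpow 100 (by norm_num)
    rw [hL, Lam] at this
    linarith
  have hsub : ∀ s ∈ Icc (-1 : ℝ) 5, s ∈ Icc (-1 : ℝ) (μ ^ 60) := fun s hs =>
    ⟨hs.1, by linarith [hs.2, hpow 60 (by norm_num)]⟩
  have h90 : 1 / μ ^ 90 ≤ 1 / 10000000 :=
    one_div_le_one_div_of_le (by norm_num) (hpow 90 (by norm_num))
  have h40 : 1 / μ ^ 40 ≤ 1 / 10000000 :=
    one_div_le_one_div_of_le (by norm_num) (hpow 40 (by norm_num))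
  have hdiv : ∀ s ∈ Icc (-1 : ℝ) 5, |s| / μ ^ 90 ≤ 5 / 10000000 ∧ 0 ≤ |s| / μ ^ 90 := fun s hs => by
    have h5 : |s| ≤ 5 := abs_le.2 ⟨by linarith [hs.1], hs.2⟩
    refine ⟨?_, by positivity⟩
    rw [← mul_one_div]
    nlinarith [abs_nonneg s, (by positivity : 0 ≤ 1 / μ ^ 90)]
  refine pack_HoleD hK h1 h2 fun t ht => ?_
  obtain ⟨j, hj, hm⟩ := hs t ht
  refine ⟨j, hj, point_HoleD hK (fun s hs => hD.dP s (hsub s hs)) (fun s hs => hD.dQ s (hsub s hs))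
    (fun s hs => hD.dP0 s (hsub s hs)) (fun s hs => hD.dQ0 s (hsub s hs)) (fun s hs => ?_)
    (fun s hs => ?_) (fun s hs => ?_) (fun s hs => ?_) hn h1 h2 ha ht hj hm⟩
  · linarith [hD.bP s (hsub s hs), (hdiv s hs).1]
  · have k1 := hD.bQ s (hsub s hs)
    rw [mul_div_assoc, abs_le] at k1
    have k2 := mul_le_mul_of_nonneg_right hρ (hdiv s hs).2
    rw [abs_le]
    constructor <;> linarith [(hdiv s hs).1]
  · linarith [hD.bP0 s (hsub s hs)]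
  · linarith [hD.bQ0 s (hsub s hs)]

end Vale.Agent.P108
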