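import Vale.Agent.P108.HoleA
import Vale.Agent.P108.HoleD

/-!
P108 HoleC: ratio close to one.  D = P - Q moves by at most 20 / mu^40 on [-1, 5].
holeC (unlocked): D 0 = n + d with |d| <= 1/2 - 1/400.  IVT gives s in [1/2, 3/2] with
P s = a / 2 + d / 2; then Q s = a / 2 - n - d / 2 + o(1); gd_of_near on [s - 2/10000, s + 2/10000].
R = 2.
holeD (locked): K = 2 pi k, Lam k = 2 K + 4, ph = nxt P + nxt Q.
S s = ph s + 3 ph (s+1/2) + 3 ph (s+1) + ph (s+3/2) = C0 + 32 s + e s with |e| <= 1/100 on [0, 2]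
(tri bounds and the slopes of P, Q, P0, Q0).  Take sa in [1/100, 1 + 1/50] with P sa an integer and
sb in [sa, sa + 1/32] with C0 + 32 sb in 1/2 + Z.  For s in [sb, sb + 1/320] the number S s is at
distance > 1/4 from Z, so for some j <= 3 ph (s + j/2) is at distance > 1/32 from 1/2 + Z.
Near sb + j/2 (within 1/100) |cos 2 pi P| >= 0.9 and |cos 2 pi Q| >= 0.85, the slope of nxt P is
pot k (P) P' - P0', of constant sign and size in [0.85 K, 1.01 K], the slope of nxt Q has size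
<= 1.01 K and the slope of ph has size <= K / 50.  For s_n = sb + 4 n / K, n < K / 1280, put
sig = s_n + j(n)/2, ph sig = m + d with |d| <= 1/2 - 1/32, and find by IVT s* within 0.3 / K of
sig with nxt P s* = a/2 + d/2; then - nxt Q = nxt P - ph is within 1/4 - 1/64 + 0.007 of
a/2 - m.  gd_of_near and gd_neg_right on [s* - 2 / (10000 Lam), s* + 2 / (10000 Lam)], vol_points.
-/

namespace Vale.Agent.P108

open MeasureTheory Set

theorem lin_HoleC {F F' : ℝ → ℝ} (hd : ∀ s ∈ Icc (-1 : ℝ) 3, HasDerivAt F (F' s) s)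
    (hb : ∀ s ∈ Icc (-1 : ℝ) 3, |F' s - 1| ≤ 1 / 10 ^ 6) (x : ℝ) (hx : x ∈ Icc (-1 : ℝ) 3) (y : ℝ)
    (hy : y ∈ Icc (-1 : ℝ) 3) : |F x - x - (F y - y)| ≤ 4 / 10 ^ 6 := by
  have h := (convex_Icc (-1 : ℝ) 3).norm_image_sub_le_of_norm_hasDerivWithin_le
    (f := fun s => F s - s) (fun s hs => ((hd s hs).sub (hasDerivAt_id s)).hasDerivWithinAt) hb hy hx
  have h2 : ‖x - y‖ ≤ 4 := abs_le.2 ⟨by linarith [hx.1, hy.2], by linarith [hx.2, hy.1]⟩
  exact h.trans (by linarith)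

theorem holeC : ∃ c : ℝ, 0 < c ∧ ∃ μ0 : ℝ, ∀ (μ ρ : ℝ) (P Q P0 Q0 P' Q' P0' Q0' : ℝ → ℝ),
    μ0 ≤ μ → ρ ≤ 1 → 1 - ρ ≤ 1 / μ ^ 40 → HoleData μ ρ P Q P0 Q0 P' Q' P0' Q0' →
    (∀ n : ℤ, 1 / 400 ≤ |P 0 - Q 0 - 1 / 2 - n|) → HoleI μ c P Q := by
  refine ⟨1 / 10000, by norm_num, 10, fun μ ρ P Q P0 Q0 P' Q' P0' Q0' hμ h1 h2 H hn => ?_⟩
  have big : ∀ m : ℕ, 7 ≤ m → (10 : ℝ) ^ 7 ≤ μ ^ m := fun m hm =>
    (pow_le_pow_left₀ (by norm_num) hμ 7).trans (pow_le_pow_right₀ (by linarith) hm)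
  have b40 : 1 / μ ^ 40 ≤ 1 / 10 ^ 7 := one_div_le_one_div_of_le (by norm_num) (big 40 (by norm_num))
  have sub : Icc (-1 : ℝ) 3 ⊆ Icc (-1) (μ ^ 60) :=
    Icc_subset_Icc_right (by linarith [big 60 (by norm_num)])
  have b90 : ∀ s ∈ Icc (-1 : ℝ) 3, |s| / μ ^ 90 ≤ 3 / 10 ^ 7 := fun s hs =>
    div_le_div₀ (by norm_num) (abs_le.2 ⟨by linarith [hs.1], hs.2⟩) (by norm_num)
      (big 90 (by norm_num))
  have hP := lin_HoleC (fun s hs => H.dP s (sub hs)) fun s hs =>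
    (H.bP s (sub hs)).trans ((b90 s hs).trans (by norm_num))
  have hQ := lin_HoleC (fun s hs => H.dQ s (sub hs)) fun s hs => by
    have a1 := H.bQ s (sub hs)
    have a2 := mul_le_of_le_one_left (show 0 ≤ |s| / μ ^ 90 by positivity) h1
    rw [mul_div_assoc] at a1
    have a3 := abs_le.1 (a1.trans (a2.trans (b90 s hs)))
    exact abs_le.2 ⟨by linarith, by linarith⟩
  obtain ⟨n, d, hd, e⟩ : ∃ (n : ℤ) (d : ℝ), |d| ≤ 1 / 2 - 1 / 400 ∧ P 0 - Q 0 = n + d := by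
    refine ⟨round (P 0 - Q 0), P 0 - Q 0 - round (P 0 - Q 0), ?_, by ring⟩
    have a1 := abs_le.1 (abs_sub_round (P 0 - Q 0))
    have a2 := le_abs.1 (hn (round (P 0 - Q 0)))
    have a3 := le_abs.1 (hn (round (P 0 - Q 0) - 1))
    push_cast at a3
    rw [abs_le]
    constructor <;> [rcases a3 with a | a; rcases a2 with a | a] <;> linarith
  have c1 := Int.le_ceil (2 * P (1 / 2) - d)
  have c2 := Int.ceil_lt_add_one (2 * P (1 / 2) - d)
  generalize ⌈2 * P (1 / 2) - d⌉ = a at c1 c2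
  have c3 := abs_le.1 (hP (3 / 2) ⟨by norm_num, by norm_num⟩ (1 / 2) ⟨by norm_num, by norm_num⟩)
  obtain ⟨s, hs, es⟩ := intermediate_value_Icc (f := P) (show (1 / 2 : ℝ) ≤ 3 / 2 by norm_num)
    (fun s hs => (H.dP s (sub ⟨by linarith [hs.1], by linarith [hs.2]⟩)).continuousAt.continuousWithinAt)
    (show (a : ℝ) / 2 + d / 2 ∈ Icc (P (1 / 2)) (P (3 / 2)) from ⟨by linarith, by linarith⟩)
  refine ⟨2, one_le_two, by linarith [big 57 (by norm_num)], Icc (s - 1 / 10000) (s + 1 / 10000),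
    measurableSet_Icc, Icc_subset_Icc (by linarith [hs.1]) (by linarith [hs.2]), ?_,
    fun t ht s' hs' => ?_⟩
  · rw [Real.volume_Icc]
    exact ENNReal.ofReal_le_ofReal (by linarith)
  · have a1 := abs_le.1 hs'
    have a2 := abs_le.1 hd
    have m0 : (0 : ℝ) ∈ Icc (-1 : ℝ) 3 := ⟨by norm_num, by norm_num⟩
    have m1 : s ∈ Icc (-1 : ℝ) 3 := ⟨by linarith [hs.1], by linarith [hs.2]⟩
    have m2 : s' ∈ Icc (-1 : ℝ) 3 := ⟨by linarith [hs.1, ht.1], by linarith [hs.2, ht.2]⟩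
    have a3 := abs_le.1 (hP s' m2 s m1)
    have a4 := abs_le.1 (hP s m1 0 m0)
    have a5 := abs_le.1 (hQ s' m2 0 m0)
    refine gd_of_near (a := a) (n := -n) (abs_le.2 ⟨?_, ?_⟩) (abs_le.2 ⟨?_, ?_⟩) <;> push_cast <;>
      linarith [ht.1, ht.2]

end Vale.Agent.P108
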