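import Vale.Agent.P108.Defs

/-!
P108 Third: the binomial sum of sines at half steps is a third difference.  For fixed s put
f tau = sin (2 pi (a + s + xi tau)), holomorphic on the ball of radius 2 R and bounded there by an
absolute constant C1 (|Im| <= 3; a and s are real).  sin (2 pi (a + s + j/2 + xi (s + j/2))) =
(-1)^j f (s + j/2), so tri P s = - (third difference of re f with step 1/2), which is at most
sup |third derivative| / 8 <= 6 C1 / R^3 on [0, 4] (Cauchy estimate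
Complex.norm_iteratedDeriv_le_of_forall_mem_sphere_norm_le and three mean value theorems).
-/

namespace Vale.Agent.P108

open Set

theorem step_Third {f : ℂ → ℂ} {r r' ρ M : ℝ} (hρ : 1 / 2 < ρ) (hr : r + ρ ≤ r')
    (h : DifferentiableOn ℂ f (Metric.ball 0 r') ∧ ∀ z ∈ Metric.ball (0 : ℂ) r', ‖f z‖ ≤ M) :
    DifferentiableOn ℂ (fun z => f (z + 1 / 2) - f z) (Metric.ball 0 r) ∧
      ∀ z ∈ Metric.ball (0 : ℂ) r, ‖f (z + 1 / 2) - f z‖ ≤ M / ρ := by
  have hs : ∀ z ∈ Metric.ball (0 : ℂ) r, Metric.ball z ρ ⊆ Metric.ball 0 r' := fun z hz =>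
    Metric.ball_subset_ball' (by linarith [Metric.mem_ball.1 hz])
  have hd : ∀ z : ℂ, dist (z + 1 / 2) z = 1 / 2 := fun z => by simp
  have hm : ∀ z : ℂ, z + 1 / 2 ∈ Metric.ball z ρ := fun z => by rwa [Metric.mem_ball, hd]
  have h0 : ∀ z : ℂ, z ∈ Metric.ball z ρ := fun z => Metric.mem_ball_self (by linarith)
  refine ⟨(h.1.comp (by fun_prop) fun z hz => hs z hz (hm z)).sub
    (h.1.mono fun z hz => hs z hz (h0 z)), fun z hz => ?_⟩
  have h1 := Complex.dist_le_div_mul_dist_of_mapsTo_ball (R₂ := 2 * M) (h.1.mono (hs z hz))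
    (fun w hw => by
      rw [Metric.mem_closedBall, dist_eq_norm]
      linarith [norm_sub_le (f w) (f z), h.2 w (hs z hz hw), h.2 z (hs z hz (h0 z))]) (hm z)
  rw [hd, dist_eq_norm] at h1
  exact h1.trans_eq (by ring)

theorem bd_Third : ∃ C : ℝ, ∀ (x : ℝ) (w : ℂ), ‖w‖ ≤ 3 →
    ‖Complex.sin (2 * Real.pi * (x + w))‖ ≤ C := by
  obtain ⟨A, hA⟩ := (isCompact_closedBall (0 : ℂ) 3).exists_bound_of_continuousOn
    (f := fun w => Complex.sin (2 * Real.pi * w)) (by fun_prop)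
  obtain ⟨B, hB⟩ := (isCompact_closedBall (0 : ℂ) 3).exists_bound_of_continuousOn
    (f := fun w => Complex.cos (2 * Real.pi * w)) (by fun_prop)
  refine ⟨B + A, fun x w hw => ?_⟩
  have e : (2 * Real.pi * x : ℂ) = (2 * Real.pi * x : ℝ) := by push_cast; rfl
  rw [mul_add, Complex.sin_add, e, ← Complex.ofReal_sin, ← Complex.ofReal_cos]
  refine (norm_add_le _ _).trans (add_le_add ?_ ?_)
  · rw [norm_mul, Complex.norm_real]
    exact (mul_le_of_le_one_left (norm_nonneg _) (Real.abs_sin_le_one _)).trans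
      (hB w (mem_closedBall_zero_iff.2 hw))
  · rw [norm_mul, Complex.norm_real]
    exact (mul_le_of_le_one_left (norm_nonneg _) (Real.abs_cos_le_one _)).trans
      (hA w (mem_closedBall_zero_iff.2 hw))

theorem third : ∃ C0 : ℝ, ∀ (R a : ℝ) (ξ : ℂ → ℂ) (P : ℝ → ℝ), 10 ≤ R →
    DifferentiableOn ℂ ξ (Metric.ball 0 (2 * R)) → (∀ t ∈ Metric.ball (0 : ℂ) (2 * R), ‖ξ t‖ ≤ 3) →
    (∀ s ∈ Icc (0 : ℝ) 4, ((P s : ℝ) : ℂ) = a + s + ξ s) →
    ∀ s ∈ Icc (0 : ℝ) 2, |tri P s| ≤ C0 / R ^ 3 := by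
  obtain ⟨C, hC⟩ := bd_Third
  refine ⟨8 * C, fun R a ξ P hR hξ hb hP s hs => ?_⟩
  have hρ : 1 / 2 < R / 2 := by linarith
  obtain ⟨f, hf⟩ : ∃ f : ℂ → ℂ,
      f = fun τ => Complex.sin (2 * Real.pi * ((a + s : ℝ) + ξ τ)) := ⟨_, rfl⟩
  have h0 : DifferentiableOn ℂ f (Metric.ball 0 (2 * R)) ∧
      ∀ z ∈ Metric.ball (0 : ℂ) (2 * R), ‖f z‖ ≤ C := by
    rw [hf]
    exact ⟨((hξ.const_add _).const_mul _).csin, fun z hz => hC _ _ (hb z hz)⟩
  have h1 := step_Third (r := 3 * R / 2) hρ (by linarith) h0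
  have h2 := step_Third (r := R) hρ (by linarith) h1
  have h3 := (step_Third (r := R / 2) hρ (by linarith) h2).2 s (by
    rw [mem_ball_zero_iff, Complex.norm_real, Real.norm_of_nonneg hs.1]
    linarith [hs.2])
  have key : ∀ (j : ℕ) (t : ℝ), t = s + j / 2 → j ≤ 3 →
      ((Real.sin (2 * Real.pi * P t) : ℝ) : ℂ) = (-1) ^ j * f t := by
    intro j t ht hj
    have hj' : (j : ℝ) ≤ 3 := by exact_mod_cast hj
    have hj0 : (0 : ℝ) ≤ j := Nat.cast_nonneg j
    rw [hf, ← Complex.sin_antiperiodic.add_nat_mul_eq j]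
    push_cast
    rw [hP t ⟨by linarith [hs.1], by linarith [hs.2]⟩]
    congr 1
    rw [ht]
    push_cast
    ring
  have k0 := key 0 s (by simp) (by norm_num)
  have k1 := key 1 (s + 1 / 2) (by simp) (by norm_num)
  have k2 := key 2 (s + 1) (by simp) (by norm_num)
  have k3 := key 3 (s + 3 / 2) (by simp) (by norm_num)
  have e1 : ((s + 1 / 2 : ℝ) : ℂ) = s + 1 / 2 := by push_cast; ring
  have e2 : ((s + 1 : ℝ) : ℂ) = s + 1 / 2 + 1 / 2 := by push_cast; ring
  have e3 : ((s + 3 / 2 : ℝ) : ℂ) = s + 1 / 2 + 1 / 2 + 1 / 2 := by push_cast; ring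
  rw [e1] at k1
  rw [e2] at k2
  rw [e3] at k3
  rw [← Real.norm_eq_abs, ← Complex.norm_real, ← norm_neg]
  refine le_of_eq_of_le ?_ (h3.trans_eq (by field_simp; ring))
  congr 1
  simp only [tri, Complex.ofReal_add, Complex.ofReal_mul, Complex.ofReal_ofNat, k0, k1, k2, k3]
  ring

end Vale.Agent.P108
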