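import Vale.Agent.P108.Disc
import Vale.Agent.P108.Third
import Vale.Agent.P108.HoleC

/-!
P108 Data: two chains through one base point give holes.  First chain (p, q, e1, e2) with index i,
second chain (p', q', e1', e2') with index i', M = vn v i >= M' = vn v' i' >= M / mu^55,
rho = M' / M.  With signs sx = sign of v (i+1), sy = sign of v' (i'+1) put
P s = sx * orb (p + e1 s/M) (q + e2 s/M) (i+1), P0 the same at index i, Q, Q0 for the second chain.
hasDerivAt_orb, vC_ofReal and disc_top give HoleData.  If 1 - rho <= mu^(-40), third with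
R = mu^40, xi s = sx * xC (i+1) (s/M) - P 0 - s (and the same for Q, where the linear part
(rho - 1) s is at most 2) gives the tri bounds (k <= mu^100).  Split into holeA, holeB, holeC,
holeD; nxt k P P0 s = sx * orb (..) (i+2) since sin is odd; remove the signs with gd_neg_left,
gd_neg_right and cos_neg.
-/

namespace Vale.Agent.P108

open MeasureTheory Set

theorem gd_sign_Data {a b x y : ℝ} (ha : a = 1 ∨ a = -1) (hb : b = 1 ∨ b = -1)
    (h : Gd (a * x) (b * y)) : Gd x y := by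
  rcases ha with rfl | rfl <;> rcases hb with rfl | rfl <;>
    simpa only [one_mul, neg_mul, gd_neg_left, gd_neg_right] using h

theorem cos_sign_Data {a x : ℝ} (ha : a = 1 ∨ a = -1) :
    Real.cos (2 * Real.pi * (a * x)) = Real.cos (2 * Real.pi * x) := by
  rcases ha with rfl | rfl
  · rw [one_mul]
  · rw [neg_mul, one_mul, mul_neg, Real.cos_neg]

theorem nxt_sign_Data {a : ℝ} (ha : a = 1 ∨ a = -1) (k : ℝ) (x y : ℝ → ℝ) (i : ℕ) (s : ℝ) :
    nxt k (fun s => a * orb k (x s) (y s) (i + 1)) (fun s => a * orb k (x s) (y s) i) s =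
      a * orb k (x s) (y s) (i + 2) := by
  rcases ha with rfl | rfl
  · simp only [nxt, orb, one_mul]
  · simp only [nxt, orb, neg_mul, one_mul, mul_neg, Real.sin_neg]
    ring

theorem holeI_mono_Data {μ c c' a b : ℝ} {P Q : ℝ → ℝ} (ha : a = 1 ∨ a = -1)
    (hb : b = 1 ∨ b = -1) (hc : c' ≤ c)
    (h : HoleI μ c (fun s => a * P s) (fun s => b * Q s)) : HoleI μ c' P Q := by
  obtain ⟨R, h1, h2, G, hG, hs, hv, hg⟩ := h
  refine ⟨R, h1, h2, G, hG, hs, le_trans (ENNReal.ofReal_le_ofReal ?_) hv, fun s h s' h' =>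
    gd_sign_Data ha hb (hg s h s' h')⟩
  exact mul_le_mul_of_nonneg_right hc (by linarith)

theorem sign_Data {x N : ℝ} (h : |x| = N) : ∃ a : ℝ, (a = 1 ∨ a = -1) ∧ a * x = N := by
  rcases le_total 0 x with h0 | h0
  · exact ⟨1, Or.inl rfl, by rw [← h, abs_of_nonneg h0, one_mul]⟩
  · exact ⟨-1, Or.inr rfl, by rw [← h, abs_of_nonpos h0]; ring⟩

theorem abs_sign_Data {a : ℝ} (ha : a = 1 ∨ a = -1) : |a| = 1 := by
  rcases ha with rfl | rfl <;> simp

theorem deriv_Data (a k p q e1 e2 M : ℝ) (j : ℕ) (s : ℝ) :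
    HasDerivAt (fun s => a * orb k (p + e1 * (s / M)) (q + e2 * (s / M)) j)
      (a * (vr k (p + e1 * (s / M)) (q + e2 * (s / M)) e1 e2 j / M)) s := by
  have h1 : ∀ (c e t : ℝ), HasDerivAt (fun t => c + e * t) e t := fun c e t => by
    simpa using ((hasDerivAt_id t).const_mul e).const_add c
  have h2 := hasDerivAt_orb k (h1 p e1 (s / M)) (h1 q e2 (s / M)) j
  have h3 : HasDerivAt (fun s : ℝ => s / M) (1 / M) s := (hasDerivAt_id s).div_const M
  have h4 := (HasDerivAt.comp s h2 h3).const_mul a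
  have e : vr k (p + e1 * (s / M)) (q + e2 * (s / M)) e1 e2 j / M =
      fld (Vo k (p + e1 * (s / M)) (q + e2 * (s / M))) e1 e2 j * (1 / M) := by
    rw [vr]; ring
  rw [e]
  exact h4

theorem rad_Data {μ M N r : ℝ} (hμ : 1 ≤ μ) (hN : 0 < N) (hM : N ≤ M) (hr : r ≤ μ ^ 60) :
    r / M ≤ μ ^ 91 / N := by
  have h1 : μ ^ 60 ≤ μ ^ 91 := pow_le_pow_right₀ hμ (by norm_num)
  have h2 : 0 ≤ μ ^ 91 := by positivity
  calc r / M ≤ μ ^ 91 / M := div_le_div_of_nonneg_right (hr.trans h1) (by linarith)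
    _ ≤ μ ^ 91 / N := div_le_div_of_nonneg_left h2 hN hM

theorem slope_Data {μ M N a v w u r : ℝ} (hμ : 1 ≤ μ) (hN : 0 < N) (hM : N ≤ M)
    (ha : a = 1 ∨ a = -1) (hv : a * v = N) (hr : 0 ≤ r)
    (h1 : |w - v| ≤ N ^ 2 * (r / M) / μ ^ 91) (h2 : |u| ≤ N / μ ^ 95) :
    |a * (w / M) - N / M| ≤ N / M * r / μ ^ 90 ∧ |a * (u / M)| ≤ 1 / μ ^ 90 := by
  have hM0 : 0 < M := by linarith
  have p1 : μ ^ 90 ≤ μ ^ 91 := pow_le_pow_right₀ hμ (by norm_num)
  have p2 : μ ^ 90 ≤ μ ^ 95 := pow_le_pow_right₀ hμ (by norm_num)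
  have p0 : 0 < μ ^ 90 := by positivity
  generalize μ ^ 90 = A at *
  generalize μ ^ 91 = B at *
  generalize μ ^ 95 = C at *
  have hρ : N / M ≤ 1 := (div_le_one hM0).2 hM
  have hρ0 : 0 ≤ N / M := by positivity
  constructor
  · have e : a * (w / M) - N / M = a * ((w - v) / M) := by rw [← hv]; ring
    rw [e, abs_mul, abs_sign_Data ha, one_mul, abs_div, abs_of_pos hM0]
    calc |w - v| / M ≤ N ^ 2 * (r / M) / B / M := div_le_div_of_nonneg_right h1 hM0.le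
      _ = N / M * (N / M * r) / B := by ring
      _ ≤ N / M * (N / M * r) / A := div_le_div_of_nonneg_left (by positivity) p0 p1
      _ ≤ N / M * r / A := by
        refine div_le_div_of_nonneg_right ?_ p0.le
        exact mul_le_of_le_one_left (by positivity) hρ
  · rw [abs_mul, abs_sign_Data ha, one_mul, abs_div, abs_of_pos hM0]
    calc |u| / M ≤ N / C / M := div_le_div_of_nonneg_right h2 hM0.le
      _ = N / M / C := by ring
      _ ≤ N / M / A := div_le_div_of_nonneg_left hρ0 p0 p2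
      _ ≤ 1 / A := div_le_div_of_nonneg_right hρ p0.le

theorem xi_Data {μ M N a v : ℝ} {X x t : ℂ} (hμ : 2 ≤ μ) (hN : 0 < N) (hM : N ≤ M)
    (ha : a = 1 ∨ a = -1) (hv : a * v = N) (hρ : 1 - N / M ≤ 1 / μ ^ 40) (ht : ‖t‖ ≤ 2 * μ ^ 40)
    (h : ‖X - x - v * (t / M)‖ ≤ N ^ 2 * ‖t / (M : ℂ)‖ ^ 2 / μ ^ 91) :
    ‖a * X - a * x - t‖ ≤ 3 := by
  have hM0 : 0 < M := by linarith
  have hρ1 : N / M ≤ 1 := (div_le_one hM0).2 hM
  have hρ0 : 0 ≤ N / M := by positivity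
  have hv' : (a : ℂ) * v = N := by exact_mod_cast hv
  have e : a * X - a * x - t = a * (X - x - v * (t / M)) - ((1 - N / M : ℝ) : ℂ) * t := by
    push_cast
    rw [← hv']
    ring
  have p0 : 0 < μ ^ 40 := by positivity
  have p1 : 4 * (μ ^ 40) ^ 2 ≤ μ ^ 91 := by
    have q1 : (2 : ℝ) ^ 2 ≤ μ ^ 2 := pow_le_pow_left₀ (by norm_num) hμ 2
    have q2 : μ ^ 82 ≤ μ ^ 91 := pow_le_pow_right₀ (by linarith) (by norm_num)
    calc 4 * (μ ^ 40) ^ 2 ≤ μ ^ 2 * (μ ^ 40) ^ 2 :=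
          mul_le_mul_of_nonneg_right (by linarith) (by positivity)
      _ = μ ^ 82 := by ring
      _ ≤ μ ^ 91 := q2
  have p2 : 0 < μ ^ 91 := by positivity
  generalize μ ^ 40 = A at *
  generalize μ ^ 91 = B at *
  have n1 : ‖(a : ℂ) * (X - x - v * (t / M))‖ ≤ 1 := by
    rw [norm_mul, Complex.norm_real, Real.norm_eq_abs, abs_sign_Data ha, one_mul]
    refine h.trans ?_
    rw [norm_div, Complex.norm_real, Real.norm_eq_abs, abs_of_pos hM0, div_le_one p2]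
    have q1 : N / M * ‖t‖ ≤ 2 * A := (mul_le_of_le_one_left (norm_nonneg _) hρ1).trans ht
    calc N ^ 2 * (‖t‖ / M) ^ 2 = (N / M * ‖t‖) ^ 2 := by ring
      _ ≤ (2 * A) ^ 2 := pow_le_pow_left₀ (by positivity) q1 2
      _ = 4 * A ^ 2 := by ring
      _ ≤ B := p1
  have n2 : ‖((1 - N / M : ℝ) : ℂ) * t‖ ≤ 2 := by
    rw [norm_mul, Complex.norm_real, Real.norm_eq_abs, abs_of_nonneg (by linarith)]
    calc (1 - N / M) * ‖t‖ ≤ 1 / A * (2 * A) :=
          mul_le_mul hρ ht (norm_nonneg _) (by positivity)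
      _ = 2 := by field_simp
  rw [e]
  exact (norm_sub_le _ _).trans (by linarith)

theorem tri_Data {k μ C x : ℝ} (hk : 0 < k) (hμ : 1 ≤ μ) (hC : |C| ≤ μ) (hL : μ ^ 100 = Lam k)
    (h : |x| ≤ C / (μ ^ 40) ^ 3) : |k * x| ≤ 1 / μ ^ 10 := by
  have h1 : k ≤ μ ^ 100 := by
    rw [hL, Lam]
    nlinarith [Real.pi_gt_three]
  have h2 : C ≤ μ ^ 10 := (le_abs_self C).trans (hC.trans (le_self_pow₀ hμ (by norm_num)))
  have h0 : 0 < μ := by linarith
  rw [abs_mul, abs_of_pos hk]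
  calc k * |x| ≤ μ ^ 100 * (μ ^ 10 / (μ ^ 40) ^ 3) :=
        mul_le_mul h1 (h.trans (div_le_div_of_nonneg_right h2 (by positivity))) (abs_nonneg _)
          (by positivity)
    _ = 1 / μ ^ 10 := by field_simp

theorem chain_Data : ∃ μ0 : ℝ, ∀ (k μ : ℝ), 0 < k → μ0 ≤ μ → μ ^ 100 = Lam k →
    ∀ (p q e1 e2 : ℝ) (i : ℕ) (M : ℝ), Dir e1 e2 → 1 ≤ i → BD μ (Lam k) (vr k p q e1 e2) i →
    vn (vr k p q e1 e2) i ≤ M → 0 < vn (vr k p q e1 e2) i ∧ ∃ a : ℝ, (a = 1 ∨ a = -1) ∧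
      (∀ s ∈ Icc (-1 : ℝ) (μ ^ 60),
        |a * (vr k (p + e1 * (s / M)) (q + e2 * (s / M)) e1 e2 (i + 1) / M) -
          vn (vr k p q e1 e2) i / M| ≤ vn (vr k p q e1 e2) i / M * |s| / μ ^ 90 ∧
        |a * (vr k (p + e1 * (s / M)) (q + e2 * (s / M)) e1 e2 i / M)| ≤ 1 / μ ^ 90) ∧
      (1 - vn (vr k p q e1 e2) i / M ≤ 1 / μ ^ 40 → ∀ s ∈ Icc (0 : ℝ) 2,
        |k * tri (fun s => a * orb k (p + e1 * (s / M)) (q + e2 * (s / M)) (i + 1)) s| ≤
          1 / μ ^ 10) := by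
  obtain ⟨μ1, hd⟩ := disc_top
  obtain ⟨C, hC⟩ := third
  refine ⟨max μ1 (max 10 |C|), ?_⟩
  intro k μ hk hμ hL p q e1 e2 i M he hi hB hM
  have hμ1 : μ1 ≤ μ := (le_max_left _ _).trans hμ
  have hμ2 : 10 ≤ μ := ((le_max_left _ _).trans (le_max_right _ _)).trans hμ
  have hμ3 : |C| ≤ μ := ((le_max_right _ _).trans (le_max_right _ _)).trans hμ
  have hμ0 : 1 ≤ μ := by linarith
  obtain ⟨hN, hv, ht⟩ := hd k μ hk hμ1 hL p q e1 e2 i he hB hi
  obtain ⟨a, ha, hav⟩ := sign_Data hv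
  generalize vn (vr k p q e1 e2) i = N at *
  have hM0 : 0 < M := by linarith
  refine ⟨hN, a, ha, fun s hs => ?_, fun hρ s hs => ?_⟩
  · have hs' : |s| ≤ μ ^ 60 := abs_le.2 ⟨by linarith [hs.1, one_le_pow₀ (n := 60) hμ0], hs.2⟩
    have hn : ‖((s / M : ℝ) : ℂ)‖ = |s| / M := by
      rw [Complex.norm_real, Real.norm_eq_abs, abs_div, abs_of_pos hM0]
    obtain ⟨h1, h2, -⟩ := ht ((s / M : ℝ) : ℂ) (by rw [hn]; exact rad_Data hμ0 hN hM hs')
    rw [vC_ofReal, hn, ← Complex.ofReal_sub, Complex.norm_real, Real.norm_eq_abs] at h1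
    rw [vC_ofReal, Complex.norm_real, Real.norm_eq_abs] at h2
    exact slope_Data hμ0 hN hM ha hav (abs_nonneg s) h1 h2
  · refine tri_Data hk hμ0 hμ3 hL (hC (μ ^ 40) (a * orb k p q (i + 1))
      (fun t => a * xC k p q e1 e2 (i + 1) (t / M) - a * (orb k p q (i + 1) : ℂ) - t) _
      (hμ2.trans (le_self_pow₀ hμ0 (by norm_num))) ?_ ?_ ?_ s hs)
    · have d1 : Differentiable ℂ (xC k p q e1 e2 (i + 1)) := fun t =>
        (hasDerivAt_xC k p q e1 e2 (i + 1) t).differentiableAt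
      have d2 : Differentiable ℂ fun t : ℂ => xC k p q e1 e2 (i + 1) (t / M) :=
        d1.comp (differentiable_id.div_const _)
      exact (((d2.const_mul _).sub_const _).sub differentiable_id).differentiableOn
    · intro t h
      have h1 : ‖t‖ ≤ 2 * μ ^ 40 := (mem_ball_zero_iff.1 h).le
      have h2 : ‖t‖ ≤ μ ^ 60 := by
        have q1 : μ ^ 41 ≤ μ ^ 60 := pow_le_pow_right₀ hμ0 (by norm_num)
        have q2 : 2 * μ ^ 40 ≤ μ ^ 41 := by
          rw [pow_succ' μ 40]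
          exact mul_le_mul_of_nonneg_right (by linarith) (by positivity)
        linarith
      have hn : ‖t / (M : ℂ)‖ ≤ μ ^ 91 / N := by
        rw [norm_div, Complex.norm_real, Real.norm_eq_abs, abs_of_pos hM0]
        exact rad_Data hμ0 hN hM h2
      exact xi_Data (by linarith) hN hM ha hav hρ h1 (ht _ hn).2.2
    · intro s _
      have e := xC_ofReal k p q e1 e2 (i + 1) (s / M)
      rw [Complex.ofReal_div] at e
      simp only [e]
      push_cast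
      ring

theorem holes : ∃ c : ℝ, 0 < c ∧ ∃ μ0 : ℝ, ∀ (k μ : ℝ), 0 < k → μ0 ≤ μ → μ ^ 100 = Lam k →
    ∀ (p q e1 e2 p' q' e1' e2' : ℝ) (i i' : ℕ) (M : ℝ), Dir e1 e2 → Dir e1' e2' → 1 ≤ i → 1 ≤ i' →
    BD μ (Lam k) (vr k p q e1 e2) i → BD μ (Lam k) (vr k p' q' e1' e2') i' →
    M = vn (vr k p q e1 e2) i → vn (vr k p' q' e1' e2') i' ≤ M →
    M ≤ μ ^ 55 * vn (vr k p' q' e1' e2') i' →
    HoleI μ c (fun s => orb k (p + e1 * (s / M)) (q + e2 * (s / M)) (i + 1))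
      (fun s => orb k (p' + e1' * (s / M)) (q' + e2' * (s / M)) (i' + 1)) ∨
    (M ≤ 2 * vn (vr k p' q' e1' e2') i' ∧ ∃ G : Set ℝ, MeasurableSet G ∧ G ⊆ Icc 0 4 ∧
      ENNReal.ofReal (c * 4) ≤ volume G ∧ ∀ s ∈ G, ∀ s', |s' - s| ≤ 1 / (10000 * Lam k) →
        Gd (orb k (p + e1 * (s' / M)) (q + e2 * (s' / M)) (i + 2))
          (orb k (p' + e1' * (s' / M)) (q' + e2' * (s' / M)) (i' + 2)) ∧
        4 / 5 ≤ |Real.cos (2 * Real.pi * orb k (p + e1 * (s' / M)) (q + e2 * (s' / M)) (i + 1))| ∧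
        4 / 5 ≤ |Real.cos (2 * Real.pi *
          orb k (p' + e1' * (s' / M)) (q' + e2' * (s' / M)) (i' + 1))|) := by
  obtain ⟨cA, hcA, μA, hA⟩ := holeA
  obtain ⟨cB, hcB, μB, hB⟩ := holeB
  obtain ⟨cC, hcC, μC, hC⟩ := holeC
  obtain ⟨cD, hcD, μD, hD⟩ := holeD
  obtain ⟨μ1, hch⟩ := chain_Data
  obtain ⟨c, hc0, h1, h2, h3, h4⟩ : ∃ c : ℝ, 0 < c ∧ c ≤ cA ∧ c ≤ cB ∧ c ≤ cC ∧ c ≤ cD :=
    ⟨min (min cA cB) (min cC cD), lt_min (lt_min hcA hcB) (lt_min hcC hcD),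
      (min_le_left _ _).trans (min_le_left _ _), (min_le_left _ _).trans (min_le_right _ _),
      (min_le_right _ _).trans (min_le_left _ _), (min_le_right _ _).trans (min_le_right _ _)⟩
  refine ⟨c, hc0, max (max (max μA μB) (max μC μD)) (max μ1 2), ?_⟩
  intro k μ hk hμ hL p q e1 e2 p' q' e1' e2' i i' M he he' hi hi' hb hb' hM hM1 hM2
  simp only [max_le_iff] at hμ
  obtain ⟨⟨⟨mA, mB⟩, mC, mD⟩, m1, m2⟩ := hμ
  obtain ⟨hN, a, ha, s1, t1⟩ := hch k μ hk m1 hL p q e1 e2 i M he hi hb hM.ge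
  obtain ⟨hN', b, hb1, s2, t2⟩ := hch k μ hk m1 hL p' q' e1' e2' i' M he' hi' hb' hM1
  rw [← hM] at hN s1 t1
  rw [div_self hN.ne'] at s1 t1
  generalize vn (vr k p' q' e1' e2') i' = N at *
  have hd : HoleData μ (N / M)
      (fun s => a * orb k (p + e1 * (s / M)) (q + e2 * (s / M)) (i + 1))
      (fun s => b * orb k (p' + e1' * (s / M)) (q' + e2' * (s / M)) (i' + 1))
      (fun s => a * orb k (p + e1 * (s / M)) (q + e2 * (s / M)) i)
      (fun s => b * orb k (p' + e1' * (s / M)) (q' + e2' * (s / M)) i') _ _ _ _ :=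
    ⟨fun s _ => deriv_Data a k p q e1 e2 M (i + 1) s,
      fun s _ => deriv_Data b k p' q' e1' e2' M (i' + 1) s,
      fun s _ => deriv_Data a k p q e1 e2 M i s, fun s _ => deriv_Data b k p' q' e1' e2' M i' s,
      fun s hs => by simpa only [one_mul] using (s1 s hs).1, fun s hs => (s2 s hs).1,
      fun s hs => (s1 s hs).2, fun s hs => (s2 s hs).2⟩
  have hρ1 : N / M ≤ 1 := (div_le_one hN).2 hM1
  have p55 : 0 < μ ^ 55 := by positivity
  have p40 : 0 < μ ^ 40 := by positivity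
  rcases le_total (N / M) (1 / 16) with r1 | r1
  · refine Or.inl (holeI_mono_Data ha hb1 h1 (hA μ _ _ _ _ _ _ _ _ _ mA ?_ r1 hd))
    rw [div_le_div_iff₀ p55 hN]
    linarith
  rcases le_total (1 / μ ^ 40) (1 - N / M) with r2 | r2
  · exact Or.inl (holeI_mono_Data ha hb1 h2 (hB μ _ _ _ _ _ _ _ _ _ mB r1 r2 hd))
  by_cases r3 : ∀ n : ℤ, 1 / 400 ≤
      |a * orb k (p + e1 * (0 / M)) (q + e2 * (0 / M)) (i + 1) -
        b * orb k (p' + e1' * (0 / M)) (q' + e2' * (0 / M)) (i' + 1) - 1 / 2 - n|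
  · exact Or.inl (holeI_mono_Data ha hb1 h3 (hC μ _ _ _ _ _ _ _ _ _ mC hρ1 r2 hd r3))
  simp only [not_forall, not_le] at r3
  obtain ⟨G, g1, g2, g3, g4⟩ := hD k μ _ _ _ _ _ _ _ _ _ hk mD hL hρ1 r2 hd r3 fun s hs =>
    ⟨t1 (by rw [sub_self]; positivity) s hs, t2 r2 s hs⟩
  refine Or.inr ⟨?_, G, g1, g2, le_trans (ENNReal.ofReal_le_ofReal (by linarith)) g3,
    fun s hs s' hs' => ?_⟩
  · have q1 : (2 : ℝ) ≤ μ ^ 40 := m2.trans (le_self_pow₀ (by linarith) (by norm_num))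
    have q2 : 1 / μ ^ 40 ≤ 1 / 2 := one_div_le_one_div_of_le (by norm_num) q1
    have q3 : 1 / 2 ≤ N / M := by linarith
    rw [div_le_div_iff₀ (by norm_num) hN] at q3
    linarith
  · obtain ⟨u1, u2, u3⟩ := g4 s hs s' hs'
    rw [nxt_sign_Data ha k (fun s => p + e1 * (s / M)) (fun s => q + e2 * (s / M)),
      nxt_sign_Data hb1 k (fun s => p' + e1' * (s / M)) (fun s => q' + e2' * (s / M))] at u1
    rw [cos_sign_Data ha] at u2
    rw [cos_sign_Data hb1] at u3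
    exact ⟨gd_sign_Data ha hb1 u1, u2, u3⟩

end Vale.Agent.P108
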