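import Vale.Agent.P108.Orb

/-!
P108 MeasA (part of Meas): measure facts on the fundamental domain.
pr_gm: for periodic S, Fubini in the order (b outside, a inside): for fixed b the map
a to c - a sends Ico 0 1 to an interval of length one, and a 1-periodic measurable subset of the
line has the same measure in every interval of length one (split at an integer and translate, or
AddCircle / Function.Periodic interval integrals).  Then swap the coordinates.
pr_weak: |cos (2 pi b)| <= eps forces b within eps / 4 of 1/4 or 3/4, eps = (Lam/g + 2)/(2 pi k).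
Pk is closed: projection along the compact set max |u1| |u2| = 1 of a closed set
(IsCompact, isClosedMap_fst_of_compactSpace or a sequence argument), continuous_fld.
-/

namespace Vale.Agent.P108

open MeasureTheory Set

theorem per_one_MeasA {A : Set ℝ} (hA : MeasurableSet A) (h : ∀ (x : ℝ) (n : ℤ), x + n ∈ A ↔ x ∈ A)
    (t : ℝ) : volume (A ∩ Ioc t (t + 1)) = volume (A ∩ Ico 0 1) := by
  have h1 := (isAddFundamentalDomain_Ioc one_pos t volume).measure_set_eq
    (isAddFundamentalDomain_Ioc one_pos 0 volume) hA fun g => by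
      obtain ⟨g, n, rfl⟩ := g
      ext x
      simpa [AddSubgroup.vadd_def, add_comm] using h x n
  rw [h1, zero_add]
  exact measure_congr (ae_eq_set_inter (ae_eq_refl A) Ico_ae_eq_Ioc.symm)

theorem fub_MeasA {S : Set (ℝ × ℝ)} (hS : MeasurableSet S) (I J : Set ℝ) :
    volume (S ∩ I ×ˢ J) = ∫⁻ a in I, volume (Prod.mk a ⁻¹' S ∩ J) := by
  rw [← Measure.restrict_apply hS, Measure.volume_eq_prod, ← Measure.prod_restrict,
    Measure.prod_apply hS]
  exact lintegral_congr fun a => Measure.restrict_apply (measurable_prodMk_left hS)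

theorem slice_MeasA {S : Set (ℝ × ℝ)} (hP : Per S) (a x : ℝ) (n : ℤ) :
    x + n ∈ Prod.mk a ⁻¹' S ↔ x ∈ Prod.mk a ⁻¹' S := by
  simpa using hP (a, x) 0 n

theorem pr_univ : Pr univ = 1 := by
  simp [Pr, box, Measure.volume_eq_prod]

theorem pr_mono {S T : Set (ℝ × ℝ)} (h : S ⊆ T) : Pr S ≤ Pr T := measure_mono (inter_subset_inter_left _ h)

theorem pr_union_le (S T : Set (ℝ × ℝ)) : Pr (S ∪ T) ≤ Pr S + Pr T := by
  rw [Pr, union_inter_distrib_right]
  exact measure_union_le _ _

theorem pr_iUnion_le {ι : Type*} [Countable ι] (S : ι → Set (ℝ × ℝ)) :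
    Pr (⋃ i, S i) ≤ ∑' i, Pr (S i) := by
  rw [Pr, iUnion_inter]
  exact measure_iUnion_le _

theorem pr_swap {S : Set (ℝ × ℝ)} (hS : MeasurableSet S) : Pr (Prod.swap ⁻¹' S) = Pr S := by
  have h : Prod.swap ⁻¹' S ∩ box = Prod.swap ⁻¹' (S ∩ box) := by
    ext z
    simp [box, and_comm]
  rw [Pr, h]
  exact (Measure.measurePreserving_swap (μ := volume) (ν := volume)).measure_preimage
    (hS.inter (measurableSet_Ico.prod measurableSet_Ico)).nullMeasurableSet

theorem measurable_gm (k : ℝ) : Measurable (gm k) := by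
  unfold gm
  fun_prop

theorem per_gm (k : ℝ) {S : Set (ℝ × ℝ)} (hP : Per S) : Per (gm k ⁻¹' S) := by
  intro z m n
  have h := hP (gm k z) n (2 * n - m)
  have e : Real.sin (2 * Real.pi * (z.2 + n)) = Real.sin (2 * Real.pi * z.2) := by
    rw [← Real.sin_add_int_mul_two_pi (2 * Real.pi * z.2) n]
    congr 1
    ring
  rw [mem_preimage, mem_preimage, ← h]
  simp only [gm, e]
  push_cast
  ring_nf

theorem per_iter (k : ℝ) {S : Set (ℝ × ℝ)} (hP : Per S) (n : ℕ) : Per ((gm k)^[n] ⁻¹' S) := by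
  induction n with
  | zero => exact hP
  | succ n ih => exact per_gm k ih

theorem pr_gm (k : ℝ) {S : Set (ℝ × ℝ)} (hS : MeasurableSet S) (hP : Per S) :
    Pr (gm k ⁻¹' S) = Pr S := by
  have h1 := measurable_gm k hS
  rw [← pr_swap h1, Pr, Pr, box, fub_MeasA (measurable_swap h1), fub_MeasA hS]
  refine lintegral_congr fun b => ?_
  have hA := measurable_prodMk_left (x := b) hS
  rw [← per_one_MeasA hA (slice_MeasA hP b) (2 * b + k * Real.sin (2 * Real.pi * b) - 1),
    ← (Measure.measurePreserving_sub_left volume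
      (2 * b + k * Real.sin (2 * Real.pi * b))).measure_preimage
      (hA.inter measurableSet_Ioc).nullMeasurableSet]
  congr 1
  ext a
  simp only [gm, mem_inter_iff, mem_preimage, Prod.swap_prod_mk, mem_Ico, mem_Ioc]
  rw [show 2 * b - a + k * Real.sin (2 * Real.pi * b) =
    2 * b + k * Real.sin (2 * Real.pi * b) - a by ring]
  refine and_congr_right fun _ => ⟨fun h => ⟨?_, ?_⟩, fun h => ⟨?_, ?_⟩⟩ <;> linarith [h.1, h.2]

theorem pr_iter (k : ℝ) {S : Set (ℝ × ℝ)} (hS : MeasurableSet S) (hP : Per S) (n : ℕ) :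
    Pr ((gm k)^[n] ⁻¹' S) = Pr S := by
  induction n with
  | zero => rfl
  | succ n ih =>
    rw [Function.iterate_succ, preimage_comp,
      pr_gm k ((measurable_gm k).iterate n hS) (per_iter k hP n), ih]

theorem vol_strip {S : Set (ℝ × ℝ)} (hS : MeasurableSet S) (hP : Per S) :
    volume (S ∩ Ico (0 : ℝ) 1 ×ˢ Ico (-1 : ℝ) 2) ≤ 3 * Pr S := by
  rw [Pr, box, fub_MeasA hS, fub_MeasA hS, ← lintegral_const_mul' _ _ (by simp)]
  refine lintegral_mono fun a => ?_
  have hA := measurable_prodMk_left (x := a) hS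
  have h := per_one_MeasA hA (slice_MeasA hP a)
  refine (measure_congr (ae_eq_set_inter (ae_eq_refl _) Ico_ae_eq_Ioc)).trans_le ?_
  have hsub : Prod.mk a ⁻¹' S ∩ Ioc (-1) 2 ⊆ (Prod.mk a ⁻¹' S ∩ Ioc (-1) (-1 + 1) ∪
      Prod.mk a ⁻¹' S ∩ Ioc 0 (0 + 1)) ∪ Prod.mk a ⁻¹' S ∩ Ioc 1 (1 + 1) := fun x hx => by
    rcases le_or_gt x 0 with c | c
    · exact Or.inl (Or.inl ⟨hx.1, hx.2.1, by linarith⟩)
    rcases le_or_gt x 1 with d | d
    · exact Or.inl (Or.inr ⟨hx.1, c, by linarith⟩)
    · exact Or.inr ⟨hx.1, d, by linarith [hx.2.2]⟩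
  refine (measure_mono hsub).trans ((measure_union_le _ _).trans
    ((add_le_add (measure_union_le _ _) le_rfl).trans_eq ?_))
  rw [h, h, h]
  ring

theorem per_swap {S : Set (ℝ × ℝ)} (hP : Per S) : Per (Prod.swap ⁻¹' S) := fun z m n => hP z.swap n m

end Vale.Agent.P108
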