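import Vale.Agent.P108.Orb
import Vale.Agent.P108.MeasA

/-!
P108 MeasW (part of Meas): measure facts on the fundamental domain.
pr_gm: for periodic S, Fubini in the order (b outside, a inside): for fixed b the map
a to c - a sends Ico 0 1 to an interval of length one, and a 1-periodic measurable subset of the
line has the same measure in every interval of length one (split at an integer and translate, or
AddCircle / Function.Periodic interval integrals).  Then swap the coordinates.
pr_weak: |cos (2 pi b)| <= eps forces b within eps / 4 of 1/4 or 3/4, eps = (Lam/g + 2)/(2 pi k).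
Pk is closed: projection along the compact set max |u1| |u2| = 1 of a closed set
(IsCompact, isClosedMap_fst_of_compactSpace or a sequence argument), continuous_fld.
-/

namespace Vale.Agent.P108

open MeasureTheory Set

theorem sin_MeasW {x : ℝ} (hx : |x| ≤ 1 / 4) : 4 * |x| ≤ |Real.sin (2 * Real.pi * x)| := by
  have hp := Real.pi_pos
  have e : |2 * Real.pi * x| = 2 * Real.pi * |x| := by
    rw [abs_mul, abs_of_pos (by positivity : 0 < 2 * Real.pi)]
  have h := Real.mul_abs_le_abs_sin (x := 2 * Real.pi * x) (by rw [e]; nlinarith)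
  rw [e] at h
  refine le_trans (le_of_eq ?_) h
  field_simp
  ring

theorem cos_MeasW {b ε : ℝ} (hb : b ∈ Ico (0 : ℝ) 1) (h : |Real.cos (2 * Real.pi * b)| ≤ ε) :
    b ∈ Metric.closedBall (1 / 4 : ℝ) (ε / 4) ∪ Metric.closedBall (3 / 4 : ℝ) (ε / 4) := by
  rcases le_total b (1 / 2) with h1 | h1
  · left
    have h2 := sin_MeasW (x := b - 1 / 4) (abs_le.2 ⟨by linarith [hb.1], by linarith⟩)
    rw [show 2 * Real.pi * (b - 1 / 4) = 2 * Real.pi * b - Real.pi / 2 by ring,
      Real.sin_sub_pi_div_two, abs_neg] at h2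
    rw [Metric.mem_closedBall, Real.dist_eq]
    linarith
  · right
    have h2 := sin_MeasW (x := b - 3 / 4) (abs_le.2 ⟨by linarith, by linarith [hb.2]⟩)
    rw [show 2 * Real.pi * (b - 3 / 4) = 2 * Real.pi * b - Real.pi / 2 - Real.pi by ring,
      Real.sin_sub_pi, Real.sin_sub_pi_div_two, neg_neg] at h2
    rw [Metric.mem_closedBall, Real.dist_eq]
    linarith

theorem eps_MeasW {k g b : ℝ} (hk : 1 ≤ k) (hg : 1 ≤ g) (hgL : g ≤ Lam k)
    (h : |pot k b| < Lam k / g) : |Real.cos (2 * Real.pi * b)| ≤ 10 / g := by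
  have hp := Real.pi_gt_three
  have hg0 : 0 < g := by linarith
  have h1 : 2 * Real.pi * k * |Real.cos (2 * Real.pi * b)| ≤ |pot k b| + 2 := by
    have h2 := abs_sub (pot k b) 2
    rw [show pot k b - 2 = 2 * Real.pi * k * Real.cos (2 * Real.pi * b) by rw [pot]; ring, abs_mul,
      abs_of_pos (by positivity : 0 < 2 * Real.pi * k), abs_two] at h2
    exact h2
  rw [lt_div_iff₀ hg0] at h
  rw [le_div_iff₀ hg0]
  have h3 : 3 ≤ Real.pi * k := by nlinarith
  have h4 : 2 * Real.pi * k * (|Real.cos (2 * Real.pi * b)| * g) ≤ 2 * Real.pi * k * 10 := by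
    have h5 := mul_le_mul_of_nonneg_right h1 hg0.le
    rw [Lam] at h hgL
    nlinarith
  exact le_of_mul_le_mul_left h4 (by positivity)

theorem pr_weak {k g : ℝ} (hk : 1 ≤ k) (hg : 1 ≤ g) (hgL : g ≤ Lam k) :
    Pr (Weak k g) ≤ ENNReal.ofReal (10 / g) := by
  have hsub : Weak k g ∩ box ⊆ Ico (0 : ℝ) 1 ×ˢ
      (Metric.closedBall (1 / 4 : ℝ) (10 / g / 4) ∪ Metric.closedBall (3 / 4 : ℝ) (10 / g / 4)) :=
    fun z hz => ⟨hz.2.1, cos_MeasW hz.2.2 (eps_MeasW hk hg hgL hz.1)⟩
  refine (measure_mono hsub).trans ?_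
  rw [Measure.volume_eq_prod, Measure.prod_prod, Real.volume_Ico, sub_zero, ENNReal.ofReal_one,
    one_mul]
  refine (measure_union_le _ _).trans (le_of_eq ?_)
  have h0 : 0 ≤ 2 * (10 / g / 4) := by positivity
  rw [Real.volume_closedBall, Real.volume_closedBall, ← ENNReal.ofReal_add h0 h0]
  congr 1
  ring

end Vale.Agent.P108
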