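import Vale.Agent.P108.Orb
import Vale.Agent.P108.MeasA
import Vale.Agent.P108.MeasW

/-!
P108 Meas: measure facts on the fundamental domain.
pr_gm: for periodic S, Fubini in the order (b outside, a inside): for fixed b the map
a to c - a sends Ico 0 1 to an interval of length one, and a 1-periodic measurable subset of the
line has the same measure in every interval of length one (split at an integer and translate, or
AddCircle / Function.Periodic interval integrals).  Then swap the coordinates.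
pr_weak: |cos (2 pi b)| <= eps forces b within eps / 4 of 1/4 or 3/4, eps = (Lam/g + 2)/(2 pi k).
Pk is closed: projection along the compact set max |u1| |u2| = 1 of a closed set
(IsCompact, isClosedMap_fst_of_compactSpace or a sequence argument), continuous_fld.
-/

namespace Vale.Agent.P108

open MeasureTheory Set

theorem le_Meas (k c : ℝ) (j : ℕ) : Measurable fun z : ℝ × ℝ => nrm (Vo k z.1 z.2) j ≤ c :=
  measurableSet_setOfPred.1 (measurableSet_le (continuous_nrm k j).measurable measurable_const)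

theorem ge_Meas (k c : ℝ) (j : ℕ) : Measurable fun z : ℝ × ℝ => c ≤ nrm (Vo k z.1 z.2) j :=
  measurableSet_setOfPred.1 (measurableSet_le measurable_const (continuous_nrm k j).measurable)

theorem proj_Meas {C : Set ((ℝ × ℝ) × (ℝ × ℝ))} (hC : IsClosed C)
    (hb : ∀ w ∈ C, |w.2.1| ≤ 1 ∧ |w.2.2| ≤ 1) {S : Set (ℝ × ℝ)}
    (hS : ∀ z, z ∈ S ↔ ∃ u1 u2 : ℝ, (z, (u1, u2)) ∈ C) : MeasurableSet S := by
  have := isCompact_iff_compactSpace.1 (isCompact_closedBall (0 : ℝ × ℝ) 1)
  have h := isClosedMap_fst_of_compactSpace (X := ℝ × ℝ) (Y := Metric.closedBall (0 : ℝ × ℝ) 1) _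
    (hC.preimage (continuous_fst.prodMk (continuous_subtype_val.comp continuous_snd)))
  have e : S = Prod.fst '' ((fun x : (ℝ × ℝ) × Metric.closedBall (0 : ℝ × ℝ) 1 =>
      (x.1, (Subtype.val ∘ Prod.snd) x)) ⁻¹' C) := by
    ext z
    rw [hS]
    constructor
    · rintro ⟨u1, u2, hu⟩
      exact ⟨(z, ⟨(u1, u2), mem_closedBall_zero_iff.2 (max_le (hb _ hu).1 (hb _ hu).2)⟩), hu, rfl⟩
    · rintro ⟨x, hx, rfl⟩
      exact ⟨x.2.1.1, x.2.1.2, hx⟩
  rw [e]
  exact h.measurableSet

theorem vn1_Meas (k : ℝ) (h : ℕ) :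
    Continuous fun w : (ℝ × ℝ) × (ℝ × ℝ) => vn (fld (Vo k w.1.1 w.1.2) w.2.1 w.2.2) h :=
  (continuous_fld k h).abs.max (continuous_fld k (h + 1)).abs

theorem vn2_Meas (k : ℝ) (h : ℕ) :
    Continuous fun w : (ℝ × ℝ) × (ℝ × ℝ) => vn (fld (Vo k w.1.2 w.1.1) w.2.2 w.2.1) h := by
  have h1 : Continuous fun w : (ℝ × ℝ) × (ℝ × ℝ) => (((w.1.2, w.1.1), (w.2.2, w.2.1)) :
      (ℝ × ℝ) × (ℝ × ℝ)) := by fun_prop
  have h2 := (vn1_Meas k h).comp h1
  simpa only [Function.comp_def] using h2

theorem per_Rsh (k g : ℝ) (N : ℕ) : Per (Rsh k g N) := by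
  intro z m n
  simp only [Rsh, mem_ofPred_eq, Vo_int]

theorem meas_Rsh (k g : ℝ) (N : ℕ) : MeasurableSet (Rsh k g N) := by
  exact measurableSet_setOfPred.2 (Measurable.exists fun m =>
    measurable_const.and (measurable_const.and (le_Meas k _ m)))

theorem per_Weak (k g : ℝ) : Per (Weak k g) := by
  intro z m n
  have h : pot k (z.2 + n) = pot k z.2 := congrFun (Vo_int k z.1 z.2 m n) 1
  simp only [Weak, mem_ofPred_eq, h]

theorem meas_Weak (k g : ℝ) : MeasurableSet (Weak k g) := by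
  have h : Continuous fun z : ℝ × ℝ => |pot k z.2| := by
    unfold pot
    fun_prop
  exact measurableSet_lt h.measurable measurable_const

theorem per_Pk (k ρ : ℝ) (h : ℕ) : Per (Pk k ρ h) := by
  intro z m n
  simp only [Pk, mem_ofPred_eq, Vo_int]

theorem meas_Pk (k ρ : ℝ) (h : ℕ) : MeasurableSet (Pk k ρ h) := by
  refine proj_Meas (C := {w | max |w.2.1| |w.2.2| = 1 ∧
    vn (fld (Vo k w.1.1 w.1.2) w.2.1 w.2.2) h ≤ ρ ^ h ∧
    vn (fld (Vo k w.1.2 w.1.1) w.2.2 w.2.1) h ≤ ρ ^ h}) ?_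
    (fun w hw => ⟨(le_max_left _ _).trans hw.1.le, (le_max_right _ _).trans hw.1.le⟩)
    fun z => Iff.rfl
  exact (isClosed_eq (by fun_prop) continuous_const).inter
    ((isClosed_le (vn1_Meas k h) continuous_const).inter
      (isClosed_le (vn2_Meas k h) continuous_const))

theorem meas_PkD (k e1 e2 ρ : ℝ) (h : ℕ) : MeasurableSet (PkD k e1 e2 ρ h) := by
  refine proj_Meas (C := {w | Dec (Vo k w.1.1 w.1.2) e1 e2 w.2.1 w.2.2 ρ h ∧
    Dec (Vo k w.1.2 w.1.1) e2 e1 w.2.2 w.2.1 ρ h}) ?_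
    (fun w hw => ⟨hw.1.1, hw.1.2.1⟩) fun z => Iff.rfl
  have h1 : IsClosed {w : (ℝ × ℝ) × (ℝ × ℝ) | |w.2.1| ≤ 1} :=
    isClosed_le (by fun_prop) continuous_const
  have h2 : IsClosed {w : (ℝ × ℝ) × (ℝ × ℝ) | |w.2.2| ≤ 1} :=
    isClosed_le (by fun_prop) continuous_const
  have h3 : IsClosed {w : (ℝ × ℝ) × (ℝ × ℝ) | |w.2.1 * e2 + w.2.2 * e1| = 1} :=
    isClosed_eq (by fun_prop) continuous_const
  have h4 : IsClosed {w : (ℝ × ℝ) × (ℝ × ℝ) | |w.2.2 * e1 + w.2.1 * e2| = 1} :=
    isClosed_eq (by fun_prop) continuous_const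
  exact (h1.inter (h2.inter (h3.inter (isClosed_le (vn1_Meas k h) continuous_const)))).inter
    (h2.inter (h1.inter (h4.inter (isClosed_le (vn2_Meas k h) continuous_const))))

theorem per_Etl (k g : ℝ) (n N : ℕ) : Per (Etl k g n N) := by
  intro z a b
  simp only [Etl, mem_ofPred_eq, Vo_int]

theorem meas_Etl (k g : ℝ) (n N : ℕ) : MeasurableSet (Etl k g n N) := by
  exact measurableSet_setOfPred.2 ((Measurable.forall fun j =>
    measurable_const.imp (measurable_const.imp (ge_Meas k _ j))).and (Measurable.exists fun m =>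
      measurable_const.and (measurable_const.and (measurable_const.and (le_Meas k _ m)))))

theorem meas_Ecl (k g : ℝ) (n N : ℕ) : MeasurableSet (Ecl k g n N) := by
  exact measurableSet_setOfPred.2 ((Measurable.forall fun j =>
    measurable_const.imp (measurable_const.imp (ge_Meas k _ j))).and (Measurable.exists fun m =>
      measurable_const.and (measurable_const.and (measurable_const.and (le_Meas k _ m)))))

theorem meas_Row (k : ℝ) (n i : ℕ) : MeasurableSet (Row k n i) := by
  exact measurableSet_le ((continuous_nrm k n).div_const 2).measurable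
    ((contDiff_fld k 1 0 i).continuous.abs.add (contDiff_fld k 0 1 i).continuous.abs).measurable

end Vale.Agent.P108
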