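import Vale.Agent.P108.Leaf
import Vale.Agent.P108.Area
import Vale.Agent.P108.Meas

/-!
P108 Decouple: past and future classes are independent up to a constant.
B = the set on the left intersected with box.  Psi from leaf for (n, i), Phi from leaf for
(n', i') used at swapped points.  Fix p', q' in Ico 0 1.  Th z = (Phi (swap z) q', Psi z p'),
f z = (orb z.2 z.1 i', orb z.1 z.2 i), g (al, be) = (orb q' al i', orb p' be i),
H = HL x HR with HR = {be in Ico (-1) 2 | (p', be) in Etl n and fld .. 0 1 i <> 0}, HL likewise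
(measurable slices).  near_facts gives MapsTo and the determinant bound with C = 2:
det g' = b'(q', al) b(p', be) and |det f'| >= (99/100) |b'| |b| by the cones (near_facts with
w = z); hasFDerivAt_orb computes the derivatives.  Injectivity: equal Th gives equal leaves, and
two points on a common graph over p and a common graph over q with slopes 1/10 coincide.
area_compare gives vol B <= 8 vol HL(q') vol HR(p') (Measure.prod_prod).  Integrate over q' and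
p' in Ico 0 1 (lintegral, Measure.prod_apply) and use vol_strip.
-/

namespace Vale.Agent.P108

open MeasureTheory Set

theorem det_Decouple (A : ℝ × ℝ →L[ℝ] ℝ × ℝ) :
    A.det = (A (1, 0)).1 * (A (0, 1)).2 - (A (0, 1)).1 * (A (1, 0)).2 := by
  rw [ContinuousLinearMap.det, ← LinearMap.det_toMatrix (Module.Basis.finTwoProd ℝ),
    Matrix.det_fin_two]
  simp [LinearMap.toMatrix_apply]

theorem avg_Decouple {c a : ENNReal} {S : Set (ℝ × ℝ)} (hS : MeasurableSet S)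
    (h : ∀ p ∈ Ico (0 : ℝ) 1, c ≤ a * volume (Prod.mk p ⁻¹' S)) : c ≤ a * volume S := by
  rw [Measure.volume_eq_prod, Measure.prod_apply hS,
    ← lintegral_const_mul a (measurable_measure_prodMk_left hS)]
  calc c = ∫⁻ _ in Ico (0 : ℝ) 1, c := by simp
    _ ≤ _ := (setLIntegral_mono' measurableSet_Ico h).trans (setLIntegral_le_lintegral _ _)

theorem side_Decouple {k g : ℝ} (hk : 0 < k) (hg : 300 ≤ g) (hL : g ^ 20 ≤ Lam k) {n i : ℕ}
    (hn : 1 ≤ n) (hi : i = n ∨ i = n + 1) (N : ℕ) : ∃ Ψ : ℝ × ℝ → ℝ → ℝ,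
      (∀ z ∈ (Ecl k g n N ∩ Row k n i) ∩ box, ∀ w ∈ (Ecl k g n N ∩ Row k n i) ∩ box,
        ∀ p ∈ Ico (0 : ℝ) 1, Ψ z p = Ψ w p → |z.2 - w.2| ≤ |z.1 - w.1| / 10) ∧
      ∀ z ∈ (Ecl k g n N ∩ Row k n i) ∩ box,
        |fld (Vo k z.1 z.2) 1 0 i| ≤ |fld (Vo k z.1 z.2) 0 1 i| / 10 ∧ ∀ p ∈ Ico (0 : ℝ) 1,
          orb k p (Ψ z p) i = orb k z.1 z.2 i ∧
          ((p, Ψ z p) ∈ Etl k g n N ∩ Ico (0 : ℝ) 1 ×ˢ Ico (-1 : ℝ) 2 ∧
            fld (Vo k p (Ψ z p)) 0 1 i ≠ 0) ∧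
          |fld (Vo k p (Ψ z p)) 0 1 i| ≤ 4 / 3 * |fld (Vo k z.1 z.2) 0 1 i| := by
  obtain ⟨Ψ, h1, h2⟩ := leaf hk hg hL hn hi
  refine ⟨Ψ, fun z hz w hw p hp e => ?_, fun z hz => ?_⟩
  · have z1 := Ico_subset_Icc_self hz.2.1
    have w1 := Ico_subset_Icc_self hw.2.1
    have k1 := h2 z z1 hz.1.1.1 hz.1.2
    have k2 := k1.2.1 _ z1 _ w1
    rwa [k1.1, h1 z w z1 w1 p (Ico_subset_Icc_self hp) e _ w1, (h2 w w1 hw.1.1.1 hw.1.2).1] at k2
  · have z1 := Ico_subset_Icc_self hz.2.1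
    obtain ⟨k1, k2, k3⟩ := h2 z z1 hz.1.1.1 hz.1.2
    have k4 := fun p hp => near_facts hk hg hL hn hi (w := (p, Ψ z p)) hz.1.1.1 hz.1.2
      (k3 p hp).2.1 (k3 p hp).2.2
    refine ⟨by simpa only [k1] using (k4 _ z1).2.2.1, fun p hp => ?_⟩
    have p1 := Ico_subset_Icc_self hp
    obtain ⟨-, -, -, k5, k6, k7⟩ := k4 p p1
    have k8 := k2 p p1 _ z1
    have k9 : |p - z.1| ≤ 1 := abs_le.2 ⟨by linarith [p1.1, z1.2], by linarith [p1.2, z1.1]⟩
    rw [k1, abs_le] at k8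
    exact ⟨(k3 p p1).1, ⟨⟨k7 N hz.1.1, hp, by linarith [hz.2.2.1], by linarith [hz.2.2.2]⟩,
      abs_pos.1 (one_pos.trans_le k5)⟩, k6⟩

theorem detf_Decouple (k : ℝ) (i i' : ℕ) (z : ℝ × ℝ) :
    (fderiv ℝ (fun w : ℝ × ℝ => (orb k w.2 w.1 i', orb k w.1 w.2 i)) z).det =
      fld (Vo k z.2 z.1) 0 1 i' * fld (Vo k z.1 z.2) 0 1 i -
        fld (Vo k z.2 z.1) 1 0 i' * fld (Vo k z.1 z.2) 1 0 i := by
  have h := (hasFDerivAt_orb k (z.2, z.1) i').comp (f := fun w : ℝ × ℝ => (w.2, w.1)) z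
    (hasFDerivAt_snd.prodMk hasFDerivAt_fst)
  refine (congrArg _ (h.prodMk (hasFDerivAt_orb k z i)).fderiv).trans ?_
  simp [det_Decouple]

theorem detg_Decouple (k p q : ℝ) (i i' : ℕ) (z : ℝ × ℝ) :
    (fderiv ℝ (fun w : ℝ × ℝ => (orb k q w.1 i', orb k p w.2 i)) z).det =
      fld (Vo k q z.1) 0 1 i' * fld (Vo k p z.2) 0 1 i := by
  have h := (hasFDerivAt_orb k (q, z.1) i').comp (f := fun w : ℝ × ℝ => (q, w.1)) z
    ((hasFDerivAt_const q z).prodMk hasFDerivAt_fst)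
  have h' := (hasFDerivAt_orb k (p, z.2) i).comp (f := fun w : ℝ × ℝ => (p, w.2)) z
    ((hasFDerivAt_const p z).prodMk hasFDerivAt_snd)
  refine (congrArg _ (h.prodMk h').fderiv).trans ?_
  simp [det_Decouple]

theorem ineq_Decouple {a b c a' b' c' : ℝ} (h1 : |a| ≤ |b| / 10) (h2 : |a'| ≤ |b'| / 10)
    (h3 : |c| ≤ 4 / 3 * |b|) (h4 : |c'| ≤ 4 / 3 * |b'|) : |c' * c| ≤ 2 * |b' * b - a' * a| := by
  have k1 := mul_le_mul h2 h1 (abs_nonneg _) (by positivity)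
  have k2 := mul_le_mul h4 h3 (abs_nonneg _) (by positivity)
  have k3 := abs_sub_abs_le_abs_sub (b' * b) (a' * a)
  simp only [abs_mul] at k3 ⊢
  nlinarith [mul_nonneg (abs_nonneg b') (abs_nonneg b)]

theorem meas_Decouple (k p : ℝ) (i : ℕ) {S : Set (ℝ × ℝ)} (hS : MeasurableSet S) :
    MeasurableSet {b | (p, b) ∈ S ∧ fld (Vo k p b) 0 1 i ≠ 0} :=
  (measurable_prodMk_left hS).inter (isOpen_ne_fun ((contDiff_fld k 0 1 i).continuous.comp
    (Continuous.prodMk_right p)) continuous_const).measurableSet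

theorem decouple {k g : ℝ} (hk : 0 < k) (hg : 300 ≤ g) (hL : g ^ 20 ≤ Lam k) {n i n' i' : ℕ}
    (hn : 1 ≤ n) (hi : i = n ∨ i = n + 1) (hn' : 1 ≤ n') (hi' : i' = n' ∨ i' = n' + 1) (N : ℕ) :
    Pr ((Ecl k g n N ∩ Row k n i) ∩ Prod.swap ⁻¹' (Ecl k g n' N ∩ Row k n' i')) ≤
      72 * (Pr (Etl k g n N) * Pr (Etl k g n' N)) := by
  obtain ⟨Ψ, a1, a2⟩ := side_Decouple hk hg hL hn hi N
  obtain ⟨Φ, b1, b2⟩ := side_Decouple hk hg hL hn' hi' N
  have hbox : MeasurableSet box := measurableSet_Ico.prod measurableSet_Ico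
  have hS := fun n => (meas_Etl k g n N).inter
    ((measurableSet_Ico (a := (0 : ℝ)) (b := 1)).prod (measurableSet_Ico (a := (-1 : ℝ)) (b := 2)))
  have key : ∀ q ∈ Ico (0 : ℝ) 1, ∀ p ∈ Ico (0 : ℝ) 1,
      Pr ((Ecl k g n N ∩ Row k n i) ∩ Prod.swap ⁻¹' (Ecl k g n' N ∩ Row k n' i')) ≤
        8 * volume (Prod.mk q ⁻¹' (Etl k g n' N ∩ Ico (0 : ℝ) 1 ×ˢ Ico (-1 : ℝ) 2)) *
          volume (Prod.mk p ⁻¹' (Etl k g n N ∩ Ico (0 : ℝ) 1 ×ˢ Ico (-1 : ℝ) 2)) := by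
    intro q hq p hp
    refine (area_compare (f := fun w => (orb k w.2 w.1 i', orb k w.1 w.2 i))
      (g := fun w => (orb k q w.1 i', orb k p w.2 i))
      (((contDiff_orb k i').comp (contDiff_snd.prodMk contDiff_fst)).prodMk (contDiff_orb k i))
      (((contDiff_orb k i').comp (contDiff_const.prodMk contDiff_fst)).prodMk
        ((contDiff_orb k i).comp (contDiff_const.prodMk contDiff_snd)))
      ((((meas_Ecl k g n N).inter (meas_Row k n i)).inter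
        (measurable_swap ((meas_Ecl k g n' N).inter (meas_Row k n' i')))).inter hbox)
      ((meas_Decouple k q i' (hS n')).prod (meas_Decouple k p i (hS n)))
      (fun z => (Φ z.swap q, Ψ z p)) (fun z hz w hw e => ?_) (fun z hz => ?_) (fun z hz => ?_)
      two_pos (fun w hw => ?_) fun z hz => ?_).trans ?_
    · have k1 := a1 z ⟨hz.1.1, hz.2⟩ w ⟨hw.1.1, hw.2⟩ p hp (congrArg Prod.snd e)
      have k2 : |z.1 - w.1| ≤ |z.2 - w.2| / 10 := b1 z.swap ⟨hz.1.2, hz.2.2, hz.2.1⟩ w.swap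
        ⟨hw.1.2, hw.2.2, hw.2.1⟩ q hq (congrArg Prod.fst e)
      exact Prod.ext (sub_eq_zero.1 (abs_nonpos_iff.1 (by linarith)))
        (sub_eq_zero.1 (abs_nonpos_iff.1 (by linarith)))
    · exact ⟨((b2 z.swap ⟨hz.1.2, hz.2.2, hz.2.1⟩).2 q hq).2.1, ((a2 z ⟨hz.1.1, hz.2⟩).2 p hp).2.1⟩
    · exact Prod.ext ((b2 z.swap ⟨hz.1.2, hz.2.2, hz.2.1⟩).2 q hq).1
        ((a2 z ⟨hz.1.1, hz.2⟩).2 p hp).1
    · rw [detg_Decouple]
      exact mul_ne_zero hw.1.2 hw.2.2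
    · rw [detg_Decouple, detf_Decouple]
      exact ineq_Decouple (a2 z ⟨hz.1.1, hz.2⟩).1 (b2 z.swap ⟨hz.1.2, hz.2.2, hz.2.1⟩).1
        ((a2 z ⟨hz.1.1, hz.2⟩).2 p hp).2.2 ((b2 z.swap ⟨hz.1.2, hz.2.2, hz.2.1⟩).2 q hq).2.2
    · rw [Measure.volume_eq_prod, Measure.prod_prod, ← mul_assoc,
        show ENNReal.ofReal (4 * 2) = 8 by norm_num]
      gcongr <;> exact fun _ h => h.1
  refine (avg_Decouple (a := 8 * volume (Etl k g n N ∩ Ico (0 : ℝ) 1 ×ˢ Ico (-1 : ℝ) 2)) (hS n')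
    fun q hq => (avg_Decouple (hS n) (key q hq)).trans_eq (mul_right_comm _ _ _)).trans ?_
  calc _ ≤ 8 * (3 * Pr (Etl k g n N)) * (3 * Pr (Etl k g n' N)) := by
        gcongr <;> exact vol_strip (meas_Etl k g _ N) (per_Etl k g _ N)
    _ = _ := by ring

end Vale.Agent.P108
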