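import Vale.Agent.P108.Orb

/-!
P108 DiscA (part of Disc): a chain on complex discs.  v = vr k p q e1 e2, M = vn v i, L = Lam k = mu^100,
B l = mu^2 (mu^2 / L)^(i - l) M bounds vn v l (hypothesis BD) and vn v l >= M / L^(i-l).
disc_main: induction on l.  With d l t = vC l t - v l one has
d (l+1) = V l d l - d (l-1) + (potC (xC l t) - V l) vC l t (V real at t = 0, vC_ofReal at t = 0).
On the closed ball, |vC l| <= 2 B (l-1) by the previous step, so |xC l t - x l| <= 2 B (l-1) |t|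
(mean value inequality on the convex ball, hasDerivAt_xC), which is below 1/10; on that strip
|potC x| <= L - 2 and potC is 4 L Lipschitz (|sin|, |cos| <= cosh (2 pi / 10) <= 5/4).  So the
source is at most 16 L B(l-1)^2 |t|, and L * E (l-1) <= E l / 2 for E l = 64 L B(l-1)^2.
disc_top: the case j = i.
-/

namespace Vale.Agent.P108

theorem exp_DiscA {z : ℂ} (hz : |z.im| ≤ 1 / 10) :
    ‖Complex.exp (2 * Real.pi * z * Complex.I)‖ ≤ 2 ∧
      ‖Complex.exp (-(2 * Real.pi * z) * Complex.I)‖ ≤ 2 := by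
  have h : ∀ x : ℝ, x ≤ 2 * Real.pi * (1 / 10) → Real.exp x ≤ 2 := fun x hx => by
    rw [← Real.le_log_iff_exp_le two_pos]
    linarith [Real.log_two_gt_d9, Real.pi_lt_d2]
  have h1 := abs_le.1 hz
  have h2 := Real.pi_pos
  rw [Complex.norm_exp, Complex.norm_exp]
  constructor <;> apply h <;> simp <;> nlinarith [h1.1, h1.2]

theorem cos_DiscA {z : ℂ} (hz : |z.im| ≤ 1 / 10) : ‖Complex.cos (2 * Real.pi * z)‖ ≤ 2 := by
  obtain ⟨h1, h2⟩ := exp_DiscA hz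
  rw [Complex.cos, norm_div, Complex.norm_two]
  linarith [norm_add_le (Complex.exp (2 * Real.pi * z * Complex.I))
    (Complex.exp (-(2 * Real.pi * z) * Complex.I))]

theorem sin_DiscA {z : ℂ} (hz : |z.im| ≤ 1 / 10) : ‖Complex.sin (2 * Real.pi * z)‖ ≤ 2 := by
  obtain ⟨h1, h2⟩ := exp_DiscA hz
  rw [Complex.sin, norm_div, Complex.norm_two, norm_mul, Complex.norm_I, mul_one]
  linarith [norm_sub_le (Complex.exp (-(2 * Real.pi * z) * Complex.I))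
    (Complex.exp (2 * Real.pi * z * Complex.I))]

theorem im_DiscA {x : ℝ} {z : ℂ} (hz : ‖z - x‖ ≤ 1 / 10) : |z.im| ≤ 1 / 10 := by
  have := Complex.abs_im_le_norm (z - x)
  rw [Complex.sub_im, Complex.ofReal_im, sub_zero] at this
  exact this.trans hz

theorem pot_DiscA {k x : ℝ} (hk : 0 < k) {z : ℂ} (hz : ‖z - x‖ ≤ 1 / 10) :
    ‖potC k z‖ ≤ Lam k - 2 ∧ ‖potC k z - pot k x‖ ≤ 8 * Lam k * ‖z - x‖ := by
  have hp := Real.pi_pos
  have e : ‖(2 * Real.pi * k : ℂ)‖ = 2 * Real.pi * k := by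
    rw [norm_mul, norm_mul, Complex.norm_two, Complex.norm_real, Complex.norm_real,
      Real.norm_of_nonneg hp.le, Real.norm_of_nonneg hk.le]
  have e2 : ‖(2 * Real.pi : ℂ)‖ = 2 * Real.pi := by
    rw [norm_mul, Complex.norm_two, Complex.norm_real, Real.norm_of_nonneg hp.le]
  constructor
  · refine (norm_add_le _ _).trans ?_
    rw [norm_mul, e, Complex.norm_two, Lam]
    nlinarith [mul_le_mul_of_nonneg_left (cos_DiscA (im_DiscA hz)) (mul_pos hp hk).le]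
  · rw [← potC_ofReal]
    refine (convex_closedBall (x : ℂ) (1 / 10)).norm_image_sub_le_of_norm_hasDerivWithin_le
      (f := potC k) (f' := fun w => 2 * Real.pi * k * (-Complex.sin (2 * Real.pi * w) * (2 * Real.pi)))
      (fun w _ => ?_) (fun w hw => ?_) (Metric.mem_closedBall_self (by norm_num))
      (mem_closedBall_iff_norm.2 hz)
    · have h1 := ((hasDerivAt_id w).const_mul (2 * Real.pi : ℂ)).ccos
      rw [mul_one] at h1
      exact ((h1.const_mul (2 * Real.pi * k : ℂ)).const_add 2).hasDerivWithinAt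
    · have h1 := sin_DiscA (im_DiscA (mem_closedBall_iff_norm.1 hw))
      rw [norm_mul, e, norm_mul, norm_neg, e2, Lam]
      have h2 : ‖Complex.sin (2 * Real.pi * w)‖ * (2 * Real.pi) ≤ 2 * 8 :=
        mul_le_mul h1 (by linarith [Real.pi_le_four]) (by positivity) (by norm_num)
      nlinarith [mul_le_mul_of_nonneg_left h2 (mul_pos hp hk).le]

theorem num_DiscA {μ M w τ : ℝ} (hμ : 128 ≤ μ) (hM : 0 ≤ M) (n : ℕ)
    (h1 : M * τ ≤ (μ ^ 96) ^ n * μ ^ 91) (h2 : M ≤ (μ ^ 100) ^ n * w) :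
    64 * μ ^ 100 * (μ ^ 2 * (μ ^ 2 / μ ^ 100) ^ (n + 1) * M) ^ 2 * τ ≤ w / 2 ∧
      2 * (μ ^ 2 * (μ ^ 2 / μ ^ 100) ^ (n + 1) * M) * τ ≤ 1 / 10 := by
  have h0 : 0 < μ := by linarith
  obtain ⟨y, hy⟩ : ∃ y, y = μ ^ n := ⟨_, rfl⟩
  have y1 : 1 ≤ y := hy ▸ one_le_pow₀ (by linarith)
  have y0 : 0 < y := by linarith
  have e1 : ∀ a : ℕ, (μ ^ a) ^ n = y ^ a := fun a => by rw [hy, ← pow_mul, ← pow_mul, mul_comm]
  have e2 : μ ^ 2 * (μ ^ 2 / μ ^ 100) ^ (n + 1) = 1 / (y ^ 98 * μ ^ 96) := by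
    rw [pow_succ (μ ^ 2 / μ ^ 100), div_pow, e1, e1]
    field_simp
  rw [e1] at h1 h2
  rw [e2]
  have hw : 0 ≤ w := nonneg_of_mul_nonneg_right (hM.trans h2) (by positivity)
  constructor
  · have h3 : M * (M * τ) ≤ y ^ 100 * w * (y ^ 96 * μ ^ 91) :=
      (mul_le_mul_of_nonneg_left h1 hM).trans (mul_le_mul_of_nonneg_right h2 (by positivity))
    calc _ = 64 * μ ^ 100 * (1 / (y ^ 98 * μ ^ 96)) ^ 2 * (M * (M * τ)) := by ring
      _ ≤ 64 * μ ^ 100 * (1 / (y ^ 98 * μ ^ 96)) ^ 2 * (y ^ 100 * w * (y ^ 96 * μ ^ 91)) :=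
        mul_le_mul_of_nonneg_left h3 (by positivity)
      _ = 64 * w / μ := by field_simp
      _ ≤ w / 2 := by
        rw [div_le_div_iff₀ h0 two_pos]
        nlinarith
  · have h4 : (128 : ℝ) ≤ y ^ 2 * μ ^ 5 :=
      (hμ.trans (le_self_pow₀ (by linarith) (by norm_num))).trans
        (le_mul_of_one_le_left (by positivity) (one_le_pow₀ y1))
    calc _ = 2 * (1 / (y ^ 98 * μ ^ 96)) * (M * τ) := by ring
      _ ≤ 2 * (1 / (y ^ 98 * μ ^ 96)) * (y ^ 96 * μ ^ 91) :=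
        mul_le_mul_of_nonneg_left h1 (by positivity)
      _ = 2 / (y ^ 2 * μ ^ 5) := by field_simp
      _ ≤ 1 / 10 := by
        rw [div_le_div_iff₀ (by positivity) (by norm_num)]
        linarith

theorem q_DiscA {μ : ℝ} (hμ : 128 ≤ μ) : 0 < μ ^ 2 / μ ^ 100 ∧ (μ ^ 2 / μ ^ 100) ^ 2 ≤ 1 ∧
    μ ^ 100 * (μ ^ 2 / μ ^ 100) ^ 2 ≤ 1 / 2 := by
  have h0 : 0 < μ := by linarith
  have h1 : μ ^ 2 / μ ^ 100 ≤ 1 :=
    (div_le_one (by positivity)).2 (pow_le_pow_right₀ (by linarith) (by norm_num))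
  refine ⟨by positivity, pow_le_one₀ (by positivity) h1, ?_⟩
  have e : μ ^ 100 * (μ ^ 2 / μ ^ 100) ^ 2 = 1 / μ ^ 96 := by field_simp
  rw [e]
  exact one_div_le_one_div_of_le two_pos
    ((by linarith : 2 ≤ μ).trans (le_self_pow₀ (by linarith) (by norm_num)))

theorem step_DiscA {a b c a' b' : ℂ} {V L E B q τ : ℝ} (hV : |V| ≤ L - 2) (hτ : 0 ≤ τ)
    (hE : E = 64 * L * B ^ 2 * τ) (hq : L * q ≤ 1 / 2) (h1 : ‖a - a'‖ ≤ q * E) (h2 : ‖b - b'‖ ≤ q * E)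
    (h3 : ‖c - V‖ ≤ 8 * L * (2 * B * τ)) (h4 : ‖b‖ ≤ 2 * B) :
    ‖c * b - a - (V * b' - a')‖ ≤ E := by
  have hL : 0 ≤ L - 2 := (abs_nonneg V).trans hV
  have e : c * b - a - (V * b' - a') = V * (b - b') - (a - a') + (c - V) * b := by ring
  have k1 : ‖(V : ℂ) * (b - b')‖ ≤ (L - 2) * (q * E) := by
    rw [norm_mul, Complex.norm_real, Real.norm_eq_abs]
    exact mul_le_mul hV h2 (norm_nonneg _) hL
  have k2 : ‖(c - V) * b‖ ≤ 8 * L * (2 * B * τ) * (2 * B) := by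
    rw [norm_mul]
    exact mul_le_mul h3 h4 (norm_nonneg _) ((norm_nonneg _).trans h3)
  have k3 : 0 ≤ E := by
    rw [hE]
    exact mul_nonneg (mul_nonneg (by linarith) (sq_nonneg _)) hτ
  have k4 := mul_le_mul_of_nonneg_right hq k3
  have k5 : 0 ≤ q * E := (norm_nonneg _).trans h1
  have k6 : 8 * L * (2 * B * τ) * (2 * B) = E / 2 := by
    rw [hE]
    ring
  rw [e]
  refine (norm_add_le _ _).trans ((add_le_add (norm_sub_le _ _) le_rfl).trans ?_)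
  nlinarith

theorem disc_main : ∃ μ0 : ℝ, ∀ (k μ : ℝ), 0 < k → μ0 ≤ μ → μ ^ 100 = Lam k →
    ∀ (p q e1 e2 : ℝ) (i j : ℕ), Dir e1 e2 → BD μ (Lam k) (vr k p q e1 e2) i → j ≤ i →
    ∀ t : ℂ, ‖t‖ ≤ (μ ^ 96) ^ (i - j) * μ ^ 91 / vn (vr k p q e1 e2) i →
    ∀ l, l ≤ j →
      ‖vC k p q e1 e2 l t - vr k p q e1 e2 l‖ ≤ vn (vr k p q e1 e2) l / 2 ∧
      ‖vC k p q e1 e2 (l + 1) t - vr k p q e1 e2 (l + 1)‖ ≤ vn (vr k p q e1 e2) l / 2 ∧
      ‖vC k p q e1 e2 (l + 1) t - vr k p q e1 e2 (l + 1)‖ ≤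
        64 * Lam k * (μ ^ 2 * (μ ^ 2 / Lam k) ^ (i - l + 1) * vn (vr k p q e1 e2) i) ^ 2 * ‖t‖ ∧
      (1 ≤ l → ‖potC k (xC k p q e1 e2 l t)‖ ≤ Lam k - 2) := by
  refine ⟨128, fun k μ hk hμ hL p q e1 e2 i j hd hb hj => ?_⟩
  obtain ⟨v, hv⟩ : ∃ v, v = vr k p q e1 e2 := ⟨_, rfl⟩
  have hle : ∀ l ≤ i, vn v l ≤ Lam k ^ (i - l) * vn v i ∧ vn v i ≤ Lam k ^ (i - l) * vn v l :=
    fun l hl => hv ▸ (FldOn.vn_le_pow (abs_Vo_le hk p q) (fld_fldOn _ e1 e2 i) hl le_rfl).symm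
  have hM : 0 < vn v i := by
    have h0 : vn v 0 = 1 := by
      rw [hv]
      rcases hd with ⟨rfl, rfl⟩ | ⟨rfl, rfl⟩ <;> simp [vn, vr, fld]
    have h1 := (hle 0 (Nat.zero_le _)).1
    rw [h0] at h1
    exact (vn_nonneg v i).lt_of_ne fun e => by
      rw [← e, mul_zero] at h1
      linarith
  rw [← hv] at hb
  rw [← hv]
  obtain ⟨r, hr⟩ : ∃ r, r = (μ ^ 96) ^ (i - j) * μ ^ 91 / vn v i := ⟨_, rfl⟩
  rw [← hr]
  have hμ0 : 0 < μ := by linarith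
  have hr0 : 0 ≤ r := by
    rw [hr]
    positivity
  obtain ⟨B, hB⟩ : ∃ B : ℕ → ℝ, ∀ n, B n = μ ^ 2 * (μ ^ 2 / Lam k) ^ n * vn v i := ⟨_, fun _ => rfl⟩
  obtain ⟨q0, q1, q2⟩ := q_DiscA hμ
  rw [hL] at q0 q1 q2
  have hnum : ∀ l ≤ j, ∀ t : ℂ, ‖t‖ ≤ r → 64 * Lam k * B (i - l + 1) ^ 2 * ‖t‖ ≤ vn v l / 2 ∧
      2 * B (i - l + 1) * ‖t‖ ≤ 1 / 10 := by
    intro l hl t ht
    rw [hr, le_div_iff₀' hM] at ht
    rw [hB, ← hL]
    refine num_DiscA hμ hM.le (i - l) (ht.trans ?_) (hL ▸ (hle l (hl.trans hj)).2)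
    exact mul_le_mul_of_nonneg_right
      (pow_le_pow_right₀ (one_le_pow₀ (by linarith)) (by omega)) (by positivity)
  have key : ∀ l ≤ j, ∀ t : ℂ, ‖t‖ ≤ r →
      ‖vC k p q e1 e2 l t - v l‖ ≤ 64 * Lam k * B (i - l + 1) ^ 2 * ‖t‖ ∧
      ‖vC k p q e1 e2 (l + 1) t - v (l + 1)‖ ≤ 64 * Lam k * B (i - l + 1) ^ 2 * ‖t‖ ∧
      (1 ≤ l → ‖potC k (xC k p q e1 e2 l t)‖ ≤ Lam k - 2) := by
    intro l
    induction l with
    | zero =>
      intro _ t _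
      have h0 : 0 ≤ 64 * Lam k * B (i - 0 + 1) ^ 2 * ‖t‖ := by
        rw [← hL]
        positivity
      refine ⟨le_trans (le_of_eq ?_) h0, le_trans (le_of_eq ?_) h0, fun h => absurd h (by omega)⟩ <;>
        simp [hv, vC, vr, fld]
    | succ l ih =>
      intro hl t ht
      have e : i - (l + 1) + 1 = i - l := by omega
      have hvC : ∀ s : ℂ, ‖s‖ ≤ r → ‖vC k p q e1 e2 (l + 1) s‖ ≤ 2 * B (i - l) := fun s hs => by
        have a1 := (ih (by omega) s hs).2.1.trans (hnum l (by omega) s hs).1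
        have a2 : ‖((v (l + 1) : ℝ) : ℂ)‖ ≤ vn v l := by
          rw [Complex.norm_real, Real.norm_eq_abs]
          exact le_max_right _ _
        have a3 := hb l (by omega)
        rw [← hB] at a3
        linarith [norm_le_norm_sub_add (vC k p q e1 e2 (l + 1) s) (v (l + 1) : ℝ), vn_nonneg v l]
      have hx : ‖xC k p q e1 e2 (l + 1) t - orb k p q (l + 1)‖ ≤ 2 * B (i - l) * ‖t‖ := by
        have a1 := (convex_closedBall (0 : ℂ) r).norm_image_sub_le_of_norm_hasDerivWithin_le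
          (fun s _ => (hasDerivAt_xC k p q e1 e2 (l + 1) s).hasDerivWithinAt)
          (fun s hs => hvC s (mem_closedBall_zero_iff.1 hs)) (Metric.mem_closedBall_self hr0)
          (mem_closedBall_zero_iff.2 ht)
        have a2 := xC_ofReal k p q e1 e2 (l + 1) 0
        rw [mul_zero, mul_zero, add_zero, add_zero, Complex.ofReal_zero] at a2
        rwa [a2, sub_zero] at a1
      have h10 := (hnum (l + 1) hl t ht).2
      rw [e] at h10 ⊢
      obtain ⟨p1, p2⟩ := pot_DiscA hk (hx.trans h10)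
      obtain ⟨i1, i2, -⟩ := ih (by omega) t ht
      have e4 : 64 * Lam k * B (i - l + 1) ^ 2 * ‖t‖ =
          (μ ^ 2 / Lam k) ^ 2 * (64 * Lam k * B (i - l) ^ 2 * ‖t‖) := by
        rw [hB, hB, pow_succ _ (i - l)]
        ring
      rw [e4] at i1 i2
      have hL0 : 0 ≤ Lam k := by linarith [Lam_ge hk]
      refine ⟨i2.trans (mul_le_of_le_one_left (by positivity) q1), ?_, fun _ => p1⟩
      have e3 : ((v (l + 1 + 1) : ℝ) : ℂ) = Vo k p q (l + 1) * v (l + 1) - v l := by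
        rw [hv]
        exact_mod_cast (rfl : vr k p q e1 e2 (l + 1 + 1) =
          Vo k p q (l + 1) * vr k p q e1 e2 (l + 1) - vr k p q e1 e2 l)
      rw [e3]
      exact step_DiscA (abs_Vo_le hk p q (l + 1)) (norm_nonneg t) rfl q2 i1 i2
        (p2.trans (mul_le_mul_of_nonneg_left hx (by positivity))) (hvC t ht)
  intro t ht l hl
  obtain ⟨k1, k2, k3⟩ := key l hl t ht
  exact ⟨k1.trans (hnum l hl t ht).1, k2.trans (hnum l hl t ht).1, hB _ ▸ k2, k3⟩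

end Vale.Agent.P108
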