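import Vale.Agent.P108.Orb
import Vale.Agent.P108.DiscA

/-!
P108 Disc: a chain on complex discs.  v = vr k p q e1 e2, M = vn v i, L = Lam k = mu^100,
B l = mu^2 (mu^2 / L)^(i - l) M bounds vn v l (hypothesis BD) and vn v l >= M / L^(i-l).
disc_main: induction on l.  With d l t = vC l t - v l one has
d (l+1) = V l d l - d (l-1) + (potC (xC l t) - V l) vC l t (V real at t = 0, vC_ofReal at t = 0).
On the closed ball, |vC l| <= 2 B (l-1) by the previous step, so |xC l t - x l| <= 2 B (l-1) |t|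
(mean value inequality on the convex ball, hasDerivAt_xC), which is below 1/10; on that strip
|potC x| <= L - 2 and potC is 4 L Lipschitz (|sin|, |cos| <= cosh (2 pi / 10) <= 5/4).  So the
source is at most 16 L B(l-1)^2 |t|, and L * E (l-1) <= E l / 2 for E l = 64 L B(l-1)^2.
disc_top: the case j = i.
-/

namespace Vale.Agent.P108

theorem pos_Disc {k μ p q e1 e2 : ℝ} {i : ℕ} (hd : Dir e1 e2)
    (hB : BD μ (Lam k) (vr k p q e1 e2) i) : 0 < vn (vr k p q e1 e2) i := by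
  refine lt_of_le_of_ne (vn_nonneg _ _) fun h => ?_
  have h1 := hB 0 (Nat.zero_le i)
  have h2 : vn (vr k p q e1 e2) 0 = max |e1| |e2| := rfl
  rw [← h, mul_zero, h2] at h1
  rcases hd with ⟨rfl, rfl⟩ | ⟨rfl, rfl⟩ <;> norm_num at h1

theorem disc_top : ∃ μ0 : ℝ, ∀ (k μ : ℝ), 0 < k → μ0 ≤ μ → μ ^ 100 = Lam k →
    ∀ (p q e1 e2 : ℝ) (i : ℕ), Dir e1 e2 → BD μ (Lam k) (vr k p q e1 e2) i → 1 ≤ i →
    0 < vn (vr k p q e1 e2) i ∧ |vr k p q e1 e2 (i + 1)| = vn (vr k p q e1 e2) i ∧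
    ∀ t : ℂ, ‖t‖ ≤ μ ^ 91 / vn (vr k p q e1 e2) i →
      ‖vC k p q e1 e2 (i + 1) t - vr k p q e1 e2 (i + 1)‖ ≤
        vn (vr k p q e1 e2) i ^ 2 * ‖t‖ / μ ^ 91 ∧
      ‖vC k p q e1 e2 i t‖ ≤ vn (vr k p q e1 e2) i / μ ^ 95 ∧
      ‖xC k p q e1 e2 (i + 1) t - orb k p q (i + 1) - vr k p q e1 e2 (i + 1) * t‖ ≤
        vn (vr k p q e1 e2) i ^ 2 * ‖t‖ ^ 2 / μ ^ 91 := by
  obtain ⟨μ0, hm⟩ := disc_main
  refine ⟨max μ0 64, fun k μ hk hμ hL p q e1 e2 i hd hB hi => ?_⟩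
  have h64 : 64 ≤ μ := (le_max_right _ _).trans hμ
  have hμ0 : 0 < μ := by linarith
  have hM := pos_Disc hd hB
  have hmain := hm k μ hk ((le_max_left _ _).trans hμ) hL p q e1 e2 i i hd hB le_rfl
  simp only [Nat.sub_self, pow_zero, one_mul] at hmain
  obtain ⟨j, rfl⟩ : ∃ j, i = j + 1 := ⟨i - 1, by omega⟩
  generalize hv : vr k p q e1 e2 = v at *
  have e96 : μ ^ 2 * (μ ^ 2 / Lam k) = 1 / μ ^ 96 := by
    rw [← hL]
    field_simp
  have hj : vn v j ≤ 1 / μ ^ 96 * vn v (j + 1) := by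
    have := hB j (Nat.le_succ j)
    rwa [Nat.add_sub_cancel_left, pow_one, e96] at this
  have hj' : |v (j + 1)| ≤ vn v j := le_max_right _ _
  have h95 : 1 / μ ^ 96 * vn v (j + 1) ≤ vn v (j + 1) / μ ^ 95 / 2 := by
    have e : 1 / μ ^ 96 * vn v (j + 1) = vn v (j + 1) / μ ^ 95 / μ := by
      field_simp
    rw [e]
    exact div_le_div_of_nonneg_left (by positivity) two_pos (by linarith)
  have h1 : vn v (j + 1) / μ ^ 95 ≤ vn v (j + 1) :=
    div_le_self hM.le (one_le_pow₀ (by linarith))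
  have hA : ∀ t : ℂ, ‖t‖ ≤ μ ^ 91 / vn v (j + 1) →
      ‖vC k p q e1 e2 (j + 1 + 1) t - v (j + 1 + 1)‖ ≤ vn v (j + 1) ^ 2 * ‖t‖ / μ ^ 91 := by
    intro t ht
    refine (hmain t ht (j + 1) le_rfl).2.2.1.trans ?_
    rw [Nat.sub_self, zero_add, pow_one, e96, ← hL]
    have e : 64 * μ ^ 100 * (1 / μ ^ 96 * vn v (j + 1)) ^ 2 * ‖t‖ =
        64 / μ * (vn v (j + 1) ^ 2 * ‖t‖ / μ ^ 91) := by
      field_simp
    rw [e]
    exact mul_le_of_le_one_left (by positivity) ((div_le_one hμ0).2 h64)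
  refine ⟨hM, ?_, fun t ht => ⟨hA t ht, ?_, ?_⟩⟩
  · have h2 : |v (j + 1)| < vn v (j + 1) := by linarith
    rcases max_choice |v (j + 1)| |v (j + 1 + 1)| with h | h
    · exact absurd h h2.ne'
    · exact h.symm
  · have h2 := (hmain t ht j (Nat.le_succ j)).2.1
    have h3 := norm_add_le (vC k p q e1 e2 (j + 1) t - v (j + 1)) (v (j + 1) : ℂ)
    rw [sub_add_cancel, Complex.norm_real, Real.norm_eq_abs] at h3
    have h4 := vn_nonneg v j
    linarith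
  · have h2 := (convex_closedBall (0 : ℂ) ‖t‖).norm_image_sub_le_of_norm_hasDerivWithin_le
      (f := fun τ => xC k p q e1 e2 (j + 1 + 1) τ - v (j + 1 + 1) * τ)
      (f' := fun τ => vC k p q e1 e2 (j + 1 + 1) τ - v (j + 1 + 1) * 1)
      (C := vn v (j + 1) ^ 2 * ‖t‖ / μ ^ 91) (x := 0) (y := t)
      (fun τ _ => ((hasDerivAt_xC k p q e1 e2 _ τ).sub
        ((hasDerivAt_id τ).const_mul _)).hasDerivWithinAt)
      (fun τ hτ => by
        have h3 : ‖τ‖ ≤ ‖t‖ := mem_closedBall_zero_iff.1 hτ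
        rw [mul_one]
        refine (hA τ (h3.trans ht)).trans ?_
        gcongr)
      (Metric.mem_closedBall_self (norm_nonneg _)) (mem_closedBall_zero_iff.2 le_rfl)
    have h0 : xC k p q e1 e2 (j + 1 + 1) 0 = orb k p q (j + 1 + 1) := by
      simpa using xC_ofReal k p q e1 e2 (j + 1 + 1) 0
    rw [h0, mul_zero, sub_zero, sub_zero, sub_right_comm] at h2
    exact h2.trans (le_of_eq (by ring))

theorem disc_real : ∃ μ0 : ℝ, ∀ (k μ : ℝ), 0 < k → μ0 ≤ μ → μ ^ 100 = Lam k →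
    ∀ (p q e1 e2 : ℝ) (i : ℕ), Dir e1 e2 → BD μ (Lam k) (vr k p q e1 e2) i →
    ∀ t : ℝ, |t| ≤ μ ^ 91 / vn (vr k p q e1 e2) i → ∀ l, l ≤ i →
      vn (vr k p q e1 e2) l / 2 ≤ vn (vr k (p + e1 * t) (q + e2 * t) e1 e2) l ∧
      vn (vr k (p + e1 * t) (q + e2 * t) e1 e2) l ≤ 3 / 2 * vn (vr k p q e1 e2) l := by
  obtain ⟨μ0, hm⟩ := disc_main
  refine ⟨μ0, fun k μ hk hμ hL p q e1 e2 i hd hB t ht l hl => ?_⟩
  obtain ⟨h1, h2, -⟩ := hm k μ hk hμ hL p q e1 e2 i i hd hB le_rfl t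
    (by rwa [Nat.sub_self, pow_zero, one_mul, Complex.norm_real, Real.norm_eq_abs]) l hl
  rw [vC_ofReal, ← Complex.ofReal_sub, Complex.norm_real, Real.norm_eq_abs] at h1 h2
  generalize vr k (p + e1 * t) (q + e2 * t) e1 e2 = w at *
  generalize vr k p q e1 e2 = v at *
  have a1 := abs_le.1 ((abs_abs_sub_abs_le_abs_sub (w l) (v l)).trans h1)
  have a2 := abs_le.1 ((abs_abs_sub_abs_le_abs_sub (w (l + 1)) (v (l + 1))).trans h2)
  have b1 : |w l| ≤ vn w l := le_max_left _ _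
  have b2 : |w (l + 1)| ≤ vn w l := le_max_right _ _
  have c1 : |v l| ≤ vn v l := le_max_left _ _
  have c2 : |v (l + 1)| ≤ vn v l := le_max_right _ _
  refine ⟨?_, max_le (by linarith [a1.2]) (by linarith [a2.2])⟩
  have : vn v l ≤ vn w l + vn v l / 2 := max_le (by linarith [a1.1]) (by linarith [a2.1])
  linarith

end Vale.Agent.P108
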