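import Vale.Agent.P108.Lin

/-!
P108 OrbA (part of Orb): calculus and symmetries of orbits.  Inductions on j (two-step, Nat.twoStepInduction or
strong induction).  orb_rv: the orbit of the swapped state at cut s runs the sites backwards.
-/

namespace Vale.Agent.P108

open Set

theorem Lam_ge {k : ℝ} (hk : 0 < k) : 4 ≤ Lam k := by
  have := mul_pos Real.pi_pos hk
  unfold Lam
  linarith

theorem abs_pot_le {k : ℝ} (hk : 0 < k) (x : ℝ) : |pot k x| ≤ Lam k - 2 := by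
  have h0 := mul_pos Real.pi_pos hk
  have h1 := mul_le_mul_of_nonneg_left (Real.cos_le_one (2 * Real.pi * x)) h0.le
  have h2 := mul_le_mul_of_nonneg_left (Real.neg_one_le_cos (2 * Real.pi * x)) h0.le
  unfold pot Lam
  exact abs_le.2 ⟨by linarith, by linarith⟩

theorem abs_Vo_le {k : ℝ} (hk : 0 < k) (a b : ℝ) (j : ℕ) : |Vo k a b j| ≤ Lam k - 2 :=
  abs_pot_le hk _

theorem abs_arg_OrbA (x y : ℝ) : |2 * Real.pi * x - 2 * Real.pi * y| = 2 * Real.pi * |x - y| := by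
  rw [← mul_sub, abs_mul, abs_of_pos Real.two_pi_pos]

theorem pot_lip {k : ℝ} (hk : 0 < k) (x y : ℝ) : |pot k x - pot k y| ≤ 4 * Lam k * |x - y| := by
  have h0 := mul_pos Real.pi_pos hk
  have h1 := Real.abs_cos_sub_cos_le (2 * Real.pi * x) (2 * Real.pi * y)
  have e : pot k x - pot k y =
      2 * Real.pi * k * (Real.cos (2 * Real.pi * x) - Real.cos (2 * Real.pi * y)) := by
    unfold pot
    ring
  rw [abs_arg_OrbA] at h1
  rw [e, abs_mul, abs_of_pos (by linarith : 0 < 2 * Real.pi * k)]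
  refine (mul_le_mul_of_nonneg_left h1 (by linarith)).trans ?_
  rw [← mul_assoc]
  refine mul_le_mul_of_nonneg_right ?_ (abs_nonneg _)
  have h2 := mul_le_mul_of_nonneg_left Real.pi_le_four h0.le
  unfold Lam
  linarith

theorem orb_two_OrbA (k a b : ℝ) (j : ℕ) : orb k a b (j + 2) =
    2 * orb k a b (j + 1) - orb k a b j + k * Real.sin (2 * Real.pi * orb k a b (j + 1)) := by
  rw [orb]

theorem orb_lip {k : ℝ} (hk : 0 < k) (a b a' b' : ℝ) (j : ℕ) :
    max |orb k a b (j + 1) - orb k a' b' (j + 1)| |orb k a b (j + 2) - orb k a' b' (j + 2)| ≤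
      Lam k * max |orb k a b j - orb k a' b' j| |orb k a b (j + 1) - orb k a' b' (j + 1)| := by
  rw [orb_two_OrbA, orb_two_OrbA]
  generalize orb k a b j = x0
  generalize orb k a' b' j = y0
  generalize orb k a b (j + 1) = x1
  generalize orb k a' b' (j + 1) = y1
  have h0 := mul_pos Real.pi_pos hk
  have h1 := le_max_left |x0 - y0| |x1 - y1|
  have h2 := le_max_right |x0 - y0| |x1 - y1|
  have h3 := abs_nonneg (x1 - y1)
  generalize max |x0 - y0| |x1 - y1| = M at h1 h2 ⊢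
  have h4 : 0 ≤ M := h3.trans h2
  have h5 := Real.abs_sin_sub_sin_le (2 * Real.pi * x1) (2 * Real.pi * y1)
  rw [abs_arg_OrbA] at h5
  have h6 : |k * (Real.sin (2 * Real.pi * x1) - Real.sin (2 * Real.pi * y1))| ≤
      2 * (Real.pi * k * M) := by
    rw [abs_mul, abs_of_pos hk]
    have := mul_le_mul_of_nonneg_left h2 h0.le
    nlinarith
  have h7 := mul_nonneg h0.le h4
  have e : Lam k * M = 4 * (Real.pi * k * M) + 4 * M := by
    unfold Lam
    ring
  rw [e]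
  obtain ⟨a1, a2⟩ := abs_le.1 h1
  obtain ⟨b1, b2⟩ := abs_le.1 h2
  obtain ⟨c1, c2⟩ := abs_le.1 h6
  exact max_le (by linarith) (abs_le.2 ⟨by linarith, by linarith⟩)

theorem arg_int_OrbA (x : ℝ) (c : ℤ) :
    2 * Real.pi * (x + c) = 2 * Real.pi * x + c * (2 * Real.pi) := by ring

theorem orb_int (k a b : ℝ) (m n : ℤ) (j : ℕ) :
    ∃ c : ℤ, orb k (a + m) (b + n) j = orb k a b j + c := by
  induction j using Nat.twoStepInduction with
  | zero => exact ⟨m, rfl⟩
  | one => exact ⟨n, rfl⟩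
  | more j h0 h1 =>
    obtain ⟨c0, h0⟩ := h0
    obtain ⟨c1, h1⟩ := h1
    refine ⟨2 * c1 - c0, ?_⟩
    rw [orb_two_OrbA, orb_two_OrbA, h0, h1, arg_int_OrbA, Real.sin_add_int_mul_two_pi]
    push_cast
    ring

theorem Vo_int (k a b : ℝ) (m n : ℤ) : Vo k (a + m) (b + n) = Vo k a b := by
  funext j
  obtain ⟨c, h⟩ := orb_int k a b m n j
  simp only [Vo, pot]
  rw [h, arg_int_OrbA, Real.cos_add_int_mul_two_pi]

theorem gm_iter (k : ℝ) (z : ℝ × ℝ) (s : ℕ) :
    (gm k)^[s] z = (orb k z.1 z.2 s, orb k z.1 z.2 (s + 1)) := by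
  induction s with
  | zero => rfl
  | succ s ih => rw [Function.iterate_succ_apply', ih, orb_two_OrbA, gm]

theorem orb_sh (k a b : ℝ) (s j : ℕ) :
    orb k (orb k a b s) (orb k a b (s + 1)) j = orb k a b (s + j) := by
  induction j using Nat.twoStepInduction with
  | zero => rfl
  | one => rfl
  | more j h0 h1 => rw [orb_two_OrbA, h0, h1, ← add_assoc, ← add_assoc, orb_two_OrbA]

theorem orb_rv (k a b : ℝ) (s j : ℕ) (hj : j ≤ s + 1) :
    orb k (orb k a b (s + 1)) (orb k a b s) j = orb k a b (s + 1 - j) := by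
  induction j using Nat.twoStepInduction with
  | zero => rfl
  | one => rfl
  | more j h0 h1 =>
    obtain ⟨m, hm⟩ : ∃ m, s + 1 - (j + 2) = m := ⟨_, rfl⟩
    have e1 : s + 1 - (j + 1) = m + 1 := by omega
    have e2 : s + 1 - j = m + 2 := by omega
    rw [orb_two_OrbA, h0 (by omega), h1 (by omega), hm, e1, e2, orb_two_OrbA]
    ring

theorem Vo_iter_sh (k : ℝ) (z : ℝ × ℝ) (s : ℕ) :
    Vo k ((gm k)^[s] z).1 ((gm k)^[s] z).2 = sh (Vo k z.1 z.2) s := by
  funext j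
  simp only [gm_iter, Vo, sh, orb_sh]

theorem Vo_iter_rv (k : ℝ) (z : ℝ × ℝ) (s l : ℕ) (hl : l ≤ s + 1) :
    Vo k ((gm k)^[s] z).2 ((gm k)^[s] z).1 l = rv (Vo k z.1 z.2) s l := by
  simp only [gm_iter, Vo, rv, orb_rv k z.1 z.2 s l hl]

theorem orbC_ofReal (k a b : ℝ) (j : ℕ) : orbC k (a : ℂ) (b : ℂ) j = (orb k a b j : ℂ) := by
  induction j using Nat.twoStepInduction with
  | zero => rfl
  | one => rfl
  | more j h0 h1 =>
    rw [orbC, orb_two_OrbA, h0, h1]
    push_cast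
    rfl

theorem potC_ofReal (k x : ℝ) : potC k (x : ℂ) = (pot k x : ℂ) := by
  unfold potC pot
  push_cast
  rfl

theorem xC_ofReal (k p q e1 e2 : ℝ) (j : ℕ) (t : ℝ) :
    xC k p q e1 e2 j (t : ℂ) = (orb k (p + e1 * t) (q + e2 * t) j : ℂ) := by
  rw [← orbC_ofReal, xC]
  push_cast
  rfl

theorem fld_ofReal_OrbA (V : ℕ → ℝ) (a b : ℝ) (j : ℕ) :
    fld (fun l => (V l : ℂ)) (a : ℂ) (b : ℂ) j = ((fld V a b j : ℝ) : ℂ) := by
  induction j using Nat.twoStepInduction with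
  | zero => rfl
  | one => rfl
  | more j h0 h1 =>
    rw [fld, fld, h0, h1]
    push_cast
    rfl

theorem vC_ofReal (k p q e1 e2 : ℝ) (j : ℕ) (t : ℝ) :
    vC k p q e1 e2 j (t : ℂ) = (vr k (p + e1 * t) (q + e2 * t) e1 e2 j : ℂ) := by
  simp only [vC, xC_ofReal, potC_ofReal]
  exact fld_ofReal_OrbA (Vo k (p + e1 * t) (q + e2 * t)) e1 e2 j

theorem wC_ofReal (k p q e1 e2 : ℝ) (j : ℕ) (t : ℝ) :
    wC k p q e1 e2 j (t : ℂ) = ((fld (Vo k (p + e1 * t) (q + e2 * t)) e2 e1 j : ℝ) : ℂ) := by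
  simp only [wC, xC_ofReal, potC_ofReal]
  exact fld_ofReal_OrbA (Vo k (p + e1 * t) (q + e2 * t)) e2 e1 j

end Vale.Agent.P108
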