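import Vale.Agent.P108.Lin
import Vale.Agent.P108.OrbA

/-!
P108 Orb: calculus and symmetries of orbits.  Inductions on j (two-step, Nat.twoStepInduction or
strong induction).  orb_rv: the orbit of the swapped state at cut s runs the sites backwards.
-/

namespace Vale.Agent.P108

open Set

theorem hasDerivWithinAt_orb (k : ℝ) {a b : ℝ → ℝ} {a' b' t : ℝ} {S : Set ℝ}
    (ha : HasDerivWithinAt a a' S t) (hb : HasDerivWithinAt b b' S t) (j : ℕ) :
    HasDerivWithinAt (fun s => orb k (a s) (b s) j) (fld (Vo k (a t) (b t)) a' b' j) S t := by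
  induction j using Nat.twoStepInduction with
  | zero => exact ha
  | one => exact hb
  | more j h0 h1 =>
    have h2 := ((h1.const_mul 2).sub h0).add (((h1.const_mul (2 * Real.pi)).sin).const_mul k)
    refine h2.congr_deriv ?_
    simp only [fld, Vo, pot]
    ring

theorem hasDerivAt_orb (k : ℝ) {a b : ℝ → ℝ} {a' b' t : ℝ}
    (ha : HasDerivAt a a' t) (hb : HasDerivAt b b' t) (j : ℕ) :
    HasDerivAt (fun s => orb k (a s) (b s) j) (fld (Vo k (a t) (b t)) a' b' j) t := by
  rw [← hasDerivWithinAt_univ] at ha hb ⊢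
  exact hasDerivWithinAt_orb k ha hb j

theorem hasFDerivAt_orb (k : ℝ) (z : ℝ × ℝ) (j : ℕ) :
    HasFDerivAt (fun w : ℝ × ℝ => orb k w.1 w.2 j)
      (fld (Vo k z.1 z.2) 1 0 j • ContinuousLinearMap.fst ℝ ℝ ℝ +
        fld (Vo k z.1 z.2) 0 1 j • ContinuousLinearMap.snd ℝ ℝ ℝ) z := by
  induction j using Nat.twoStepInduction with
  | zero => simpa [orb, fld] using hasFDerivAt_fst (𝕜 := ℝ) (p := z)
  | one => simpa [orb, fld] using hasFDerivAt_snd (𝕜 := ℝ) (p := z)
  | more j h0 h1 =>
    have h2 := ((h1.const_mul 2).sub h0).add (((h1.const_mul (2 * Real.pi)).sin).const_mul k)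
    refine h2.congr_fderiv ?_
    ext
    · simp [fld, Vo, pot]
      ring
    · simp [fld, Vo, pot]
      ring

theorem contDiff_orb (k : ℝ) (j : ℕ) : ContDiff ℝ 1 (fun w : ℝ × ℝ => orb k w.1 w.2 j) := by
  induction j using Nat.twoStepInduction with
  | zero => exact contDiff_fst
  | one => exact contDiff_snd
  | more j h0 h1 =>
    exact ((contDiff_const.mul h1).sub h0).add (contDiff_const.mul (contDiff_const.mul h1).sin)

theorem contDiff_fld (k a b : ℝ) (j : ℕ) :
    ContDiff ℝ 1 (fun w : ℝ × ℝ => fld (Vo k w.1 w.2) a b j) := by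
  induction j using Nat.twoStepInduction with
  | zero => exact contDiff_const
  | one => exact contDiff_const
  | more j h0 h1 =>
    exact ((contDiff_const.add (contDiff_const.mul
      (contDiff_const.mul (contDiff_orb k (j + 1))).cos)).mul h1).sub h0

theorem continuous_fld (k : ℝ) (j : ℕ) :
    Continuous (fun w : (ℝ × ℝ) × (ℝ × ℝ) => fld (Vo k w.1.1 w.1.2) w.2.1 w.2.2 j) := by
  induction j using Nat.twoStepInduction with
  | zero => exact continuous_snd.fst
  | one => exact continuous_snd.snd
  | more j h0 h1 =>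
    have h2 : Continuous fun w : (ℝ × ℝ) × (ℝ × ℝ) => orb k w.1.1 w.1.2 (j + 1) :=
      (contDiff_orb k (j + 1)).continuous.comp continuous_fst
    exact ((continuous_const.add (continuous_const.mul
      (Real.continuous_cos.comp (continuous_const.mul h2)))).mul h1).sub h0

theorem continuous_nrm (k : ℝ) (j : ℕ) : Continuous (fun w : ℝ × ℝ => nrm (Vo k w.1 w.2) j) := by
  exact (((contDiff_fld k 1 0 j).continuous.abs.add
    (contDiff_fld k 1 0 (j + 1)).continuous.abs).add
      (contDiff_fld k 0 1 j).continuous.abs).add (contDiff_fld k 0 1 (j + 1)).continuous.abs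

theorem hasDerivAt_xC (k p q e1 e2 : ℝ) (j : ℕ) (t : ℂ) :
    HasDerivAt (xC k p q e1 e2 j) (vC k p q e1 e2 j t) t := by
  induction j using Nat.twoStepInduction with
  | zero => exact (((hasDerivAt_id t).const_mul (e1 : ℂ)).const_add (p : ℂ)).congr_deriv (mul_one _)
  | one => exact (((hasDerivAt_id t).const_mul (e2 : ℂ)).const_add (q : ℂ)).congr_deriv (mul_one _)
  | more j h0 h1 =>
    have h2 := ((h1.const_mul 2).sub h0).add
      (((h1.const_mul (2 * (Real.pi : ℂ))).csin).const_mul (k : ℂ))
    refine HasDerivAt.congr_deriv h2 ?_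
    simp only [vC, fld, potC]
    ring

theorem diff_fld_Orb (k p q e1 e2 : ℝ) (a b : ℂ) (j : ℕ) :
    Differentiable ℂ fun t => fld (fun l => potC k (xC k p q e1 e2 l t)) a b j := by
  induction j using Nat.twoStepInduction with
  | zero => exact differentiable_const _
  | one => exact differentiable_const _
  | more j h0 h1 =>
    have h2 : Differentiable ℂ (xC k p q e1 e2 (j + 1)) := fun t =>
      (hasDerivAt_xC k p q e1 e2 (j + 1) t).differentiableAt
    exact (((differentiable_const _).add ((differentiable_const _).mul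
      ((differentiable_const _).mul h2).ccos)).mul h1).sub h0

theorem differentiable_vC (k p q e1 e2 : ℝ) (j : ℕ) : Differentiable ℂ (vC k p q e1 e2 j) := by
  exact diff_fld_Orb k p q e1 e2 _ _ j

theorem differentiable_wC (k p q e1 e2 : ℝ) (j : ℕ) : Differentiable ℂ (wC k p q e1 e2 j) := by
  exact diff_fld_Orb k p q e1 e2 _ _ j

end Vale.Agent.P108
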