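import Vale.Agent.P108.Stmt
import Vale.Agent.P108.Orb

/-!
P108 FinalA (part of Final): transfer to the standard map.  For z = (x, y) put a = x - y, b = x.  Then
stdLift^[n] z = (orb a b (n+1), orb a b (n+1) - orb a b n) (induction).
nrm_le_fderiv: the four entries of nrm are derivatives of orb a b n and orb a b (n+1) along the
directions (x, y) = (0, -1) and (1, 1) (hasFDerivAt_orb, chain rule, uniqueness of derivatives),
and each coordinate of a vector is bounded by its Euclidean norm.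
posExp_of: the set S of the hypothesis is periodic and measurable with positive area; its preimage
under the linear map (x, y) to (x - y, x) of determinant one has positive area in the plane, is
periodic, hence has positive area in the unit square (countable cover by integer translates);
transport to EuclideanSpace by the volume preserving equivalences
(EuclideanSpace.volume_preserving_measurableEquiv or PiLp.volume_preserving_ofLp,
volume_preserving_finTwoArrow).  On S, log of the norm / n >= log lam - log 8 / n.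
For k < 0: orb (-k) (a + 1/2) (b + 1/2) j = orb k a b j + 1/2 up to the sign rule
sin (x + pi) = - sin x, so Vo k a b = Vo (-k) (a + 1/2) (b + 1/2) and the set for k is a translate
of the set for -k.
-/

namespace Vale.Agent.P108

open MeasureTheory Set

theorem iter_FinalA (k : ℝ) (z : EuclideanSpace ℝ (Fin 2)) (n : ℕ) :
    (stdLift k)^[n] z 0 = orb k (z 0 - z 1) (z 0) (n + 1) ∧
      (stdLift k)^[n] z 1 = orb k (z 0 - z 1) (z 0) (n + 1) - orb k (z 0 - z 1) (z 0) n := by
  induction n with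
  | zero => simp [orb]
  | succ n ih =>
    rw [Function.iterate_succ_apply']
    generalize (stdLift k)^[n] z = w at ih
    simp only [stdLift, Matrix.cons_val_zero, Matrix.cons_val_one, ih.1, ih.2, orb]
    constructor <;> ring

theorem diff_FinalA (k : ℝ) : Differentiable ℝ (stdLift k) := by
  rw [differentiable_euclidean]
  intro i
  fin_cases i
  · simp only [stdLift, Fin.zero_eta, Matrix.cons_val_zero]
    fun_prop
  · simp only [stdLift, Fin.mk_one, Matrix.cons_val_one, Matrix.cons_val_zero]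
    fun_prop

theorem dir_FinalA (k : ℝ) (z v : EuclideanSpace ℝ (Fin 2)) (n : ℕ) :
    fderiv ℝ ((stdLift k)^[n]) z v 0 = fld (Vo k (z 0 - z 1) (z 0)) (v 0 - v 1) (v 0) (n + 1) ∧
      fderiv ℝ ((stdLift k)^[n]) z v 1 = fld (Vo k (z 0 - z 1) (z 0)) (v 0 - v 1) (v 0) (n + 1) -
        fld (Vo k (z 0 - z 1) (z 0)) (v 0 - v 1) (v 0) n := by
  have h1 : HasDerivAt (fun t : ℝ => z + t • v) v 0 := by
    simpa using ((hasDerivAt_id (0 : ℝ)).smul_const v).const_add z
  have h2 : HasDerivAt (fun t : ℝ => (stdLift k)^[n] (z + t • v))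
      (fderiv ℝ ((stdLift k)^[n]) z v) 0 :=
    HasFDerivAt.comp_hasDerivAt_of_eq (0 : ℝ)
      (((diff_FinalA k).iterate n) z).hasFDerivAt h1 (by simp)
  have h3 : ∀ i, HasDerivAt (fun t : ℝ => (stdLift k)^[n] (z + t • v) i)
      (fderiv ℝ ((stdLift k)^[n]) z v i) 0 := fun i =>
    (EuclideanSpace.proj (𝕜 := ℝ) i).hasFDerivAt.comp_hasDerivAt (0 : ℝ) h2
  have h4 : ∀ i, HasDerivAt (fun t : ℝ => (z + t • v) i) (v i) 0 := fun i =>
    (EuclideanSpace.proj (𝕜 := ℝ) i).hasFDerivAt.comp_hasDerivAt (0 : ℝ) h1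
  have h5 := fun j => hasDerivAt_orb k ((h4 0).sub (h4 1)) (h4 0) j
  simp only [Pi.sub_apply, zero_smul, add_zero] at h5
  constructor
  · refine (h3 0).unique ?_
    simp only [fun t => (iter_FinalA k (z + t • v) n).1]
    exact h5 (n + 1)
  · refine (h3 1).unique ?_
    simp only [fun t => (iter_FinalA k (z + t • v) n).2]
    exact (h5 (n + 1)).sub (h5 n)

theorem half_FinalA (k a b : ℝ) (j : ℕ) :
    orb (-k) (a + 1 / 2) (b + 1 / 2) j = orb k a b j + 1 / 2 := by
  induction j using Nat.twoStepInduction with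
  | zero => rfl
  | one => rfl
  | more j h0 h1 =>
    simp only [orb, h0, h1]
    rw [show 2 * Real.pi * (orb k a b (j + 1) + 1 / 2) =
      2 * Real.pi * orb k a b (j + 1) + Real.pi by ring, Real.sin_add_pi]
    ring

theorem nrm_le_fderiv (k : ℝ) (z : EuclideanSpace ℝ (Fin 2)) (n : ℕ) :
    nrm (Vo k (z 0 - z 1) (z 0)) n ≤ 8 * ‖fderiv ℝ ((stdLift k)^[n]) z‖ := by
  have hb : ∀ (v : EuclideanSpace ℝ (Fin 2)) (i : Fin 2), |fderiv ℝ ((stdLift k)^[n]) z v i| ≤
      ‖fderiv ℝ ((stdLift k)^[n]) z‖ * ‖v‖ := fun v i =>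
    (PiLp.norm_apply_le (fderiv ℝ ((stdLift k)^[n]) z v) i).trans
      (ContinuousLinearMap.le_opNorm _ _)
  have n1 : ‖(WithLp.toLp 2 ![0, -1] : EuclideanSpace ℝ (Fin 2))‖ = 1 := by
    simp [EuclideanSpace.norm_eq, Fin.sum_univ_two]
  have n2 : ‖(WithLp.toLp 2 ![1, 1] : EuclideanSpace ℝ (Fin 2))‖ ≤ 3 / 2 := by
    rw [EuclideanSpace.norm_eq, Real.sqrt_le_iff]
    simp only [Fin.sum_univ_two, Matrix.cons_val_zero, Matrix.cons_val_one, norm_one]
    norm_num
  obtain ⟨a1, a2⟩ := dir_FinalA k z (WithLp.toLp 2 ![0, -1]) n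
  obtain ⟨b1, b2⟩ := dir_FinalA k z (WithLp.toLp 2 ![1, 1]) n
  have c1 := hb (WithLp.toLp 2 ![0, -1]) 0
  have c2 := hb (WithLp.toLp 2 ![0, -1]) 1
  have c3 := hb (WithLp.toLp 2 ![1, 1]) 0
  have c4 := hb (WithLp.toLp 2 ![1, 1]) 1
  rw [a1, n1] at c1
  rw [a2, n1] at c2
  rw [b1] at c3
  rw [b2] at c4
  simp only [Matrix.cons_val_zero, Matrix.cons_val_one, sub_neg_eq_add, zero_add,
    sub_self, mul_one] at c1 c2 c3 c4
  have d := mul_le_mul_of_nonneg_left n2 (norm_nonneg (fderiv ℝ ((stdLift k)^[n]) z))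
  have e1 := abs_sub_abs_le_abs_sub (fld (Vo k (z 0 - z 1) (z 0)) 1 0 n)
    (fld (Vo k (z 0 - z 1) (z 0)) 1 0 (n + 1))
  have e2 := abs_sub_abs_le_abs_sub (fld (Vo k (z 0 - z 1) (z 0)) 0 1 n)
    (fld (Vo k (z 0 - z 1) (z 0)) 0 1 (n + 1))
  rw [abs_sub_comm] at e1 e2
  have := norm_nonneg (fderiv ℝ ((stdLift k)^[n]) z)
  unfold nrm
  linarith

theorem Vo_neg (k a b : ℝ) : Vo k a b = Vo (-k) (a + 1 / 2) (b + 1 / 2) := by
  funext j
  simp only [Vo, pot, half_FinalA]
  rw [show 2 * Real.pi * (orb k a b j + 1 / 2) = 2 * Real.pi * orb k a b j + Real.pi by ring,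
    Real.cos_add_pi]
  ring

end Vale.Agent.P108
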