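import Vale.Agent.P108.Meas

/-!
P108 Maxi: finite maximal inequality.  Let M be the set on the left.  Pointwise, for every n,
c * card {s < n | g^s z in M} <= card {s < n + N | g^s z in S} (greedy covering: strong induction
on the starting point, jump over the window given by M).  Integrate over box with pr_iter
(M is measurable and periodic): c n Pr M <= (n + N) Pr S, and let n tend to infinity.
-/

namespace Vale.Agent.P108

open MeasureTheory Set Classical

theorem comb_Maxi {c : ℝ} (hc : 0 < c) (N : ℕ) (f e : ℕ → ℝ) (hf : ∀ s, 0 ≤ f s)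
    (he1 : ∀ s, e s ≤ 1)
    (he : ∀ s, e s = 0 ∨ ∃ m, 1 ≤ m ∧ m ≤ N ∧ c * m ≤ ∑ j ∈ Finset.range m, f (s + j)) :
    ∀ n a : ℕ, c * ∑ s ∈ Finset.range n, e (a + s) ≤ ∑ s ∈ Finset.range (n + N), f (a + s) := by
  have hsum : ∀ a m : ℕ, ∑ s ∈ Finset.range m, e (a + s) ≤ m := by
    intro a m
    calc ∑ s ∈ Finset.range m, e (a + s) ≤ ∑ _s ∈ Finset.range m, (1 : ℝ) :=
          Finset.sum_le_sum fun s _ => he1 _
      _ = m := by simp
  intro n
  induction n using Nat.strong_induction_on with
  | _ n ih =>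
    intro a
    rcases Nat.eq_zero_or_pos n with h0 | hpos
    · subst h0
      simp only [Finset.range_zero, Finset.sum_empty, mul_zero]
      exact Finset.sum_nonneg fun s _ => hf _
    rcases he a with h0 | ⟨m, hm1, hmN, hm⟩
    · obtain ⟨n', rfl⟩ : ∃ n', n = 1 + n' := ⟨n - 1, by omega⟩
      have h1 := ih n' (by omega) (a + 1)
      rw [Finset.sum_range_add, show 1 + n' + N = 1 + (n' + N) by omega, Finset.sum_range_add]
      simp only [Finset.range_one, Finset.sum_singleton, add_zero, h0, zero_add]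
      simp only [← add_assoc]
      linarith [hf a]
    · rcases le_or_gt n m with hnm | hnm
      · have h1 : c * ∑ s ∈ Finset.range n, e (a + s) ≤ c * m := by
          apply mul_le_mul_of_nonneg_left _ hc.le
          exact (hsum a n).trans (by exact_mod_cast hnm)
        have h2 : ∑ j ∈ Finset.range m, f (a + j) ≤ ∑ s ∈ Finset.range (n + N), f (a + s) :=
          Finset.sum_le_sum_of_subset_of_nonneg (Finset.range_mono (by omega)) fun s _ _ => hf _
        linarith
      · obtain ⟨n', rfl⟩ : ∃ n', n = m + n' := ⟨n - m, by omega⟩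
        have h1 := ih n' (by omega) (a + m)
        rw [Finset.sum_range_add, show m + n' + N = m + (n' + N) by omega, Finset.sum_range_add]
        simp only [← add_assoc]
        have h2 : c * ∑ s ∈ Finset.range m, e (a + s) ≤ c * m :=
          mul_le_mul_of_nonneg_left (hsum a m) hc.le
        rw [mul_add]
        linarith

theorem card_ind_Maxi {R : Type*} [AddCommMonoidWithOne R] (k : ℝ) (T : Set (ℝ × ℝ)) (n : ℕ)
    (z : ℝ × ℝ) :
    ((((Finset.range n).filter (fun s => (gm k)^[s] z ∈ T)).card : ℕ) : R) =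
      ∑ s ∈ Finset.range n, ((gm k)^[s] ⁻¹' T).indicator (fun _ => (1 : R)) z := by
  rw [Finset.card_filter, Nat.cast_sum]
  refine Finset.sum_congr rfl fun s _ => ?_
  by_cases h : (gm k)^[s] z ∈ T
  · simp [h, Set.indicator]
  · simp [h, Set.indicator]

theorem lint_Maxi (k : ℝ) {T : Set (ℝ × ℝ)} (hT : MeasurableSet T) (hP : Per T) (n : ℕ) :
    ∫⁻ z in box, ((((Finset.range n).filter (fun s => (gm k)^[s] z ∈ T)).card : ℕ) : ENNReal) =
      n * Pr T := by
  have hm : ∀ s, MeasurableSet ((gm k)^[s] ⁻¹' T) := fun s =>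
    ((measurable_gm k).iterate s) hT
  simp only [card_ind_Maxi]
  rw [lintegral_finset_sum _ fun s _ => measurable_const.indicator (hm s)]
  have : ∀ s ∈ Finset.range n,
      ∫⁻ z in box, ((gm k)^[s] ⁻¹' T).indicator (fun _ => (1 : ENNReal)) z = Pr T := by
    intro s _
    rw [lintegral_indicator (hm s), setLIntegral_const, one_mul, Measure.restrict_apply (hm s)]
    exact pr_iter k hT hP s
  rw [Finset.sum_congr rfl this]
  simp

theorem lim_Maxi {x y : ℝ} (N : ℕ) (hy : 0 ≤ y) (h : ∀ n : ℕ, n * x ≤ (n + N) * y) : x ≤ y := by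
  by_contra hxy
  push Not at hxy
  obtain ⟨n, hn⟩ := exists_nat_gt (N * y / (x - y))
  have h1 := h n
  rw [div_lt_iff₀ (by linarith)] at hn
  nlinarith

theorem maximal (k : ℝ) {S : Set (ℝ × ℝ)} (hS : MeasurableSet S) (hP : Per S) {c : ℝ} (hc : 0 < c)
    (N : ℕ) :
    ENNReal.ofReal c * Pr {z | ∃ m, 1 ≤ m ∧ m ≤ N ∧
      c * m ≤ (((Finset.range m).filter (fun s => (gm k)^[s] z ∈ S)).card : ℝ)} ≤ Pr S := by
  set M : Set (ℝ × ℝ) := {z | ∃ m, 1 ≤ m ∧ m ≤ N ∧
      c * m ≤ (((Finset.range m).filter (fun s => (gm k)^[s] z ∈ S)).card : ℝ)} with hM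
  have hms : ∀ s, MeasurableSet ((gm k)^[s] ⁻¹' S) := fun s =>
    ((measurable_gm k).iterate s) hS
  have hMm : MeasurableSet M := by
    have : M = ⋃ m : ℕ, ⋃ (_ : 1 ≤ m ∧ m ≤ N), {z | c * m ≤
        ∑ s ∈ Finset.range m, ((gm k)^[s] ⁻¹' S).indicator (fun _ => (1 : ℝ)) z} := by
      ext z
      simp only [hM, mem_setOf_eq, mem_iUnion, card_ind_Maxi, exists_prop, and_assoc]
    rw [this]
    refine MeasurableSet.iUnion fun m => MeasurableSet.iUnion fun _ => ?_
    exact measurableSet_le measurable_const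
      (Finset.measurable_sum _ fun s _ => measurable_const.indicator (hms s))
  have hMP : Per M := by
    intro z a b
    have h : ∀ s, ((gm k)^[s] (z.1 + a, z.2 + b) ∈ S) = ((gm k)^[s] z ∈ S) := fun s =>
      propext (per_iter k hP s z a b)
    simp only [hM, mem_setOf_eq, h]
  have hpt : ∀ (n : ℕ) (z : ℝ × ℝ),
      c * (((Finset.range n).filter (fun s => (gm k)^[s] z ∈ M)).card : ℝ) ≤
        (((Finset.range (n + N)).filter (fun s => (gm k)^[s] z ∈ S)).card : ℝ) := by
    intro n z
    rw [card_ind_Maxi, card_ind_Maxi]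
    have := comb_Maxi hc N (fun s => ((gm k)^[s] ⁻¹' S).indicator (fun _ => (1 : ℝ)) z)
      (fun s => ((gm k)^[s] ⁻¹' M).indicator (fun _ => (1 : ℝ)) z)
      (fun s => Set.indicator_nonneg (fun _ _ => zero_le_one) _)
      (fun s => by
        by_cases h : z ∈ (gm k)^[s] ⁻¹' M
        · simp [h]
        · simp [h])
      (fun s => by
        by_cases h : z ∈ (gm k)^[s] ⁻¹' M
        · right
          obtain ⟨m, hm1, hmN, hm⟩ := h
          refine ⟨m, hm1, hmN, hm.trans_eq ?_⟩
          rw [card_ind_Maxi]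
          refine Finset.sum_congr rfl fun j _ => ?_
          have : (gm k)^[s + j] z = (gm k)^[j] ((gm k)^[s] z) := by
            rw [add_comm, Function.iterate_add_apply]
          simp only [Set.indicator, mem_preimage, this]
        · left
          simp [h]) n 0
    simpa only [zero_add] using this
  have hint : ∀ n : ℕ, ENNReal.ofReal c * (n * Pr M) ≤ ((n + N : ℕ) : ENNReal) * Pr S := by
    intro n
    rw [← lint_Maxi k hMm hMP n, ← lint_Maxi k hS hP (n + N),
      ← lintegral_const_mul' _ _ ENNReal.ofReal_ne_top]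
    refine lintegral_mono fun z => ?_
    have h1 := ENNReal.ofReal_le_ofReal (hpt n z)
    rw [ENNReal.ofReal_mul hc.le, ENNReal.ofReal_natCast, ENNReal.ofReal_natCast] at h1
    exact h1
  have hfin : ∀ T : Set (ℝ × ℝ), Pr T ≠ ⊤ := fun T =>
    ne_top_of_le_ne_top ENNReal.one_ne_top (pr_univ ▸ pr_mono (subset_univ T))
  have hreal : ∀ n : ℕ, n * (c * (Pr M).toReal) ≤ (n + N) * (Pr S).toReal := by
    intro n
    have h1 := ENNReal.toReal_mono
      (ENNReal.mul_ne_top (ENNReal.natCast_ne_top _) (hfin S)) (hint n)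
    simp only [ENNReal.toReal_mul, ENNReal.toReal_ofReal hc.le, ENNReal.toReal_natCast] at h1
    push_cast at h1
    linarith
  have h2 := lim_Maxi N ENNReal.toReal_nonneg hreal
  rw [← ENNReal.ofReal_toReal (hfin M), ← ENNReal.ofReal_mul hc.le,
    ← ENNReal.ofReal_toReal (hfin S)]
  exact ENNReal.ofReal_le_ofReal h2

end Vale.Agent.P108
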