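import Vale.Agent.P108.T2
import Vale.Agent.P108.Comb
import Vale.Agent.P108.Maxi

/-!
P108 Step: the recursion.  L = Lam k, th0 = eta / 80, g0 = L^th0, g from t2 (write g = L^th with
th in [2 th0, 4 th0], th = log g / log L).  For z in Rsh g0 (N+1) take the least deficient m; comb
with M = N gives c / (H0 + 1) * m <= number of Bad cuts below m, and Bad at s puts gm^[s] z in
S = Weak (L^(th0/4)) union (Lsh g N inter Rsh g N) union the union over h >= H0, j <= h of the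
gm^[j] preimages of Pk h (gm_iter, Vo_iter_sh, Vo_iter_rv, nrm_congr, fld_congr,
Function.iterate_add_apply).  S is measurable and periodic; use maximal, pr_weak, t2, pr_iter,
pr_iUnion_le.
-/

namespace Vale.Agent.P108

open MeasureTheory Set

theorem per_union_Step {S T : Set (ℝ × ℝ)} (hS : Per S) (hT : Per T) : Per (S ∪ T) :=
  fun z m n => or_congr (hS z m n) (hT z m n)

theorem per_inter_Step {S T : Set (ℝ × ℝ)} (hS : Per S) (hT : Per T) : Per (S ∩ T) :=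
  fun z m n => and_congr (hS z m n) (hT z m n)

theorem per_iUnion_Step {ι : Sort*} {S : ι → Set (ℝ × ℝ)} (hS : ∀ i, Per (S i)) :
    Per (⋃ i, S i) := fun z m n => by
  simp only [mem_iUnion]
  exact exists_congr fun i => hS i z m n

/-- points covered by a peak of height h. -/
def cov_Step (k ρ : ℝ) (H0 h : ℕ) : Set (ℝ × ℝ) :=
  ⋃ (_ : H0 ≤ h), ⋃ j : Fin (h + 1), (gm k)^[j] ⁻¹' Pk k ρ h

/-- the bad set. -/
def bad_Step (k gw g ρ : ℝ) (N H0 : ℕ) : Set (ℝ × ℝ) :=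
  Weak k gw ∪ Lsh k g N ∩ Rsh k g N ∪ ⋃ h, cov_Step k ρ H0 h

theorem bad_meas_Step (k gw g ρ : ℝ) (N H0 : ℕ) : MeasurableSet (bad_Step k gw g ρ N H0) :=
  ((meas_Weak k gw).union ((measurable_swap (meas_Rsh k g N)).inter (meas_Rsh k g N))).union
    (MeasurableSet.iUnion fun h => MeasurableSet.iUnion fun _ => MeasurableSet.iUnion fun j =>
      ((measurable_gm k).iterate j) (meas_Pk k ρ h))

theorem bad_per_Step (k gw g ρ : ℝ) (N H0 : ℕ) : Per (bad_Step k gw g ρ N H0) :=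
  per_union_Step (per_union_Step (per_Weak k gw)
    (per_inter_Step (per_swap (per_Rsh k g N)) (per_Rsh k g N)))
    (per_iUnion_Step fun h => per_iUnion_Step fun _ => per_iUnion_Step fun j =>
      per_iter k (per_Pk k ρ h) j)

theorem bad_mem_Step {k gw g ρ : ℝ} {N H0 s : ℕ} {z : ℝ × ℝ}
    (h : Bad (Lam k) gw g ρ (Vo k z.1 z.2) N H0 s) : (gm k)^[s] z ∈ bad_Step k gw g ρ N H0 := by
  rcases h with h | ⟨⟨n, n1, n2, n3, n4⟩, m, m1, m2, m3⟩ | ⟨h, j, h1, h2, h3, u1, u2, p1, p2, p3⟩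
  · refine Or.inl (Or.inl ?_)
    rw [gm_iter]
    exact h
  · refine Or.inl (Or.inr ⟨⟨n, n1, n3, ?_⟩, m, m1, m2, ?_⟩)
    · rw [Prod.fst_swap, Prod.snd_swap,
        nrm_congr fun l _ hl => Vo_iter_rv k z s l (by omega)]
      exact n4
    · rw [Vo_iter_sh]
      exact m3
  · refine Or.inr (mem_iUnion.2 ⟨h, mem_iUnion.2 ⟨h1, mem_iUnion.2 ⟨⟨j, by omega⟩, ?_⟩⟩⟩)
    rw [mem_preimage, ← Function.iterate_add_apply, add_comm]
    refine ⟨u1, u2, p1, ?_, ?_⟩
    · rw [Vo_iter_sh]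
      exact p2
    · have e := fld_congr (n := h) (fun l _ hl => Vo_iter_rv k z (s + j) l (by omega)) u2 u1
      rw [vn, e h (by omega), e (h + 1) le_rfl]
      exact p3

theorem cov_pr_Step (k ρ : ℝ) (H0 h : ℕ) {b : ℝ} (hb : H0 ≤ h → Pr (Pk k ρ h) ≤ ENNReal.ofReal b) :
    Pr (cov_Step k ρ H0 h) ≤ if H0 ≤ h then ENNReal.ofReal ((h + 1) * b) else 0 := by
  split_ifs with hh
  · refine (pr_mono (iUnion_subset fun _ => subset_rfl)).trans ((pr_iUnion_le _).trans ?_)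
    simp only [pr_iter k (meas_Pk k ρ h) (per_Pk k ρ h)]
    rw [tsum_fintype, Finset.sum_const, Finset.card_univ, Fintype.card_fin, nsmul_eq_mul,
      ENNReal.ofReal_mul (by positivity), ← Nat.cast_add_one, ENNReal.ofReal_natCast]
    exact mul_le_mul_right (hb hh) _
  · simp [cov_Step, hh, Pr]

theorem step {η r C k0 : ℝ} (hη : 0 < η) (hη1 : η ≤ 1 / 100) (hr : 0 < r) (hC : 0 < C)
    (ht1 : ∀ k, k0 ≤ k → ∀ h : ℕ, 100 ≤ h →
      Pr (Pk k (Lam k ^ η / Lam k) h) ≤ ENNReal.ofReal (C * r ^ h)) :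
    ∃ c : ℝ, 0 < c ∧ c ≤ 1 ∧ ∀ (H0 : ℕ) (k : ℝ), 100 ≤ H0 → k0 ≤ k → 1 ≤ k →
      300 ≤ Lam k ^ (η / 80) → ∀ N : ℕ,
      ENNReal.ofReal (c / (H0 + 1)) * Pr (Rsh k (Lam k ^ (η / 80)) (N + 1)) ≤
        ENNReal.ofReal (30 / Lam k ^ (η / 320)) +
        (∑' h : ℕ, if H0 ≤ h then ENNReal.ofReal ((h + 1) * (C * r ^ h)) else 0) +
        5000 * (Pr (Rsh k (Lam k ^ (η / 80)) N) * Pr (Rsh k (Lam k ^ (η / 80)) N)) := by
  obtain ⟨c, c0, c1, hc⟩ := comb hη hη1 (θ0 := η / 80) (by positivity) le_rfl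
  refine ⟨c, c0, c1, fun H0 k hH hk0 hk hg0 N => ?_⟩
  have k0' : 0 < k := by linarith
  have L1 : 1 < Lam k := by linarith [Lam_ge k0']
  have L0 : 0 < Lam k := by linarith
  have pw : ∀ n : ℕ, (Lam k ^ (η / 80)) ^ n = Lam k ^ (η / 80 * n) := fun n => by
    rw [Real.rpow_mul L0.le, Real.rpow_natCast]
  have mono : ∀ {a b : ℝ}, a ≤ b → Lam k ^ a ≤ Lam k ^ b := fun h =>
    Real.rpow_le_rpow_of_exponent_le L1.le h
  have toL : ∀ {a : ℝ}, a ≤ 1 → Lam k ^ a ≤ Lam k := fun h => (mono h).trans_eq (Real.rpow_one _)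
  obtain ⟨g, g1, g2, hg⟩ := t2 hk hg0 (by
    rw [pw]
    exact toL (by push_cast; linarith)) N
  rw [pw] at g1 g2
  have g0 : 0 < g := (Real.rpow_pos_of_pos L0 _).trans_le g1
  have e : Lam k ^ Real.logb (Lam k) g = g := Real.rpow_logb L0 L1.ne' g0
  have t1 : η / 80 ≤ Real.logb (Lam k) g :=
    (Real.le_logb_iff_rpow_le L1 g0).2 ((mono (by push_cast; linarith)).trans g1)
  have t2' : Real.logb (Lam k) g ≤ η / 20 :=
    (Real.logb_le_iff_le_rpow L1 g0).2 (g2.trans (mono (by push_cast; linarith)))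
  have hc' := hc H0 (Lam k) _ t1 t2' hg0 L1
  rw [e, show η / 80 / 4 = η / 320 by ring] at hc'
  have w1 : 1 ≤ Lam k ^ (η / 320) := Real.one_le_rpow L1.le (by positivity)
  refine le_trans (mul_le_mul_right (pr_mono fun z hz => ?_) _)
    ((maximal k (bad_meas_Step k (Lam k ^ (η / 320)) g (Lam k ^ η / Lam k) N H0)
      (bad_per_Step _ _ _ _ _ _) (c := c / (H0 + 1)) (by positivity) (N + 1)).trans ?_)
  · classical
    have ex : ∃ m, 1 ≤ m ∧ m ≤ N + 1 ∧
      nrm (Vo k z.1 z.2) m ≤ (Lam k / Lam k ^ (η / 80)) ^ m := hz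
    obtain ⟨m1, m2, m3⟩ := Nat.find_spec ex
    refine ⟨Nat.find ex, m1, m2, (hc' _ N _ (abs_Vo_le k0' _ _) m1 m2 m3 fun s s1 s2 => ?_).trans
      (Nat.cast_le.2 (Finset.card_le_card fun s hs => ?_))⟩
    · by_contra hn
      exact Nat.find_min ex s2 ⟨s1, by omega, not_lt.1 hn⟩
    · rw [Finset.mem_filter] at hs ⊢
      exact ⟨hs.1, bad_mem_Step hs.2⟩
  · have b1 := pr_weak hk w1 (toL (by linarith))
    have b2 : ENNReal.ofReal (20 / Lam k ^ (η / 80)) ≤ ENNReal.ofReal (20 / Lam k ^ (η / 320)) :=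
      ENNReal.ofReal_le_ofReal (div_le_div_of_nonneg_left (by norm_num) (by linarith)
        (mono (by linarith)))
    have b3 := (pr_iUnion_le fun h => cov_Step k (Lam k ^ η / Lam k) H0 h).trans
      (ENNReal.tsum_le_tsum fun h => cov_pr_Step k _ H0 h fun hh => ht1 k hk0 h (hH.trans hh))
    have b4 : ENNReal.ofReal (30 / Lam k ^ (η / 320)) =
        ENNReal.ofReal (10 / Lam k ^ (η / 320)) + ENNReal.ofReal (20 / Lam k ^ (η / 320)) := by
      rw [← ENNReal.ofReal_add (by positivity) (by positivity), ← add_div]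
      norm_num
    refine ((pr_union_le _ _).trans (add_le_add ((pr_union_le _ _).trans
      (add_le_add b1 (hg.trans (add_le_add b2 le_rfl)))) b3)).trans (le_of_eq ?_)
    rw [b4]
    abel

end Vale.Agent.P108
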