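import Vale.Agent.P108.Defs

/-!
P108 Tail (part of Main).
tail: (h + 1) r^h is summable with a geometric tail, so (H0 + 1)^2 times the tail tends to zero
(for h >= H0 one has (H0 + 1)^2 (h + 1) <= (h + 1)^3, and the tails of the summable series
(h + 1)^3 r^h tend to zero).
main_exp: take eta, r, C, k0 from t1 and c from step.  With A = (H0 + 1) / c >= 1 choose H0 by
tail so that the tail is at most 1 / (50000 A^2), then k so large that 30 / L^(eta/320) is at most
the same.  Induction on N: Pr (Rsh g0 N) <= 1 / (10000 A), since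
A (2 / (50000 A^2) + 5000 / (10000 A)^2) <= 1 / (10000 A).  The sets increase with N, so their
union has Pr at most 1 / 10000 < 1 = Pr univ (measure_iUnion_eq_iSup or
tendsto_measure_iUnion_atTop), and the complement is the set in the statement with lam = L / g0.
-/

namespace Vale.Agent.P108

open MeasureTheory Set

lemma summ_Tail {r C : ℝ} (hr : 0 < r) (hr1 : r < 1) :
    Summable (fun h : ℕ => ((h : ℝ) + 1) ^ 3 * (C * r ^ h)) := by
  have h1 : Summable (fun h : ℕ => (h : ℝ) ^ 3 * r ^ h) :=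
    summable_pow_mul_geometric_of_norm_lt_one 3 (by rw [Real.norm_eq_abs, abs_of_pos hr]; exact hr1)
  have h2 := ((summable_nat_add_iff 1).mpr h1).mul_left (C / r)
  refine h2.congr (fun h => ?_)
  push_cast
  field_simp
  ring

lemma shift_Tail (f : ℕ → ENNReal) (H : ℕ) :
    (∑' h : ℕ, if H ≤ h then f h else 0) = ∑' k : ℕ, f (k + H) := by
  have hi : Function.Injective (fun k : ℕ => k + H) := fun a b h => Nat.add_right_cancel h
  rw [← hi.tsum_eq (f := fun h : ℕ => if H ≤ h then f h else 0)]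
  · refine tsum_congr (fun k => ?_)
    rw [if_pos (Nat.le_add_left _ _)]
  · intro h hh
    by_cases h1 : H ≤ h
    · exact ⟨h - H, Nat.sub_add_cancel h1⟩
    · exact absurd (if_neg h1) hh

theorem tail {r C ε : ℝ} (hr : 0 < r) (hr1 : r < 1) (hC : 0 < C) (hε : 0 < ε) :
    ∃ H0 : ℕ, 100 ≤ H0 ∧
      (∑' h : ℕ, if H0 ≤ h then ENNReal.ofReal ((h + 1) * (C * r ^ h)) else 0) ≤
        ENNReal.ofReal (ε / (H0 + 1) ^ 2) := by
  have hs := summ_Tail (C := C) hr hr1
  have hne : (∑' h : ℕ, ENNReal.ofReal (((h : ℝ) + 1) ^ 3 * (C * r ^ h))) ≠ ⊤ := by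
    rw [← ENNReal.ofReal_tsum_of_nonneg (fun h => by positivity) hs]
    exact ENNReal.ofReal_ne_top
  have ht := ENNReal.tendsto_sum_nat_add _ hne
  have hev := (ht.eventually (gt_mem_nhds (ENNReal.ofReal_pos.mpr hε))).and
    (Filter.eventually_ge_atTop 100)
  obtain ⟨H0, h1, h2⟩ := hev.exists
  refine ⟨H0, h2, ?_⟩
  rw [shift_Tail (fun h : ℕ => ENNReal.ofReal ((h + 1) * (C * r ^ h))) H0]
  have hp : (0 : ℝ) < ((H0 : ℝ) + 1) ^ 2 := by positivity
  have e : ENNReal.ofReal (ε / (H0 + 1) ^ 2) =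
      ENNReal.ofReal (1 / ((H0 : ℝ) + 1) ^ 2) * ENNReal.ofReal ε := by
    rw [← ENNReal.ofReal_mul (by positivity)]
    congr 1
    ring
  rw [e]
  refine le_trans ?_ (mul_le_mul_right h1.le _)
  rw [← ENNReal.tsum_mul_left]
  refine ENNReal.tsum_le_tsum (fun k => ?_)
  rw [← ENNReal.ofReal_mul (by positivity)]
  refine ENNReal.ofReal_le_ofReal ?_
  rw [one_div, inv_mul_eq_div, le_div_iff₀ hp]
  have h3 : ((H0 : ℝ) + 1) ^ 2 ≤ (((k + H0 : ℕ) : ℝ) + 1) ^ 2 := by
    refine pow_le_pow_left₀ (by positivity) ?_ 2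
    push_cast
    have : (0 : ℝ) ≤ k := Nat.cast_nonneg k
    linarith
  have h4 : (0 : ℝ) ≤ (((k + H0 : ℕ) : ℝ) + 1) * (C * r ^ (k + H0)) := by positivity
  calc (((k + H0 : ℕ) : ℝ) + 1) * (C * r ^ (k + H0)) * ((H0 : ℝ) + 1) ^ 2
      ≤ (((k + H0 : ℕ) : ℝ) + 1) * (C * r ^ (k + H0)) * (((k + H0 : ℕ) : ℝ) + 1) ^ 2 :=
        mul_le_mul_of_nonneg_left h3 h4
    _ = _ := by ring

end Vale.Agent.P108
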