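import Vale.Agent.P108.T1
import Vale.Agent.P108.Step
import Vale.Agent.P108.Tail

/-!
P108 Main.
tail: (h + 1) r^h is summable with a geometric tail, so (H0 + 1)^2 times the tail tends to zero
(for h >= H0 one has (H0 + 1)^2 (h + 1) <= (h + 1)^3, and the tails of the summable series
(h + 1)^3 r^h tend to zero).
main_exp: take eta, r, C, k0 from t1 and c from step.  With A = (H0 + 1) / c >= 1 choose H0 by
tail so that the tail is at most 1 / (50000 A^2), then k so large that 30 / L^(eta/320) is at most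
the same.  Induction on N: Pr (Rsh g0 N) <= 1 / (10000 A), since
A (2 / (50000 A^2) + 5000 / (10000 A)^2) <= 1 / (10000 A).  The sets increase with N, so their
union has Pr at most 1 / 10000 < 1 = Pr univ (measure_iUnion_eq_iSup or
tendsto_measure_iUnion_atTop), and the complement is the set in the statement with lam = L / g0.
-/

namespace Vale.Agent.P108

open MeasureTheory Set

theorem lam_top_Main : Filter.Tendsto Lam Filter.atTop Filter.atTop := by
  refine Filter.tendsto_atTop_add_const_right _ _ ?_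
  exact Filter.tendsto_id.const_mul_atTop (by positivity)

theorem rec_Main {a : ℝ} (ha : 0 < a) {p q x y : ENNReal} (hq : q ≤ ENNReal.ofReal (a / 10000))
    (hx : x ≤ ENNReal.ofReal (a ^ 2 / 50000)) (hy : y ≤ ENNReal.ofReal (a ^ 2 / 50000))
    (h : ENNReal.ofReal a * p ≤ x + y + 5000 * (q * q)) : p ≤ ENNReal.ofReal (a / 10000) := by
  have h1 : x + y + 5000 * (q * q) ≤ ENNReal.ofReal a * ENNReal.ofReal (a / 10000) := by
    calc x + y + 5000 * (q * q) ≤ ENNReal.ofReal (a ^ 2 / 50000) + ENNReal.ofReal (a ^ 2 / 50000) +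
          5000 * (ENNReal.ofReal (a / 10000) * ENNReal.ofReal (a / 10000)) := by gcongr
      _ = ENNReal.ofReal (a ^ 2 / 50000 + a ^ 2 / 50000 + 5000 * (a / 10000 * (a / 10000))) := by
          rw [ENNReal.ofReal_add (by positivity) (by positivity),
            ENNReal.ofReal_add (by positivity) (by positivity),
            ENNReal.ofReal_mul (by positivity), ENNReal.ofReal_mul (by positivity)]
          simp
      _ ≤ ENNReal.ofReal (a * (a / 10000)) := ENNReal.ofReal_le_ofReal (by nlinarith)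
      _ = _ := ENNReal.ofReal_mul ha.le
  exact (ENNReal.mul_le_mul_iff_right (by simpa using ha) ENNReal.ofReal_ne_top).1 (h.trans h1)

theorem box_Main : volume box = 1 := by
  rw [box, Measure.volume_eq_prod, Measure.prod_prod]
  simp

theorem union_Main {k g : ℝ} {b : ENNReal} (hb : b < 1) (h : ∀ N, Pr (Rsh k g N) ≤ b) :
    0 < Pr {z | ∀ m : ℕ, 1 ≤ m → (Lam k / g) ^ m < nrm (Vo k z.1 z.2) m} := by
  have hm : Monotone fun N => Rsh k g N ∩ box := fun N M hNM z hz => by
    obtain ⟨⟨m, h1, h2, h3⟩, hz⟩ := hz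
    exact ⟨⟨m, h1, h2.trans hNM, h3⟩, hz⟩
  have hU : volume (⋃ N, Rsh k g N ∩ box) ≤ b := by
    rw [hm.measure_iUnion]
    exact iSup_le h
  rw [pos_iff_ne_zero]
  intro h0
  have hsub : box ⊆ ({z | ∀ m : ℕ, 1 ≤ m → (Lam k / g) ^ m < nrm (Vo k z.1 z.2) m} ∩ box) ∪
      ⋃ N, Rsh k g N ∩ box := by
    intro z hz
    by_cases hz' : ∀ m : ℕ, 1 ≤ m → (Lam k / g) ^ m < nrm (Vo k z.1 z.2) m
    · exact Or.inl ⟨hz', hz⟩
    · push Not at hz'
      obtain ⟨m, h1, h2⟩ := hz'
      exact Or.inr (mem_iUnion.2 ⟨m, ⟨m, h1, le_rfl, h2⟩, hz⟩)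
  have h1 := (measure_mono (μ := volume) hsub).trans (measure_union_le _ _)
  rw [box_Main, show volume (_ ∩ box) = 0 from h0, zero_add] at h1
  exact absurd (h1.trans hU) (not_le.2 hb)

theorem main_exp : ∃ k0 : ℝ, ∀ k, k0 ≤ k → ∃ lam : ℝ, 1 < lam ∧
    0 < Pr {z | ∀ m : ℕ, 1 ≤ m → lam ^ m < nrm (Vo k z.1 z.2) m} := by
  obtain ⟨η, hη, hη1, r, C, hr, hr1, hC, k0, ht1⟩ := t1
  obtain ⟨c, hc, hc1, hstep⟩ := step hη hη1 hr hC ht1
  obtain ⟨H0, hH0, htail⟩ := tail hr hr1 hC (ε := c ^ 2 / 50000) (by positivity)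
  have ha : 0 < c / ((H0 : ℝ) + 1) := by positivity
  have ha1 : c / ((H0 : ℝ) + 1) ≤ 1 := by
    rw [div_le_one (by positivity)]
    have : (0 : ℝ) ≤ H0 := Nat.cast_nonneg _
    linarith
  have e1 : ∀ᶠ k in Filter.atTop, 300 ≤ Lam k ^ (η / 80) :=
    ((tendsto_rpow_atTop (by positivity)).comp lam_top_Main).eventually_ge_atTop 300
  have e2 : ∀ᶠ k in Filter.atTop,
      30 * 50000 / (c / ((H0 : ℝ) + 1)) ^ 2 ≤ Lam k ^ (η / 320) :=
    ((tendsto_rpow_atTop (by positivity)).comp lam_top_Main).eventually_ge_atTop _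
  obtain ⟨k1, hk1⟩ := Filter.eventually_atTop.1 (e1.and (e2.and
    ((Filter.eventually_ge_atTop k0).and (Filter.eventually_ge_atTop 1))))
  refine ⟨k1, fun k hk => ?_⟩
  obtain ⟨h1, h2, h3, h4⟩ := hk1 k hk
  have hL : 1 < Lam k := by
    have : 0 < 4 * Real.pi * k := by positivity
    unfold Lam
    linarith
  have hx : ENNReal.ofReal (30 / Lam k ^ (η / 320)) ≤
      ENNReal.ofReal ((c / ((H0 : ℝ) + 1)) ^ 2 / 50000) := by
    refine ENNReal.ofReal_le_ofReal ?_
    have hp : 0 < Lam k ^ (η / 320) := Real.rpow_pos_of_pos (by linarith) _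
    rw [div_le_iff₀ (by positivity)] at h2
    rw [div_le_div_iff₀ hp (by norm_num)]
    linarith
  have hy : (∑' h : ℕ, if H0 ≤ h then ENNReal.ofReal ((h + 1) * (C * r ^ h)) else 0) ≤
      ENNReal.ofReal ((c / ((H0 : ℝ) + 1)) ^ 2 / 50000) := by
    refine htail.trans (le_of_eq ?_)
    congr 1
    field_simp
  have hN : ∀ N, Pr (Rsh k (Lam k ^ (η / 80)) N) ≤
      ENNReal.ofReal (c / ((H0 : ℝ) + 1) / 10000) := by
    intro N
    induction N with
    | zero =>
      have : Rsh k (Lam k ^ (η / 80)) 0 = ∅ :=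
        eq_empty_of_forall_notMem fun z ⟨m, h5, h6, _⟩ => by omega
      simp [this, Pr]
    | succ N ih => exact rec_Main ha ih hx hy (hstep H0 k hH0 h3 h4 h1 N)
  refine ⟨Lam k / Lam k ^ (η / 80), ?_, union_Main ?_ hN⟩
  · rw [one_lt_div (Real.rpow_pos_of_pos (by linarith) _)]
    calc Lam k ^ (η / 80) < Lam k ^ (1 : ℝ) :=
          Real.rpow_lt_rpow_of_exponent_lt hL (by linarith)
      _ = Lam k := Real.rpow_one _
  · rw [ENNReal.ofReal_lt_one]
    linarith

end Vale.Agent.P108
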