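import Vale.Agent.P108.Stmt
import Vale.Agent.P108.Main
import Vale.Agent.P108.FinalA

/-!
P108 Final: transfer to the standard map.  For z = (x, y) put a = x - y, b = x.  Then
stdLift^[n] z = (orb a b (n+1), orb a b (n+1) - orb a b n) (induction).
nrm_le_fderiv: the four entries of nrm are derivatives of orb a b n and orb a b (n+1) along the
directions (x, y) = (0, -1) and (1, 1) (hasFDerivAt_orb, chain rule, uniqueness of derivatives),
and each coordinate of a vector is bounded by its Euclidean norm.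
posExp_of: the set S of the hypothesis is periodic and measurable with positive area; its preimage
under the linear map (x, y) to (x - y, x) of determinant one has positive area in the plane, is
periodic, hence has positive area in the unit square (countable cover by integer translates);
transport to EuclideanSpace by the volume preserving equivalences
(EuclideanSpace.volume_preserving_measurableEquiv or PiLp.volume_preserving_ofLp,
volume_preserving_finTwoArrow).  On S, log of the norm / n >= log lam - log 8 / n.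
For k < 0: orb (-k) (a + 1/2) (b + 1/2) j = orb k a b j + 1/2 up to the sign rule
sin (x + pi) = - sin x, so Vo k a b = Vo (-k) (a + 1/2) (b + 1/2) and the set for k is a translate
of the set for -k.
-/

namespace Vale.Agent.P108

open MeasureTheory Set

theorem lyap_pos_Final {k lam : ℝ} (hlam : 1 < lam) (z : EuclideanSpace ℝ (Fin 2))
    (h : ∀ m : ℕ, 1 ≤ m → lam ^ m < nrm (Vo k (z 0 - z 1) (z 0)) m) : 0 < lyap k z := by
  have hl : 0 < Real.log lam := Real.log_pos hlam
  have h0 : (0 : EReal) < ((Real.log lam / 2 : ℝ) : EReal) := by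
    exact_mod_cast half_pos hl
  refine lt_of_lt_of_le h0 ?_
  unfold lyap
  refine Filter.le_liminf_of_le (by isBoundedDefault) ?_
  obtain ⟨N, hN⟩ := exists_nat_ge (2 * Real.log 8 / Real.log lam)
  filter_upwards [Filter.eventually_ge_atTop (max N 1)] with n hn
  have hn1 : 1 ≤ n := le_trans (le_max_right _ _) hn
  have hnN : (N : ℝ) ≤ n := by exact_mod_cast le_trans (le_max_left _ _) hn
  have hnp : (0 : ℝ) < n := by exact_mod_cast hn1
  have h1 := lt_of_lt_of_le (h n hn1) (nrm_le_fderiv k z n)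
  have hp : 0 < lam ^ n := pow_pos (by linarith) n
  have h2 : lam ^ n / 8 ≤ ‖fderiv ℝ ((stdLift k)^[n]) z‖ := by linarith
  have h3 := Real.log_le_log (by positivity) h2
  rw [Real.log_div hp.ne' (by norm_num), Real.log_pow] at h3
  have h4 : 2 * Real.log 8 ≤ n * Real.log lam := by
    have := le_trans hN hnN
    rwa [div_le_iff₀ hl] at this
  have h5 : Real.log lam / 2 ≤ Real.log ‖fderiv ℝ ((stdLift k)^[n]) z‖ / n := by
    rw [le_div_iff₀ hnp]
    linarith
  exact_mod_cast h5

theorem null_of_box_Final {S : Set (ℝ × ℝ)}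
    (hS : ∀ (z : ℝ × ℝ) (m n : ℤ), z ∈ S → (z.1 + m, z.2 + n) ∈ S)
    (h0 : volume (S ∩ box) = 0) : volume S = 0 := by
  have hsub : S ⊆ ⋃ p : ℤ × ℤ, (fun w : ℝ × ℝ => w + ((p.1 : ℝ), (p.2 : ℝ))) ⁻¹' (S ∩ box) := by
    intro w hw
    refine mem_iUnion.2 ⟨(-⌊w.1⌋, -⌊w.2⌋), ?_⟩
    refine ⟨hS w _ _ hw, ?_, ?_⟩
    · have h1 := Int.floor_le w.1
      have h2 := Int.lt_floor_add_one w.1
      simp only [Prod.fst_add, Int.cast_neg, mem_Ico]
      constructor <;> linarith
    · have h1 := Int.floor_le w.2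
      have h2 := Int.lt_floor_add_one w.2
      simp only [Prod.snd_add, Int.cast_neg, mem_Ico]
      constructor <;> linarith
  refine measure_mono_null hsub (measure_iUnion_null fun p => ?_)
  rw [measure_preimage_add_right]
  exact h0

theorem shear_null_Final {S : Set (ℝ × ℝ)}
    (h0 : volume {w : ℝ × ℝ | (w.1 - w.2, w.1) ∈ S} = 0) : volume S = 0 := by
  let f : (ℝ × ℝ) →ₗ[ℝ] (ℝ × ℝ) :=
    (LinearMap.fst ℝ ℝ ℝ - LinearMap.snd ℝ ℝ ℝ).prod (LinearMap.fst ℝ ℝ ℝ)
  have hf : ∀ w : ℝ × ℝ, f w = (w.1 - w.2, w.1) := fun w => rfl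
  have hsub : S ⊆ f '' {w : ℝ × ℝ | (w.1 - w.2, w.1) ∈ S} := by
    intro z hz
    refine ⟨(z.2, z.2 - z.1), ?_, ?_⟩
    · show (z.2 - (z.2 - z.1), z.2) ∈ S
      rw [sub_sub_cancel]
      exact hz
    · rw [hf]
      show (z.2 - (z.2 - z.1), z.2) = z
      rw [sub_sub_cancel]
  refine measure_mono_null hsub ?_
  rw [Measure.addHaar_image_linearMap, h0, mul_zero]

theorem euc_null_Final {U : Set (ℝ × ℝ)}
    (h0 : volume {z : EuclideanSpace ℝ (Fin 2) | (z 0, z 1) ∈ U} = 0) : volume U = 0 := by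
  have h1 := EuclideanSpace.volume_preserving_symm_measurableEquiv_toLp (Fin 2)
  have h2 := volume_preserving_finTwoArrow ℝ
  have h3 := h1.trans h2
  rw [← h3.measure_preimage_equiv U]
  exact h0

theorem posExp_of {k lam : ℝ} (hlam : 1 < lam)
    (h : 0 < volume {z : ℝ × ℝ | ∀ m : ℕ, 1 ≤ m → lam ^ m < nrm (Vo k z.1 z.2) m}) :
    PosExp k := by
  unfold PosExp
  rw [pos_iff_ne_zero] at h ⊢
  intro h0
  apply h
  apply shear_null_Final
  apply null_of_box_Final
  · intro z m n hz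
    have e1 : z.1 + (m : ℝ) - (z.2 + (n : ℝ)) = z.1 - z.2 + ((m - n : ℤ) : ℝ) := by
      push_cast
      ring
    intro j hj
    show lam ^ j < nrm (Vo k (z.1 + (m : ℝ) - (z.2 + (n : ℝ))) (z.1 + (m : ℝ))) j
    rw [e1, Vo_int]
    exact hz j hj
  · apply euc_null_Final
    refine measure_mono_null ?_ h0
    intro z hz
    exact ⟨hz.2.1, hz.2.2, lyap_pos_Final hlam z hz.1⟩

theorem final : (∃ k0 : ℝ, ∀ k : ℝ, k0 ≤ |k| → PosExp k) ∧ 0 < volume {k : ℝ | PosExp k} := by
  obtain ⟨k0, hk0⟩ := main_exp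
  have key : ∀ k : ℝ, k0 ≤ |k| → PosExp k := by
    intro k hk
    obtain ⟨lam, hlam, hp⟩ := hk0 |k| hk
    have hp2 : 0 < volume {z : ℝ × ℝ | ∀ m : ℕ, 1 ≤ m → lam ^ m < nrm (Vo |k| z.1 z.2) m} :=
      lt_of_lt_of_le hp (measure_mono inter_subset_left)
    rcases abs_choice k with h | h
    · rw [h] at hp2
      exact posExp_of hlam hp2
    · rw [h] at hp2
      refine posExp_of hlam ?_
      have e : {z : ℝ × ℝ | ∀ m : ℕ, 1 ≤ m → lam ^ m < nrm (Vo k z.1 z.2) m} =
          (fun w : ℝ × ℝ => w + ((1 / 2 : ℝ), (1 / 2 : ℝ))) ⁻¹'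
            {z : ℝ × ℝ | ∀ m : ℕ, 1 ≤ m → lam ^ m < nrm (Vo (-k) z.1 z.2) m} := by
        ext z
        show (∀ m : ℕ, 1 ≤ m → lam ^ m < nrm (Vo k z.1 z.2) m) ↔
          (∀ m : ℕ, 1 ≤ m → lam ^ m < nrm (Vo (-k) (z.1 + 1 / 2) (z.2 + 1 / 2)) m)
        rw [Vo_neg k z.1 z.2]
      rw [e, measure_preimage_add_right]
      exact hp2
  refine ⟨⟨k0, key⟩, ?_⟩
  have hsub : Ici k0 ⊆ {k : ℝ | PosExp k} := fun k hk => key k (le_trans hk (le_abs_self k))
  refine lt_of_lt_of_le ?_ (measure_mono hsub)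
  rw [Real.volume_Ici]
  exact ENNReal.zero_lt_top

end Vale.Agent.P108
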