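import Vale.Agent.P108.Count

/-!
P108 KsL (part of KsC): cells meet the good set in exponentially small area.
count_left: greedy covering from the right by deficient windows (as in Count): by strong induction
nrm V t <= 2 L^t / mu^(number of cuts in [1, t] that are not left free), so mu^c <= 2 g0^n with
g0^80 <= mu.
cell_small: mu = Lam^(1/100), lam = Lam / g0.  On the vertical line through a, split the slice by
the set S of left free cuts in Icc 1 n (at most 2^n choices, and card (Icc 1 n minus S) <= n/80 + 1).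
At a left free cut, nrm_le_three (g = g0) and back_decay (g = mu) give BD and lam^s <= 3 vn.
line_cell bounds each part by 15 2^n L^(2 + n/80) / lam^n, and 4 L^(1/80) g0 / L <= 1/2.
Fubini: Measure.prod_apply for the measurable set.
-/

namespace Vale.Agent.P108

open MeasureTheory Set Classical

theorem count_left {μ g0 : ℝ} (hμ : 300 ≤ μ) (hg0 : 1 ≤ g0) (hg : g0 ^ 80 ≤ μ) {V : ℕ → ℝ}
    (hV : ∀ j, |V j| ≤ μ ^ 100 - 2) {n : ℕ} (hn : (μ ^ 100 / g0) ^ n ≤ nrm V n) :
    (((Finset.Icc 1 n).filter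
      (fun t => ¬ ∀ m, 1 ≤ m → m ≤ t → (μ ^ 100 / μ) ^ m ≤ nrm (rv V t) m)).card : ℝ) ≤
      n / 80 + 1 := by
  have hμ1 : 1 < μ := by linarith
  have hL : 0 < μ ^ 100 := by positivity
  have h1 := left_Count hμ1.le hL.le hV n
  set c := ((Finset.range (n + 1)).filter (LB_Count (μ ^ 100) μ V)).card with hc
  have h2 : (μ ^ 100 / g0) ^ n * μ ^ c ≤ 2 * (μ ^ 100) ^ n :=
    (mul_le_mul_of_nonneg_right hn (by positivity)).trans h1
  have h3 : μ ^ c ≤ μ * g0 ^ n := by
    have hLn : 0 < (μ ^ 100) ^ n := by positivity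
    have hgn : 0 < g0 ^ n := by positivity
    rw [div_pow, div_mul_eq_mul_div, div_le_iff₀ hgn, mul_assoc, mul_left_comm] at h2
    exact (le_of_mul_le_mul_left h2 hLn).trans (mul_le_mul_of_nonneg_right (by linarith) hgn.le)
  have h4 : μ ^ (c * 80) ≤ μ ^ (80 + n) := by
    rw [pow_mul, pow_add]
    refine (pow_le_pow_left₀ (by positivity) h3 80).trans ?_
    rw [mul_pow, ← pow_mul, mul_comm n, pow_mul]
    exact mul_le_mul_of_nonneg_left (pow_le_pow_left₀ (by positivity) hg n) (by positivity)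
  have h5 : c * 80 ≤ 80 + n := (pow_le_pow_iff_right₀ hμ1).1 h4
  have h6 : ((Finset.Icc 1 n).filter
      (fun t => ¬ ∀ m, 1 ≤ m → m ≤ t → (μ ^ 100 / μ) ^ m ≤ nrm (rv V t) m)).card ≤ c := by
    refine Finset.card_le_card fun t ht => ?_
    rw [Finset.mem_filter, Finset.mem_Icc] at ht
    exact Finset.mem_filter.2 ⟨Finset.mem_range.2 (by omega), ht.2⟩
  have h7 : (c : ℝ) * 80 ≤ 80 + n := by exact_mod_cast h5
  have h8 := (Nat.cast_le (α := ℝ)).2 h6
  linarith

end Vale.Agent.P108
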