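import Vale.Agent.P108.KsB
import Vale.Agent.P108.Count
import Vale.Agent.P108.Meas
import Vale.Agent.P108.KsL

/-!
P108 KsC: cells meet the good set in exponentially small area.
count_left: greedy covering from the right by deficient windows (as in Count): by strong induction
nrm V t <= 2 L^t / mu^(number of cuts in [1, t] that are not left free), so mu^c <= 2 g0^n with
g0^80 <= mu.
cell_small: mu = Lam^(1/100), lam = Lam / g0.  On the vertical line through a, split the slice by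
the set S of left free cuts in Icc 1 n (at most 2^n choices, and card (Icc 1 n minus S) <= n/80 + 1).
At a left free cut, nrm_le_three (g = g0) and back_decay (g = mu) give BD and lam^s <= 3 vn.
line_cell bounds each part by 15 2^n L^(2 + n/80) / lam^n, and 4 L^(1/80) g0 / L <= 1/2.
Fubini: Measure.prod_apply for the measurable set.
-/

namespace Vale.Agent.P108

open MeasureTheory Set Classical

theorem num_KsC {μ g0 : ℝ} (hμ : 300 ≤ μ) (hg0 : 1 ≤ g0) (hg : g0 ≤ μ) (n c : ℕ)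
    (hc : (c : ℝ) ≤ n / 80 + 1) :
    15 * 2 ^ n * (μ ^ 100) ^ (1 + c) / (μ ^ 100 / g0) ^ n ≤
      15 * (μ ^ 100) ^ 2 / 2 ^ n / 2 ^ n := by
  have h1 : (1 : ℝ) ≤ μ := by linarith
  have h0 : (0 : ℝ) < μ := by linarith
  have hc' : 100 * (1 + c) ≤ 200 + 2 * n := by
    have : (100 * (1 + c) : ℝ) ≤ 200 + 2 * n := by linarith [(Nat.cast_nonneg n : (0 : ℝ) ≤ n)]
    exact_mod_cast this
  have h2 : (μ ^ 100) ^ (1 + c) ≤ (μ ^ 100) ^ 2 * (μ ^ 2) ^ n := by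
    rw [← pow_mul, ← pow_mul, ← pow_mul, ← pow_add]
    exact pow_le_pow_right₀ h1 hc'
  have h3 : 2 * 2 * 2 * μ ^ 2 ≤ μ ^ 100 / g0 := by
    rw [le_div_iff₀ (by linarith)]
    have h4 : μ ^ 4 ≤ μ ^ 100 := pow_le_pow_right₀ h1 (by norm_num)
    have h5 : 2 * 2 * 2 * μ ^ 2 * g0 ≤ μ * μ ^ 2 * μ := by gcongr; linarith
    calc _ ≤ μ * μ ^ 2 * μ := h5
      _ = μ ^ 4 := by ring
      _ ≤ _ := h4
  have h6 : (2 * 2 * 2 * μ ^ 2) ^ n ≤ (μ ^ 100 / g0) ^ n := pow_le_pow_left₀ (by positivity) h3 n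
  calc _ ≤ 15 * 2 ^ n * ((μ ^ 100) ^ 2 * (μ ^ 2) ^ n) / (2 * 2 * 2 * μ ^ 2) ^ n := by gcongr
    _ = _ := by
      rw [mul_pow, mul_pow, mul_pow]
      field_simp

theorem slice_KsC : ∃ μ0 : ℝ, ∀ k μ g0 : ℝ, 0 < k → μ0 ≤ μ → μ ^ 100 = Lam k → 300 ≤ g0 →
    g0 ^ 80 ≤ μ → ∀ (a : ℝ) (n : ℕ) (A : Set ℝ), A ⊆ Ico 0 1 →
    (∀ x ∈ A, ∀ m : ℕ, 1 ≤ m → (Lam k / g0) ^ m < nrm (Vo k a x) m) →
    (∀ x ∈ A, ∀ y ∈ A, ∀ j, 1 ≤ j → j ≤ n + 1 →
      ∃ m : ℤ, |orb k a y j - orb k a x j - m| ≤ 1 / (24 * Lam k)) →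
    volume A ≤ ENNReal.ofReal (15 * Lam k ^ 2 / 2 ^ n) := by
  obtain ⟨μ0, h0⟩ := line_cell
  refine ⟨μ0, fun k μ g0 hk hμ0 hL hg0 hg a n A hA hgood hcl => ?_⟩
  have g1 : (1 : ℝ) ≤ g0 := by linarith
  have hgμ : g0 ≤ μ := (le_self_pow₀ g1 (by norm_num)).trans hg
  have hμ : 300 ≤ μ := hg0.trans hgμ
  have μ1 : (1 : ℝ) ≤ μ := by linarith
  have hμL : μ ^ 20 ≤ Lam k := hL ▸ pow_le_pow_right₀ μ1 (by norm_num)
  have hgL : g0 ^ 20 ≤ Lam k := (pow_le_pow_left₀ (by linarith) hgμ 20).trans hμL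
  have hgL1 : g0 ≤ Lam k := (le_self_pow₀ g1 (by norm_num)).trans hgL
  have L0 : 0 < Lam k := by linarith
  have l1 : 1 ≤ Lam k / g0 := (one_le_div (by linarith)).2 hgL1
  have l2 : Lam k / g0 ≤ Lam k := div_le_self L0.le g1
  set F : ℝ → Finset ℕ := fun x => (Finset.Icc 1 n).filter
    (fun t => ∀ m, 1 ≤ m → m ≤ t → (μ ^ 100 / μ) ^ m ≤ nrm (rv (Vo k a x) t) m) with hF
  have hcov : A ⊆ ⋃ S ∈ (Finset.Icc 1 n).powerset, {x ∈ A | F x = S} := fun x hx =>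
    mem_biUnion (Finset.mem_coe.2 (Finset.mem_powerset.2 (Finset.filter_subset _ _))) ⟨hx, rfl⟩
  have hpart : ∀ S ∈ (Finset.Icc 1 n).powerset,
      volume {x ∈ A | F x = S} ≤ ENNReal.ofReal (15 * Lam k ^ 2 / 2 ^ n / 2 ^ n) := by
    intro S hS
    rcases eq_empty_or_nonempty {x ∈ A | F x = S} with h | ⟨x0, hx0, hx0S⟩
    · rw [h, measure_empty]
      exact zero_le
    have hS' := Finset.mem_powerset.1 hS
    refine (h0 k μ hk hμ0 hL a (Lam k / g0) n S _ l1 l2 hS' (fun x hx => hA hx.1) ?_ ?_).trans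
      (ENNReal.ofReal_le_ofReal ?_)
    · rintro x ⟨hx, hxS⟩ s hs
      rw [← hxS] at hs
      obtain ⟨hs1, hs2⟩ := Finset.mem_filter.1 hs
      have hs3 := (Finset.mem_Icc.1 hs1).1
      have h3 : nrm (Vo k a x) s ≤ 3 * vn (fld (Vo k a x) 0 1) s :=
        nrm_le_three hg0 hgL (abs_Vo_le hk a x) hs3 fun j hj _ => by
          have := hgood x hx j hj
          have : 0 ≤ (Lam k / g0) ^ j := by positivity
          linarith
      refine ⟨fun l hl => back_decay hμ hμL (abs_Vo_le hk a x) (hL ▸ hs2) (fld_fldOn _ 0 1 s) ?_ hl,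
        (hgood x hx s hs3).le.trans h3⟩
      have e : vn (fld (Vo k a x) 0 1) 0 = 1 := by simp [vn, fld]
      have := vn_nonneg (fld (Vo k a x) 0 1) s
      rw [e]
      linarith
    · intro x hx y hy s hs
      have := Finset.mem_Icc.1 (hS' hs)
      exact hcl x hx.1 y hy.1 (s + 1) (by omega) (by omega)
    · have hn : (μ ^ 100 / g0) ^ n ≤ nrm (Vo k a x0) n := by
        rcases Nat.eq_zero_or_pos n with rfl | hn
        · rw [pow_zero, nrm_zero]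
          norm_num
        · exact hL ▸ (hgood x0 hx0 n hn).le
      have hc := count_left hμ g1 hg (V := Vo k a x0) (hL ▸ abs_Vo_le hk a x0) hn
      rw [Finset.filter_not] at hc
      have := num_KsC hμ g1 hgμ n _ hc
      rw [← hx0S, ← hL]
      exact this
  refine (measure_mono hcov).trans ((measure_biUnion_finset_le _ _).trans ?_)
  refine (Finset.sum_le_card_nsmul _ _ _ hpart).trans ?_
  rw [Finset.card_powerset, Nat.card_Icc, Nat.add_sub_cancel, nsmul_eq_mul,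
    ← ENNReal.ofReal_natCast, ← ENNReal.ofReal_mul (by positivity)]
  refine ENNReal.ofReal_le_ofReal (le_of_eq ?_)
  push_cast
  field_simp

theorem cell_small : ∃ k0 : ℝ, ∀ k g0 : ℝ, k0 ≤ k → 300 ≤ g0 → g0 ^ 8000 ≤ Lam k →
    ∀ (n : ℕ) (C : Set (ℝ × ℝ)), MeasurableSet C →
    (∀ z ∈ C, ∀ z' ∈ C, ∀ j, 1 ≤ j → j ≤ n + 1 →
      ∃ m : ℤ, |orb k z'.1 z'.2 j - orb k z.1 z.2 j - m| ≤ 1 / (24 * Lam k)) →
    Pr (C ∩ {z | ∀ m : ℕ, 1 ≤ m → (Lam k / g0) ^ m < nrm (Vo k z.1 z.2) m}) ≤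
      ENNReal.ofReal (15 * Lam k ^ 2 / 2 ^ n) := by
  obtain ⟨μ0, h0⟩ := slice_KsC
  refine ⟨max 1 (|μ0| ^ 100), fun k g0 hk hg0 hg n C hC hcl => ?_⟩
  have k1 : 1 ≤ k := (le_max_left _ _).trans hk
  have k0 : 0 < k := by linarith
  have hkL : k ≤ Lam k := by
    have := Real.pi_gt_three
    unfold Lam
    nlinarith
  have L0 : 0 ≤ Lam k := by linarith
  obtain ⟨μ, hμ, hL⟩ : ∃ μ : ℝ, 0 ≤ μ ∧ μ ^ 100 = Lam k :=
    ⟨Lam k ^ ((100 : ℕ) : ℝ)⁻¹, by positivity, Real.rpow_inv_natCast_pow L0 (by norm_num)⟩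
  have hμ0 : μ0 ≤ μ := (le_abs_self μ0).trans
    (le_of_pow_le_pow_left₀ (n := 100) (by norm_num) hμ
      ((((le_max_right _ _).trans hk).trans hkL).trans hL.ge))
  have hg' : g0 ^ 80 ≤ μ := le_of_pow_le_pow_left₀ (n := 100) (by norm_num) hμ (by
    rw [← pow_mul, hL]
    exact hg)
  have hM : MeasurableSet
      (C ∩ {z : ℝ × ℝ | ∀ m : ℕ, 1 ≤ m → (Lam k / g0) ^ m < nrm (Vo k z.1 z.2) m}) := by
    refine hC.inter (measurableSet_setOfPred.2 (Measurable.forall fun m => ?_))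
    exact measurable_const.imp
      (measurableSet_setOfPred.1
        (measurableSet_lt measurable_const (continuous_nrm k m).measurable))
  unfold Pr box
  rw [fub_MeasA hM]
  refine (lintegral_mono fun a => h0 k μ g0 k0 hμ0 hL hg0 hg' a n _ inter_subset_right
    (fun x hx => hx.1.2) fun x hx y hy => hcl (a, x) hx.1.1 (a, y) hy.1.1).trans ?_
  simp

end Vale.Agent.P108
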