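import Vale.Agent.P108.KsD

/-!
P108 KsN (part of KsT): the torus and the plane.  cov (a, b) = (b, b - a) modulo Z^2.
cov_vol: the quotient map R to R / Z preserves measure on Ico 0 1 (AddCircle.measurePreserving_mk
is stated for Ioc; Ico and Ioc differ by a null set), take the product, and (a, b) to (b, b - a)
preserves the Haar measure of the torus (swap and measurePreserving_prod_sub or a skew product).
stdMap_iter: induction on n; sinC of a real x is sin (2 pi x) (AddCircle.toCircle_apply_mk,
Circle.coe_exp, Complex.exp_ofReal_mul_I_im).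
part: xi z = floor (N * representative of z.1 in [0, 1)), measurable by AddCircle.equivIco or
measurable_equivIco type lemmas, or use the representative in Ioc with a ceiling.
image_cov: the image of a periodic measurable set is measurable and its preimage is the set
(write it as the preimage of S under the measurable section given by representatives).
ks_neg: the translation tau by (1/2, 0) satisfies tau (stdMap k z) = stdMap (-k) (tau z) and
preserves volume; use the partition xi after tau.
-/

namespace Vale.Agent.P108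

open MeasureTheory Set

theorem sinC_half_KsN (x : UnitAddCircle) :
    sinC (x + (((1 / 2 : ℝ)) : UnitAddCircle)) = -sinC x := by
  have h : ((AddCircle.toCircle (((1 / 2 : ℝ)) : UnitAddCircle) : Circle) : ℂ) = -1 := by
    rw [AddCircle.toCircle_apply_mk, Circle.coe_exp]
    have e : ((2 * Real.pi / 1 * (1 / 2) : ℝ) : ℂ) * Complex.I = Real.pi * Complex.I := by
      push_cast
      ring
    rw [e, Complex.exp_pi_mul_I]
  unfold sinC
  rw [AddCircle.toCircle_add, Circle.coe_mul, h]
  simp

/-- the translation by (1/2, 0). -/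
noncomputable def tau_KsN (z : UnitAddCircle × UnitAddCircle) : UnitAddCircle × UnitAddCircle :=
  z + ((((1 / 2 : ℝ)) : UnitAddCircle), 0)

theorem tau_std_KsN (k : ℝ) (z : UnitAddCircle × UnitAddCircle) :
    tau_KsN (stdMap k z) = stdMap (-k) (tau_KsN z) := by
  have h : -k * sinC (tau_KsN z).1 = k * sinC z.1 := by
    change -k * sinC (z.1 + (((1 / 2 : ℝ)) : UnitAddCircle)) = _
    rw [sinC_half_KsN]
    ring
  unfold stdMap
  rw [h]
  unfold tau_KsN
  refine Prod.ext ?_ ?_
  · simp only [Prod.fst_add, Prod.snd_add, add_zero]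
    abel
  · simp only [Prod.snd_add, add_zero]

theorem tau_iter_KsN (k : ℝ) (n : ℕ) (z : UnitAddCircle × UnitAddCircle) :
    tau_KsN ((stdMap k)^[n] z) = (stdMap (-k))^[n] (tau_KsN z) :=
  (Function.Semiconj.iterate_right (f := tau_KsN) (ga := stdMap k) (gb := stdMap (-k))
    (tau_std_KsN k) n) z

theorem tau_vol_KsN (S : Set (UnitAddCircle × UnitAddCircle)) :
    volume (tau_KsN ⁻¹' S) = volume S :=
  measure_preimage_add_right
    ((volume : Measure UnitAddCircle).prod (volume : Measure UnitAddCircle)) _ S

theorem block_KsN (k : ℝ) {N : ℕ} (ξ : UnitAddCircle × UnitAddCircle → Fin N) (n : ℕ) :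
    blockEnt (stdMap k) (ξ ∘ tau_KsN) n = blockEnt (stdMap (-k)) ξ n := by
  unfold blockEnt
  refine Finset.sum_congr rfl fun w _ => ?_
  rw [← tau_vol_KsN {z | ∀ i : Fin n, ξ ((stdMap (-k))^[i] z) = w i}]
  have e : {z | ∀ i : Fin n, (ξ ∘ tau_KsN) ((stdMap k)^[i] z) = w i} =
      tau_KsN ⁻¹' {z | ∀ i : Fin n, ξ ((stdMap (-k))^[i] z) = w i} := by
    ext z
    simp only [mem_ofPred_eq, Function.comp_apply, mem_preimage, tau_iter_KsN]
  rw [e]

theorem ks_neg (k : ℝ) : ksEnt (stdMap (-k)) ≤ ksEnt (stdMap k) := by
  unfold ksEnt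
  refine iSup_le fun N => iSup_le fun ξ => iSup_le fun hξ => ?_
  have hm : Measurable (ξ ∘ tau_KsN) := hξ.comp (measurable_add_const _)
  refine le_iSup_of_le N (le_iSup_of_le (ξ ∘ tau_KsN) (le_iSup_of_le hm ?_))
  simp only [block_KsN, le_refl]

end Vale.Agent.P108
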