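import Vale.Agent.P108.KsD
import Vale.Agent.P108.Meas

/-!
P108 KsV (part of KsT): the torus and the plane.  cov (a, b) = (b, b - a) modulo Z^2.
cov_vol: the quotient map R to R / Z preserves measure on Ico 0 1 (AddCircle.measurePreserving_mk
is stated for Ioc; Ico and Ioc differ by a null set), take the product, and (a, b) to (b, b - a)
preserves the Haar measure of the torus (swap and measurePreserving_prod_sub or a skew product).
stdMap_iter: induction on n; sinC of a real x is sin (2 pi x) (AddCircle.toCircle_apply_mk,
Circle.coe_exp, Complex.exp_ofReal_mul_I_im).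
part: xi z = floor (N * representative of z.1 in [0, 1)), measurable by AddCircle.equivIco or
measurable_equivIco type lemmas, or use the representative in Ioc with a ceiling.
image_cov: the image of a periodic measurable set is measurable and its preimage is the set
(write it as the preimage of S under the measurable section given by representatives).
ks_neg: the translation tau by (1/2, 0) satisfies tau (stdMap k z) = stdMap (-k) (tau z) and
preserves volume; use the partition xi after tau.
-/

namespace Vale.Agent.P108

open MeasureTheory Set

theorem measurable_cov : Measurable cov := by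
  exact (AddCircle.measurable_mk'.comp measurable_snd).prodMk
    (AddCircle.measurable_mk'.comp (measurable_snd.sub measurable_fst))

theorem cov_vol {S : Set (UnitAddCircle × UnitAddCircle)} (hS : MeasurableSet S) :
    volume S = Pr (cov ⁻¹' S) := by
  have h1 : MeasurePreserving ((↑) : ℝ → UnitAddCircle) (volume.restrict (Ico (0 : ℝ) 1))
      volume := by
    have := UnitAddCircle.measurePreserving_mk 0
    rwa [zero_add, ← Measure.restrict_congr_set Ico_ae_eq_Ioc] at this
  have h2 : MeasurePreserving (fun z : UnitAddCircle × UnitAddCircle => (z.2, z.2 - z.1))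
      (volume.prod volume) (volume.prod volume) := by
    have h3 := ((MeasurePreserving.id (volume : Measure UnitAddCircle)).prod
      (Measure.measurePreserving_neg (volume : Measure UnitAddCircle))).comp
      (measurePreserving_prod_sub_swap (volume : Measure UnitAddCircle) volume)
    convert h3 using 1
    funext z
    simp
  have h4 := h2.comp (h1.prod h1)
  rw [Measure.prod_restrict] at h4
  have e : (fun z : UnitAddCircle × UnitAddCircle => (z.2, z.2 - z.1)) ∘
      Prod.map ((↑) : ℝ → UnitAddCircle) ((↑) : ℝ → UnitAddCircle) = cov := by
    funext z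
    simp [cov]
  rw [e] at h4
  rw [Pr, Measure.volume_eq_prod, ← h4.measure_preimage hS.nullMeasurableSet,
    Measure.restrict_apply (measurable_cov hS)]
  rfl

theorem image_cov {S : Set (ℝ × ℝ)} (hS : MeasurableSet S) (hP : Per S) :
    ∃ G : Set (UnitAddCircle × UnitAddCircle), MeasurableSet G ∧ cov ⁻¹' G = S := by
  let r : UnitAddCircle → ℝ := fun x => (AddCircle.measurableEquivIco 1 0 x : ℝ)
  have hr : Measurable r := measurable_subtype_coe.comp (AddCircle.measurableEquivIco 1 0).measurable
  have hx : ∀ x : ℝ, ∃ m : ℤ, r x = x + m := by
    intro x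
    have e : ((r x : ℝ) : UnitAddCircle) = x := (AddCircle.equivIco 1 0).symm_apply_apply _
    obtain ⟨m, hm⟩ := AddSubgroup.mem_zmultiples_iff.1 (QuotientAddGroup.eq.1 e.symm)
    refine ⟨m, ?_⟩
    rw [zsmul_one] at hm
    linarith
  refine ⟨(fun p : UnitAddCircle × UnitAddCircle => (r p.1 - r p.2, r p.1)) ⁻¹' S,
    (((hr.comp measurable_fst).sub (hr.comp measurable_snd)).prodMk (hr.comp measurable_fst)) hS,
    ?_⟩
  ext z
  obtain ⟨m, hm⟩ := hx z.2
  obtain ⟨n, hn⟩ := hx (z.2 - z.1)
  rw [← hP z (m - n) m]
  simp only [mem_preimage, cov, hm, hn]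
  rw [show z.2 + m - (z.2 - z.1 + n) = z.1 + ((m - n : ℤ) : ℝ) by push_cast; ring]

end Vale.Agent.P108
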