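import Vale.Agent.P108.KsD
import Vale.Agent.P108.Meas
import Vale.Agent.P108.KsV
import Vale.Agent.P108.KsN

/-!
P108 KsT: the torus and the plane.  cov (a, b) = (b, b - a) modulo Z^2.
cov_vol: the quotient map R to R / Z preserves measure on Ico 0 1 (AddCircle.measurePreserving_mk
is stated for Ioc; Ico and Ioc differ by a null set), take the product, and (a, b) to (b, b - a)
preserves the Haar measure of the torus (swap and measurePreserving_prod_sub or a skew product).
stdMap_iter: induction on n; sinC of a real x is sin (2 pi x) (AddCircle.toCircle_apply_mk,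
Circle.coe_exp, Complex.exp_ofReal_mul_I_im).
part: xi z = floor (N * representative of z.1 in [0, 1)), measurable by AddCircle.equivIco or
measurable_equivIco type lemmas, or use the representative in Ioc with a ceiling.
image_cov: the image of a periodic measurable set is measurable and its preimage is the set
(write it as the preimage of S under the measurable section given by representatives).
ks_neg: the translation tau by (1/2, 0) satisfies tau (stdMap k z) = stdMap (-k) (tau z) and
preserves volume; use the partition xi after tau.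
-/

namespace Vale.Agent.P108

open MeasureTheory Set

theorem measurable_stdMap (k : ℝ) : Measurable (stdMap k) := by
  have h : Continuous sinC :=
    Complex.continuous_im.comp (continuous_subtype_val.comp AddCircle.continuous_toCircle)
  have h' : Continuous fun z : UnitAddCircle × UnitAddCircle =>
      ((k * sinC z.1 : ℝ) : UnitAddCircle) :=
    (AddCircle.continuous_mk' 1).comp (continuous_const.mul (h.comp continuous_fst))
  exact (((continuous_fst.add continuous_snd).add h').prodMk (continuous_snd.add h')).measurable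

theorem sinC_KsT (x : ℝ) : sinC (x : UnitAddCircle) = Real.sin (2 * Real.pi * x) := by
  rw [sinC, AddCircle.toCircle_apply_mk, Circle.coe_exp, Complex.exp_ofReal_mul_I_im, div_one]

theorem stdMap_iter (k : ℝ) (z : ℝ × ℝ) (n : ℕ) :
    (stdMap k)^[n] (cov z) = cov (orb k z.1 z.2 n, orb k z.1 z.2 (n + 1)) := by
  induction n with
  | zero => rfl
  | succ n ih =>
    rw [Function.iterate_succ_apply', ih]
    simp only [stdMap, cov, sinC_KsT, orb, ← AddCircle.coe_add]
    refine Prod.ext ?_ ?_ <;> exact congrArg (fun x : ℝ => (x : UnitAddCircle)) (by ring)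

theorem part {del : ℝ} (hdel : 0 < del) : ∃ (N : ℕ) (ξ : UnitAddCircle × UnitAddCircle → Fin N),
    Measurable ξ ∧ ∀ z z' : ℝ × ℝ, ξ (cov z) = ξ (cov z') → ∃ m : ℤ, |z'.2 - z.2 - m| ≤ del := by
  obtain ⟨N, hN⟩ := exists_nat_gt (1 / del)
  have hN0 : (0 : ℝ) < N := (one_div_pos.2 hdel).trans hN
  have hr : Measurable fun x : UnitAddCircle => (AddCircle.equivIco 1 0 x : ℝ) :=
    measurable_subtype_coe.comp (AddCircle.measurableEquivIco 1 0).measurable
  refine ⟨N, fun z => ⟨⌊N * (AddCircle.equivIco 1 0 z.1 : ℝ)⌋₊, ?_⟩, ?_, fun z z' h => ?_⟩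
  · have := (AddCircle.equivIco 1 0 z.1).2
    rw [Nat.floor_lt (mul_nonneg hN0.le this.1)]
    nlinarith [this.2]
  · refine measurable_to_countable' fun i => ?_
    have : Measurable fun z : UnitAddCircle × UnitAddCircle =>
        ⌊N * (AddCircle.equivIco 1 0 z.1 : ℝ)⌋₊ :=
      Nat.measurable_floor.comp (measurable_const.mul (hr.comp measurable_fst))
    refine (congrArg MeasurableSet (Set.ext fun z => ?_)).mp (this (measurableSet_singleton i.1))
    simp only [mem_preimage, mem_singleton_iff, Fin.ext_iff]
  · have h1 : ⌊N * Int.fract z.2⌋₊ = ⌊N * Int.fract z'.2⌋₊ := by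
      simpa only [cov, AddCircle.coe_equivIco_mk_apply, div_one, mul_one] using Fin.ext_iff.1 h
    have a1 := Nat.floor_le (mul_nonneg hN0.le (Int.fract_nonneg z.2))
    have a2 := Nat.floor_le (mul_nonneg hN0.le (Int.fract_nonneg z'.2))
    have a3 := Nat.lt_floor_add_one (N * Int.fract z.2)
    have a4 := Nat.lt_floor_add_one (N * Int.fract z'.2)
    rw [div_lt_iff₀ hdel] at hN
    rw [h1] at a1 a3
    refine ⟨⌊z'.2⌋ - ⌊z.2⌋, ?_⟩
    rw [show z'.2 - z.2 - ((⌊z'.2⌋ - ⌊z.2⌋ : ℤ) : ℝ) = Int.fract z'.2 - Int.fract z.2 by
      push_cast; unfold Int.fract; ring, abs_le]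
    exact ⟨le_of_mul_le_mul_left (by linarith) hN0, le_of_mul_le_mul_left (by linarith) hN0⟩

end Vale.Agent.P108
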