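import Vale.Agent.P108.Main

/-! P108 MainK: the statement of main_exp with the explicit rate (same proof, g0 = Lam^(eta/80)). -/

namespace Vale.Agent.P108

open MeasureTheory Set

theorem main_exp2 : ∃ k0 : ℝ, ∀ k, k0 ≤ k → ∃ g0 : ℝ, 300 ≤ g0 ∧ g0 ^ 8000 ≤ Lam k ∧
    0 < Pr {z | ∀ m : ℕ, 1 ≤ m → (Lam k / g0) ^ m < nrm (Vo k z.1 z.2) m} := by
  obtain ⟨η, hη, hη1, r, C, hr, hr1, hC, k0, ht1⟩ := t1
  obtain ⟨c, hc, hc1, hstep⟩ := step hη hη1 hr hC ht1
  obtain ⟨H0, hH0, htail⟩ := tail hr hr1 hC (ε := c ^ 2 / 50000) (by positivity)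
  have ha : 0 < c / ((H0 : ℝ) + 1) := by positivity
  have ha1 : c / ((H0 : ℝ) + 1) ≤ 1 := by
    rw [div_le_one (by positivity)]
    have : (0 : ℝ) ≤ H0 := Nat.cast_nonneg _
    linarith
  have e1 : ∀ᶠ k in Filter.atTop, 300 ≤ Lam k ^ (η / 80) :=
    ((tendsto_rpow_atTop (by positivity)).comp lam_top_Main).eventually_ge_atTop 300
  have e2 : ∀ᶠ k in Filter.atTop,
      30 * 50000 / (c / ((H0 : ℝ) + 1)) ^ 2 ≤ Lam k ^ (η / 320) :=
    ((tendsto_rpow_atTop (by positivity)).comp lam_top_Main).eventually_ge_atTop _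
  obtain ⟨k1, hk1⟩ := Filter.eventually_atTop.1 (e1.and (e2.and
    ((Filter.eventually_ge_atTop k0).and (Filter.eventually_ge_atTop 1))))
  refine ⟨k1, fun k hk => ?_⟩
  obtain ⟨h1, h2, h3, h4⟩ := hk1 k hk
  have hL : 1 < Lam k := by
    have : 0 < 4 * Real.pi * k := by positivity
    unfold Lam
    linarith
  have hx : ENNReal.ofReal (30 / Lam k ^ (η / 320)) ≤
      ENNReal.ofReal ((c / ((H0 : ℝ) + 1)) ^ 2 / 50000) := by
    refine ENNReal.ofReal_le_ofReal ?_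
    have hp : 0 < Lam k ^ (η / 320) := Real.rpow_pos_of_pos (by linarith) _
    rw [div_le_iff₀ (by positivity)] at h2
    rw [div_le_div_iff₀ hp (by norm_num)]
    linarith
  have hy : (∑' h : ℕ, if H0 ≤ h then ENNReal.ofReal ((h + 1) * (C * r ^ h)) else 0) ≤
      ENNReal.ofReal ((c / ((H0 : ℝ) + 1)) ^ 2 / 50000) := by
    refine htail.trans (le_of_eq ?_)
    congr 1
    field_simp
  have hN : ∀ N, Pr (Rsh k (Lam k ^ (η / 80)) N) ≤
      ENNReal.ofReal (c / ((H0 : ℝ) + 1) / 10000) := by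
    intro N
    induction N with
    | zero =>
      have : Rsh k (Lam k ^ (η / 80)) 0 = ∅ :=
        eq_empty_of_forall_notMem fun z ⟨m, h5, h6, _⟩ => by omega
      simp [this, Pr]
    | succ N ih => exact rec_Main ha ih hx hy (hstep H0 k hH0 h3 h4 h1 N)
  refine ⟨Lam k ^ (η / 80), h1, ?_, union_Main ?_ hN⟩
  · rw [← Real.rpow_natCast, ← Real.rpow_mul (by linarith)]
    calc Lam k ^ (η / 80 * ((8000 : ℕ) : ℝ)) ≤ Lam k ^ (1 : ℝ) :=
          Real.rpow_le_rpow_of_exponent_le hL.le (by push_cast; linarith)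
      _ = Lam k := Real.rpow_one _
  · rw [ENNReal.ofReal_lt_one]
    linarith

end Vale.Agent.P108
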