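import Vale.Agent.P108.KsA
import Vale.Agent.P108.KsC
import Vale.Agent.P108.KsT
import Vale.Agent.P108.MainK

/-!
P108 FinalK: positive metric entropy.  For k large take g0 from main_exp2, S the good set
(measurable by continuous_nrm, periodic by Vo_int), G from image_cov, xi from part with
del = 1 / (24 Lam k).  The cov preimage of a cell of length n + 1 satisfies the hypothesis of
cell_small (stdMap_iter: the iterate i sees orb (i + 1)), so ks_pos_of applies with
C = 15 Lam^2.  For k negative use ks_neg.  The set of parameters contains Ici |k0|.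
-/

namespace Vale.Agent.P108

open MeasureTheory Set

theorem pos_FinalK : ∃ k0 : ℝ, ∀ k : ℝ, k0 ≤ k → 0 < ksEnt (stdMap k) := by
  obtain ⟨k1, h1⟩ := main_exp2
  obtain ⟨k2, h2⟩ := cell_small
  refine ⟨max (max k1 k2) 1, fun k hk => ?_⟩
  have hk1 : k1 ≤ k := le_trans (le_trans (le_max_left _ _) (le_max_left _ _)) hk
  have hk2 : k2 ≤ k := le_trans (le_trans (le_max_right _ _) (le_max_left _ _)) hk
  have hk0 : 0 < k := lt_of_lt_of_le one_pos (le_trans (le_max_right _ _) hk)
  have hL := Lam_ge hk0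
  obtain ⟨g0, hg1, hg2, hpos⟩ := h1 k hk1
  set S : Set (ℝ × ℝ) := {z | ∀ m : ℕ, 1 ≤ m → (Lam k / g0) ^ m < nrm (Vo k z.1 z.2) m} with hS
  have hSm : MeasurableSet S := by
    have e : S = ⋂ m : ℕ, ⋂ _ : 1 ≤ m, {z : ℝ × ℝ | (Lam k / g0) ^ m < nrm (Vo k z.1 z.2) m} := by
      ext z; simp [hS]
    rw [e]
    refine MeasurableSet.iInter fun m => MeasurableSet.iInter fun _ => ?_
    exact (isOpen_lt continuous_const (continuous_nrm k m)).measurableSet
  have hSp : Per S := by
    intro z m n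
    simp only [hS, mem_ofPred_eq, Vo_int]
  obtain ⟨G, hGm, hG⟩ := image_cov hSm hSp
  obtain ⟨N, ξ, hξ, hpart⟩ := part (del := 1 / (24 * Lam k)) (by positivity)
  have hG0 : 0 < volume G := by rw [cov_vol hGm, hG]; exact hpos
  refine ks_pos_of (measurable_stdMap k) hξ hGm hG0 (C := 15 * Lam k ^ 2) (by positivity) ?_
  intro n w
  have hc : MeasurableSet {z : UnitAddCircle × UnitAddCircle |
      ∀ i : Fin (n + 1), ξ ((stdMap k)^[i] z) = w i} := by
    have e : {z : UnitAddCircle × UnitAddCircle | ∀ i : Fin (n + 1), ξ ((stdMap k)^[i] z) = w i} =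
        ⋂ i : Fin (n + 1), (fun z => ξ ((stdMap k)^[i] z)) ⁻¹' {w i} := by
      ext z; simp
    rw [e]
    exact MeasurableSet.iInter fun i =>
      (hξ.comp ((measurable_stdMap k).iterate i)) (measurableSet_singleton _)
  rw [cov_vol (hc.inter hGm), preimage_inter, hG]
  refine h2 k g0 hk2 hg1 hg2 n _ (measurable_cov hc) ?_
  intro z hz z' hz' j hj1 hjn
  obtain ⟨i, rfl⟩ : ∃ i, j = i + 1 := ⟨j - 1, by omega⟩
  have a1 := hz ⟨i, by omega⟩
  have a2 := hz' ⟨i, by omega⟩
  simp only [stdMap_iter] at a1 a2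
  exact hpart _ _ (a1.trans a2.symm)

theorem finalK : (∃ k0 : ℝ, ∀ k : ℝ, k0 ≤ |k| → 0 < ksEnt (stdMap k)) ∧
    0 < volume {k : ℝ | 0 < ksEnt (stdMap k)} := by
  obtain ⟨k0, h⟩ := pos_FinalK
  refine ⟨⟨k0, fun k hk => ?_⟩, ?_⟩
  · rcases le_total 0 k with h0 | h0
    · rw [abs_of_nonneg h0] at hk
      exact h k hk
    · rw [abs_of_nonpos h0] at hk
      exact (h (-k) hk).trans_le (ks_neg k)
  · have e : Ici k0 ⊆ {k : ℝ | 0 < ksEnt (stdMap k)} := fun k hk => h k hk
    refine lt_of_lt_of_le ?_ (measure_mono e)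
    simp

end Vale.Agent.P108
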