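import Vale.Agent.P108.Defs

/-!
P108 Greedy (part of Grid): porosity at many levels gives small measure.
greedy: for a finite set N of naturals such that each m in N has 1 <= r <= rm with
card (N in [m, m + r)) <= (1 - c) r, one has card (N in [m, Q)) <= (1 - c)(Q - m) + c rm
(downward strong induction on m).
grid: let n j be the number of cells [a / Q^j, (a+1) / Q^j), a < Q^j, that meet A.  Always
n (j+1) <= Q n j.  For j in S apply greedy in every cell of level j with r = ceil (R Q^(j+1)):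
the cells strictly between the first and the last one that meet A lie in the thickened set, so
their number is at most (1 - c) r + 2 <= (1 - c/2) r, and r <= Q / 2 + 1; hence
n (j+1) <= (1 - c/8) Q n j.  Finally vol (A in Ico 0 1) <= n J / Q^J for J above S.
subset_sum: the sum over subsets S of I of x^card S * y^card (I minus S) is (x + y)^card I.
-/

namespace Vale.Agent.P108

open MeasureTheory Set Classical

theorem greedy (N : Finset ℕ) {c : ℝ} (hc : 0 ≤ c) (hc1 : c ≤ 1) (Q rm : ℕ)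
    (h : ∀ m ∈ N, ∃ r, 1 ≤ r ∧ r ≤ rm ∧
      ((N.filter (fun x => m ≤ x ∧ x < m + r)).card : ℝ) ≤ (1 - c) * r) (m : ℕ) (hm : m ≤ Q) :
    ((N.filter (fun x => m ≤ x ∧ x < Q)).card : ℝ) ≤ (1 - c) * (Q - m) + c * rm := by
  have hc' : 0 ≤ 1 - c := sub_nonneg.2 hc1
  have triv : ∀ m, m ≤ Q → ((N.filter (fun x => m ≤ x ∧ x < Q)).card : ℝ) ≤ Q - m := fun m hm => by
    rw [← Nat.cast_sub hm, Nat.cast_le, ← Nat.card_Ico]
    exact Finset.card_le_card fun x hx => Finset.mem_Ico.2 (Finset.mem_filter.1 hx).2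
  obtain ⟨d, hd⟩ : ∃ d, Q - m = d := ⟨_, rfl⟩
  induction d using Nat.strong_induction_on generalizing m with
  | _ d ih =>
  have split : ∀ r, ((N.filter (fun x => m ≤ x ∧ x < Q)).card : ℝ) ≤
      (N.filter (fun x => m ≤ x ∧ x < m + r)).card +
        (N.filter (fun x => m + r ≤ x ∧ x < Q)).card := fun r => by
    rw [← Nat.cast_add, Nat.cast_le]
    refine (Finset.card_le_card fun x hx => ?_).trans (Finset.card_union_le _ _)
    simp only [Finset.mem_union, Finset.mem_filter] at hx ⊢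
    by_cases c : x < m + r
    · exact Or.inl ⟨hx.1, hx.2.1, c⟩
    · exact Or.inr ⟨hx.1, not_lt.1 c, hx.2.2⟩
  have key : ∀ r, 1 ≤ r → ((N.filter (fun x => m ≤ x ∧ x < m + r)).card : ℝ) ≤ (1 - c) * r →
      m + r ≤ Q → ((N.filter (fun x => m ≤ x ∧ x < Q)).card : ℝ) ≤ (1 - c) * (Q - m) + c * rm :=
    fun r hr h1 h2 => by
      have h3 := ih (Q - (m + r)) (by omega) (m + r) h2 rfl
      push_cast at h3
      linarith [split r]
  have small : Q ≤ m + rm → ((N.filter (fun x => m ≤ x ∧ x < Q)).card : ℝ) ≤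
      (1 - c) * (Q - m) + c * rm := fun h1 => by
    have h2 : (Q : ℝ) - m ≤ rm := by
      have : (Q : ℝ) ≤ m + rm := by exact_mod_cast h1
      linarith
    linarith [triv m hm, mul_le_mul_of_nonneg_left h2 hc]
  by_cases hN : m ∈ N
  · obtain ⟨r, h1, h2, h3⟩ := h m hN
    by_cases h4 : m + r ≤ Q
    · exact key r h1 h3 h4
    · exact small (by omega)
  by_cases h4 : m + 1 ≤ Q
  · refine key 1 le_rfl ?_ h4
    rw [Finset.filter_eq_empty_iff.2 fun x hx hx' => hN (by rwa [show m = x by omega])]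
    simpa using hc1
  · exact small (by omega)

theorem subset_bound (I : Finset ℕ) {c E : ℝ} (hc : 0 < c) (hc1 : c ≤ 1) (hE : 0 ≤ E) :
    ∑ S ∈ I.powerset.filter (fun S => ((I \ S).card : ℝ) ≤ E), (1 - c) ^ S.card ≤
      (1 - c / 2) ^ I.card * (2 / c) ^ E := by
  have h1 : (1 : ℝ) ≤ 2 / c := by
    rw [le_div_iff₀ hc]
    linarith
  have h0 : 0 ≤ 1 - c := sub_nonneg.2 hc1
  rw [show 1 - c / 2 = (1 - c) + c / 2 by ring, ← Finset.sum_pow_mul_eq_add_pow, Finset.sum_mul]
  refine (Finset.sum_le_sum fun S hS => ?_).trans (Finset.sum_le_sum_of_subset_of_nonneg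
    (Finset.filter_subset _ _) fun S _ _ => by positivity)
  obtain ⟨h2, h3⟩ := Finset.mem_filter.1 hS
  rw [← Finset.card_sdiff_of_subset (Finset.mem_powerset.1 h2), mul_assoc]
  refine le_mul_of_one_le_right (by positivity) ?_
  have h4 := Real.rpow_le_rpow_of_exponent_le h1 h3
  rw [Real.rpow_natCast] at h4
  refine le_trans (le_of_eq ?_) (mul_le_mul_of_nonneg_left h4 (by positivity))
  rw [← mul_pow, div_mul_div_cancel₀ two_ne_zero, div_self hc.ne', one_pow]

theorem Porous.mono {A B : Set ℝ} {c del del' t : ℝ} (h : Porous B c del del' t) (hAB : A ⊆ B) :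
    Porous A c del del' t := by
  obtain ⟨R, h1, h2, h3⟩ := h
  refine ⟨R, h1, h2, le_trans (measure_mono fun s hs => ?_) h3⟩
  exact ⟨hs.1, hs.2.imp fun a ha => ⟨hAB ha.1, ha.2⟩⟩

end Vale.Agent.P108
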