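import Vale.Agent.P108.Defs
import Vale.Agent.P108.Greedy

/-!
P108 Grid: porosity at many levels gives small measure.
greedy: for a finite set N of naturals such that each m in N has 1 <= r <= rm with
card (N in [m, m + r)) <= (1 - c) r, one has card (N in [m, Q)) <= (1 - c)(Q - m) + c rm
(downward strong induction on m).
grid: let n j be the number of cells [a / Q^j, (a+1) / Q^j), a < Q^j, that meet A.  Always
n (j+1) <= Q n j.  For j in S apply greedy in every cell of level j with r = ceil (R Q^(j+1)):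
the cells strictly between the first and the last one that meet A lie in the thickened set, so
their number is at most (1 - c) r + 2 <= (1 - c/2) r, and r <= Q / 2 + 1; hence
n (j+1) <= (1 - c/8) Q n j.  Finally vol (A in Ico 0 1) <= n J / Q^J for J above S.
subset_sum: the sum over subsets S of I of x^card S * y^card (I minus S) is (x + y)^card I.
-/

namespace Vale.Agent.P108

open MeasureTheory Set Classical

/-- the cells of width `1 / D` with index below `n` that meet `A`. -/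
noncomputable def cel_Grid (A : Set ℝ) (D : ℝ) (n : ℕ) : Finset ℕ :=
  (Finset.range n).filter fun a => ∃ t ∈ A, (a : ℝ) ≤ t * D ∧ t * D < a + 1

theorem vol_Grid {D : ℝ} (hD : 0 < D) (F : Finset ℕ) :
    volume (⋃ x ∈ F, Ico ((x : ℝ) / D) ((x + 1) / D)) = ENNReal.ofReal (F.card / D) := by
  rw [measure_biUnion_finset]
  · have e : ∀ x ∈ F, volume (Ico ((x : ℝ) / D) ((x + 1) / D)) = ENNReal.ofReal (1 / D) := by
      intro x _
      rw [Real.volume_Ico]
      congr 1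
      ring
    rw [Finset.sum_congr rfl e, Finset.sum_const, nsmul_eq_mul, div_eq_mul_one_div (F.card : ℝ),
      ENNReal.ofReal_mul (Nat.cast_nonneg _), ENNReal.ofReal_natCast]
  · have k : ∀ x y : ℕ, x < y →
        Disjoint (Ico ((x : ℝ) / D) ((x + 1) / D)) (Ico ((y : ℝ) / D) ((y + 1) / D)) := by
      intro x y hxy
      rw [Set.disjoint_left]
      intro s h1 h2
      have h3 : (x : ℝ) + 1 ≤ y := by exact_mod_cast hxy
      have h4 := div_le_div_of_nonneg_right h3 hD.le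
      linarith [h1.2, h2.1]
    intro x _ y _ hxy
    rcases lt_or_gt_of_ne hxy with h | h
    · exact k x y h
    · exact (k y x h).symm
  · exact fun _ _ => measurableSet_Ico

theorem win_Grid {A : Set ℝ} {c D del : ℝ} (hc : 0 < c) (hc1 : c ≤ 1) (hD : 0 < D) {n m rm : ℕ}
    (hrm : del / 2 * D ≤ rm) (h : ∀ t ∈ A, Porous A c del (1 / D) t) (hm : m ∈ cel_Grid A D n) :
    ∃ r, 1 ≤ r ∧ r ≤ rm ∧
      (((cel_Grid A D n).filter (fun x => m ≤ x ∧ x < m + r)).card : ℝ) ≤ (1 - c / 2) * r := by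
  obtain ⟨t, ht, h1, h2⟩ := (Finset.mem_filter.1 hm).2
  obtain ⟨R, hR1, hR2, hR3⟩ := h t ht
  have e1 : 8 / c ≤ R * D := by
    have := mul_le_mul_of_nonneg_right hR1 hD.le
    rwa [mul_assoc, one_div_mul_cancel hD.ne', mul_one] at this
  have e2 : 8 ≤ c * (R * D) := by rwa [div_le_iff₀' hc] at e1
  have e3 : 0 < R * D := lt_of_lt_of_le (by positivity) e1
  have e4 : R * D ≤ (⌈R * D⌉₊ : ℝ) := Nat.le_ceil _
  have e5 : (⌈R * D⌉₊ : ℝ) < R * D + 1 := Nat.ceil_lt_add_one e3.le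
  refine ⟨⌈R * D⌉₊, Nat.ceil_pos.2 e3, Nat.ceil_le.2
    ((mul_le_mul_of_nonneg_right hR2 hD.le).trans hrm), ?_⟩
  generalize ⌈R * D⌉₊ = r at e4 e5 ⊢
  set F := (cel_Grid A D n).filter (fun x => m + 1 ≤ x ∧ x + 2 ≤ m + r) with hF
  have s1 : (cel_Grid A D n).filter (fun x => m ≤ x ∧ x < m + r) ⊆
      insert m (insert (m + r - 1) F) := by
    intro x hx
    rw [Finset.mem_filter] at hx
    rw [Finset.mem_insert, Finset.mem_insert, hF, Finset.mem_filter]
    by_cases k1 : x = m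
    · exact .inl k1
    by_cases k2 : x = m + r - 1
    · exact .inr (.inl k2)
    exact .inr (.inr ⟨hx.1, by omega, by omega⟩)
  have s2 : ((cel_Grid A D n).filter (fun x => m ≤ x ∧ x < m + r)).card ≤ F.card + 1 + 1 :=
    (Finset.card_le_card s1).trans ((Finset.card_insert_le _ _).trans
      (Nat.add_le_add_right (Finset.card_insert_le _ _) 1))
  have s3 : (⋃ x ∈ F, Ico ((x : ℝ) / D) ((x + 1) / D)) ⊆
      {s | s ∈ Icc t (t + R) ∧ ∃ a ∈ A, |s - a| ≤ 1 / D} := by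
    intro s hs
    simp only [mem_iUnion] at hs
    obtain ⟨x, hx, hs1, hs2⟩ := hs
    rw [hF, Finset.mem_filter] at hx
    obtain ⟨hx0, hx1, hx2⟩ := hx
    obtain ⟨a, ha, k1, k2⟩ := (Finset.mem_filter.1 hx0).2
    have k3 : (m : ℝ) + 1 ≤ x := by exact_mod_cast hx1
    have k4 : (x : ℝ) + 2 ≤ m + r := by exact_mod_cast hx2
    rw [div_le_iff₀ hD] at hs1
    rw [lt_div_iff₀ hD] at hs2
    refine ⟨⟨le_of_mul_le_mul_right (by linarith) hD, le_of_mul_le_mul_right ?_ hD⟩, a, ha, ?_⟩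
    · rw [add_mul]
      linarith
    · rw [le_div_iff₀ hD, ← abs_of_pos hD, ← abs_mul, sub_mul, abs_le]
      constructor <;> linarith
  have s4 := (measure_mono s3).trans hR3
  have hR0 : 0 < R := (mul_pos_iff_of_pos_right hD).1 e3
  rw [vol_Grid hD, ENNReal.ofReal_le_ofReal_iff (mul_nonneg (sub_nonneg.2 hc1) hR0.le),
    div_le_iff₀ hD, mul_assoc] at s4
  have s5 : ((((cel_Grid A D n).filter (fun x => m ≤ x ∧ x < m + r)).card : ℕ) : ℝ) ≤
      F.card + 1 + 1 := by exact_mod_cast s2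
  nlinarith [mul_le_mul_of_nonneg_left e4 (sub_nonneg.2 hc1), mul_le_mul_of_nonneg_left e4 hc.le]

theorem up_Grid {A : Set ℝ} {D B : ℝ} {Q n : ℕ} (hQ : 0 < Q)
    (h : ∀ a : ℕ, (((cel_Grid A (D * Q) (n * Q)).filter
      (fun x => a * Q ≤ x ∧ x < a * Q + Q)).card : ℝ) ≤ B) :
    ((cel_Grid A (D * Q) (n * Q)).card : ℝ) ≤ B * (cel_Grid A D n).card := by
  have hQ' : (0 : ℝ) < Q := by exact_mod_cast hQ
  have m1 : ∀ x ∈ cel_Grid A (D * Q) (n * Q), x / Q ∈ cel_Grid A D n := by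
    intro x hx
    obtain ⟨h1, t, ht, h2, h3⟩ := Finset.mem_filter.1 hx
    refine Finset.mem_filter.2 ⟨Finset.mem_range.2
      ((Nat.div_lt_iff_lt_mul hQ).2 (Finset.mem_range.1 h1)), t, ht, ?_, ?_⟩
    · have k : ((x / Q : ℕ) : ℝ) * Q ≤ x := by exact_mod_cast Nat.div_mul_le_self x Q
      refine le_of_mul_le_mul_right ?_ hQ'
      rw [mul_assoc]
      linarith
    · have k0 : x + 1 ≤ (x / Q + 1) * Q := by
        have := Nat.lt_div_mul_add (a := x) hQ
        rw [add_mul, one_mul]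
        omega
      have k : (x : ℝ) + 1 ≤ (((x / Q : ℕ) : ℝ) + 1) * Q := by exact_mod_cast k0
      refine lt_of_mul_lt_mul_right ?_ hQ'.le
      rw [mul_assoc]
      linarith
  rw [Finset.card_eq_sum_card_fiberwise (f := fun x => x / Q) (t := cel_Grid A D n) m1, Nat.cast_sum,
    mul_comm B, ← nsmul_eq_mul, ← Finset.sum_const]
  refine Finset.sum_le_sum fun a _ => le_trans ?_ (h a)
  refine Nat.cast_le.2 (Finset.card_le_card fun x hx => ?_)
  rw [Finset.mem_filter] at hx ⊢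
  obtain ⟨h1, rfl⟩ := hx
  exact ⟨h1, Nat.div_mul_le_self x Q, Nat.lt_div_mul_add hQ⟩

theorem triv_Grid (N : Finset ℕ) (m Q : ℕ) :
    ((N.filter (fun x => m ≤ x ∧ x < m + Q)).card : ℝ) ≤ Q := by
  have s : N.filter (fun x => m ≤ x ∧ x < m + Q) ⊆ Finset.Ico m (m + Q) := fun x hx =>
    Finset.mem_Ico.2 (Finset.mem_filter.1 hx).2
  have := Finset.card_le_card s
  rw [Nat.card_Ico, Nat.add_sub_cancel_left] at this
  exact_mod_cast this

theorem gain_Grid {A : Set ℝ} {c D : ℝ} (hc : 0 < c) (hc1 : c ≤ 1) (hD : 0 < D) {Q : ℕ}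
    (hQ : 4 ≤ Q) (h : ∀ t ∈ A, Porous A c (1 / D) (1 / (D * Q)) t) (n m : ℕ) :
    (((cel_Grid A (D * Q) n).filter (fun x => m ≤ x ∧ x < m + Q)).card : ℝ) ≤ (1 - c / 8) * Q := by
  have hQ' : (4 : ℝ) ≤ Q := by exact_mod_cast hQ
  have k1 : ((Q / 2 : ℕ) : ℝ) ≤ Q / 2 := Nat.cast_div_le
  have k2 : (Q : ℝ) ≤ 2 * ((Q / 2 + 1 : ℕ) : ℝ) := by
    exact_mod_cast (by omega : Q ≤ 2 * (Q / 2 + 1))
  have k3 : 1 / D / 2 * (D * Q) ≤ ((Q / 2 + 1 : ℕ) : ℝ) := by
    have : 1 / D / 2 * (D * Q) = Q / 2 := by field_simp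
    linarith
  have := greedy (cel_Grid A (D * Q) n) (c := c / 2) (by positivity) (by linarith) (m + Q)
    (Q / 2 + 1) (fun x hx => win_Grid hc hc1 (by positivity) k3 h hx) m (Nat.le_add_right _ _)
  push_cast at this k1
  nlinarith [mul_le_mul_of_nonneg_left k1 hc.le, mul_le_mul_of_nonneg_left hQ' hc.le]

theorem ind_Grid {A : Set ℝ} {c : ℝ} (hc : 0 < c) (hc1 : c ≤ 1) {Q : ℕ} (hQ : 4 ≤ Q)
    (S : Finset ℕ)
    (h : ∀ j ∈ S, ∀ t ∈ A, Porous A c (1 / (Q : ℝ) ^ j) (1 / (Q : ℝ) ^ (j + 1)) t) (J : ℕ) :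
    ((cel_Grid A ((Q : ℝ) ^ J) (Q ^ J)).card : ℝ) ≤
      (1 - c / 8) ^ (S.filter (· < J)).card * (Q : ℝ) ^ J := by
  have hQ0 : 0 < Q := by omega
  have hQ' : (0 : ℝ) < Q := by exact_mod_cast hQ0
  have hc8 : 0 ≤ 1 - c / 8 := by linarith
  induction J with
  | zero =>
    have : (cel_Grid A ((Q : ℝ) ^ 0) (Q ^ 0)).card ≤ 1 :=
      (Finset.card_filter_le _ _).trans (by simp)
    simpa using this
  | succ J ih =>
    rw [pow_succ, pow_succ]
    by_cases hJ : J ∈ S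
    · have e : S.filter (· < J + 1) = insert J (S.filter (· < J)) := by
        ext x
        simp only [Finset.mem_filter, Finset.mem_insert]
        constructor
        · rintro ⟨h1, h2⟩
          by_cases k : x = J
          · exact .inl k
          · exact .inr ⟨h1, by omega⟩
        · rintro (rfl | ⟨h1, h2⟩)
          · exact ⟨hJ, by omega⟩
          · exact ⟨h1, by omega⟩
      rw [e, Finset.card_insert_of_notMem (by simp), pow_succ]
      have k := up_Grid (A := A) (D := (Q : ℝ) ^ J) (n := Q ^ J) hQ0 fun a =>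
        gain_Grid hc hc1 (pow_pos hQ' J) hQ (by simpa only [pow_succ] using h J hJ) _ (a * Q)
      refine k.trans ((mul_le_mul_of_nonneg_left ih (by positivity)).trans_eq ?_)
      ring
    · have e : S.filter (· < J + 1) = S.filter (· < J) := by
        refine Finset.filter_congr fun x hx => ?_
        have : x ≠ J := fun k => hJ (k ▸ hx)
        omega
      rw [e]
      have k := up_Grid (A := A) (D := (Q : ℝ) ^ J) (n := Q ^ J) hQ0 fun a =>
        triv_Grid _ (a * Q) Q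
      refine k.trans ((mul_le_mul_of_nonneg_left ih hQ'.le).trans_eq ?_)
      ring

theorem grid {A : Set ℝ} {c : ℝ} (hc : 0 < c) (hc1 : c ≤ 1) {Q : ℕ} (hQ : 4 ≤ Q) (S : Finset ℕ)
    (h : ∀ j ∈ S, ∀ t ∈ A, Porous A c (1 / (Q : ℝ) ^ j) (1 / (Q : ℝ) ^ (j + 1)) t) :
    volume (A ∩ Ico 0 1) ≤ ENNReal.ofReal ((1 - c / 8) ^ S.card) := by
  have hQ0 : 0 < Q := by omega
  have hQ' : (0 : ℝ) < Q := by exact_mod_cast hQ0
  obtain ⟨J, hJ⟩ : ∃ J, S.filter (· < J) = S :=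
    ⟨S.sup id + 1, Finset.filter_true_of_mem fun x hx =>
      Nat.lt_succ_of_le (Finset.le_sup (f := id) hx)⟩
  have k := ind_Grid hc hc1 hQ S h J
  rw [hJ] at k
  have hD : (0 : ℝ) < (Q : ℝ) ^ J := pow_pos hQ' J
  have s : A ∩ Ico 0 1 ⊆ ⋃ x ∈ cel_Grid A ((Q : ℝ) ^ J) (Q ^ J),
      Ico ((x : ℝ) / (Q : ℝ) ^ J) ((x + 1) / (Q : ℝ) ^ J) := by
    rintro t ⟨ht, h0, h1⟩
    have p : 0 ≤ t * (Q : ℝ) ^ J := mul_nonneg h0 hD.le
    have k1 := Nat.floor_le p
    have k2 := Nat.lt_floor_add_one (t * (Q : ℝ) ^ J)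
    simp only [mem_iUnion]
    refine ⟨⌊t * (Q : ℝ) ^ J⌋₊, Finset.mem_filter.2 ⟨Finset.mem_range.2 ?_, t, ht, k1, k2⟩,
      (div_le_iff₀ hD).2 k1, (lt_div_iff₀ hD).2 k2⟩
    rw [Nat.floor_lt p]
    push_cast
    exact mul_lt_of_lt_one_left hD h1
  refine (measure_mono s).trans ?_
  rw [vol_Grid hD]
  exact ENNReal.ofReal_le_ofReal ((div_le_iff₀ hD).2 k)

end Vale.Agent.P108
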