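import Vale.Agent.P108.HoleT

/-!
P108 HoleB (part of HoleA): real-variable tools and holes for a small or intermediate ratio rho.
gd_of_near: both points are within 1/4 - 1/1000 of half integers of the same parity, and
cos (2 pi x) >= sin (2 pi / 1000) >= 1/250 for |x| <= 1/4 - 1/1000.
vol_points: n points with gaps at least 2 d give a measurable union of intervals of measure 2 d n.
holeA (rho <= 1/16): slopes P' in [0.99, 1.01], Q' in [0.99 rho, 1.01 rho] on [-1, 3 / rho].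
IVT gives s1 in [0, 1.1 / rho] with Q s1 an integer.  For n <= 1 / (40 rho) the interval
[s1 + 1.2 n + 0.05, s1 + 1.2 n + 1.1] holds a point s_n with P s_n an integer, and there
|Q - Q s1| <= 1/8.  R = 3 / rho, G = union of [s_n - 1/10000, s_n + 1/10000].
holeB (rho > 1/16, beta = 1 - rho >= mu^(-40)): D = P - Q has slope in [0.99 beta, 1.01 beta] on
[-1, 5 / beta].  IVT gives s1 in [1, 1 + 1.1 / beta] with D s1 an integer.  For n <= 1/(200 beta)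
there is s_n within 0.2526 of s1 + n with 2 P s_n an integer, and |D s_n - D s1| <= 0.2443.
R = 5 / beta.
-/

namespace Vale.Agent.P108

open MeasureTheory Set

theorem mvt_HoleB {f f' : ℝ → ℝ} {c δ R : ℝ} (hδ : 0 ≤ δ) (hR : 1 ≤ R)
    (hd : ∀ s ∈ Icc (-1 : ℝ) R, HasDerivAt f (f' s) s) (hb : ∀ s ∈ Icc (-1 : ℝ) R, |f' s - c| ≤ δ)
    {s : ℝ} (hs : s ∈ Icc (-1 : ℝ) R) : |f s - f 0 - c * s| ≤ δ * R := by
  have h := (convex_Icc (-1 : ℝ) R).norm_image_sub_le_of_norm_hasDerivWithin_le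
    (f := fun x => f x - c * x) (f' := fun x => f' x - c) (C := δ)
    (fun x hx => (((hd x hx).sub ((hasDerivAt_id' x).const_mul c)).congr_deriv
      (by rw [mul_one])).hasDerivWithinAt) hb (x := 0) ⟨by norm_num, by linarith⟩ hs
  rw [Real.norm_eq_abs, Real.norm_eq_abs, sub_zero] at h
  have e : f s - f 0 - c * s = f s - c * s - (f 0 - c * 0) := by ring
  rw [e]
  exact h.trans (mul_le_mul_of_nonneg_left (abs_le.2 ⟨by linarith [hs.1], hs.2⟩) hδ)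

theorem lin_HoleB {μ ρ R : ℝ} {P Q P0 Q0 P' Q' P0' Q0' : ℝ → ℝ} (hμ : 10 ≤ μ) (h1 : ρ ≤ 1)
    (hR : 1 ≤ R) (hR' : R ≤ μ ^ 41) (H : HoleData μ ρ P Q P0 Q0 P' Q' P0' Q0') {s : ℝ}
    (hs : s ∈ Icc (-1 : ℝ) R) :
    |P s - P 0 - 1 * s| ≤ 1 / 10000 ∧ |Q s - Q 0 - ρ * s| ≤ 1 / 10000 := by
  have m1 : 1 ≤ μ := by linarith
  have sub : ∀ x ∈ Icc (-1 : ℝ) R, x ∈ Icc (-1 : ℝ) (μ ^ 60) := fun x hx =>
    ⟨hx.1, hx.2.trans (hR'.trans (pow_le_pow_right₀ m1 (by norm_num)))⟩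
  have p90 : 0 < μ ^ 90 := pow_pos (by linarith) _
  have b : ∀ x ∈ Icc (-1 : ℝ) R, |x| / μ ^ 90 ≤ R / μ ^ 90 := fun x hx =>
    div_le_div_of_nonneg_right (abs_le.2 ⟨by linarith [hx.1], hx.2⟩) p90.le
  have d0 : 0 ≤ R / μ ^ 90 := div_nonneg (by linarith) p90.le
  have e : R / μ ^ 90 * R ≤ 1 / 10000 := by
    rw [div_mul_eq_mul_div, div_le_div_iff₀ p90 (by norm_num), one_mul]
    calc R * R * 10000 ≤ μ ^ 41 * μ ^ 41 * μ ^ 4 := by
          gcongr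
          calc (10000 : ℝ) = 10 ^ 4 := by norm_num
            _ ≤ μ ^ 4 := pow_le_pow_left₀ (by norm_num) hμ 4
      _ = μ ^ 86 := by rw [← pow_add, ← pow_add]
      _ ≤ μ ^ 90 := pow_le_pow_right₀ m1 (by norm_num)
  refine ⟨(mvt_HoleB d0 hR (fun x hx => H.dP x (sub x hx))
    (fun x hx => (H.bP x (sub x hx)).trans (b x hx)) hs).trans e,
    (mvt_HoleB d0 hR (fun x hx => H.dQ x (sub x hx)) (fun x hx => ?_) hs).trans e⟩
  exact (H.bQ x (sub x hx)).trans ((div_le_div_of_nonneg_right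
    (mul_le_of_le_one_left (abs_nonneg x) h1) p90.le).trans (b x hx))

theorem core_HoleB {P Q : ℝ → ℝ} {ρ T : ℝ} (h1 : 1 / 16 ≤ ρ) (hT : 1 ≤ T) (e : (1 - ρ) * T = 1)
    (lin : ∀ s ∈ Icc (-1 : ℝ) (5 * T),
      |P s - P 0 - 1 * s| ≤ 1 / 10000 ∧ |Q s - Q 0 - ρ * s| ≤ 1 / 10000) :
    ∃ G : Set ℝ, MeasurableSet G ∧ G ⊆ Icc 0 (5 * T) ∧
      ENNReal.ofReal (1 / 5000000 * (5 * T)) ≤ volume G ∧
      ∀ s ∈ G, ∀ s', |s' - s| ≤ 1 / 10000 → Gd (P s') (Q s') := by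
  have T0 : 0 < T := by linarith
  have β0 : 0 < 1 - ρ := pos_of_mul_pos_left (by rw [e]; norm_num) T0.le
  obtain ⟨n, n1, n2⟩ : ∃ n : ℤ, P 0 - Q 0 + (1 - ρ) ≤ n ∧ n < P 0 - Q 0 + (1 - ρ) + 1 :=
    ⟨_, Int.le_ceil _, Int.ceil_lt_add_one _⟩
  obtain ⟨s1, a1, a2, a3⟩ : ∃ s1, 1 ≤ s1 ∧ s1 ≤ 1 + T ∧ (1 - ρ) * s1 = n - (P 0 - Q 0) := by
    refine ⟨(n - (P 0 - Q 0)) * T, ?_, ?_, by linear_combination (n - (P 0 - Q 0)) * e⟩
    · linarith [mul_le_mul_of_nonneg_right n1 T0.le]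
    · linarith [mul_le_mul_of_nonneg_right n2.le T0.le]
  have ex : ∀ j : ℕ, ∃ a : ℤ, |(a : ℝ) / 2 - P 0 - (s1 + j)| ≤ 1 / 4 := fun j => by
    have := abs_le.1 (abs_sub_round (2 * (P 0 + s1 + j)))
    exact ⟨round (2 * (P 0 + s1 + j)), abs_le.2 ⟨by linarith [this.2], by linarith [this.1]⟩⟩
  choose a ha using ex
  obtain ⟨m, v⟩ := vol_points (d := 1 / 10000) (by norm_num) (⌊T / 200⌋₊ + 1)
    (fun j => (a j : ℝ) / 2 - P 0) fun i j _ _ hij => by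
      have h2 := abs_le.1 (ha i)
      have h3 := abs_le.1 (ha j)
      rcases lt_or_gt_of_ne hij with h | h
      · have : (i : ℝ) + 1 ≤ j := by exact_mod_cast h
        exact lt_abs.2 (Or.inr (by linarith [h2.2, h3.1]))
      · have : (j : ℝ) + 1 ≤ i := by exact_mod_cast h
        exact lt_abs.2 (Or.inl (by linarith [h2.1, h3.2]))
  have jle : ∀ j ∈ Finset.range (⌊T / 200⌋₊ + 1), (j : ℝ) ≤ T / 200 := fun j hj =>
    (Nat.cast_le.2 (Nat.lt_succ_iff.1 (Finset.mem_range.1 hj))).trans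
      (Nat.floor_le (by positivity))
  refine ⟨_, m, fun s hs => ?_, (ENNReal.ofReal_le_ofReal ?_).trans v, fun s hs s' hs' => ?_⟩
  · obtain ⟨j, hj, h2, h3⟩ := mem_iUnion₂.1 hs
    have h4 := abs_le.1 (ha j)
    have h5 : (0 : ℝ) ≤ j := Nat.cast_nonneg j
    exact ⟨by linarith [h4.1], by linarith [h4.2, jle j hj]⟩
  · have := Nat.lt_floor_add_one (T / 200)
    push_cast
    linarith
  · obtain ⟨j, hj, h2, h3⟩ := mem_iUnion₂.1 hs
    obtain ⟨h4, h4'⟩ := abs_le.1 (ha j)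
    have h5 : (0 : ℝ) ≤ j := Nat.cast_nonneg j
    have h6 := jle j hj
    obtain ⟨h7, h7'⟩ := abs_le.1 hs'
    obtain ⟨l1, l2⟩ := lin s' ⟨by linarith, by linarith⟩
    rw [abs_le] at l1 l2
    have k1 : (1 - ρ) * (s' - s1) ≤ (1 - ρ) * (T / 200 + 2502 / 10000) :=
      mul_le_mul_of_nonneg_left (by linarith) β0.le
    have k2 : (1 - ρ) * (-(2502 / 10000)) ≤ (1 - ρ) * (s' - s1) :=
      mul_le_mul_of_nonneg_left (by linarith) β0.le
    refine gd_of_near (a := a j) (n := -n) (abs_le.2 ⟨by linarith [l1.1], by linarith [l1.2]⟩) ?_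
    push_cast
    exact abs_le.2 ⟨by linarith [l2.1], by linarith [l2.2]⟩

theorem holeB : ∃ c : ℝ, 0 < c ∧ ∃ μ0 : ℝ, ∀ (μ ρ : ℝ) (P Q P0 Q0 P' Q' P0' Q0' : ℝ → ℝ),
    μ0 ≤ μ → 1 / 16 ≤ ρ → 1 / μ ^ 40 ≤ 1 - ρ → HoleData μ ρ P Q P0 Q0 P' Q' P0' Q0' →
    HoleI μ c P Q := by
  refine ⟨1 / 5000000, by norm_num, 10, fun μ ρ P Q P0 Q0 P' Q' P0' Q0' hμ h1 h2 H => ?_⟩
  have p40 : 0 < μ ^ 40 := pow_pos (by linarith) _
  have β0 : 0 < 1 - ρ := (one_div_pos.2 p40).trans_le h2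
  have T1 : 1 ≤ 1 / (1 - ρ) := (le_div_iff₀ β0).2 (by linarith)
  have T2 : 5 * (1 / (1 - ρ)) ≤ μ ^ 41 := by
    rw [pow_succ']
    exact mul_le_mul (by linarith) ((one_div_le β0 p40).2 h2) (by linarith) (by linarith)
  exact ⟨5 * (1 / (1 - ρ)), by linarith, T2.trans (pow_le_pow_right₀ (by linarith) (by norm_num)),
    core_HoleB h1 T1 (mul_one_div_cancel β0.ne') fun s hs =>
      lin_HoleB hμ (by linarith) (by linarith) T2 H hs⟩

end Vale.Agent.P108
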