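import Vale.Agent.P108.Defs

/-!
P108 HoleT (part of HoleA): real-variable tools and holes for a small or intermediate ratio rho.
gd_of_near: both points are within 1/4 - 1/1000 of half integers of the same parity, and
cos (2 pi x) >= sin (2 pi / 1000) >= 1/250 for |x| <= 1/4 - 1/1000.
vol_points: n points with gaps at least 2 d give a measurable union of intervals of measure 2 d n.
holeA (rho <= 1/16): slopes P' in [0.99, 1.01], Q' in [0.99 rho, 1.01 rho] on [-1, 3 / rho].
IVT gives s1 in [0, 1.1 / rho] with Q s1 an integer.  For n <= 1 / (40 rho) the interval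
[s1 + 1.2 n + 0.05, s1 + 1.2 n + 1.1] holds a point s_n with P s_n an integer, and there
|Q - Q s1| <= 1/8.  R = 3 / rho, G = union of [s_n - 1/10000, s_n + 1/10000].
holeB (rho > 1/16, beta = 1 - rho >= mu^(-40)): D = P - Q has slope in [0.99 beta, 1.01 beta] on
[-1, 5 / beta].  IVT gives s1 in [1, 1 + 1.1 / beta] with D s1 an integer.  For n <= 1/(200 beta)
there is s_n within 0.2526 of s1 + n with 2 P s_n an integer, and |D s_n - D s1| <= 0.2443.
R = 5 / beta.
-/

namespace Vale.Agent.P108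

open MeasureTheory Set

theorem cos_ge_HoleT {x : ℝ} (hx : |x| ≤ 1 / 4 - 1 / 1000) :
    1 / 500 ≤ Real.cos (2 * Real.pi * x) := by
  have hpi := Real.pi_pos
  have hx0 := abs_nonneg x
  have e : Real.cos (2 * Real.pi * x) = Real.sin (Real.pi / 2 - 2 * Real.pi * |x|) := by
    rw [Real.sin_pi_div_two_sub, ← Real.cos_abs (2 * Real.pi * x), abs_mul,
      abs_of_pos (by positivity : 0 < 2 * Real.pi)]
  rw [e]
  have h0 : 0 ≤ Real.pi / 2 - 2 * Real.pi * |x| := by nlinarith
  have h1 : Real.pi / 2 - 2 * Real.pi * |x| ≤ Real.pi / 2 := by nlinarith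
  have h2 := Real.mul_le_sin h0 h1
  have h3 : 2 / Real.pi * (Real.pi / 2 - 2 * Real.pi * |x|) = 1 - 4 * |x| := by
    field_simp
    ring
  rw [h3] at h2
  linarith

theorem gd_of_near {p q : ℝ} {a n : ℤ} (hp : |p - a / 2| ≤ 1 / 4 - 1 / 1000)
    (hq : |q - a / 2 - n| ≤ 1 / 4 - 1 / 1000) : Gd p q := by
  have h1 := cos_ge_HoleT hp
  have h2 := cos_ge_HoleT hq
  rcases Int.even_or_odd' a with ⟨m, hm | hm⟩
  · left
    have ep : 2 * Real.pi * p = 2 * Real.pi * (p - a / 2) + m * (2 * Real.pi) := by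
      rw [hm]
      push_cast
      ring
    have eq' : 2 * Real.pi * q =
        2 * Real.pi * (q - a / 2 - n) + ((m + n : ℤ) : ℝ) * (2 * Real.pi) := by
      rw [hm]
      push_cast
      ring
    rw [ep, eq', Real.cos_add_int_mul_two_pi, Real.cos_add_int_mul_two_pi]
    exact ⟨h1, h2⟩
  · right
    have ep : 2 * Real.pi * p = 2 * Real.pi * (p - a / 2) + Real.pi + m * (2 * Real.pi) := by
      rw [hm]
      push_cast
      ring
    have eq' : 2 * Real.pi * q =
        2 * Real.pi * (q - a / 2 - n) + Real.pi + ((m + n : ℤ) : ℝ) * (2 * Real.pi) := by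
      rw [hm]
      push_cast
      ring
    rw [ep, eq', Real.cos_add_int_mul_two_pi, Real.cos_add_int_mul_two_pi, Real.cos_add_pi,
      Real.cos_add_pi]
    constructor <;> linarith

theorem gd_neg_left {p q : ℝ} : Gd (-p) q ↔ Gd p q := by
  unfold Gd
  rw [mul_neg, Real.cos_neg]

theorem gd_neg_right {p q : ℝ} : Gd p (-q) ↔ Gd p q := by
  unfold Gd
  rw [mul_neg, Real.cos_neg]

theorem gd_comm {p q : ℝ} : Gd p q ↔ Gd q p := by
  unfold Gd
  constructor <;> rintro (⟨h1, h2⟩ | ⟨h1, h2⟩)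
  · exact Or.inl ⟨h2, h1⟩
  · exact Or.inr ⟨h2, h1⟩
  · exact Or.inl ⟨h2, h1⟩
  · exact Or.inr ⟨h2, h1⟩

theorem vol_points {d : ℝ} (hd : 0 < d) (n : ℕ) (s : ℕ → ℝ)
    (hs : ∀ a b, a < n → b < n → a ≠ b → 2 * d < |s a - s b|) :
    MeasurableSet (⋃ a ∈ Finset.range n, Icc (s a - d) (s a + d)) ∧
      ENNReal.ofReal (2 * d * n) ≤ volume (⋃ a ∈ Finset.range n, Icc (s a - d) (s a + d)) := by
  refine ⟨Finset.measurableSet_biUnion _ (fun _ _ => measurableSet_Icc), ?_⟩
  have hdis : Set.PairwiseDisjoint (↑(Finset.range n) : Set ℕ)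
      (fun a => Icc (s a - d) (s a + d)) := by
    intro a ha b hb hab
    have h := hs a b (Finset.mem_range.mp ha) (Finset.mem_range.mp hb) hab
    refine Set.disjoint_left.mpr ?_
    rintro x ⟨h1, h2⟩ ⟨h3, h4⟩
    have : |s a - s b| ≤ 2 * d := by
      rw [abs_le]
      constructor <;> linarith
    linarith
  rw [measure_biUnion_finset hdis (fun _ _ => measurableSet_Icc)]
  have e : ∀ a ∈ Finset.range n, volume (Icc (s a - d) (s a + d)) = ENNReal.ofReal (2 * d) := by
    intro a _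
    rw [Real.volume_Icc]
    congr 1
    ring
  rw [Finset.sum_congr rfl e, Finset.sum_const, Finset.card_range, nsmul_eq_mul, mul_comm,
    ENNReal.ofReal_mul (Nat.cast_nonneg n), ENNReal.ofReal_natCast]

end Vale.Agent.P108
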