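import Vale.Agent.P108.Defs
import Vale.Agent.P108.HoleT
import Vale.Agent.P108.HoleB

/-!
P108 HoleA: real-variable tools and holes for a small or intermediate ratio rho.
gd_of_near: both points are within 1/4 - 1/1000 of half integers of the same parity, and
cos (2 pi x) >= sin (2 pi / 1000) >= 1/250 for |x| <= 1/4 - 1/1000.
vol_points: n points with gaps at least 2 d give a measurable union of intervals of measure 2 d n.
holeA (rho <= 1/16): slopes P' in [0.99, 1.01], Q' in [0.99 rho, 1.01 rho] on [-1, 3 / rho].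
IVT gives s1 in [0, 1.1 / rho] with Q s1 an integer.  For n <= 1 / (40 rho) the interval
[s1 + 1.2 n + 0.05, s1 + 1.2 n + 1.1] holds a point s_n with P s_n an integer, and there
|Q - Q s1| <= 1/8.  R = 3 / rho, G = union of [s_n - 1/10000, s_n + 1/10000].
holeB (rho > 1/16, beta = 1 - rho >= mu^(-40)): D = P - Q has slope in [0.99 beta, 1.01 beta] on
[-1, 5 / beta].  IVT gives s1 in [1, 1 + 1.1 / beta] with D s1 an integer.  For n <= 1/(200 beta)
there is s_n within 0.2526 of s1 + n with 2 P s_n an integer, and |D s_n - D s1| <= 0.2443.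
R = 5 / beta.
-/

namespace Vale.Agent.P108

open MeasureTheory Set

theorem slope_HoleA {f f' : ℝ → ℝ} {a b lo hi : ℝ} (hd : ∀ s ∈ Icc a b, HasDerivAt f (f' s) s)
    (hb : ∀ s ∈ Icc a b, lo ≤ f' s ∧ f' s ≤ hi) {x y : ℝ} (hx : a ≤ x) (hy : y ≤ b) (hxy : x ≤ y) :
    lo * (y - x) ≤ f y - f x ∧ f y - f x ≤ hi * (y - x) := by
  rcases hxy.eq_or_lt with rfl | h
  · simp
  have hs : Icc x y ⊆ Icc a b := Icc_subset_Icc hx hy
  obtain ⟨c, hc, e⟩ := exists_hasDerivAt_eq_slope f f' h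
    (fun s hs' => (hd s (hs hs')).continuousAt.continuousWithinAt)
    fun s hs' => hd s (hs (Ioo_subset_Icc_self hs'))
  have h1 := hb c (hs (Ioo_subset_Icc_self hc))
  rw [e, le_div_iff₀ (sub_pos.2 h), div_le_iff₀ (sub_pos.2 h)] at h1
  exact h1

theorem int_HoleA {f : ℝ → ℝ} {x y : ℝ} (hxy : x ≤ y) (hc : ContinuousOn f (Icc x y))
    (h : f x + 1 ≤ f y) : ∃ s ∈ Icc x y, ∃ m : ℤ, f s = m := by
  obtain ⟨s, hs, e⟩ := intermediate_value_Icc hxy hc
    ⟨Int.le_ceil (f x), (Int.ceil_lt_add_one (f x)).le.trans h⟩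
  exact ⟨s, hs, _, e⟩

theorem core_HoleA {T : ℝ} (hT : 16 ≤ T) {P Q : ℝ → ℝ} (cP : ContinuousOn P (Icc (-1) (3 * T)))
    (cQ : ContinuousOn Q (Icc (-1) (3 * T)))
    (hP : ∀ x y, -1 ≤ x → y ≤ 3 * T → x ≤ y →
      99 / 100 * (y - x) ≤ P y - P x ∧ P y - P x ≤ 101 / 100 * (y - x))
    (hQ : ∀ x y, -1 ≤ x → y ≤ 3 * T → x ≤ y →
      99 / 100 * (y - x) ≤ T * (Q y - Q x) ∧ T * (Q y - Q x) ≤ 101 / 100 * (y - x)) :
    ∃ G : Set ℝ, MeasurableSet G ∧ G ⊆ Icc 0 (3 * T) ∧
      ENNReal.ofReal (1 / 600000 * (3 * T)) ≤ volume G ∧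
      ∀ s ∈ G, ∀ s', |s' - s| ≤ 1 / 10000 → Gd (P s') (Q s') := by
  obtain ⟨s1, ⟨h0, h1⟩, m, hm⟩ := int_HoleA (x := 0) (y := 11 / 10 * T) (by linarith)
    (cQ.mono (Icc_subset_Icc (by norm_num) (by linarith))) (by
      have := (hQ 0 (11 / 10 * T) (by norm_num) (by linarith) (by linarith)).1
      by_contra hc
      have h2 : T * (Q (11 / 10 * T) - Q 0) < T * 1 :=
        mul_lt_mul_of_pos_left (by linarith [not_le.1 hc]) (by linarith)
      linarith)
  have ex : ∀ n : ℕ, ∃ s, (n : ℝ) ≤ T / 40 →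
      s ∈ Icc (s1 + 6 / 5 * n + 1 / 20) (s1 + 6 / 5 * n + 11 / 10) ∧ ∃ A : ℤ, P s = A := by
    intro n
    by_cases hn : (n : ℝ) ≤ T / 40
    · have hn0 : (0 : ℝ) ≤ n := Nat.cast_nonneg n
      obtain ⟨s, hs, hA⟩ := int_HoleA (f := P) (x := s1 + 6 / 5 * n + 1 / 20)
        (y := s1 + 6 / 5 * n + 11 / 10) (by linarith)
        (cP.mono (Icc_subset_Icc (by linarith) (by linarith))) (by
          have := (hP (s1 + 6 / 5 * n + 1 / 20) (s1 + 6 / 5 * n + 11 / 10) (by linarith)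
            (by linarith) (by linarith)).1
          linarith)
      exact ⟨s, fun _ => ⟨hs, hA⟩⟩
    · exact ⟨0, fun h => absurd h hn⟩
  choose s hs using ex
  have hN : ∀ a, a < ⌊T / 40⌋₊ + 1 → (a : ℝ) ≤ T / 40 := fun a ha =>
    (Nat.le_floor_iff (by linarith)).1 (by omega)
  obtain ⟨hm1, hm2⟩ := vol_points (d := 1 / 10000) (by norm_num) (⌊T / 40⌋₊ + 1) s (by
    have key : ∀ a b, a < b → b < ⌊T / 40⌋₊ + 1 → 2 * (1 / 10000) < s b - s a := by
      intro a b hab hb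
      have h2 := (hs a (hN a (by omega))).1.2
      have h3 := (hs b (hN b hb)).1.1
      have h4 : (a : ℝ) + 1 ≤ b := by exact_mod_cast hab
      linarith
    intro a b ha hb hab
    rcases lt_or_gt_of_ne hab with h | h
    · rw [abs_sub_comm]
      exact (key a b h hb).trans_le (le_abs_self _)
    · exact (key b a h ha).trans_le (le_abs_self _))
  refine ⟨_, hm1, fun x hx => ?_, le_trans (ENNReal.ofReal_le_ofReal ?_) hm2, fun x hx x' hx' => ?_⟩
  · simp only [mem_iUnion, Finset.mem_range] at hx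
    obtain ⟨a, ha, h2, h3⟩ := hx
    obtain ⟨h4, h5⟩ := (hs a (hN a ha)).1
    have := hN a ha
    have hn0 : (0 : ℝ) ≤ a := Nat.cast_nonneg a
    constructor <;> linarith
  · have := Nat.lt_floor_add_one (T / 40)
    push_cast
    linarith
  · simp only [mem_iUnion, Finset.mem_range] at hx
    obtain ⟨a, ha, h2, h3⟩ := hx
    obtain ⟨⟨h4, h5⟩, A, hA⟩ := hs a (hN a ha)
    have h6 := hN a ha
    have hn0 : (0 : ℝ) ≤ a := Nat.cast_nonneg a
    obtain ⟨h7, h8⟩ := abs_le.1 hx'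
    refine gd_of_near (a := 2 * A) (n := m - A) ?_ ?_
    · push_cast
      rw [abs_le]
      rcases le_total x' (s a) with h | h
      · have := hP x' (s a) (by linarith) (by linarith) h
        constructor <;> linarith [this.1, this.2]
      · have := hP (s a) x' (by linarith) (by linarith) h
        constructor <;> linarith [this.1, this.2]
    · push_cast
      obtain ⟨h9, h10⟩ := hQ s1 x' (by linarith) (by linarith) (by linarith)
      have h11 : 0 ≤ Q x' - Q s1 := by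
        by_contra hc
        have : T * (Q x' - Q s1) < 0 := mul_neg_of_pos_of_neg (by linarith) (not_le.1 hc)
        linarith
      have h12 : Q x' - Q s1 ≤ 1 / 8 := by
        by_contra hc
        have : T * (1 / 8) < T * (Q x' - Q s1) :=
          mul_lt_mul_of_pos_left (not_le.1 hc) (by linarith)
        linarith
      rw [abs_le]
      constructor <;> linarith

theorem holeA : ∃ c : ℝ, 0 < c ∧ ∃ μ0 : ℝ, ∀ (μ ρ : ℝ) (P Q P0 Q0 P' Q' P0' Q0' : ℝ → ℝ),
    μ0 ≤ μ → 1 / μ ^ 55 ≤ ρ → ρ ≤ 1 / 16 → HoleData μ ρ P Q P0 Q0 P' Q' P0' Q0' →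
    HoleI μ c P Q := by
  refine ⟨1 / 600000, by norm_num, 2, fun μ ρ P Q P0 Q0 P' Q' P0' Q0' hμ h1 h2 D => ?_⟩
  have hμ1 : (1 : ℝ) ≤ μ := by linarith
  have p55 : 0 < μ ^ 55 := by positivity
  have hρ : 0 < ρ := lt_of_lt_of_le (by positivity) h1
  have hT : 16 ≤ 1 / ρ := by
    rw [le_div_iff₀ hρ]
    linarith
  have hT' : 1 / ρ ≤ μ ^ 55 := by
    rw [div_le_iff₀ p55] at h1
    rw [div_le_iff₀ hρ]
    linarith
  have h57 : 3 * (1 / ρ) ≤ μ ^ 57 := by
    have : μ ^ 57 = μ ^ 2 * μ ^ 55 := by ring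
    rw [this]
    exact mul_le_mul (by nlinarith) hT' (by positivity) (by positivity)
  have h60 : μ ^ 57 ≤ μ ^ 60 := pow_le_pow_right₀ hμ1 (by norm_num)
  have h90 : 100 * μ ^ 57 ≤ μ ^ 90 := by
    have e : μ ^ 90 = μ ^ 33 * μ ^ 57 := by ring
    have h33 : (2 : ℝ) ^ 33 ≤ μ ^ 33 := pow_le_pow_left₀ (by norm_num) hμ 33
    rw [e]
    exact mul_le_mul_of_nonneg_right (le_trans (by norm_num) h33) (by positivity)
  have p90 : 0 < μ ^ 90 := by positivity
  have hsub : Icc (-1 : ℝ) (3 * (1 / ρ)) ⊆ Icc (-1) (μ ^ 60) :=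
    Icc_subset_Icc le_rfl (h57.trans h60)
  have hsm : ∀ s ∈ Icc (-1 : ℝ) (3 * (1 / ρ)), |s| / μ ^ 90 ≤ 1 / 100 := fun s hs => by
    have : |s| ≤ μ ^ 57 := abs_le.2 ⟨by linarith [hs.1], hs.2.trans h57⟩
    rw [div_le_iff₀ p90]
    linarith
  refine ⟨3 * (1 / ρ), by linarith, h57, core_HoleA hT
    (fun s hs => (D.dP s (hsub hs)).continuousAt.continuousWithinAt)
    (fun s hs => (D.dQ s (hsub hs)).continuousAt.continuousWithinAt)
    (fun x y hx hy hxy => slope_HoleA (fun s hs => D.dP s (hsub hs)) (fun s hs => ?_) hx hy hxy)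
    fun x y hx hy hxy => ?_⟩
  · have := abs_le.1 ((D.bP s (hsub hs)).trans (hsm s hs))
    constructor <;> linarith [this.1, this.2]
  · have := slope_HoleA (f := fun s => 1 / ρ * Q s) (f' := fun s => 1 / ρ * Q' s)
      (lo := 99 / 100) (hi := 101 / 100) (fun s hs => (D.dQ s (hsub hs)).const_mul _)
      (fun s hs => by
        have h3 := D.bQ s (hsub hs)
        rw [mul_div_assoc] at h3
        obtain ⟨h4, h5⟩ := abs_le.1 (h3.trans (mul_le_mul_of_nonneg_left (hsm s hs) hρ.le))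
        rw [one_div_mul_eq_div, le_div_iff₀ hρ, div_le_iff₀ hρ]
        constructor <;> linarith) hx hy hxy
    simpa only [mul_sub] using this

end Vale.Agent.P108
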