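import Vale.Agent.P108.StmtK

/-!
P108 KsE (part of KsA): entropy from small cells.
ent_lower: with a w <= p w, for a w > 0 one has
negMulLog (p w) >= - a w log (p w) = a w log (1 / a w) - a w log (p w / a w) and
log x <= x - 1, so negMulLog (p w) >= a w log (1 / b) - (p w - a w); sum over w.
ks_pos_of: the cells of the join are measurable, disjoint and cover the torus (volume of the torus
is one), so p w = volume of the cell sums to one and a w = volume of the cell meet G sums to
volume G (measure_biUnion_finset or measure_preimage sums over the fibres of the itinerary map).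
Then blockEnt (n+1) >= eps (n log 2 - log C) - 1, so the liminf is at least eps log 2 / 2 > 0
(Filter.le_liminf_of_le, le_iSup_of_le).
-/

namespace Vale.Agent.P108

open MeasureTheory Filter

theorem ent_lower {ι : Type*} [Fintype ι] (p a : ι → ℝ) {b : ℝ} (hb : 0 < b)
    (ha : ∀ w, 0 ≤ a w) (hap : ∀ w, a w ≤ p w) (hab : ∀ w, a w ≤ b) (hp : ∑ w, p w = 1) :
    (∑ w, a w) * Real.log (1 / b) - 1 ≤ ∑ w, Real.negMulLog (p w) := by
  have key : ∀ w, a w * Real.log (1 / b) - (p w - a w) ≤ Real.negMulLog (p w) := by
    intro w
    have hp1 : p w ≤ 1 := by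
      rw [← hp]
      exact Finset.single_le_sum (fun i _ => (ha i).trans (hap i)) (Finset.mem_univ w)
    rcases (ha w).eq_or_lt with h | h
    · have := Real.negMulLog_nonneg ((ha w).trans (hap w)) hp1
      have := hap w
      rw [← h] at *
      linarith
    · have hpw : 0 < p w := lt_of_lt_of_le h (hap w)
      have h1 : Real.log (p w / a w) ≤ p w / a w - 1 := Real.log_le_sub_one_of_pos (by positivity)
      rw [Real.log_div hpw.ne' h.ne'] at h1
      have h2 : Real.log (a w) ≤ Real.log b := Real.log_le_log h (hab w)
      have h3 : Real.log (p w) ≤ 0 := Real.log_nonpos hpw.le hp1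
      have h4 := mul_le_mul_of_nonneg_left h1 h.le
      have h5 : a w * (p w / a w - 1) = p w - a w := by field_simp
      have h6 := mul_le_mul_of_nonneg_left h2 h.le
      have h7 := mul_le_mul_of_nonpos_right (hap w) h3
      rw [one_div, Real.log_inv, Real.negMulLog]
      nlinarith
  have h := Finset.sum_le_sum (fun w (_ : w ∈ Finset.univ) => key w)
  rw [Finset.sum_sub_distrib, Finset.sum_sub_distrib, ← Finset.sum_mul, hp] at h
  have : 0 ≤ ∑ w, a w := Finset.sum_nonneg (fun w _ => ha w)
  linarith

end Vale.Agent.P108
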