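import Vale.Agent.P108.StmtK
import Vale.Agent.P108.KsE

/-!
P108 KsA: entropy from small cells.
ent_lower: with a w <= p w, for a w > 0 one has
negMulLog (p w) >= - a w log (p w) = a w log (1 / a w) - a w log (p w / a w) and
log x <= x - 1, so negMulLog (p w) >= a w log (1 / b) - (p w - a w); sum over w.
ks_pos_of: the cells of the join are measurable, disjoint and cover the torus (volume of the torus
is one), so p w = volume of the cell sums to one and a w = volume of the cell meet G sums to
volume G (measure_biUnion_finset or measure_preimage sums over the fibres of the itinerary map).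
Then blockEnt (n+1) >= eps (n log 2 - log C) - 1, so the liminf is at least eps log 2 / 2 > 0
(Filter.le_liminf_of_le, le_iSup_of_le).
-/

namespace Vale.Agent.P108

open MeasureTheory Filter

theorem univ_KsA : volume (Set.univ : Set (UnitAddCircle × UnitAddCircle)) = 1 := by
  rw [Measure.volume_eq_prod, ← Set.univ_prod_univ, Measure.prod_prod, UnitAddCircle.measure_univ,
    one_mul]

theorem sum_KsA {X ι : Type*} [MeasurableSpace X] [Fintype ι] (μ : Measure X) [IsFiniteMeasure μ]
    {I : X → ι} (hI : ∀ w, MeasurableSet (I ⁻¹' {w})) :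
    ∑ w, (μ (I ⁻¹' {w})).toReal = (μ Set.univ).toReal := by
  rw [← ENNReal.toReal_sum fun w _ => measure_ne_top μ _,
    sum_measure_preimage_singleton _ fun w _ => hI w]
  simp

theorem block_KsA {f : UnitAddCircle × UnitAddCircle → UnitAddCircle × UnitAddCircle}
    (hf : Measurable f) {N : ℕ} {ξ : UnitAddCircle × UnitAddCircle → Fin N} (hξ : Measurable ξ)
    {G : Set (UnitAddCircle × UnitAddCircle)} {b : ℝ} (hb : 0 < b) {m : ℕ}
    (h : ∀ w : Fin m → Fin N,
      volume ({z | ∀ i : Fin m, ξ (f^[i] z) = w i} ∩ G) ≤ ENNReal.ofReal b) :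
    (volume G).toReal * Real.log (1 / b) - 1 ≤ blockEnt f ξ m := by
  have : IsFiniteMeasure (volume : Measure (UnitAddCircle × UnitAddCircle)) :=
    ⟨by rw [univ_KsA]; exact ENNReal.one_lt_top⟩
  let I : UnitAddCircle × UnitAddCircle → Fin m → Fin N := fun z i => ξ (f^[i] z)
  have e : ∀ w, {z | ∀ i : Fin m, ξ (f^[i] z) = w i} = I ⁻¹' {w} := fun w => by
    ext z
    simp [I, funext_iff]
  have hI : ∀ w, MeasurableSet (I ⁻¹' {w}) := fun w =>
    (measurable_pi_lambda I fun i => hξ.comp (hf.iterate i)) (measurableSet_singleton w)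
  have h1 := sum_KsA volume hI
  have h2 := sum_KsA (volume.restrict G) hI
  rw [univ_KsA, ENNReal.toReal_one] at h1
  rw [Measure.restrict_apply_univ] at h2
  have h3 := ent_lower (fun w => (volume (I ⁻¹' {w})).toReal)
    (fun w => ((volume.restrict G) (I ⁻¹' {w})).toReal) hb (fun w => ENNReal.toReal_nonneg)
    (fun w => ENNReal.toReal_mono (measure_ne_top _ _) (Measure.restrict_apply_le _ _))
    (fun w => by
      rw [Measure.restrict_apply (hI w), ← e]
      exact ENNReal.toReal_le_of_le_ofReal hb.le (h w)) h1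
  rw [h2] at h3
  simpa only [blockEnt, e] using h3

theorem ks_pos_of {f : UnitAddCircle × UnitAddCircle → UnitAddCircle × UnitAddCircle}
    (hf : Measurable f) {N : ℕ} {ξ : UnitAddCircle × UnitAddCircle → Fin N} (hξ : Measurable ξ)
    {G : Set (UnitAddCircle × UnitAddCircle)} (hG : MeasurableSet G) (hG0 : 0 < volume G)
    {C : ℝ} (hC : 0 < C)
    (h : ∀ (n : ℕ) (w : Fin (n + 1) → Fin N),
      volume ({z | ∀ i : Fin (n + 1), ξ (f^[i] z) = w i} ∩ G) ≤ ENNReal.ofReal (C / 2 ^ n)) :
    0 < ksEnt f := by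
  have hfin : volume G ≠ ⊤ :=
    ((measure_mono (Set.subset_univ G)).trans_lt (by rw [univ_KsA]; exact ENNReal.one_lt_top)).ne
  have hε : 0 < (volume G).toReal := ENNReal.toReal_pos hG0.ne' hfin
  have hb := fun n : ℕ => block_KsA hf hξ (by positivity : 0 < C / 2 ^ n) (h n)
  generalize (volume G).toReal = ε at hε hb
  have h2 : 0 < Real.log 2 := Real.log_pos one_lt_two
  have hc : 0 < ε * Real.log 2 / 2 := by positivity
  obtain ⟨n0, hn0⟩ := exists_nat_ge ((ε * Real.log C + 1 + ε * Real.log 2 / 2) /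
    (ε * Real.log 2 / 2))
  rw [div_le_iff₀ hc] at hn0
  have key : ((ε * Real.log 2 / 2 : ℝ) : EReal) ≤
      liminf (fun n : ℕ => ((blockEnt f ξ n / n : ℝ) : EReal)) atTop := by
    refine le_liminf_of_le (by isBoundedDefault) ?_
    filter_upwards [eventually_ge_atTop (n0 + 1)] with m hm
    obtain ⟨n, rfl⟩ : ∃ n, m = n + 1 := ⟨m - 1, by omega⟩
    have hn : (n0 : ℝ) ≤ n := by exact_mod_cast Nat.le_of_succ_le_succ hm
    have h3 := hb n
    rw [one_div_div, Real.log_div (by positivity) hC.ne', Real.log_pow] at h3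
    rw [EReal.coe_le_coe_iff, le_div_iff₀ (by positivity)]
    push_cast
    nlinarith [mul_le_mul_of_nonneg_right hn hc.le]
  refine lt_of_lt_of_le (EReal.coe_pos.2 hc) (key.trans ?_)
  exact le_iSup_of_le N (le_iSup_of_le ξ (le_iSup_of_le hξ le_rfl))

end Vale.Agent.P108
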