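import Vale.Agent.P108.Disc

/-!
P108 KsS (part of KsB): a cell of the itinerary partition is small on a vertical line.  L = Lam k, v t = vr k a t 0 1.
shrink: for x, y with BD at the cut s >= 1 of x and |y - x| <= 1 / (4 M), M = vn (v x) s, disc_top
(direction e = (0, 1), real t = y - x, xC_ofReal) gives
|orb a y (s+1) - orb a x (s+1) - v (s+1) (y - x)| <= M |y - x| / 4, so the difference of the
positions has size between (3/4) M |y - x| and 5/16; if it is within del <= 1/4 of an integer the
integer is zero, so |y - x| <= 2 del / M.  disc_real gives vn (v y) s <= (3/2) M.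
line_cell: downward induction on s in S of the claim: every B inside A with
|x - y| <= 1 / (4 vn (v x) s) for all x, y in B has
vol B <= 3 * 2^(n-s) L^card(Ioc s n minus S) / lam^n.
If s is the last element of S, vol B <= 1 / (2 M) <= 3 / lam^s and lam <= L.  Otherwise let
s' = s + l be the next element, fix x0 in B; by shrink B lies within 2 del / M of x0 with
del = 1 / (24 L); cut this interval in at most 2 L^(l-1) pieces of length 1 / (6 L^l M); each
piece satisfies the hypothesis at s' (FldOn.vn_le_pow).  Start by cutting Ico 0 1 in at most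
5 L^(s1) pieces of length 1 / (4 L^(s1)), s1 the first element of S.  If S is empty use vol <= 1.
-/

namespace Vale.Agent.P108

open MeasureTheory Set

theorem shrink : ∃ μ0 : ℝ, ∀ (k μ : ℝ), 0 < k → μ0 ≤ μ → μ ^ 100 = Lam k →
    ∀ (a x y del : ℝ) (s : ℕ), 1 ≤ s → BD μ (Lam k) (vr k a x 0 1) s →
    |y - x| ≤ 1 / (4 * vn (vr k a x 0 1) s) → del ≤ 1 / 4 →
    (∃ m : ℤ, |orb k a y (s + 1) - orb k a x (s + 1) - m| ≤ del) →
    |y - x| ≤ 2 * del / vn (vr k a x 0 1) s ∧
      vn (vr k a y 0 1) s ≤ 3 / 2 * vn (vr k a x 0 1) s := by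
  obtain ⟨μ1, h1⟩ := disc_top
  obtain ⟨μ2, h2⟩ := disc_real
  refine ⟨max (max μ1 μ2) 1, fun k μ hk hμ hL a x y del s hs hB hxy hdel hm => ?_⟩
  have hμ1 : μ1 ≤ μ := (le_max_left _ _).trans ((le_max_left _ _).trans hμ)
  have hμ2 : μ2 ≤ μ := (le_max_right _ _).trans ((le_max_left _ _).trans hμ)
  have hp : 1 ≤ μ ^ 91 := one_le_pow₀ ((le_max_right _ _).trans hμ)
  have hd : Dir 0 1 := Or.inr ⟨rfl, rfl⟩
  obtain ⟨hM, hv, h3⟩ := h1 k μ hk hμ1 hL a x 0 1 s hd hB hs
  have e1 : a + 0 * (y - x) = a := by ring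
  have e2 : x + 1 * (y - x) = y := by ring
  have h4 := fun h => (h2 k μ hk hμ2 hL a x 0 1 s hd hB (y - x) h s le_rfl).2
  rw [e1, e2] at h4
  generalize vn (vr k a x 0 1) s = M at hxy hM hv h3 h4 ⊢
  have hu : M * |y - x| ≤ 1 / 4 := by
    rw [le_div_iff₀ (by positivity)] at hxy
    linarith
  have ht : |y - x| ≤ μ ^ 91 / M := by
    rw [le_div_iff₀ hM]
    linarith
  refine ⟨?_, ?_⟩
  · obtain ⟨m, hm⟩ := hm
    have h5 := (h3 ((y - x : ℝ) : ℂ) (by rwa [Complex.norm_real, Real.norm_eq_abs])).2.2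
    rw [xC_ofReal, e1, e2, ← Complex.ofReal_mul, ← Complex.ofReal_sub, ← Complex.ofReal_sub,
      Complex.norm_real, Complex.norm_real, Real.norm_eq_abs, Real.norm_eq_abs] at h5
    have h6 : |vr k a x 0 1 (s + 1) * (y - x)| = M * |y - x| := by rw [abs_mul, hv]
    have h0 : 0 ≤ M * |y - x| := by positivity
    have h7 : M ^ 2 * |y - x| ^ 2 / μ ^ 91 ≤ M * |y - x| / 4 := by
      refine (div_le_self (by positivity) hp).trans ?_
      rw [← mul_pow]
      nlinarith
    replace h5 := h5.trans h7
    rw [le_div_iff₀ hM, mul_comm]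
    generalize vr k a x 0 1 (s + 1) * (y - x) = w at h5 h6
    generalize orb k a y (s + 1) - orb k a x (s + 1) = D at h5 hm
    generalize M * |y - x| = u at h5 h6 h0 hu ⊢
    have h8 : |w| ≤ |D| + |D - w| := by
      have := abs_sub D (D - w)
      rwa [sub_sub_cancel] at this
    have h9 : |D| ≤ |D - w| + |w| := by
      have := abs_add_le (D - w) w
      rwa [sub_add_cancel] at this
    have h10 : |(m : ℝ)| ≤ |D| + |D - m| := by
      have := abs_sub D (D - m)
      rwa [sub_sub_cancel] at this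
    have h11 : m = 0 := by
      have : |(m : ℝ)| < 1 := by linarith
      rw [← Int.cast_abs, ← Int.cast_one, Int.cast_lt] at this
      exact Int.abs_lt_one_iff.1 this
    rw [h11, Int.cast_zero, sub_zero] at hm
    linarith
  · exact h4 ht

end Vale.Agent.P108
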