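import Vale.Agent.P108.Disc
import Vale.Agent.P108.KsS

/-!
P108 KsB: a cell of the itinerary partition is small on a vertical line.  L = Lam k, v t = vr k a t 0 1.
shrink: for x, y with BD at the cut s >= 1 of x and |y - x| <= 1 / (4 M), M = vn (v x) s, disc_top
(direction e = (0, 1), real t = y - x, xC_ofReal) gives
|orb a y (s+1) - orb a x (s+1) - v (s+1) (y - x)| <= M |y - x| / 4, so the difference of the
positions has size between (3/4) M |y - x| and 5/16; if it is within del <= 1/4 of an integer the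
integer is zero, so |y - x| <= 2 del / M.  disc_real gives vn (v y) s <= (3/2) M.
line_cell: downward induction on the cut j of the claim: a part B of A on which vn (v x) j <= U,
with lam^j <= 3 U, has at most the measure (2 L)^card(Ico j N minus S) / lam^N in every interval of
length 1 / (4 U).  For j in S use shrink, otherwise cut the interval in at most 2 L pieces.
-/

namespace Vale.Agent.P108

open MeasureTheory Set

theorem cut_KsB {B : Set ℝ} {l F : ℝ} (hF : 0 ≤ F)
    (h : ∀ c, volume (B ∩ Icc c (c + l)) ≤ ENNReal.ofReal F) (m : ℕ) (c : ℝ) :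
    volume (B ∩ Icc c (c + (m + 1) * l)) ≤ ENNReal.ofReal ((m + 1) * F) := by
  induction m with
  | zero => simpa using h c
  | succ m ih =>
    have e : c + ((m + 1 : ℕ) + 1) * l = c + (m + 1) * l + l := by
      push_cast
      ring
    have e2 : (((m + 1 : ℕ) : ℝ) + 1) * F = (m + 1) * F + F := by
      push_cast
      ring
    rw [e, e2, ENNReal.ofReal_add (by positivity) hF]
    refine (measure_mono (inter_subset_inter_right B
      (Icc_subset_Icc_union_Icc (b := c + (m + 1) * l)))).trans ?_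
    rw [inter_union_distrib_left]
    exact (measure_union_le _ _).trans (add_le_add ih (h _))

theorem ind_KsB {L lam : ℝ} {A : Set ℝ} {S : Finset ℕ} {M : ℝ → ℕ → ℝ} (hL : 1 ≤ L) (h1 : 1 ≤ lam)
    (h2 : lam ≤ L) (grow : ∀ x j, M x (j + 1) ≤ L * M x j)
    (low : ∀ x ∈ A, ∀ s ∈ S, lam ^ s ≤ 3 * M x s)
    (shr : ∀ x ∈ A, ∀ y ∈ A, ∀ s ∈ S, |y - x| ≤ 1 / (4 * M x s) →
      |y - x| ≤ 2 * (1 / (24 * L)) / M x s ∧ M y s ≤ 3 / 2 * M x s) (N d : ℕ) :
    ∀ j, j + d = N → ∀ B ⊆ A, ∀ U c : ℝ, lam ^ j ≤ 3 * U → (∀ x ∈ B, M x j ≤ U) →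
      volume (B ∩ Icc c (c + 1 / (4 * U))) ≤
        ENNReal.ofReal ((2 * L) ^ (Finset.Ico j N \ S).card / lam ^ N) := by
  have l0 : 0 < lam := by linarith
  have L0 : 0 < L := by linarith
  induction d with
  | zero =>
    rintro j rfl B - U c hU -
    have := pow_pos l0 j
    refine (measure_mono inter_subset_right).trans ?_
    rw [Real.volume_Icc, add_sub_cancel_left, Nat.add_zero, Finset.Ico_self, Finset.empty_sdiff,
      Finset.card_empty, pow_zero]
    exact ENNReal.ofReal_le_ofReal (one_div_le_one_div_of_le this (by linarith))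
  | succ d ih =>
    intro j hj B hB U c hU hM
    have p0 := pow_pos l0 j
    have U0 : 0 < U := by linarith
    have e0 : Finset.Ico j N = insert j (Finset.Ico (j + 1) N) :=
      (Finset.insert_Ico_add_one_left_eq_Ico (by omega)).symm
    by_cases hS : j ∈ S
    · rw [e0, Finset.insert_sdiff_of_mem _ hS]
      rcases (B ∩ Icc c (c + 1 / (4 * U))).eq_empty_or_nonempty with h | ⟨x, hx⟩
      · rw [h, measure_empty]
        exact zero_le
      have a1 := low x (hB hx.1) j hS
      have M0 : 0 < M x j := by linarith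
      have key : ∀ y ∈ B ∩ Icc c (c + 1 / (4 * U)), |y - x| ≤ 2 * (1 / (24 * L)) / M x j ∧
          M y j ≤ 3 / 2 * M x j := fun y hy => by
        refine shr x (hB hx.1) y (hB hy.1) j hS (le_trans ?_
          (one_div_le_one_div_of_le (by positivity) (by linarith [hM x hx.1] : _ ≤ 4 * U)))
        rw [abs_le]
        constructor <;> linarith [hx.2.1, hx.2.2, hy.2.1, hy.2.2]
      refine le_trans (measure_mono fun y hy => mem_inter hy ?_) (ih (j + 1) (by omega) _
        (inter_subset_left.trans hB) (L * (3 / 2 * M x j)) (x - 2 * (1 / (24 * L)) / M x j) ?_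
        fun y hy => (grow y j).trans (mul_le_mul_of_nonneg_left (key y hy).2 L0.le))
      · have e : 1 / (4 * (L * (3 / 2 * M x j))) = 2 * (2 * (1 / (24 * L)) / M x j) := by
          field_simp
          norm_num
        obtain ⟨b1, b2⟩ := abs_le.1 (key y hy).1
        rw [e]
        exact ⟨by linarith, by linarith⟩
      · rw [pow_succ']
        nlinarith [mul_le_mul h2 a1 p0.le L0.le, mul_pos L0 M0]
    · rw [e0, Finset.insert_sdiff_of_notMem _ hS, Finset.card_insert_of_notMem (by simp)]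
      have b1 := cut_KsB (by positivity) (fun c' => ih (j + 1) (by omega) B hB (L * U) c'
        (by rw [pow_succ']; nlinarith [mul_le_mul h2 hU p0.le L0.le])
        fun y hy => (grow y j).trans (mul_le_mul_of_nonneg_left (hM y hy) L0.le)) ⌊L⌋₊ c
      refine le_trans (measure_mono (inter_subset_inter_right B (Icc_subset_Icc_right ?_)))
        (b1.trans (ENNReal.ofReal_le_ofReal ?_))
      · have e : 1 / (4 * U) = L * (1 / (4 * (L * U))) := by field_simp
        rw [e]
        exact add_le_add_right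
          (mul_le_mul_of_nonneg_right (Nat.lt_floor_add_one L).le (by positivity)) c
      · rw [pow_succ', mul_div_assoc]
        exact mul_le_mul_of_nonneg_right (by linarith [Nat.floor_le L0.le]) (by positivity)

theorem line_cell : ∃ μ0 : ℝ, ∀ (k μ : ℝ), 0 < k → μ0 ≤ μ → μ ^ 100 = Lam k →
    ∀ (a lam : ℝ) (n : ℕ) (S : Finset ℕ) (A : Set ℝ), 1 ≤ lam → lam ≤ Lam k →
    S ⊆ Finset.Icc 1 n → A ⊆ Ico 0 1 →
    (∀ x ∈ A, ∀ s ∈ S, BD μ (Lam k) (vr k a x 0 1) s ∧ lam ^ s ≤ 3 * vn (vr k a x 0 1) s) →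
    (∀ x ∈ A, ∀ y ∈ A, ∀ s ∈ S,
      ∃ m : ℤ, |orb k a y (s + 1) - orb k a x (s + 1) - m| ≤ 1 / (24 * Lam k)) →
    volume A ≤
      ENNReal.ofReal (15 * 2 ^ n * Lam k ^ (1 + (Finset.Icc 1 n \ S).card) / lam ^ n) := by
  obtain ⟨μ0, H⟩ := shrink
  refine ⟨μ0, fun k μ hk hμ hL a lam n S A h1 h2 hS hA hB hC => ?_⟩
  have L4 := Lam_ge hk
  have hd : 1 / (24 * Lam k) ≤ 1 / 4 := one_div_le_one_div_of_le (by norm_num) (by linarith)
  have key := ind_KsB (M := fun x s => vn (vr k a x 0 1) s) (A := A) (S := S) (h1.trans h2) h1 h2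
    (fun x j => ((fld_fldOn _ 0 1 (j + 1)).vn_succ_le (abs_Vo_le hk a x) (Nat.lt_succ_self j)).1)
    (fun x hx s hs => (hB x hx s hs).2)
    (fun x hx y hy s hs h => H k μ hk hμ hL a x y _ s (Finset.mem_Icc.1 (hS hs)).1 (hB x hx s hs).1
      h hd (hC x hx y hy s hs)) (n + 1) (n + 1) 0 (Nat.zero_add _) A Subset.rfl 1
  have b1 := cut_KsB (by positivity) (fun c => key c (by norm_num) fun x _ => by
    simp [vn, vr, fld]) 3 0
  have hc : (Finset.Ico 0 (n + 1) \ S).card ≤ 1 + (Finset.Icc 1 n \ S).card := by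
    rw [add_comm 1]
    refine le_trans (Finset.card_le_card fun j hj => ?_) (Finset.card_insert_le 0 _)
    simp only [Finset.mem_sdiff, Finset.mem_Ico, Finset.mem_insert, Finset.mem_Icc] at hj ⊢
    rcases Nat.eq_zero_or_pos j with h | h
    · exact Or.inl h
    · exact Or.inr ⟨⟨h, by omega⟩, hj.2⟩
  have hc' : (Finset.Ico 0 (n + 1) \ S).card ≤ n + 1 :=
    (Finset.card_le_card Finset.sdiff_subset).trans (by simp)
  refine le_trans (measure_mono fun x hx => mem_inter hx (mem_Icc.2 ⟨(hA hx).1, ?_⟩))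
    (b1.trans (ENNReal.ofReal_le_ofReal ?_))
  · have := (hA hx).2
    push_cast
    linarith
  · have c1 : (2 : ℝ) ^ (Finset.Ico 0 (n + 1) \ S).card ≤ 2 ^ n * 2 :=
      (pow_le_pow_right₀ one_le_two hc').trans (pow_succ _ _).le
    have c2 := pow_le_pow_right₀ (h1.trans h2) hc
    have c3 := mul_le_mul c1 c2 (by positivity) (by positivity)
    have c4 : 0 < (2 : ℝ) ^ n * Lam k ^ (1 + (Finset.Icc 1 n \ S).card) := by positivity
    rw [← mul_div_assoc, mul_pow]
    refine div_le_div₀ (by positivity) ?_ (by positivity) (pow_le_pow_right₀ h1 (Nat.le_succ n))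
    push_cast
    nlinarith

end Vale.Agent.P108
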