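import Vale.Agent.P108.StmtK

namespace Vale.Agent.P108

/-- the covering map in the coordinates of consecutive positions. -/
noncomputable def cov (z : ℝ × ℝ) : UnitAddCircle × UnitAddCircle :=
  ((z.2 : UnitAddCircle), ((z.2 - z.1 : ℝ) : UnitAddCircle))

end Vale.Agent.P108
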