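import Vale.Agent.P108.Defs

/-!
P108 Ode: a bounded locally Lipschitz slope field has solution graphs over [0, 1] through every
point, and two of them that meet coincide.  Existence: IsPicardLindelof on Icc 0 1 with the ball
of radius 1 around z.2 (Lipschitz constant from LocallyLipschitzOn.exists_lipschitzOnWith_of_compact
on a compact rectangle), theorem exists_eq_forall_mem_Icc_hasDerivWithinAt₀; choose.
Uniqueness: ODE_solution_unique_of_mem_Icc_right and _left on a compact rectangle holding both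
graphs (both solutions are 1-Lipschitz).
-/

namespace Vale.Agent.P108

open Set

theorem lip_Ode {F : ℝ × ℝ → ℝ} (hF : LocallyLipschitz F) {S : Set ℝ} (hS : IsCompact S) :
    ∃ K, ∀ t ∈ Icc (0 : ℝ) 1, LipschitzOnWith K (fun x => F (t, x)) S := by
  obtain ⟨K, hK⟩ := LocallyLipschitzOn.exists_lipschitzOnWith_of_compact
    ((isCompact_Icc (a := (0 : ℝ)) (b := 1)).prod hS) hF.locallyLipschitzOn
  refine ⟨K, fun t ht => LipschitzOnWith.of_dist_le_mul fun x hx y hy => ?_⟩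
  have := hK.dist_le_mul (t, x) ⟨ht, hx⟩ (t, y) ⟨ht, hy⟩
  rwa [Prod.dist_eq, dist_self, max_eq_right dist_nonneg] at this

theorem ex_Ode {F : ℝ × ℝ → ℝ} (hF : LocallyLipschitz F) (hb : ∀ z, |F z| ≤ 1) (z : ℝ × ℝ) :
    ∃ α : ℝ → ℝ, z.1 ∈ Icc (0 : ℝ) 1 → α z.1 = z.2 ∧
      ∀ p ∈ Icc (0 : ℝ) 1, HasDerivWithinAt α (F (p, α p)) (Icc 0 1) p := by
  by_cases hz : z.1 ∈ Icc (0 : ℝ) 1
  · obtain ⟨K, hK⟩ := lip_Ode hF (isCompact_closedBall z.2 1)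
    have hP : IsPicardLindelof (fun t x => F (t, x)) (⟨z.1, hz⟩ : Icc (0 : ℝ) 1) z.2 1 0 1 K := by
      refine ⟨fun t ht => ?_, fun x _ => ?_, fun t _ x _ => ?_, ?_⟩
      · simpa using hK t ht
      · exact (hF.continuous.comp (continuous_id.prodMk continuous_const)).continuousOn
      · simpa using hb (t, x)
      · simp only [NNReal.coe_one, one_mul, NNReal.coe_zero, sub_zero]
        exact max_le (by linarith [hz.1]) hz.2
    obtain ⟨α, h0, h1⟩ := hP.exists_eq_forall_mem_Icc_hasDerivWithinAt₀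
    exact ⟨α, fun _ => ⟨h0, h1⟩⟩
  · exact ⟨0, fun h => absurd h hz⟩

theorem uniq_Ode {F : ℝ × ℝ → ℝ} (hF : LocallyLipschitz F) {α β : ℝ → ℝ}
    (hα : ∀ p ∈ Icc (0 : ℝ) 1, HasDerivWithinAt α (F (p, α p)) (Icc 0 1) p)
    (hβ : ∀ p ∈ Icc (0 : ℝ) 1, HasDerivWithinAt β (F (p, β p)) (Icc 0 1) p)
    {p : ℝ} (hp : p ∈ Icc (0 : ℝ) 1) (e : α p = β p) {q : ℝ} (hq : q ∈ Icc (0 : ℝ) 1) :
    α q = β q := by
  have cα : ContinuousOn α (Icc 0 1) := fun t ht => (hα t ht).continuousWithinAt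
  have cβ : ContinuousOn β (Icc 0 1) := fun t ht => (hβ t ht).continuousWithinAt
  obtain ⟨K, hK⟩ := lip_Ode hF
    ((isCompact_Icc.image_of_continuousOn cα).union (isCompact_Icc.image_of_continuousOn cβ))
  rcases le_total p q with h | h
  · have s1 : ∀ t ∈ Ico p q, t ∈ Icc (0 : ℝ) 1 := fun t ht =>
      ⟨hp.1.trans ht.1, ht.2.le.trans hq.2⟩
    have s2 : ∀ t ∈ Ico p q, Icc (0 : ℝ) 1 ∈ nhdsWithin t (Ici t) := fun t ht =>
      Icc_mem_nhdsGE_of_mem ⟨hp.1.trans ht.1, ht.2.trans_le hq.2⟩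
    exact ODE_solution_unique_of_mem_Icc_right (v := fun t x => F (t, x))
      (s := fun _ => α '' Icc 0 1 ∪ β '' Icc 0 1) (fun t ht => hK t (s1 t ht))
      (cα.mono (Icc_subset_Icc hp.1 hq.2))
      (fun t ht => (hα t (s1 t ht)).mono_of_mem_nhdsWithin (s2 t ht))
      (fun t ht => Or.inl (mem_image_of_mem _ (s1 t ht)))
      (cβ.mono (Icc_subset_Icc hp.1 hq.2))
      (fun t ht => (hβ t (s1 t ht)).mono_of_mem_nhdsWithin (s2 t ht))
      (fun t ht => Or.inr (mem_image_of_mem _ (s1 t ht))) e ⟨h, le_rfl⟩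
  · have s1 : ∀ t ∈ Ioc q p, t ∈ Icc (0 : ℝ) 1 := fun t ht =>
      ⟨hq.1.trans ht.1.le, ht.2.trans hp.2⟩
    have s2 : ∀ t ∈ Ioc q p, Icc (0 : ℝ) 1 ∈ nhdsWithin t (Iic t) := fun t ht =>
      Icc_mem_nhdsLE_of_mem ⟨hq.1.trans_lt ht.1, ht.2.trans hp.2⟩
    exact ODE_solution_unique_of_mem_Icc_left (v := fun t x => F (t, x))
      (s := fun _ => α '' Icc 0 1 ∪ β '' Icc 0 1) (fun t ht => hK t (s1 t ht))
      (cα.mono (Icc_subset_Icc hq.1 hp.2))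
      (fun t ht => (hα t (s1 t ht)).mono_of_mem_nhdsWithin (s2 t ht))
      (fun t ht => Or.inl (mem_image_of_mem _ (s1 t ht)))
      (cβ.mono (Icc_subset_Icc hq.1 hp.2))
      (fun t ht => (hβ t (s1 t ht)).mono_of_mem_nhdsWithin (s2 t ht))
      (fun t ht => Or.inr (mem_image_of_mem _ (s1 t ht))) e ⟨le_rfl, h⟩

theorem ode_leaves (F : ℝ × ℝ → ℝ) (hF : LocallyLipschitz F) (hb : ∀ z, |F z| ≤ 1) :
    ∃ Ψ : ℝ × ℝ → ℝ → ℝ,
      (∀ z : ℝ × ℝ, z.1 ∈ Icc (0 : ℝ) 1 → Ψ z z.1 = z.2 ∧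
        ∀ p ∈ Icc (0 : ℝ) 1, HasDerivWithinAt (Ψ z) (F (p, Ψ z p)) (Icc 0 1) p) ∧
      ∀ z z' : ℝ × ℝ, z.1 ∈ Icc (0 : ℝ) 1 → z'.1 ∈ Icc (0 : ℝ) 1 → ∀ p ∈ Icc (0 : ℝ) 1,
        Ψ z p = Ψ z' p → ∀ p' ∈ Icc (0 : ℝ) 1, Ψ z p' = Ψ z' p' := by
  choose Ψ hΨ using ex_Ode hF hb
  exact ⟨Ψ, hΨ, fun z z' hz hz' p hp e q hq =>
    uniq_Ode hF (hΨ z hz).2 (hΨ z' hz').2 hp e hq⟩

end Vale.Agent.P108
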