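import Vale.Agent.P108.Pert
import Vale.Agent.P108.Orb
import Vale.Agent.P108.Ode

/-!
P108 LeafA (part of Leaf): finite-time stable leaves of full length.
near_facts: if the orbit of w is within 2 D l of the orbit of z (D l = g^2 (g^2/L)^l, and 2 D n
at l = n + 1), then pot_lip and pert1 give 9/10 nrm <= nrm at w, the row i keeps a third of the
norm, cone_row applies at z and at w; for n < l use orb_lip (growth by L per step from the cut n)
and pert2.
leaf: a = fld (Vo w) 1 0 i, b = fld (Vo w) 0 1 i, slope field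
F w = max (-1) (min 1 (-(a * b) / max (b^2) 1)), locally Lipschitz (contDiff_fld,
ContDiff.locallyLipschitz and closure properties).  Take Psi from ode_leaves.  For z free with
the row i large, continuous induction on both sides of z.1
(IsClosed.Icc_subset_of_forall_mem_nhdsWithin, or a supremum argument) for the closed condition
|orb w l - orb z l| <= 2 D l: while it holds, |a| <= |b| / 10 and |b| >= 1 so F = - a / b, the
derivative of orb (p, Psi p) l is xi l for the field xi = fld (Vo w) 1 (-a/b) with xi i = 0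
(hasDerivWithinAt_orb, fld_comb), |xi l| <= D l by decay_row, so by the mean value inequality the
displacement is at most D l < 2 D l.
-/

namespace Vale.Agent.P108

open Set

theorem grow_LeafA {k : ℝ} (hk : 0 < k) (a b a' b' : ℝ) (n t : ℕ) :
    max |orb k a b (n + t) - orb k a' b' (n + t)| |orb k a b (n + t + 1) - orb k a' b' (n + t + 1)| ≤
      Lam k ^ t * max |orb k a b n - orb k a' b' n| |orb k a b (n + 1) - orb k a' b' (n + 1)| := by
  induction t with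
  | zero => simp
  | succ t ih =>
    rw [pow_succ', mul_assoc]
    exact (orb_lip hk a b a' b' (n + t)).trans
      (mul_le_mul_of_nonneg_left ih (by linarith [Lam_ge hk]))

theorem abs_LeafA (a b : ℝ) : |a| ≤ |b| + |a - b| ∧ |b| ≤ |a| + |a - b| := by
  constructor
  · linarith [abs_sub_abs_le_abs_sub a b]
  · linarith [abs_sub_abs_le_abs_sub b a, abs_sub_comm a b]

theorem near_facts {k g : ℝ} (hk : 0 < k) (hg : 300 ≤ g) (hL : g ^ 20 ≤ Lam k) {n i : ℕ}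
    (hn : 1 ≤ n) (hi : i = n ∨ i = n + 1) {z w : ℝ × ℝ}
    (hfree : ∀ j, 1 ≤ j → j ≤ n → (Lam k / g) ^ j ≤ nrm (Vo k z.1 z.2) j) (hrow : z ∈ Row k n i)
    (hd : ∀ l, 1 ≤ l → l ≤ n →
      |orb k w.1 w.2 l - orb k z.1 z.2 l| ≤ 2 * (g ^ 2 * (g ^ 2 / Lam k) ^ l))
    (hd' : |orb k w.1 w.2 (n + 1) - orb k z.1 z.2 (n + 1)| ≤ 2 * (g ^ 2 * (g ^ 2 / Lam k) ^ n)) :
    (∀ j, 1 ≤ j → j ≤ n → (Lam k / g) ^ j / 2 ≤ nrm (Vo k w.1 w.2) j) ∧
    nrm (Vo k w.1 w.2) n / 3 ≤ |fld (Vo k w.1 w.2) 1 0 i| + |fld (Vo k w.1 w.2) 0 1 i| ∧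
    |fld (Vo k w.1 w.2) 1 0 i| ≤ |fld (Vo k w.1 w.2) 0 1 i| / 10 ∧
    1 ≤ |fld (Vo k w.1 w.2) 0 1 i| ∧
    |fld (Vo k w.1 w.2) 0 1 i| ≤ 4 / 3 * |fld (Vo k z.1 z.2) 0 1 i| ∧
    ∀ N, z ∈ Ecl k g n N → w ∈ Etl k g n N := by
  have L4 := Lam_ge hk
  have hV := abs_Vo_le hk z.1 z.2
  have hW := abs_Vo_le hk w.1 w.2
  have lip : ∀ l D, |orb k w.1 w.2 l - orb k z.1 z.2 l| ≤ 2 * D →
      |Vo k w.1 w.2 l - Vo k z.1 z.2 l| ≤ 8 * Lam k * D := fun l D h =>
    (pot_lip hk _ _).trans ((mul_le_mul_of_nonneg_left h (by linarith)).trans_eq (by ring))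
  have d1 := fun l h1 h2 => lip l _ (hd l h1 h2)
  have d2 : ∀ l, n < l → |Vo k w.1 w.2 l - Vo k z.1 z.2 l| ≤
      8 * Lam k * (g ^ 2 * (g ^ 2 / Lam k) ^ n * Lam k ^ (l - n - 1)) := fun l hl => by
    obtain ⟨t, rfl⟩ := Nat.exists_eq_add_of_lt hl
    refine lip _ _ ((le_max_right _ _).trans ((grow_LeafA hk _ _ _ _ n t).trans ?_))
    rw [show n + t + 1 - n - 1 = t by omega]
    exact (mul_le_mul_of_nonneg_left (max_le (hd n hn le_rfl) hd') (by positivity)).trans_eq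
      (by ring)
  have hr : nrm (Vo k z.1 z.2) n / 2 ≤ |fld (Vo k z.1 z.2) 1 0 i| + |fld (Vo k z.1 z.2) 0 1 i| :=
    hrow
  simp only [Ecl, Etl, mem_ofPred_eq]
  generalize Vo k z.1 z.2 = V at *
  generalize Vo k w.1 w.2 = W at *
  generalize Lam k = L at *
  have g0 : 0 < g := by linarith
  have q3 : 3 ≤ L / g := by
    rw [le_div_iff₀ g0]
    have : g ^ 2 ≤ g ^ 20 := pow_le_pow_right₀ (by linarith) (by norm_num)
    nlinarith
  have p1 := fun j hj => pert1 hg hL hV hW hfree d1 (j := j) hj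
  have cmp : ∀ j, j ≤ n → 9 / 10 * nrm V j ≤ nrm W j ∧ nrm W j ≤ 11 / 10 * nrm V j := fun j hj => by
    have := p1 j hj
    obtain ⟨a1, b1⟩ := abs_LeafA (fld W 1 0 j) (fld V 1 0 j)
    obtain ⟨a2, b2⟩ := abs_LeafA (fld W 1 0 (j + 1)) (fld V 1 0 (j + 1))
    obtain ⟨a3, b3⟩ := abs_LeafA (fld W 0 1 j) (fld V 0 1 j)
    obtain ⟨a4, b4⟩ := abs_LeafA (fld W 0 1 (j + 1)) (fld V 0 1 (j + 1))
    simp only [nrm] at this ⊢
    constructor <;> linarith
  have fW : ∀ j, 1 ≤ j → j ≤ n → (L / g) ^ j / 2 ≤ nrm W j := fun j h1 h2 => by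
    linarith [hfree j h1 h2, (cmp j h2).1, two_le_nrm V j]
  have fV : ∀ j, 1 ≤ j → j ≤ n → (L / g) ^ j / 2 ≤ nrm V j := fun j h1 h2 => by
    linarith [hfree j h1 h2, two_le_nrm V j]
  have pi : |fld W 1 0 i - fld V 1 0 i| + |fld W 0 1 i - fld V 0 1 i| ≤ nrm V n / 10 := by
    have := p1 n le_rfl
    rcases hi with rfl | rfl
    · linarith [abs_nonneg (fld W 1 0 (i + 1) - fld V 1 0 (i + 1)),
        abs_nonneg (fld W 0 1 (i + 1) - fld V 0 1 (i + 1))]
    · linarith [abs_nonneg (fld W 1 0 n - fld V 1 0 n), abs_nonneg (fld W 0 1 n - fld V 0 1 n)]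
  obtain ⟨-, b1⟩ := abs_LeafA (fld W 1 0 i) (fld V 1 0 i)
  obtain ⟨a2, b2⟩ := abs_LeafA (fld W 0 1 i) (fld V 0 1 i)
  have n2 := two_le_nrm V n
  have rW : nrm W n / 3 ≤ |fld W 1 0 i| + |fld W 0 1 i| := by linarith [(cmp n le_rfl).2]
  have cW := cone_row hg hL hW hn fW hi rW
  have cV := cone_row hg hL hV hn fV hi (by linarith)
  have n3 := (q3.trans (le_self_pow₀ (by linarith) (by omega))).trans (hfree n hn le_rfl)
  refine ⟨fW, rW, cW, by linarith, by linarith [abs_nonneg (fld W 1 0 i - fld V 1 0 i)], ?_⟩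
  rintro N ⟨-, m, m1, m2, m3, m4⟩
  refine ⟨fW, m, m1, m2, m3, ?_⟩
  linarith [pert2 hg hL hV hW hn hfree d1 m1 m2 fun l h _ => d2 l h, two_le_nrm V m]

end Vale.Agent.P108
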