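import Vale.Agent.P108.Pert
import Vale.Agent.P108.Orb
import Vale.Agent.P108.Ode
import Vale.Agent.P108.LeafA

/-!
P108 Leaf: finite-time stable leaves of full length.
near_facts: if the orbit of w is within 2 D l of the orbit of z (D l = g^2 (g^2/L)^l, and 2 D n
at l = n + 1), then pot_lip and pert1 give 9/10 nrm <= nrm at w, the row i keeps a third of the
norm, cone_row applies at z and at w; for n < l use orb_lip (growth by L per step from the cut n)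
and pert2.
leaf: a = fld (Vo w) 1 0 i, b = fld (Vo w) 0 1 i, slope field
F w = max (-1) (min 1 (-(a * b) / max (b^2) 1)), locally Lipschitz (contDiff_fld,
ContDiff.locallyLipschitz and closure properties).  Take Psi from ode_leaves.  For z free with
the row i large, continuous induction on both sides of z.1
(IsClosed.Icc_subset_of_forall_mem_nhdsWithin, or a supremum argument) for the closed condition
|orb w l - orb z l| <= 2 D l: while it holds, |a| <= |b| / 10 and |b| >= 1 so F = - a / b, the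
derivative of orb (p, Psi p) l is xi l for the field xi = fld (Vo w) 1 (-a/b) with xi i = 0
(hasDerivWithinAt_orb, fld_comb), |xi l| <= D l by decay_row, so by the mean value inequality the
displacement is at most D l < 2 D l.
-/

namespace Vale.Agent.P108

open Set

theorem slope_Leaf {a b : ℝ × ℝ → ℝ} (ha : ContDiff ℝ 1 a) (hb : ContDiff ℝ 1 b) :
    ∃ F : ℝ × ℝ → ℝ, LocallyLipschitz F ∧ (∀ w, |F w| ≤ 1) ∧
      ∀ w, |a w| ≤ |b w| / 10 → 1 ≤ |b w| → |F w| ≤ 1 / 10 ∧ a w + F w * b w = 0 := by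
  have h0 : ∀ w, b w ^ 2 + expNegInvGlue (1 - b w ^ 2) ≠ 0 := fun w => by
    rcases le_or_gt 1 (b w ^ 2) with h | h
    · exact ne_of_gt (by linarith [expNegInvGlue.nonneg (1 - b w ^ 2)])
    · have := expNegInvGlue.pos_of_pos (sub_pos.2 h)
      positivity
  have h1 : ContDiff ℝ 1 fun w => -(a w * b w) / (b w ^ 2 + expNegInvGlue (1 - b w ^ 2)) :=
    (ha.mul hb).neg.div ((hb.pow 2).add (expNegInvGlue.contDiff.comp
      (contDiff_const.sub (hb.pow 2)))) h0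
  refine ⟨fun w => max (-1) (min 1 (-(a w * b w) / (b w ^ 2 + expNegInvGlue (1 - b w ^ 2)))),
    (h1.locallyLipschitz.const_min 1).const_max (-1), fun w => abs_le.2 ⟨le_max_left _ _,
      max_le (by norm_num) (min_le_left _ _)⟩, fun w k1 k2 => ?_⟩
  have b0 : b w ≠ 0 := abs_pos.1 (by linarith)
  have b1 : 1 - b w ^ 2 ≤ 0 := by nlinarith [sq_abs (b w)]
  have e : -(a w * b w) / (b w ^ 2 + expNegInvGlue (1 - b w ^ 2)) = -(a w / b w) := by
    rw [expNegInvGlue.zero_of_nonpos b1]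
    field_simp
    ring
  have b2 : |a w / b w| ≤ 1 / 10 := by
    rw [abs_div, div_le_iff₀ (by linarith)]
    linarith
  obtain ⟨b3, b4⟩ := abs_le.1 b2
  simp only [e]
  rw [min_eq_right (by linarith), max_eq_right (by linarith), abs_neg]
  refine ⟨b2, ?_⟩
  field_simp
  ring

theorem boot_Leaf {x x' : ℕ → ℝ → ℝ} {D : ℕ → ℝ} (hD : ∀ l, 0 < D l) (m : ℕ)
    (h : ∀ l, ∀ t ∈ Icc (0 : ℝ) 1, HasDerivWithinAt (x l) (x' l t) (Icc 0 1) t)
    (hb : ∀ t ∈ Icc (0 : ℝ) 1, (∀ l < m, |x l t - x l 0| ≤ 2 * D l) → ∀ l < m, |x' l t| ≤ D l) :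
    ∀ l < m, |x l 1 - x l 0| ≤ 2 * D l := by
  have h1 : ∀ t ∈ Icc (0 : ℝ) 1, HasDerivWithinAt (fun t (l : Fin m) => (x l t - x l 0) / D l)
      (fun l : Fin m => x' l t / D l) (Icc 0 1) t := fun t ht =>
    hasDerivWithinAt_pi.2 fun l => ((h l t ht).sub_const _).div_const _
  have h2 : ∀ t, ‖fun l : Fin m => (x l t - x l 0) / D l‖ ≤ 2 →
      ∀ l < m, |x l t - x l 0| ≤ 2 * D l := fun t ht l hl => by
    have := (norm_le_pi_norm (fun l : Fin m => (x l t - x l 0) / D l) ⟨l, hl⟩).trans ht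
    rwa [Real.norm_eq_abs, abs_div, abs_of_pos (hD l), div_le_iff₀ (hD l)] at this
  refine h2 1 ((image_norm_le_of_norm_deriv_right_lt_deriv_boundary' (a := 0) (b := 1)
    (B := fun t => 2 * t) (B' := fun _ => 2) (fun t ht => (h1 t ht).continuousWithinAt)
    (fun t ht => (h1 t (Ico_subset_Icc_self ht)).mono_of_mem_nhdsWithin (Icc_mem_nhdsGE_of_mem ht))
    (by simp [Pi.zero_def.symm]) (by fun_prop) (fun t _ => by
      simpa using ((hasDerivAt_id t).const_mul (2 : ℝ)).hasDerivWithinAt) (fun t ht e => ?_)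
    (right_mem_Icc.2 zero_le_one)).trans_eq (mul_one _))
  refine lt_of_le_of_lt ((pi_norm_le_iff_of_nonneg zero_le_one).2 fun l => ?_) one_lt_two
  rw [Real.norm_eq_abs, abs_div, abs_of_pos (hD l), div_le_one (hD l)]
  exact hb t (Ico_subset_Icc_self ht) (h2 t (by rw [e]; linarith [ht.2])) l l.2

theorem local_Leaf {k g : ℝ} (hk : 0 < k) (hg : 300 ≤ g) (hL : g ^ 20 ≤ Lam k) {n i : ℕ}
    (hn : 1 ≤ n) (hi : i = n ∨ i = n + 1) {F : ℝ × ℝ → ℝ}
    (hF : ∀ w : ℝ × ℝ, |fld (Vo k w.1 w.2) 1 0 i| ≤ |fld (Vo k w.1 w.2) 0 1 i| / 10 →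
      1 ≤ |fld (Vo k w.1 w.2) 0 1 i| →
      |F w| ≤ 1 / 10 ∧ fld (Vo k w.1 w.2) 1 0 i + F w * fld (Vo k w.1 w.2) 0 1 i = 0)
    {z w : ℝ × ℝ} (hfree : ∀ j, 1 ≤ j → j ≤ n → (Lam k / g) ^ j ≤ nrm (Vo k z.1 z.2) j)
    (hrow : z ∈ Row k n i) (hd : ∀ l < n + 1, |orb k w.1 w.2 (l + 1) - orb k z.1 z.2 (l + 1)| ≤
      2 * (g ^ 2 * (g ^ 2 / Lam k) ^ min (l + 1) n)) :
    |F w| ≤ 1 / 10 ∧ fld (Vo k w.1 w.2) 1 (F w) i = 0 ∧
      ∀ l < n + 1, |fld (Vo k w.1 w.2) 1 (F w) (l + 1)| ≤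
        g ^ 2 * (g ^ 2 / Lam k) ^ min (l + 1) n := by
  obtain ⟨a1, a2, a3, a4, -⟩ := near_facts hk hg hL hn hi (w := w) hfree hrow (fun l h1 h2 => by
    obtain ⟨l, rfl⟩ : ∃ j, l = j + 1 := ⟨l - 1, by omega⟩
    have := hd l (by omega)
    rwa [min_eq_left h2] at this) (by
      have := hd n n.lt_succ_self
      rwa [min_eq_right n.le_succ] at this)
  obtain ⟨b1, b2⟩ := hF w a3 a4
  have b3 : fld (Vo k w.1 w.2) 1 (F w) i = 0 := by rw [fld_comb, one_mul, b2]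
  obtain ⟨-, -, b4⟩ := decay_row hg hL (abs_Vo_le hk w.1 w.2) hn a1 hi a2
    (fld_fldOn _ 1 (F w) n) rfl b3
  refine ⟨b1, b3, fun l hl => ?_⟩
  rcases (Nat.lt_succ_iff.1 hl).eq_or_lt with rfl | h
  · rw [min_eq_right l.le_succ]
    exact (le_max_right _ _).trans (b4 l hn le_rfl)
  · rw [min_eq_left h]
    exact (le_max_left _ _).trans (b4 (l + 1) (by omega) h)

theorem leaf {k g : ℝ} (hk : 0 < k) (hg : 300 ≤ g) (hL : g ^ 20 ≤ Lam k) {n i : ℕ}
    (hn : 1 ≤ n) (hi : i = n ∨ i = n + 1) :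
    ∃ Ψ : ℝ × ℝ → ℝ → ℝ,
      (∀ z z' : ℝ × ℝ, z.1 ∈ Icc (0 : ℝ) 1 → z'.1 ∈ Icc (0 : ℝ) 1 → ∀ p ∈ Icc (0 : ℝ) 1,
        Ψ z p = Ψ z' p → ∀ p' ∈ Icc (0 : ℝ) 1, Ψ z p' = Ψ z' p') ∧
      ∀ z : ℝ × ℝ, z.1 ∈ Icc (0 : ℝ) 1 →
        (∀ j, 1 ≤ j → j ≤ n → (Lam k / g) ^ j ≤ nrm (Vo k z.1 z.2) j) → z ∈ Row k n i →
        Ψ z z.1 = z.2 ∧
        (∀ p ∈ Icc (0 : ℝ) 1, ∀ p' ∈ Icc (0 : ℝ) 1, |Ψ z p - Ψ z p'| ≤ |p - p'| / 10) ∧
        ∀ p ∈ Icc (0 : ℝ) 1, orb k p (Ψ z p) i = orb k z.1 z.2 i ∧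
          (∀ l, 1 ≤ l → l ≤ n →
            |orb k p (Ψ z p) l - orb k z.1 z.2 l| ≤ 2 * (g ^ 2 * (g ^ 2 / Lam k) ^ l)) ∧
          |orb k p (Ψ z p) (n + 1) - orb k z.1 z.2 (n + 1)| ≤ 2 * (g ^ 2 * (g ^ 2 / Lam k) ^ n) := by
  obtain ⟨F, F1, F2, F3⟩ := slope_Leaf (contDiff_fld k 1 0 i) (contDiff_fld k 0 1 i)
  obtain ⟨Ψ, P1, P2⟩ := ode_leaves F F1 F2
  refine ⟨Ψ, P2, fun z hz hfree hrow => ?_⟩
  obtain ⟨P3, P4⟩ := P1 z hz
  have L0 : 0 < Lam k := by linarith [Lam_ge hk]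
  have g0 : 0 < g := by linarith
  have key : ∀ p ∈ Icc (0 : ℝ) 1, ∀ l < n + 1, |orb k p (Ψ z p) (l + 1) - orb k z.1 z.2 (l + 1)| ≤
      2 * (g ^ 2 * (g ^ 2 / Lam k) ^ min (l + 1) n) := by
    intro p hp
    have m1 : MapsTo (fun t : ℝ => z.1 + t * (p - z.1)) (Icc 0 1) (Icc 0 1) := fun t ht =>
      ⟨by nlinarith [ht.1, ht.2, hz.1, hp.1], by nlinarith [ht.1, ht.2, hz.2, hp.2]⟩
    have d1 : ∀ t, HasDerivWithinAt (fun t : ℝ => z.1 + t * (p - z.1)) (p - z.1) (Icc 0 1) t :=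
      fun t => by
        simpa using (((hasDerivAt_id t).mul_const (p - z.1)).const_add z.1).hasDerivWithinAt
    have := boot_Leaf (D := fun l => g ^ 2 * (g ^ 2 / Lam k) ^ min (l + 1) n)
      (x := fun l t => orb k (z.1 + t * (p - z.1)) (Ψ z (z.1 + t * (p - z.1))) (l + 1))
      (fun l => by positivity) (n + 1) (fun l t ht => hasDerivWithinAt_orb k (d1 t)
        ((P4 _ (m1 ht)).comp t (d1 t) m1) (l + 1)) fun t ht hd l hl => by
          simp only [zero_mul, add_zero, P3] at hd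
          have b1 := (local_Leaf hk hg hL hn hi F3 (w := (z.1 + t * (p - z.1),
            Ψ z (z.1 + t * (p - z.1)))) hfree hrow hd).2.2 l hl
          have b2 : |p - z.1| ≤ 1 := abs_le.2 ⟨by linarith [hp.1, hz.2], by linarith [hp.2, hz.1]⟩
          rw [fld_comb, one_mul] at b1
          rw [fld_comb, mul_comm (F _), mul_assoc, ← mul_add, abs_mul]
          exact (mul_le_of_le_one_left (abs_nonneg _) b2).trans b1
    simpa only [zero_mul, add_zero, P3, one_mul, add_sub_cancel] using this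
  have loc := fun p hp => local_Leaf hk hg hL hn hi F3 (w := (p, Ψ z p)) hfree hrow (key p hp)
  refine ⟨P3, fun p hp p' hp' => ?_, fun p hp => ⟨?_, fun l h1 h2 => ?_, ?_⟩⟩
  · have := (convex_Icc (0 : ℝ) 1).norm_image_sub_le_of_norm_hasDerivWithin_le P4
      (fun x hx => (loc x hx).1) hp' hp
    rw [Real.norm_eq_abs, Real.norm_eq_abs] at this
    linarith
  · have := (convex_Icc (0 : ℝ) 1).norm_image_sub_le_of_norm_hasDerivWithin_le (C := 0)
      (fun x hx => hasDerivWithinAt_orb k (hasDerivWithinAt_id x _) (P4 x hx) i)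
      (fun x hx => ((congrArg norm (loc x hx).2.1).trans norm_zero).le) hz hp
    rw [zero_mul, norm_le_zero_iff, sub_eq_zero, P3] at this
    exact this
  · obtain ⟨l, rfl⟩ : ∃ j, l = j + 1 := ⟨l - 1, by omega⟩
    have := key p hp l (by omega)
    rwa [min_eq_left h2] at this
  · have := key p hp n n.lt_succ_self
    rwa [min_eq_right n.le_succ] at this

end Vale.Agent.P108
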