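import Vale.Agent.P108.Defs

/-!
P108 Sec (part of Signal): the active term 1 / (vC (i+1) vC (i+2)) has a fourth derivative with the sign of the
cosine at the active site.  sec4: with c = cos, s = sin one has (1/c)' = s/c^2,
(1/c)'' = 2/c^3 - 1/c, third = 6 s/c^4 - s/c^2, fourth = 24/c^5 - 20/c^3 + 1/c (work on the open
set cos <> 0, iteratedDeriv_succ and Filter.EventuallyEq.deriv_eq).
signal4: K = 2 pi k, x = orb (i+1), a = v (i+1), |a| = M, r = 1/100000.  vC (i+2) =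
potC (xC (i+1)) vC (i+1) - vC i.  Model m t = 1 / (a^2 K cos (2 pi (x + a t))).  On |t| <= 3 r / M
the cosine stays within 1/2000 of cos (2 pi x) (disc_top), so both functions are holomorphic and
differ by at most 1 / (M^2 K mu^80); Cauchy estimate on spheres of radius r / M; the model has
fourth derivative (2 pi)^4 a^2 / K * (24 - 20 c^2 + c^4) / c^5 of size at least 5 (2 pi)^4 M^2 / K.
-/

namespace Vale.Agent.P108

theorem lin_Sec (b c0 t : ℂ) : HasDerivAt (fun s : ℂ => b + c0 * s) c0 t := by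
  simpa using ((hasDerivAt_id t).const_mul c0).const_add b

theorem cos_Sec (b c0 t : ℂ) :
    HasDerivAt (fun s : ℂ => Complex.cos (b + c0 * s)) (-Complex.sin (b + c0 * t) * c0) t :=
  (lin_Sec b c0 t).ccos

theorem sin_Sec (b c0 t : ℂ) :
    HasDerivAt (fun s : ℂ => Complex.sin (b + c0 * s)) (Complex.cos (b + c0 * t) * c0) t :=
  (lin_Sec b c0 t).csin

theorem inv_Sec (b c0 t : ℂ) (h : Complex.cos (b + c0 * t) ≠ 0) :
    HasDerivAt (fun s : ℂ => (Complex.cos (b + c0 * s))⁻¹)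
      (c0 * Complex.sin (b + c0 * t) * (Complex.cos (b + c0 * t))⁻¹ ^ 2) t := by
  have h1 := (cos_Sec b c0 t).inv h
  refine HasDerivAt.congr_deriv h1 (Eq.symm ?_)
  field_simp

theorem d1_Sec (A b c0 t : ℂ) (h : Complex.cos (b + c0 * t) ≠ 0) :
    HasDerivAt (fun s : ℂ => A * (Complex.cos (b + c0 * s))⁻¹)
      (A * c0 * (Complex.sin (b + c0 * t) * (Complex.cos (b + c0 * t))⁻¹ ^ 2)) t := by
  have h1 := (inv_Sec b c0 t h).const_mul A
  refine HasDerivAt.congr_deriv h1 (Eq.symm ?_)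
  ring

theorem d2_Sec (A b c0 t : ℂ) (h : Complex.cos (b + c0 * t) ≠ 0) :
    HasDerivAt (fun s : ℂ => A * c0 * (Complex.sin (b + c0 * s) * (Complex.cos (b + c0 * s))⁻¹ ^ 2))
      (A * c0 ^ 2 * (2 * (Complex.cos (b + c0 * t))⁻¹ ^ 3 - (Complex.cos (b + c0 * t))⁻¹)) t := by
  have h1 := ((sin_Sec b c0 t).mul ((inv_Sec b c0 t h).pow 2)).const_mul (A * c0)
  refine HasDerivAt.congr_deriv h1 (Eq.symm ?_)
  have hs : Complex.sin (b + c0 * t) ^ 2 = 1 - Complex.cos (b + c0 * t) ^ 2 := Complex.sin_sq _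
  have hc : Complex.cos (b + c0 * t) * (Complex.cos (b + c0 * t))⁻¹ = 1 := mul_inv_cancel₀ h
  simp only [Pi.pow_apply]
  generalize Complex.sin (b + c0 * t) = S at *
  generalize (Complex.cos (b + c0 * t))⁻¹ = u at *
  generalize Complex.cos (b + c0 * t) = C at *
  push_cast
  linear_combination (-2 * A * c0 ^ 2 * u ^ 3) * hs + (A * c0 ^ 2 * (u + 2 * C * u ^ 2)) * hc

theorem d3_Sec (A b c0 t : ℂ) (h : Complex.cos (b + c0 * t) ≠ 0) :
    HasDerivAt (fun s : ℂ => A * c0 ^ 2 *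
        (2 * (Complex.cos (b + c0 * s))⁻¹ ^ 3 - (Complex.cos (b + c0 * s))⁻¹))
      (A * c0 ^ 3 * (Complex.sin (b + c0 * t) *
        (6 * (Complex.cos (b + c0 * t))⁻¹ ^ 4 - (Complex.cos (b + c0 * t))⁻¹ ^ 2))) t := by
  have h1 := ((((inv_Sec b c0 t h).pow 3).const_mul 2).sub (inv_Sec b c0 t h)).const_mul
    (A * c0 ^ 2)
  refine HasDerivAt.congr_deriv h1 (Eq.symm ?_)
  push_cast
  ring

theorem d4_Sec (A b c0 t : ℂ) (h : Complex.cos (b + c0 * t) ≠ 0) :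
    HasDerivAt (fun s : ℂ => A * c0 ^ 3 * (Complex.sin (b + c0 * s) *
        (6 * (Complex.cos (b + c0 * s))⁻¹ ^ 4 - (Complex.cos (b + c0 * s))⁻¹ ^ 2)))
      (A * c0 ^ 4 * (24 * (Complex.cos (b + c0 * t))⁻¹ ^ 5 - 20 * (Complex.cos (b + c0 * t))⁻¹ ^ 3
        + (Complex.cos (b + c0 * t))⁻¹)) t := by
  have h1 := ((sin_Sec b c0 t).mul ((((inv_Sec b c0 t h).pow 4).const_mul 6).sub
    ((inv_Sec b c0 t h).pow 2))).const_mul (A * c0 ^ 3)
  refine HasDerivAt.congr_deriv h1 (Eq.symm ?_)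
  have hs : Complex.sin (b + c0 * t) ^ 2 = 1 - Complex.cos (b + c0 * t) ^ 2 := Complex.sin_sq _
  have hc : Complex.cos (b + c0 * t) * (Complex.cos (b + c0 * t))⁻¹ = 1 := mul_inv_cancel₀ h
  simp only [Pi.pow_apply, Pi.sub_apply]
  generalize Complex.sin (b + c0 * t) = S at *
  generalize (Complex.cos (b + c0 * t))⁻¹ = u at *
  generalize Complex.cos (b + c0 * t) = C at *
  push_cast
  linear_combination (-A * c0 ^ 4 * (24 * u ^ 5 - 2 * u ^ 3)) * hs +
    (A * c0 ^ 4 * (24 * C * u ^ 4 + 18 * u ^ 3 - 2 * C * u ^ 2 - u)) * hc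

theorem ev_Sec (b c0 t : ℂ) (h : Complex.cos (b + c0 * t) ≠ 0) :
    ∀ᶠ s in nhds t, Complex.cos (b + c0 * s) ≠ 0 :=
  (cos_Sec b c0 t).continuousAt.eventually_ne h

theorem step_Sec (b c0 : ℂ) (f g g' : ℂ → ℂ)
    (hf : ∀ t, Complex.cos (b + c0 * t) ≠ 0 → f t = g t)
    (hg : ∀ t, Complex.cos (b + c0 * t) ≠ 0 → HasDerivAt g (g' t) t) :
    ∀ t, Complex.cos (b + c0 * t) ≠ 0 → deriv f t = g' t := by
  intro t h
  have he : f =ᶠ[nhds t] g := (ev_Sec b c0 t h).mono fun s hs => hf s hs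
  rw [he.deriv_eq, (hg t h).deriv]

theorem sec4 (A b c0 t : ℂ) (h : Complex.cos (b + c0 * t) ≠ 0) :
    iteratedDeriv 4 (fun s : ℂ => A / Complex.cos (b + c0 * s)) t =
      A * c0 ^ 4 * (24 - 20 * Complex.cos (b + c0 * t) ^ 2 + Complex.cos (b + c0 * t) ^ 4) /
        Complex.cos (b + c0 * t) ^ 5 := by
  have e1 := step_Sec b c0 (fun s : ℂ => A / Complex.cos (b + c0 * s)) _ _
    (fun t _ => div_eq_mul_inv _ _) (fun t h => d1_Sec A b c0 t h)
  have e2 := step_Sec b c0 _ _ _ e1 (fun t h => d2_Sec A b c0 t h)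
  have e3 := step_Sec b c0 _ _ _ e2 (fun t h => d3_Sec A b c0 t h)
  have e4 := step_Sec b c0 _ _ _ e3 (fun t h => d4_Sec A b c0 t h)
  have e5 : iteratedDeriv 4 (fun s : ℂ => A / Complex.cos (b + c0 * s)) =
      deriv (deriv (deriv (deriv (fun s : ℂ => A / Complex.cos (b + c0 * s))))) := by
    simp only [iteratedDeriv_succ, iteratedDeriv_zero]
  rw [e5, e4 t h]
  field_simp

end Vale.Agent.P108
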