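import Vale.Agent.P108.Disc
import Vale.Agent.P108.Sec

/-!
P108 Signal: the active term 1 / (vC (i+1) vC (i+2)) has a fourth derivative with the sign of the
cosine at the active site.  sec4: with c = cos, s = sin one has (1/c)' = s/c^2,
(1/c)'' = 2/c^3 - 1/c, third = 6 s/c^4 - s/c^2, fourth = 24/c^5 - 20/c^3 + 1/c (work on the open
set cos <> 0, iteratedDeriv_succ and Filter.EventuallyEq.deriv_eq).
signal4: K = 2 pi k, x = orb (i+1), a = v (i+1), |a| = M, r = 1/100000.  vC (i+2) =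
potC (xC (i+1)) vC (i+1) - vC i.  Model m t = 1 / (a^2 K cos (2 pi (x + a t))).  On |t| <= 3 r / M
the cosine stays within 1/2000 of cos (2 pi x) (disc_top), so both functions are holomorphic and
differ by at most 1 / (M^2 K mu^80); Cauchy estimate on spheres of radius r / M; the model has
fourth derivative (2 pi)^4 a^2 / K * (24 - 20 c^2 + c^4) / c^5 of size at least 5 (2 pi)^4 M^2 / K.
-/

namespace Vale.Agent.P108

open Complex in
lemma exp_le_Signal {z : ℂ} (hz : z.re ≤ 1) : ‖Complex.exp z‖ ≤ 3 := by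
  rw [Complex.norm_exp]
  have h1 : Real.exp z.re ≤ Real.exp 1 := Real.exp_le_exp.2 hz
  have h2 := Real.exp_one_lt_d9
  linarith

lemma sin_le_Signal {z : ℂ} (hz : |z.im| ≤ 1) : ‖Complex.sin z‖ ≤ 3 := by
  have h := abs_le.1 hz
  have h1 : ‖Complex.exp (-z * Complex.I)‖ ≤ 3 := exp_le_Signal (by simp; linarith [h.2])
  have h2 : ‖Complex.exp (z * Complex.I)‖ ≤ 3 := exp_le_Signal (by simp; linarith [h.1])
  have h3 := norm_sub_le (Complex.exp (-z * Complex.I)) (Complex.exp (z * Complex.I))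
  rw [Complex.sin, norm_div, norm_mul, Complex.norm_I]
  simp only [Complex.norm_ofNat]
  linarith

lemma cos_le_Signal {z : ℂ} (hz : |z.im| ≤ 1) : ‖Complex.cos z‖ ≤ 3 := by
  have h := abs_le.1 hz
  have h1 : ‖Complex.exp (-z * Complex.I)‖ ≤ 3 := exp_le_Signal (by simp; linarith [h.2])
  have h2 : ‖Complex.exp (z * Complex.I)‖ ≤ 3 := exp_le_Signal (by simp; linarith [h.1])
  have h3 := norm_add_le (Complex.exp (z * Complex.I)) (Complex.exp (-z * Complex.I))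
  rw [Complex.cos, norm_div]
  simp only [Complex.norm_ofNat]
  linarith

lemma cos_lip_Signal {z w : ℂ} (hz : |z.im| ≤ 1) (hw : |w.im| ≤ 1) :
    ‖Complex.cos z - Complex.cos w‖ ≤ 3 * ‖z - w‖ := by
  have hconv : Convex ℝ {u : ℂ | |u.im| ≤ 1} := by
    have : {u : ℂ | |u.im| ≤ 1} = Complex.imLm ⁻¹' Set.Icc (-1) 1 := by
      ext u; simp [abs_le]
    rw [this]
    exact (convex_Icc _ _).linear_preimage _
  refine hconv.norm_image_sub_le_of_norm_deriv_le (𝕜 := ℂ) (f := Complex.cos)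
    (fun u _ => Complex.differentiable_cos u) (fun u hu => ?_) hw hz
  rw [Complex.deriv_cos, norm_neg]
  exact sin_le_Signal hu

/-- the pointwise comparison with the model. -/
lemma alg_Signal {w1 w0 C c : ℂ} {a K E M : ℝ} (hM : 0 < M) (ha : |a| = M) (hE : 10 ^ 30 ≤ E)
    (hK : E ≤ K) (h1 : ‖w1 - a‖ ≤ M / E) (h0 : ‖w0‖ ≤ M) (hC : ‖C - c‖ ≤ 20 / E) (hC3 : ‖C‖ ≤ 3)
    (hc : 1 / 1000 ≤ ‖c‖) :
    w1 * ((2 + K * C) * w1 - w0) ≠ 0 ∧
      ‖1 / (w1 * ((2 + K * C) * w1 - w0)) - 1 / (a ^ 2 * K * c)‖ ≤ 10 ^ 8 / (E * M ^ 2 * K) := by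
  have hE0 : 0 < E := by linarith [show (0 : ℝ) < 10 ^ 30 by positivity]
  have hE1 : 1 ≤ E := by linarith [show (1 : ℝ) ≤ 10 ^ 30 by norm_num]
  have hK1 : 1 ≤ K := by linarith
  have hK0 : 0 < K := by linarith
  have hna : ‖(a : ℂ)‖ = M := by rw [Complex.norm_real, Real.norm_eq_abs, ha]
  have hnK : ‖(K : ℂ)‖ = K := by rw [Complex.norm_real, Real.norm_eq_abs, abs_of_pos hK0]
  have hME : M / E ≤ M := div_le_self hM.le hE1
  have hw1 : ‖w1‖ ≤ 2 * M := by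
    have := norm_add_le (w1 - a) (a : ℂ)
    rw [sub_add_cancel] at this
    linarith
  have hw1a : ‖w1 + a‖ ≤ 3 * M := by
    have := norm_add_le w1 (a : ℂ)
    linarith
  have hP : ‖2 + K * C‖ ≤ 5 * K := by
    have := norm_add_le (2 : ℂ) (K * C)
    rw [norm_mul, hnK] at this
    simp only [Complex.norm_ofNat] at this
    nlinarith
  set u : ℝ := M ^ 2 * K / E with hu
  have hu0 : 0 < u := by positivity
  have hMu : M ^ 2 ≤ u := by
    rw [hu, le_div_iff₀ hE0]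
    exact mul_le_mul_of_nonneg_left hK (by positivity)
  have t1 : ‖(w1 - a) * (w1 + a) * (2 + K * C)‖ ≤ 15 * u := by
    rw [norm_mul, norm_mul]
    calc ‖w1 - a‖ * ‖w1 + a‖ * ‖2 + K * C‖ ≤ M / E * (3 * M) * (5 * K) := by gcongr
      _ = 15 * u := by rw [hu]; ring
  have t2 : ‖(a : ℂ) ^ 2 * (2 + K * (C - c))‖ ≤ 22 * u := by
    have h2 := norm_add_le (2 : ℂ) (K * (C - c))
    rw [norm_mul, hnK] at h2
    simp only [Complex.norm_ofNat] at h2
    have h3 : K * ‖C - c‖ ≤ K * (20 / E) := by gcongr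
    rw [norm_mul, norm_pow, hna]
    calc M ^ 2 * ‖2 + K * (C - c)‖ ≤ M ^ 2 * (2 + K * (20 / E)) := by gcongr; linarith
      _ = 2 * M ^ 2 + 20 * u := by rw [hu]; ring
      _ ≤ 22 * u := by linarith
  have t3 : ‖w0 * w1‖ ≤ 2 * u := by
    rw [norm_mul]
    calc ‖w0‖ * ‖w1‖ ≤ M * (2 * M) := by gcongr
      _ = 2 * M ^ 2 := by ring
      _ ≤ 2 * u := by linarith
  set F : ℂ := w1 * ((2 + K * C) * w1 - w0) with hF
  set G : ℂ := a ^ 2 * K * c with hG
  have hD : ‖G - F‖ ≤ 39 * u := by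
    have e : G - F = w0 * w1 - ((w1 - a) * (w1 + a) * (2 + K * C) +
        (a : ℂ) ^ 2 * (2 + K * (C - c))) := by rw [hF, hG]; ring
    rw [e]
    have := norm_sub_le (w0 * w1) ((w1 - a) * (w1 + a) * (2 + K * C) +
        (a : ℂ) ^ 2 * (2 + K * (C - c)))
    have := norm_add_le ((w1 - a) * (w1 + a) * (2 + K * C)) ((a : ℂ) ^ 2 * (2 + K * (C - c)))
    linarith
  set N : ℝ := M ^ 2 * K with hN
  have hN0 : 0 < N := by positivity
  have hGn : N / 1000 ≤ ‖G‖ := by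
    rw [hG, norm_mul, norm_mul, norm_pow, hna, hnK]
    calc N / 1000 = M ^ 2 * K * (1 / 1000) := by rw [hN]; ring
      _ ≤ _ := by gcongr
  have huN : u ≤ N / 10 ^ 30 := by
    rw [hu]
    gcongr
  have hFn : N / 2000 ≤ ‖F‖ := by
    have := norm_add_le (G - F) F
    rw [sub_add_cancel] at this
    have h5 : 39 * (N / 10 ^ 30) ≤ N / 2000 := by
      have : (39 : ℝ) * (N / 10 ^ 30) = N * (39 / 10 ^ 30) := by ring
      rw [this, div_eq_mul_one_div N 2000]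
      exact mul_le_mul_of_nonneg_left (by norm_num) hN0.le
    linarith
  have hF0 : F ≠ 0 := by
    intro h; rw [h, norm_zero] at hFn; linarith [show 0 < N / 2000 by positivity]
  have hG0 : G ≠ 0 := by
    intro h; rw [h, norm_zero] at hGn; linarith [show 0 < N / 1000 by positivity]
  refine ⟨hF0, ?_⟩
  have e : 1 / F - 1 / G = (G - F) / (F * G) := by field_simp
  rw [e, norm_div, norm_mul]
  calc ‖G - F‖ / (‖F‖ * ‖G‖) ≤ 39 * u / (N / 2000 * (N / 1000)) := by gcongr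
    _ = 78000000 / (E * M ^ 2 * K) := by rw [hu, hN]; field_simp; ring
    _ ≤ 10 ^ 8 / (E * M ^ 2 * K) := by gcongr; norm_num

/-- the model cosine on the disc. -/
lemma model_Signal {a x M sg : ℝ} (hM : 0 < M) (ha : |a| = M) (hsg : sg = 1 ∨ sg = -1)
    (hc : 1 / 500 ≤ sg * Real.cos (2 * Real.pi * x)) {t : ℂ} (ht : ‖t‖ ≤ 3 / (100000 * M)) :
    ‖(2 * Real.pi * a * t : ℂ)‖ ≤ 1 / 4000 ∧
    ‖Complex.cos (2 * Real.pi * x + 2 * Real.pi * a * t) - Real.cos (2 * Real.pi * x)‖ ≤ 1 / 1000 ∧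
    1 / 1000 ≤ ‖Complex.cos (2 * Real.pi * x + 2 * Real.pi * a * t)‖ := by
  have hpi := Real.pi_le_four
  have hpi0 := Real.pi_pos
  have h1 : ‖(2 * Real.pi * a * t : ℂ)‖ ≤ 1 / 4000 := by
    have e : ‖(2 * Real.pi * a * t : ℂ)‖ = 2 * Real.pi * M * ‖t‖ := by
      simp [abs_of_pos hpi0, ha]
    rw [e]
    calc 2 * Real.pi * M * ‖t‖ ≤ 2 * 4 * M * (3 / (100000 * M)) := by gcongr
      _ = 24 / 100000 := by field_simp; ring
      _ ≤ 1 / 4000 := by norm_num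
  have him : |(2 * Real.pi * x + 2 * Real.pi * a * t : ℂ).im| ≤ 1 := by
    have e : (2 * Real.pi * x + 2 * Real.pi * a * t : ℂ).im = (2 * Real.pi * a * t : ℂ).im := by
      simp
    rw [e]
    exact (Complex.abs_im_le_norm _).trans (by linarith)
  have h2 : ‖Complex.cos (2 * Real.pi * x + 2 * Real.pi * a * t) - Real.cos (2 * Real.pi * x)‖ ≤
      1 / 1000 := by
    have := cos_lip_Signal him (w := ((2 * Real.pi * x : ℝ) : ℂ)) (by simp)
    rw [← Complex.ofReal_cos] at this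
    have e : (2 * Real.pi * x + 2 * Real.pi * a * t : ℂ) - ((2 * Real.pi * x : ℝ) : ℂ) =
        2 * Real.pi * a * t := by push_cast; ring
    rw [e] at this
    linarith
  refine ⟨h1, h2, ?_⟩
  have h3 : 1 / 500 ≤ ‖((Real.cos (2 * Real.pi * x) : ℝ) : ℂ)‖ := by
    rw [Complex.norm_real, Real.norm_eq_abs]
    rcases hsg with h | h
    · rw [h, one_mul] at hc; exact hc.trans (le_abs_self _)
    · rw [h, neg_one_mul] at hc; exact hc.trans (neg_le_abs _)
  have h4 := norm_sub_norm_le ((Real.cos (2 * Real.pi * x) : ℝ) : ℂ)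
    (Complex.cos (2 * Real.pi * x + 2 * Real.pi * a * t))
  rw [norm_sub_rev] at h4
  linarith

/-- the size of the fourth derivative of the model. -/
lemma real_Signal {a c K M sg : ℝ} (hM : 0 < M) (ha : |a| = M) (hK : 0 < K)
    (hsg : sg = 1 ∨ sg = -1) (hc : 0 < sg * c) (hc1 : |c| ≤ 1) :
    2 * (M ^ 2 / K) ≤ sg * (1 / (a ^ 2 * K) * (2 * Real.pi * a) ^ 4 *
      (24 - 20 * c ^ 2 + c ^ 4) / c ^ 5) := by
  have ha2 : a ^ 2 = M ^ 2 := by rw [← ha, sq_abs]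
  have ha0 : a ≠ 0 := by
    intro h; rw [h, abs_zero] at ha; linarith
  have hpi : 1 ≤ 2 * Real.pi := by linarith [Real.pi_gt_three]
  set d : ℝ := sg * c with hd
  have hdc : d ^ 2 = c ^ 2 := by rcases hsg with h | h <;> rw [hd, h] <;> ring
  have hc0 : c ≠ 0 := by
    intro h; rw [h, mul_zero] at hd; linarith
  have hd1 : d ≤ 1 := by
    have : |d| = |c| := by rw [← sq_eq_sq₀ (abs_nonneg _) (abs_nonneg _), sq_abs, sq_abs, hdc]
    linarith [le_abs_self d]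
  have hc2 : c ^ 2 ≤ 1 := by rw [← hdc]; nlinarith
  have hq : 4 ≤ 24 - 20 * c ^ 2 + c ^ 4 := by nlinarith [sq_nonneg (c ^ 2)]
  have e : sg * (1 / (a ^ 2 * K) * (2 * Real.pi * a) ^ 4 * (24 - 20 * c ^ 2 + c ^ 4) / c ^ 5) =
      M ^ 2 / K * (2 * Real.pi) ^ 4 * (24 - 20 * c ^ 2 + c ^ 4) / d ^ 5 := by
    rw [← ha2, hd]
    rcases hsg with h | h <;> rw [h] <;> field_simp
  rw [e, le_div_iff₀ (by positivity)]
  have hd5 : d ^ 5 ≤ 1 := pow_le_one₀ hc.le hd1
  have hp4 : 1 ≤ (2 * Real.pi) ^ 4 := one_le_pow₀ hpi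
  have hW : 0 < M ^ 2 / K := by positivity
  calc 2 * (M ^ 2 / K) * d ^ 5 ≤ 2 * (M ^ 2 / K) * 1 := by gcongr
    _ ≤ M ^ 2 / K * 1 * 4 := by linarith
    _ ≤ _ := by gcongr

lemma core_Signal {v1 v0 X : ℂ → ℂ} (hv1 : Differentiable ℂ v1) (hv0 : Differentiable ℂ v0)
    (hX : Differentiable ℂ X) {a x K E M sg : ℝ} (hM : 0 < M) (ha : |a| = M) (hE : 10 ^ 30 ≤ E)
    (hK : E ≤ K) (hsg : sg = 1 ∨ sg = -1) (hc : 1 / 500 ≤ sg * Real.cos (2 * Real.pi * x))
    (h : ∀ t : ℂ, ‖t‖ ≤ 3 / (100000 * M) →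
      ‖v1 t - a‖ ≤ M / E ∧ ‖v0 t‖ ≤ M ∧ ‖X t - x - a * t‖ ≤ 1 / (2 * E)) :
    (∀ t : ℂ, ‖t‖ ≤ 3 / (100000 * M) →
      v1 t * ((2 + K * Complex.cos (2 * Real.pi * X t)) * v1 t - v0 t) ≠ 0) ∧
    ∀ t : ℝ, |t| ≤ 1 / (100000 * M) → M ^ 2 / K ≤ sg * (iteratedDeriv 4
      (fun s => 1 / (v1 s * ((2 + K * Complex.cos (2 * Real.pi * X s)) * v1 s - v0 s)))
        (t : ℂ)).re := by
  have hE0 : 0 < E := by linarith [show (0 : ℝ) < 10 ^ 30 by positivity]
  have hE1 : 10 ≤ E := by linarith [show (10 : ℝ) ≤ 10 ^ 30 by norm_num]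
  have hK0 : 0 < K := by linarith
  have hpi := Real.pi_le_four
  have hpi0 := Real.pi_pos
  have ha0 : a ≠ 0 := by
    intro h; rw [h, abs_zero] at ha; linarith
  have key : ∀ t : ℂ, ‖t‖ ≤ 3 / (100000 * M) →
      v1 t * ((2 + K * Complex.cos (2 * Real.pi * X t)) * v1 t - v0 t) ≠ 0 ∧
      ‖1 / (v1 t * ((2 + K * Complex.cos (2 * Real.pi * X t)) * v1 t - v0 t)) -
        1 / (a ^ 2 * K * Complex.cos (2 * Real.pi * x + 2 * Real.pi * a * t))‖ ≤
          10 ^ 8 / (E * M ^ 2 * K) := by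
    intro t ht
    obtain ⟨h1, h0, h2⟩ := h t ht
    obtain ⟨m1, -, m3⟩ := model_Signal hM ha hsg hc ht
    have hdiff : ‖(2 * Real.pi * X t : ℂ) - (2 * Real.pi * x + 2 * Real.pi * a * t)‖ ≤ 4 / E := by
      have e : (2 * Real.pi * X t : ℂ) - (2 * Real.pi * x + 2 * Real.pi * a * t) =
          2 * Real.pi * (X t - x - a * t) := by ring
      have e2 : ‖(2 * Real.pi : ℂ)‖ = 2 * Real.pi := by simp [abs_of_pos hpi0]
      rw [e, norm_mul, e2]
      calc 2 * Real.pi * ‖X t - x - a * t‖ ≤ 2 * 4 * (1 / (2 * E)) := by gcongr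
        _ = 4 / E := by field_simp
    have h4E : 4 / E ≤ 4 / 10 := by gcongr
    have him : |(2 * Real.pi * x + 2 * Real.pi * a * t : ℂ).im| ≤ 1 / 4000 := by
      have e : (2 * Real.pi * x + 2 * Real.pi * a * t : ℂ).im = (2 * Real.pi * a * t : ℂ).im := by
        simp
      rw [e]
      exact (Complex.abs_im_le_norm _).trans m1
    have him2 : |(2 * Real.pi * X t : ℂ).im| ≤ 1 := by
      have h5 := (Complex.abs_im_le_norm _).trans hdiff
      rw [Complex.sub_im] at h5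
      have := abs_le.1 h5
      have := abs_le.1 him
      rw [abs_le]; constructor <;> linarith
    have hlip := cos_lip_Signal him2 (w := 2 * Real.pi * x + 2 * Real.pi * a * t) (by linarith)
    have h20 : 3 * (4 / E) ≤ 20 / E := by
      rw [show 3 * (4 / E) = 12 / E by ring]; gcongr; norm_num
    exact alg_Signal hM ha hE hK h1 h0 (by linarith) (cos_le_Signal him2) m3
  refine ⟨fun t ht => (key t ht).1, fun t ht => ?_⟩
  set ρ : ℝ := 1 / (100000 * M) with hρ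
  have hρ0 : 0 < ρ := by positivity
  have h3ρ : 3 / (100000 * M) = 3 * ρ := by rw [hρ]; ring
  set f : ℂ → ℂ :=
    fun s => 1 / (v1 s * ((2 + K * Complex.cos (2 * Real.pi * X s)) * v1 s - v0 s)) with hf
  set m : ℂ → ℂ := fun s => (1 / (a ^ 2 * K) : ℂ) /
    Complex.cos (2 * Real.pi * x + 2 * Real.pi * a * s) with hm
  have hmodel : ∀ s : ℂ, m s = 1 / (a ^ 2 * K * Complex.cos (2 * Real.pi * x + 2 * Real.pi * a * s)) := by
    intro s; rw [hm]; simp only [div_div]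
  have hball : ∀ s ∈ Metric.ball (t : ℂ) (2 * ρ), ‖s‖ ≤ 3 / (100000 * M) := by
    intro s hs
    rw [Metric.mem_ball, dist_eq_norm] at hs
    have := norm_add_le (s - t) (t : ℂ)
    rw [sub_add_cancel, Complex.norm_real, Real.norm_eq_abs] at this
    linarith
  have hcos : ∀ s : ℂ, ‖s‖ ≤ 3 / (100000 * M) →
      Complex.cos (2 * Real.pi * x + 2 * Real.pi * a * s) ≠ 0 := by
    intro s hs h0
    have := (model_Signal hM ha hsg hc hs).2.2
    rw [h0, norm_zero] at this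
    linarith
  have hfd : DifferentiableOn ℂ f (Metric.ball (t : ℂ) (2 * ρ)) := by
    refine DifferentiableOn.div (differentiableOn_const _) ?_ (fun s hs => (key s (hball s hs)).1)
    fun_prop
  have hmd : DifferentiableOn ℂ m (Metric.ball (t : ℂ) (2 * ρ)) := by
    refine DifferentiableOn.div (differentiableOn_const _) ?_ (fun s hs => hcos s (hball s hs))
    fun_prop
  have hnb : Metric.ball (t : ℂ) (2 * ρ) ∈ nhds (t : ℂ) := Metric.ball_mem_nhds _ (by positivity)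
  have hfc : ContDiffAt ℂ (4 : ℕ) f t := (hfd.analyticAt hnb).contDiffAt
  have hmc : ContDiffAt ℂ (4 : ℕ) m t := (hmd.analyticAt hnb).contDiffAt
  have hsub : Metric.closedBall (t : ℂ) ρ ⊆ Metric.ball (t : ℂ) (2 * ρ) :=
    Metric.closedBall_subset_ball (by linarith)
  have hcl : DiffContOnCl ℂ (f - m) (Metric.ball (t : ℂ) ρ) := by
    refine DifferentiableOn.diffContOnCl ?_
    rw [closure_ball _ hρ0.ne']
    exact (hfd.sub hmd).mono hsub
  have hcau := Complex.norm_iteratedDeriv_le_of_forall_mem_sphere_norm_le 4 hρ0 hcl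
    (C := 10 ^ 8 / (E * M ^ 2 * K)) (fun z hz => by
      have := (key z (hball z (hsub (Metric.sphere_subset_closedBall hz)))).2
      rw [Pi.sub_apply, hmodel]
      exact this)
  rw [iteratedDeriv_sub hfc hmc] at hcau
  have hsmall : ((Nat.factorial 4 : ℕ) : ℝ) * (10 ^ 8 / (E * M ^ 2 * K)) / ρ ^ 4 ≤ M ^ 2 / K := by
    have e : ((Nat.factorial 4 : ℕ) : ℝ) * (10 ^ 8 / (E * M ^ 2 * K)) / ρ ^ 4 =
        M ^ 2 / K * (24 * 10 ^ 28 / E) := by
      rw [hρ, show ((Nat.factorial 4 : ℕ) : ℝ) = 24 by norm_num [Nat.factorial]]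
      field_simp
      ring
    rw [e]
    have : 24 * 10 ^ 28 / E ≤ 1 := by
      rw [div_le_one hE0]; linarith [show (24 : ℝ) * 10 ^ 28 ≤ 10 ^ 30 by norm_num]
    exact mul_le_of_le_one_right (by positivity) this
  have ht3 : ‖(t : ℂ)‖ ≤ 3 / (100000 * M) := hball _ (Metric.mem_ball_self (by positivity))
  have hsec := sec4 (1 / (a ^ 2 * K) : ℂ) (2 * Real.pi * x) (2 * Real.pi * a) t (hcos _ ht3)
  set c : ℝ := Real.cos (2 * Real.pi * x + 2 * Real.pi * a * t) with hcdef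
  have hcC : Complex.cos (2 * Real.pi * x + 2 * Real.pi * a * t) = (c : ℂ) := by
    rw [hcdef]; push_cast; rfl
  have hmre : (iteratedDeriv 4 m t).re = 1 / (a ^ 2 * K) * (2 * Real.pi * a) ^ 4 *
      (24 - 20 * c ^ 2 + c ^ 4) / c ^ 5 := by
    rw [hm, hsec, hcC]
    rw [← Complex.ofReal_re (1 / (a ^ 2 * K) * (2 * Real.pi * a) ^ 4 *
      (24 - 20 * c ^ 2 + c ^ 4) / c ^ 5)]
    push_cast
    rfl
  have hcpos : 0 < sg * c := by
    have h2 := (model_Signal hM ha hsg hc ht3).2.1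
    rw [hcC, ← Complex.ofReal_sub, Complex.norm_real, Real.norm_eq_abs] at h2
    have := abs_le.1 h2
    rcases hsg with h | h <;> rw [h] at hc ⊢ <;> linarith
  have hreal := real_Signal hM ha hK0 hsg hcpos (Real.abs_cos_le_one _)
  rw [← hmre] at hreal
  have hre := (Complex.abs_re_le_norm _).trans (hcau.trans hsmall)
  rw [Complex.sub_re] at hre
  have := abs_le.1 hre
  rcases hsg with h | h <;> rw [h] at hreal ⊢ <;> linarith

theorem signal4 : ∃ μ0 : ℝ, ∀ (k μ : ℝ), 0 < k → μ0 ≤ μ → μ ^ 100 = Lam k →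
    ∀ (p q e1 e2 : ℝ) (i : ℕ), Dir e1 e2 → BD μ (Lam k) (vr k p q e1 e2) i → 1 ≤ i →
    ∀ sg : ℝ, (sg = 1 ∨ sg = -1) → 1 / 500 ≤ sg * Real.cos (2 * Real.pi * orb k p q (i + 1)) →
    (∀ t : ℂ, ‖t‖ < 2 / (100000 * vn (vr k p q e1 e2) i) → vC k p q e1 e2 (i + 2) t ≠ 0) ∧
    ∀ t : ℝ, |t| ≤ 1 / (100000 * vn (vr k p q e1 e2) i) →
      vn (vr k p q e1 e2) i ^ 2 / Lam k ≤
        sg * (iteratedDeriv 4
          (fun s => 1 / (vC k p q e1 e2 (i + 1) s * vC k p q e1 e2 (i + 2) s)) (t : ℂ)).re := by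
  obtain ⟨μ1, hμ1⟩ := disc_top
  refine ⟨max μ1 10, fun k μ hk hμ hL p q e1 e2 i hD hB hi sg hsg hc => ?_⟩
  have hμ10 : 10 ≤ μ := (le_max_right _ _).trans hμ
  have hμ1' : 1 ≤ μ := by linarith
  obtain ⟨hM, ha, hd⟩ := hμ1 k μ hk ((le_max_left _ _).trans hμ) hL p q e1 e2 i hD hB hi
  set M : ℝ := vn (vr k p q e1 e2) i with hMdef
  have hE : 10 ^ 30 ≤ μ ^ 91 :=
    (pow_le_pow_left₀ (by norm_num) hμ10 30).trans (pow_le_pow_right₀ hμ1' (by norm_num))
  have h95 : 1 ≤ μ ^ 95 := one_le_pow₀ hμ1'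
  have hK : μ ^ 91 ≤ 2 * Real.pi * k := by
    have h9 : 10 ≤ μ ^ 9 := hμ10.trans (le_self_pow₀ hμ1' (by norm_num))
    have e : μ ^ 100 = μ ^ 9 * μ ^ 91 := by rw [← pow_add]
    have h1 : 1 ≤ μ ^ 91 := one_le_pow₀ hμ1'
    have h2 : 10 * μ ^ 91 ≤ μ ^ 9 * μ ^ 91 := by gcongr
    unfold Lam at hL
    linarith
  generalize μ ^ 91 = E at hd hE hK
  generalize μ ^ 95 = E5 at hd h95
  have hE0 : 0 < E := by linarith [show (0 : ℝ) < 10 ^ 30 by positivity]
  have hE1 : 1 ≤ E := by linarith [show (1 : ℝ) ≤ 10 ^ 30 by norm_num]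
  have hv2 : ∀ s, vC k p q e1 e2 (i + 2) s =
      (2 + ((2 * Real.pi * k : ℝ) : ℂ) * Complex.cos (2 * Real.pi * xC k p q e1 e2 (i + 1) s)) *
        vC k p q e1 e2 (i + 1) s - vC k p q e1 e2 i s := by
    intro s
    simp only [vC, fld, potC]
    push_cast
    rfl
  have hcore := core_Signal (differentiable_vC k p q e1 e2 (i + 1)) (differentiable_vC k p q e1 e2 i)
    (X := xC k p q e1 e2 (i + 1)) (fun t => (hasDerivAt_xC k p q e1 e2 (i + 1) t).differentiableAt)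
    hM ha hE hK hsg hc (fun t ht => by
      have hMt : M * ‖t‖ ≤ 3 / 100000 := by
        calc M * ‖t‖ ≤ M * (3 / (100000 * M)) := by gcongr
          _ = 3 / 100000 := by field_simp
      have hMt0 : 0 ≤ M * ‖t‖ := by positivity
      obtain ⟨h1, h2, h3⟩ := hd t (by rw [le_div_iff₀ hM]; linarith)
      refine ⟨h1.trans ?_, h2.trans (div_le_self hM.le h95), h3.trans ?_⟩
      · rw [show M ^ 2 * ‖t‖ = M * (M * ‖t‖) by ring]
        gcongr
        exact mul_le_of_le_one_right hM.le (by linarith)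
      · rw [show M ^ 2 * ‖t‖ ^ 2 = (M * ‖t‖) ^ 2 by ring, show 1 / (2 * E) = (1 / 2) / E by ring]
        gcongr
        nlinarith)
  refine ⟨fun t ht h0 => ?_, fun t ht => ?_⟩
  · have ht3 : ‖t‖ ≤ 3 / (100000 * M) := ht.le.trans (by gcongr; norm_num)
    apply hcore.1 t ht3
    rw [← hv2, h0, mul_zero]
  · have h := hcore.2 t ht
    simp only [← hv2] at h
    refine le_trans ?_ h
    have hK0 : 0 < 2 * Real.pi * k := by linarith
    gcongr
    unfold Lam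
    linarith

end Vale.Agent.P108
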