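import Vale.Agent.P108.Defs

/-!
P108 Mvt (part of Sixteen).
mvt16: put G m t = re (iteratedDeriv m G t); G m has derivative G (m+1) at real points of the ball
(holomorphic functions are analytic, HasDerivAt.real_of_complex).  Induction on m: from 2^m points
with gaps lam get xi between the first and the last with |G m xi| <= (2/lam)^m N (apply the
statement to both halves, the two points are lam apart, mean value theorem).
cover16: if A has no n + 1 points with gaps lam then A is covered by n intervals of length 2 lam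
(induction on n, start at the infimum; A is bounded).
cover_hole: cut [-del, R + del] into at most R / ell + 3 pieces of length ell (del <= ell); a piece
that meets A and G' lies in [a - ell, a + ell].  A point of G within del of a in A has a in G'.
-/

namespace Vale.Agent.P108

open MeasureTheory Set

theorem step_Mvt {g g' : ℝ → ℝ} {r lam N : ℝ} (hlam : 0 < lam)
    (hd : ∀ x, |x| ≤ r → HasDerivAt g (g' x) x) (n : ℕ)
    (h : ∃ t : ℕ → ℝ, (∀ l, l < 2 * n → |t l| ≤ r ∧ |g (t l)| ≤ N) ∧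
      ∀ l, l + 1 < 2 * n → t l + lam ≤ t (l + 1)) :
    ∃ t : ℕ → ℝ, (∀ l, l < n → |t l| ≤ r ∧ |g' (t l)| ≤ 2 * N / lam) ∧
      ∀ l, l + 1 < n → t l + lam ≤ t (l + 1) := by
  obtain ⟨t, h1, h2⟩ := h
  have key : ∀ l, ∃ s, l < n → t (2 * l) ≤ s ∧ s ≤ t (2 * l + 1) ∧ |g' s| ≤ 2 * N / lam := by
    intro l
    by_cases hl : l < n
    · have a1 := h1 (2 * l) (by omega)
      have a2 := h1 (2 * l + 1) (by omega)
      have a3 := h2 (2 * l) (by omega)
      have b1 := abs_le.1 a1.1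
      have b2 := abs_le.1 a2.1
      have hd' : ∀ x ∈ Icc (t (2 * l)) (t (2 * l + 1)), HasDerivAt g (g' x) x := fun x hx =>
        hd x (abs_le.2 ⟨by linarith [hx.1], by linarith [hx.2]⟩)
      obtain ⟨s, hs, e⟩ := exists_hasDerivAt_eq_slope g g' (by linarith : t (2 * l) < t (2 * l + 1))
        (fun x hx => (hd' x hx).continuousAt.continuousWithinAt)
        (fun x hx => hd' x (Ioo_subset_Icc_self hx))
      refine ⟨s, fun _ => ⟨hs.1.le, hs.2.le, ?_⟩⟩
      have c1 := abs_le.1 a1.2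
      have c2 := abs_le.1 a2.2
      have c3 : |g (t (2 * l + 1)) - g (t (2 * l))| ≤ 2 * N :=
        abs_le.2 ⟨by linarith, by linarith⟩
      rw [e, abs_div, abs_of_pos (by linarith : 0 < t (2 * l + 1) - t (2 * l))]
      exact div_le_div₀ ((abs_nonneg _).trans c3) c3 hlam (by linarith)
    · exact ⟨0, fun h => absurd h hl⟩
  choose s hs using key
  refine ⟨s, fun l hl => ⟨?_, (hs l hl).2.2⟩, fun l hl => ?_⟩
  · have b1 := abs_le.1 (h1 (2 * l) (by omega)).1
    have b2 := abs_le.1 (h1 (2 * l + 1) (by omega)).1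
    exact abs_le.2 ⟨by linarith [(hs l hl).1], by linarith [(hs l hl).2.1]⟩
  · have a1 := (hs l (by omega)).2.1
    have a2 := (hs (l + 1) hl).1
    have a3 := h2 (2 * l + 1) (by omega)
    rw [show 2 * (l + 1) = 2 * l + 1 + 1 by ring] at a2
    linarith

theorem deriv_Mvt {G : ℂ → ℂ} {ρ ρ' : ℝ} (hρ : ρ' < ρ)
    (hG : DifferentiableOn ℂ G (Metric.ball 0 ρ)) (m : ℕ) (x : ℝ) (hx : |x| ≤ ρ') :
    HasDerivAt (fun t : ℝ => (iteratedDeriv m G (t : ℂ)).re) (iteratedDeriv (m + 1) G (x : ℂ)).re x := by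
  have hb : (x : ℂ) ∈ Metric.ball (0 : ℂ) ρ := by
    rw [mem_ball_zero_iff, Complex.norm_real, Real.norm_eq_abs]
    linarith
  have h1 : AnalyticOnNhd ℂ G (Metric.ball 0 ρ) := hG.analyticOnNhd Metric.isOpen_ball
  have h2 : AnalyticAt ℂ (iteratedDeriv m G) (x : ℂ) := by
    rw [iteratedDeriv_eq_iterate]
    exact h1.iterated_deriv m _ hb
  rw [iteratedDeriv_succ]
  exact h2.differentiableAt.hasDerivAt.real_of_complex

theorem mvt16 {G : ℂ → ℂ} {ρ ρ' lam N : ℝ} (hρ : ρ' < ρ) (hlam : 0 < lam)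
    (hG : DifferentiableOn ℂ G (Metric.ball 0 ρ))
    (h16 : Sixteen {t : ℝ | |t| ≤ ρ' ∧ |(G t).re| ≤ N} lam) :
    ∃ ξ : ℝ, |ξ| ≤ ρ' ∧ |(iteratedDeriv 4 G (ξ : ℂ)).re| ≤ 16 * N / lam ^ 4 := by
  obtain ⟨t, h1, h2⟩ := h16
  have s1 := step_Mvt (N := N) hlam (deriv_Mvt hρ hG 0) 8
    ⟨t, fun l hl => by rw [iteratedDeriv_zero]; exact h1 l hl, fun l hl => h2 l (by omega)⟩
  have s2 := step_Mvt hlam (deriv_Mvt hρ hG 1) 4 s1
  have s3 := step_Mvt hlam (deriv_Mvt hρ hG 2) 2 s2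
  obtain ⟨s, s4, -⟩ := step_Mvt hlam (deriv_Mvt hρ hG 3) 1 s3
  refine ⟨s 0, (s4 0 one_pos).1, (s4 0 one_pos).2.trans (le_of_eq ?_)⟩
  field_simp
  ring

end Vale.Agent.P108
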