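import Vale.Agent.P108.Defs
import Vale.Agent.P108.Mvt

/-!
P108 Sixteen.
mvt16: put G m t = re (iteratedDeriv m G t); G m has derivative G (m+1) at real points of the ball
(holomorphic functions are analytic, HasDerivAt.real_of_complex).  Induction on m: from 2^m points
with gaps lam get xi between the first and the last with |G m xi| <= (2/lam)^m N (apply the
statement to both halves, the two points are lam apart, mean value theorem).
cover16: if A has no n + 1 points with gaps lam then A is covered by n intervals of length 2 lam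
(induction on n, start at the infimum; A is bounded).
cover_hole: cut [-del, R + del] into at most R / ell + 3 pieces of length ell (del <= ell); a piece
that meets A and G' lies in [a - ell, a + ell].  A point of G within del of a in A has a in G'.
-/

namespace Vale.Agent.P108

open MeasureTheory Set

theorem cov_Sixteen {lam del : ℝ} (hlam : 0 < lam) (hdel : 0 ≤ del) (n : ℕ) {A : Set ℝ}
    (hA : BddBelow A)
    (h : ¬ ∃ t : ℕ → ℝ, (∀ l, l < n + 1 → t l ∈ A) ∧ ∀ l, l < n → t l + lam ≤ t (l + 1)) :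
    volume {s | ∃ x ∈ A, |s - x| ≤ del} ≤ ENNReal.ofReal (n * (2 * lam + 2 * del)) := by
  induction n generalizing A with
  | zero =>
    have : {s | ∃ x ∈ A, |s - x| ≤ del} = ∅ := eq_empty_of_forall_notMem fun s ⟨x, hx, _⟩ =>
      h ⟨fun _ => x, fun _ _ => hx, fun l hl => absurd hl (Nat.not_lt_zero l)⟩
    rw [this, measure_empty]
    exact zero_le
  | succ n ih =>
    rcases A.eq_empty_or_nonempty with rfl | hne
    · simp
    obtain ⟨x₀, hx₀, hlt⟩ := exists_lt_of_csInf_lt hne (lt_add_of_pos_right (sInf A) hlam)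
    have h1 := ih (A := A ∩ Ici (sInf A + 2 * lam)) (hA.mono inter_subset_left) (by
      rintro ⟨t, ht1, ht2⟩
      refine h ⟨fun l => Nat.casesOn l x₀ t, fun l hl => ?_, fun l hl => ?_⟩
      · cases l with
        | zero => exact hx₀
        | succ l => exact (ht1 l (by omega)).1
      · cases l with
        | zero =>
          have : sInf A + 2 * lam ≤ t 0 := (ht1 0 (by omega)).2
          show x₀ + lam ≤ t 0
          linarith
        | succ l => exact ht2 l (by omega))
    have h2 : {s | ∃ x ∈ A, |s - x| ≤ del} ⊆ Icc (sInf A - del) (sInf A + 2 * lam + del) ∪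
        {s | ∃ x ∈ A ∩ Ici (sInf A + 2 * lam), |s - x| ≤ del} := by
      rintro s ⟨x, hx, hs⟩
      rcases le_total (sInf A + 2 * lam) x with h3 | h3
      · exact Or.inr ⟨x, ⟨hx, h3⟩, hs⟩
      · have h4 := csInf_le hA hx
        have h5 := abs_le.1 hs
        exact Or.inl ⟨by linarith [h5.1], by linarith [h5.2]⟩
    refine (measure_mono h2).trans ((measure_union_le _ _).trans ?_)
    rw [Real.volume_Icc]
    refine (add_le_add le_rfl h1).trans (le_of_eq ?_)
    rw [← ENNReal.ofReal_add (by linarith) (by positivity)]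
    congr 1
    push_cast
    ring

theorem cover16 {A : Set ℝ} {lam del a b : ℝ} (hlam : 0 < lam) (hdel : 0 ≤ del) (hA : A ⊆ Icc a b)
    (h : ¬ Sixteen A lam) :
    volume {s | ∃ x ∈ A, |s - x| ≤ del} ≤ ENNReal.ofReal (32 * (lam + del)) := by
  refine (cov_Sixteen hlam hdel 15 (bddBelow_Icc.mono hA) h).trans (ENNReal.ofReal_le_ofReal ?_)
  push_cast
  linarith

theorem cover_hole {A G G' : Set ℝ} {R ell lam del : ℝ} (hR : 0 ≤ R) (hell : 0 < ell)
    (hlam : 0 < lam) (hdel : 0 ≤ del) (hdl : del ≤ ell) (hG : MeasurableSet G) (hGR : G ⊆ Icc 0 R)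
    (hG' : ∀ s ∈ G, ∀ s', |s' - s| ≤ del → s' ∈ G')
    (hno : ∀ a ∈ A ∩ G', ¬ Sixteen (A ∩ G' ∩ Icc (a - ell) (a + ell)) lam) :
    volume {s | s ∈ Icc 0 R ∧ ∃ a ∈ A, |s - a| ≤ del} + volume G ≤
      ENNReal.ofReal (R + 32 * (lam + del) * (R / ell + 3)) := by
  set N := {s | s ∈ Icc 0 R ∧ ∃ a ∈ A, |s - a| ≤ del} with hN
  set M := ⌊R / ell⌋₊ + 3 with hM
  let P : ℕ → Set ℝ := fun i => A ∩ G' ∩ Icc (i * ell - ell) (i * ell)
  have hP : ∀ i, ¬ Sixteen (P i) lam := by
    rintro i ⟨t, ht1, ht2⟩
    obtain ⟨h0, h1, h2⟩ := ht1 0 (by norm_num)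
    refine hno (t 0) h0 ⟨t, fun l hl => ?_, ht2⟩
    obtain ⟨k0, k1, k2⟩ := ht1 l hl
    exact ⟨k0, by linarith, by linarith⟩
  have h1 : N ∩ G ⊆ ⋃ i ∈ Finset.range M, {s | ∃ x ∈ P i, |s - x| ≤ del} := by
    rintro s ⟨⟨hs, a, ha, hsa⟩, hsG⟩
    have h2 := abs_le.1 hsa
    have h3 : 0 ≤ (a + ell) / ell := div_nonneg (by linarith [hs.1, h2.2]) hell.le
    have h4 := Nat.floor_le h3
    have h5 := Nat.lt_floor_add_one ((a + ell) / ell)
    have h6 : ⌊(a + ell) / ell⌋₊ < M := by
      rw [Nat.floor_lt h3, hM]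
      have h7 := Nat.lt_floor_add_one (R / ell)
      have h8 : (a + ell) / ell ≤ R / ell + 2 := by
        rw [div_add' _ _ _ hell.ne']
        exact div_le_div_of_nonneg_right (by linarith [hs.2, h2.1]) hell.le
      push_cast
      linarith
    rw [le_div_iff₀ hell] at h4
    rw [div_lt_iff₀ hell] at h5
    exact mem_biUnion (Finset.mem_coe.2 (Finset.mem_range.2 h6))
      ⟨a, ⟨⟨ha, hG' s hsG a (by rwa [abs_sub_comm])⟩, by linarith, by linarith⟩, hsa⟩
  have h2 : volume (N ∩ G) ≤ ENNReal.ofReal (32 * (lam + del) * (R / ell + 3)) := by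
    refine (measure_mono h1).trans ((measure_biUnion_finset_le _ _).trans ?_)
    refine (Finset.sum_le_card_nsmul _ _ (ENNReal.ofReal (32 * (lam + del))) fun i _ =>
      cover16 hlam hdel inter_subset_right (hP i)).trans ?_
    rw [Finset.card_range, ← ENNReal.ofReal_nsmul, nsmul_eq_mul, mul_comm]
    refine ENNReal.ofReal_le_ofReal (mul_le_mul_of_nonneg_left ?_ (by positivity))
    have := Nat.floor_le (div_nonneg hR hell.le)
    rw [hM]
    push_cast
    linarith
  have h3 : volume (N \ G) + volume G ≤ ENNReal.ofReal R := by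
    rw [← measure_union disjoint_sdiff_left hG]
    refine (measure_mono (t := Icc 0 R) (union_subset (fun s hs => hs.1.1) hGR)).trans ?_
    rw [Real.volume_Icc, sub_zero]
  rw [← measure_diff_add_inter N hG, add_right_comm, ENNReal.ofReal_add hR (by positivity)]
  exact add_le_add h3 h2

end Vale.Agent.P108
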