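import Vale.Agent.P108.Smooth
import Vale.Agent.P108.Signal
import Vale.Agent.P108.Sixteen

/-!
P108 LemA: near a good point the two slopes cannot agree at sixteen separated points.
Right chain (p, q, e1, e2) with index i, left chain (q, p, e2, e1) with index i'.
G t = wC (i+2) / vC (i+2) - wC' (i'+2) / vC' (i'+2).  By FldOn.wronsk,
wC (i+2) / vC (i+2) = wC (i+1) / vC (i+1) - (e2 - e1) / (vC (i+1) vC (i+2)) on the right and the
same with (e1 - e2) on the left (the Wronskian of wC, vC is e2^2 - e1^2 = e2 - e1), so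
G = smooth - smooth' - (e2 - e1) (s + s') on the ball of radius 2 / (100000 Mx).  smooth4 and
signal4 (same sign sg on both chains, from Gd) give |re G''''| >= Mx^2 / L - 2 Mx^2 / mu^150,
while mvt16 gives at most 16 mu^15 mu^40 Mx^4 / (L^3 Mn^2) <= 16 Mx^2 / mu^125.
-/

namespace Vale.Agent.P108

theorem d4sub_LemA {F G H : ℂ → ℂ} {r : ℝ} {c t : ℂ} (ht : t ∈ Metric.ball (0 : ℂ) r)
    (hG : DifferentiableOn ℂ G (Metric.ball 0 r)) (hH : DifferentiableOn ℂ H (Metric.ball 0 r))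
    (hF : ∀ s ∈ Metric.ball (0 : ℂ) r, F s = G s - c * H s) :
    iteratedDeriv 4 F t = iteratedDeriv 4 G t - c * iteratedDeriv 4 H t := by
  have hn : Metric.ball (0 : ℂ) r ∈ nhds t := Metric.isOpen_ball.mem_nhds ht
  have hGa : ContDiffAt ℂ (4 : ℕ) G t := (hG.analyticAt hn).contDiffAt
  have hHa : ContDiffAt ℂ (4 : ℕ) H t := (hH.analyticAt hn).contDiffAt
  have hE : F =ᶠ[nhds t] (G - fun s => c * H s) := by
    filter_upwards [hn] with s hs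
    simpa using hF s hs
  rw [hE.iteratedDeriv_eq, iteratedDeriv_sub hGa (contDiffAt_const.mul hHa),
    iteratedDeriv_const_mul c hHa]

theorem wr_LemA (k p q e1 e2 : ℝ) (hD : Dir e1 e2) (j : ℕ) (t : ℂ) :
    wC k p q e1 e2 j t * vC k p q e1 e2 (j + 1) t - wC k p q e1 e2 (j + 1) t * vC k p q e1 e2 j t =
      ((e2 - e1 : ℝ) : ℂ) := by
  have h := FldOn.wronsk (fld_fldOn (fun l => potC k (xC k p q e1 e2 l t)) (e2 : ℂ) (e1 : ℂ) j)
    (fld_fldOn (fun l => potC k (xC k p q e1 e2 l t)) (e1 : ℂ) (e2 : ℂ) j) j le_rfl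
  unfold wC vC
  rw [h]
  rcases hD with ⟨h1, h2⟩ | ⟨h1, h2⟩ <;> subst h1 <;> subst h2 <;> simp [fld]

theorem chain_LemA : ∃ μ0 : ℝ, ∀ (k μ : ℝ), 0 < k → μ0 ≤ μ → μ ^ 100 = Lam k →
    ∀ (p q e1 e2 : ℝ) (i : ℕ), Dir e1 e2 → BD μ (Lam k) (vr k p q e1 e2) i → 1 ≤ i →
    ∀ sg : ℝ, (sg = 1 ∨ sg = -1) → 1 / 500 ≤ sg * Real.cos (2 * Real.pi * orb k p q (i + 1)) →
    0 < vn (vr k p q e1 e2) i ∧
    DifferentiableOn ℂ (fun t => wC k p q e1 e2 (i + 2) t / vC k p q e1 e2 (i + 2) t)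
      (Metric.ball 0 (2 / (100000 * vn (vr k p q e1 e2) i))) ∧
    ∀ t : ℝ, |t| ≤ 1 / (100000 * vn (vr k p q e1 e2) i) →
      vn (vr k p q e1 e2) i ^ 2 / Lam k - vn (vr k p q e1 e2) i ^ 2 / μ ^ 150 ≤
        -(e2 - e1) * sg * (iteratedDeriv 4
          (fun t => wC k p q e1 e2 (i + 2) t / vC k p q e1 e2 (i + 2) t) (t : ℂ)).re := by
  obtain ⟨m1, h1⟩ := smooth4
  obtain ⟨m2, h2⟩ := signal4
  obtain ⟨m3, h3⟩ := disc_top
  refine ⟨max (max m1 m2) (max m3 1), ?_⟩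
  intro k μ hk hμ hL p q e1 e2 i hD hB hi sg hsg hc
  have hm1 : m1 ≤ μ := le_trans (le_trans (le_max_left _ _) (le_max_left _ _)) hμ
  have hm2 : m2 ≤ μ := le_trans (le_trans (le_max_right _ _) (le_max_left _ _)) hμ
  have hm3 : m3 ≤ μ := le_trans (le_trans (le_max_left _ _) (le_max_right _ _)) hμ
  have hm4 : 1 ≤ μ := le_trans (le_trans (le_max_right _ _) (le_max_right _ _)) hμ
  obtain ⟨hSd, hS4⟩ := h1 k μ hk hm1 hL p q e1 e2 i hD hB hi
  obtain ⟨hv2, hs4⟩ := h2 k μ hk hm2 hL p q e1 e2 i hD hB hi sg hsg hc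
  obtain ⟨hM, habs, htop⟩ := h3 k μ hk hm3 hL p q e1 e2 i hD hB hi
  generalize hMd : vn (vr k p q e1 e2) i = M at *
  have hP : 1 ≤ μ ^ 91 := one_le_pow₀ hm4
  generalize μ ^ 91 = P at *
  have hr1 : 2 / (100000 * M) ≤ P / M := by
    rw [div_le_div_iff₀ (by positivity) hM]
    nlinarith [mul_le_mul_of_nonneg_right hP hM.le]
  have hr2 : 1 / (100000 * M) ≤ P / (2 * M) := by
    rw [div_le_div_iff₀ (by positivity) (by positivity)]
    nlinarith [mul_le_mul_of_nonneg_right hP hM.le]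
  have hr3 : 1 / (100000 * M) < 2 / (100000 * M) := by
    apply div_lt_div_of_pos_right (by norm_num) (by positivity)
  have hv1 : ∀ t ∈ Metric.ball (0 : ℂ) (2 / (100000 * M)), vC k p q e1 e2 (i + 1) t ≠ 0 := by
    intro t ht h0
    have ht' : ‖t‖ < 2 / (100000 * M) := by simpa using ht
    have h := (htop t (le_trans ht'.le hr1)).1
    rw [h0, zero_sub, norm_neg, Complex.norm_real, Real.norm_eq_abs, habs,
      le_div_iff₀ (by positivity)] at h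
    rw [lt_div_iff₀ (by positivity)] at ht'
    have h5 : M * 1 ≤ M * P := mul_le_mul_of_nonneg_left hP hM.le
    have h6 : M * (‖t‖ * (100000 * M)) < M * 2 := mul_lt_mul_of_pos_left ht' hM
    nlinarith
  have hv2' : ∀ t ∈ Metric.ball (0 : ℂ) (2 / (100000 * M)), vC k p q e1 e2 (i + 2) t ≠ 0 := by
    intro t ht
    exact hv2 t (by simpa using ht)
  have hFd : DifferentiableOn ℂ (fun t => wC k p q e1 e2 (i + 2) t / vC k p q e1 e2 (i + 2) t)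
      (Metric.ball 0 (2 / (100000 * M))) :=
    (differentiable_wC k p q e1 e2 (i + 2)).differentiableOn.div
      (differentiable_vC k p q e1 e2 (i + 2)).differentiableOn hv2'
  refine ⟨hM, hFd, ?_⟩
  intro t ht
  have hsd : DifferentiableOn ℂ
      (fun s => 1 / (vC k p q e1 e2 (i + 1) s * vC k p q e1 e2 (i + 2) s))
      (Metric.ball 0 (2 / (100000 * M))) :=
    (differentiableOn_const _).div
      ((differentiable_vC k p q e1 e2 (i + 1)).differentiableOn.mul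
        (differentiable_vC k p q e1 e2 (i + 2)).differentiableOn)
      (fun s hs => mul_ne_zero (hv1 s hs) (hv2' s hs))
  have htn : ‖(t : ℂ)‖ ≤ 1 / (100000 * M) := by
    rw [Complex.norm_real, Real.norm_eq_abs]; exact ht
  have htb : (t : ℂ) ∈ Metric.ball (0 : ℂ) (2 / (100000 * M)) := by
    rw [mem_ball_zero_iff]; exact lt_of_le_of_lt htn hr3
  have hid := d4sub_LemA (F := fun t => wC k p q e1 e2 (i + 2) t / vC k p q e1 e2 (i + 2) t)
    (c := ((e2 - e1 : ℝ) : ℂ)) htb (hSd.mono (Metric.ball_subset_ball hr1)) hsd (by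
      intro s hs
      have ha := hv1 s hs
      have hb := hv2' s hs
      have hw := wr_LemA k p q e1 e2 hD (i + 1) s
      rw [← hw]
      field_simp
      ring)
  rw [hid]
  have hA := hS4 (t : ℂ) (le_trans htn hr2)
  have hB' := hs4 t ht
  have hA' := abs_le.mp (le_trans (Complex.abs_re_le_norm _) hA)
  rw [Complex.sub_re, Complex.re_ofReal_mul]
  generalize (iteratedDeriv 4 (fun t => wC k p q e1 e2 (i + 1) t / vC k p q e1 e2 (i + 1) t)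
    (t : ℂ)).re = x at *
  generalize (iteratedDeriv 4
    (fun s => 1 / (vC k p q e1 e2 (i + 1) s * vC k p q e1 e2 (i + 2) s)) (t : ℂ)).re = y at *
  obtain ⟨hA1, hA2⟩ := hA'
  rcases hD with ⟨h1, h2⟩ | ⟨h1, h2⟩ <;> rcases hsg with h3 | h3 <;> subst h1 <;> subst h2 <;>
    subst h3 <;> linarith

theorem arith_LemA {μ Mx Mn a b L : ℝ} (hμ : 2 ≤ μ) (hL : μ ^ 100 = L) (ha : 0 < a) (hb : 0 < b)
    (hMx : Mx = max a b) (hMn : Mn = min a b) (hle : Mx ≤ μ ^ 60 * Mn)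
    (h : a ^ 2 / L - a ^ 2 / μ ^ 150 + (b ^ 2 / L - b ^ 2 / μ ^ 150) ≤
      16 * (μ ^ 15 / (L ^ 3 * Mn ^ 2)) / (1 / (μ ^ 10 * Mx)) ^ 4) : False := by
  have hμ0 : 0 < μ := by linarith
  have hMn0 : 0 < Mn := by rw [hMn]; exact lt_min ha hb
  have hMx0 : 0 < Mx := by rw [hMx]; exact lt_max_of_lt_left ha
  have hsq : Mx ^ 2 ≤ a ^ 2 + b ^ 2 := by
    rw [hMx]
    rcases max_choice a b with h1 | h1 <;> rw [h1] <;> nlinarith [sq_nonneg a, sq_nonneg b]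
  obtain ⟨u, hu⟩ : ∃ u, u = μ ^ 5 := ⟨_, rfl⟩
  have hu32 : 32 ≤ u := by
    rw [hu]
    calc (32 : ℝ) = 2 ^ 5 := by norm_num
      _ ≤ μ ^ 5 := pow_le_pow_left₀ (by norm_num) hμ 5
  have hu0 : 0 < u := by linarith
  have e1 : L = u ^ 20 := by rw [← hL, hu, ← pow_mul]
  have e2 : μ ^ 150 = u ^ 30 := by rw [hu, ← pow_mul]
  have e3 : μ ^ 15 = u ^ 3 := by rw [hu, ← pow_mul]
  have e4 : μ ^ 10 = u ^ 2 := by rw [hu, ← pow_mul]
  have e5 : μ ^ 60 = u ^ 12 := by rw [hu, ← pow_mul]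
  rw [e1, e2, e3, e4] at h
  rw [e5] at hle
  have hsq2 : Mx ^ 2 ≤ u ^ 24 * Mn ^ 2 := by
    calc Mx ^ 2 ≤ (u ^ 12 * Mn) ^ 2 := pow_le_pow_left₀ hMx0.le hle 2
      _ = u ^ 24 * Mn ^ 2 := by ring
  have hup : 16 * (u ^ 3 / ((u ^ 20) ^ 3 * Mn ^ 2)) / (1 / (u ^ 2 * Mx)) ^ 4 ≤
      16 * Mx ^ 2 / u ^ 25 := by
    have e6 : 16 * (u ^ 3 / ((u ^ 20) ^ 3 * Mn ^ 2)) / (1 / (u ^ 2 * Mx)) ^ 4 =
        16 * Mx ^ 2 / u ^ 25 * (Mx ^ 2 / (u ^ 24 * Mn ^ 2)) := by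
      field_simp
    rw [e6]
    have h7 : Mx ^ 2 / (u ^ 24 * Mn ^ 2) ≤ 1 := by
      rw [div_le_one (by positivity)]; exact hsq2
    exact mul_le_of_le_one_right (by positivity) h7
  have hu10 : 2 ≤ u ^ 10 := by
    calc (2 : ℝ) ≤ u := by linarith
      _ ≤ u ^ 10 := le_self_pow₀ (by linarith) (by norm_num)
  have hu5 : 32 < u ^ 5 := by
    have h1 : u ^ 2 ≤ u ^ 5 := pow_le_pow_right₀ (by linarith) (by norm_num)
    nlinarith
  have hlow : Mx ^ 2 / (2 * u ^ 20) ≤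
      a ^ 2 / u ^ 20 - a ^ 2 / u ^ 30 + (b ^ 2 / u ^ 20 - b ^ 2 / u ^ 30) := by
    have e7 : a ^ 2 / u ^ 20 - a ^ 2 / u ^ 30 + (b ^ 2 / u ^ 20 - b ^ 2 / u ^ 30) =
        (a ^ 2 + b ^ 2) / (2 * u ^ 20) * (2 - 2 / u ^ 10) := by
      field_simp
    rw [e7]
    have h8 : 2 / u ^ 10 ≤ 1 := by rw [div_le_one (by positivity)]; exact hu10
    calc Mx ^ 2 / (2 * u ^ 20) ≤ (a ^ 2 + b ^ 2) / (2 * u ^ 20) :=
          div_le_div_of_nonneg_right hsq (by positivity)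
      _ ≤ (a ^ 2 + b ^ 2) / (2 * u ^ 20) * (2 - 2 / u ^ 10) :=
          le_mul_of_one_le_right (by positivity) (by linarith)
  have hfin : Mx ^ 2 / (2 * u ^ 20) ≤ 16 * Mx ^ 2 / u ^ 25 := le_trans hlow (le_trans h hup)
  rw [div_le_div_iff₀ (by positivity) (by positivity)] at hfin
  have h9 : 0 < Mx ^ 2 * u ^ 20 := by positivity
  have h10 : Mx ^ 2 * u ^ 20 * 32 < Mx ^ 2 * u ^ 20 * u ^ 5 := mul_lt_mul_of_pos_left hu5 h9
  have e8 : Mx ^ 2 * u ^ 25 = Mx ^ 2 * u ^ 20 * u ^ 5 := by ring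
  have e9 : 16 * Mx ^ 2 * (2 * u ^ 20) = Mx ^ 2 * u ^ 20 * 32 := by ring
  rw [e8, e9] at hfin
  linarith

theorem lemA : ∃ μ0 : ℝ, ∀ (k μ : ℝ), 0 < k → μ0 ≤ μ → μ ^ 100 = Lam k →
    ∀ (p q e1 e2 : ℝ) (i i' : ℕ) (Mx Mn : ℝ), Dir e1 e2 → 1 ≤ i → 1 ≤ i' →
    BD μ (Lam k) (vr k p q e1 e2) i → BD μ (Lam k) (vr k q p e2 e1) i' →
    Mx = max (vn (vr k p q e1 e2) i) (vn (vr k q p e2 e1) i') →
    Mn = min (vn (vr k p q e1 e2) i) (vn (vr k q p e2 e1) i') → Mx ≤ μ ^ 60 * Mn →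
    Gd (orb k p q (i + 1)) (orb k q p (i' + 1)) →
    ¬ Sixteen {t : ℝ | |t| ≤ 1 / (100000 * Mx) ∧
      |fld (Vo k (p + e1 * t) (q + e2 * t)) e2 e1 (i + 2) /
          vr k (p + e1 * t) (q + e2 * t) e1 e2 (i + 2) -
        fld (Vo k (q + e2 * t) (p + e1 * t)) e1 e2 (i' + 2) /
          vr k (q + e2 * t) (p + e1 * t) e2 e1 (i' + 2)| ≤ μ ^ 15 / (Lam k ^ 3 * Mn ^ 2)}
      (1 / (μ ^ 10 * Mx)) := by
  obtain ⟨m1, h1⟩ := chain_LemA
  refine ⟨max m1 2, ?_⟩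
  intro k μ hk hμ hL p q e1 e2 i i' Mx Mn hD hi hi' hB hB' hMx hMn hle hG h16
  have hm1 : m1 ≤ μ := le_trans (le_max_left _ _) hμ
  have hm2 : 2 ≤ μ := le_trans (le_max_right _ _) hμ
  have hD' : Dir e2 e1 := by
    rcases hD with ⟨a, b⟩ | ⟨a, b⟩
    · exact Or.inr ⟨b, a⟩
    · exact Or.inl ⟨b, a⟩
  obtain ⟨sg, hsg, hc, hc'⟩ : ∃ sg : ℝ, (sg = 1 ∨ sg = -1) ∧
      1 / 500 ≤ sg * Real.cos (2 * Real.pi * orb k p q (i + 1)) ∧
      1 / 500 ≤ sg * Real.cos (2 * Real.pi * orb k q p (i' + 1)) := by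
    rcases hG with ⟨a, b⟩ | ⟨a, b⟩
    · exact ⟨1, Or.inl rfl, by linarith, by linarith⟩
    · exact ⟨-1, Or.inr rfl, by linarith, by linarith⟩
  obtain ⟨ha, hFd, hF4⟩ := h1 k μ hk hm1 hL p q e1 e2 i hD hB hi sg hsg hc
  obtain ⟨hb, hFd', hF4'⟩ := h1 k μ hk hm1 hL q p e2 e1 i' hD' hB' hi' sg hsg hc'
  generalize vn (vr k p q e1 e2) i = a at *
  generalize vn (vr k q p e2 e1) i' = b at *
  have haM : a ≤ Mx := by rw [hMx]; exact le_max_left _ _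
  have hbM : b ≤ Mx := by rw [hMx]; exact le_max_right _ _
  have hMx0 : 0 < Mx := lt_of_lt_of_le ha haM
  have hμ0 : 0 < μ := by linarith
  have hr : ∀ c x : ℝ, 0 ≤ c → 0 < x → x ≤ Mx → c / (100000 * Mx) ≤ c / (100000 * x) := by
    intro c x hc0 hx hxM
    exact div_le_div_of_nonneg_left hc0 (by positivity) (by linarith)
  have hr3 : 1 / (100000 * Mx) < 2 / (100000 * Mx) := by
    apply div_lt_div_of_pos_right (by norm_num) (by positivity)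
  have hFe := hFd.mono (Metric.ball_subset_ball (hr 2 a (by norm_num) ha haM))
  have hFe' := hFd'.mono (Metric.ball_subset_ball (hr 2 b (by norm_num) hb hbM))
  have hGd : DifferentiableOn ℂ (fun t => wC k p q e1 e2 (i + 2) t / vC k p q e1 e2 (i + 2) t -
      wC k q p e2 e1 (i' + 2) t / vC k q p e2 e1 (i' + 2) t)
      (Metric.ball 0 (2 / (100000 * Mx))) := hFe.sub hFe'
  obtain ⟨ξ, hξ, hξ4⟩ := mvt16 (N := μ ^ 15 / (Lam k ^ 3 * Mn ^ 2)) hr3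
    (show 0 < 1 / (μ ^ 10 * Mx) by positivity) hGd (by
      obtain ⟨t, ht1, ht2⟩ := h16
      refine ⟨t, fun l hl => ⟨(ht1 l hl).1, ?_⟩, ht2⟩
      have h := (ht1 l hl).2
      simp only [wC_ofReal, vC_ofReal]
      rw [← Complex.ofReal_div, ← Complex.ofReal_div, ← Complex.ofReal_sub, Complex.ofReal_re]
      exact h)
  have hξb : (ξ : ℂ) ∈ Metric.ball (0 : ℂ) (2 / (100000 * Mx)) := by
    rw [mem_ball_zero_iff, Complex.norm_real, Real.norm_eq_abs]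
    exact lt_of_le_of_lt hξ hr3
  have hid := d4sub_LemA (F := fun t => wC k p q e1 e2 (i + 2) t / vC k p q e1 e2 (i + 2) t -
      wC k q p e2 e1 (i' + 2) t / vC k q p e2 e1 (i' + 2) t) (c := 1) hξb hFe hFe' (by
      intro s _
      rw [one_mul])
  rw [hid, one_mul, Complex.sub_re] at hξ4
  have hx := hF4 ξ (le_trans hξ (hr 1 a (by norm_num) ha haM))
  have hy := hF4' ξ (le_trans hξ (hr 1 b (by norm_num) hb hbM))
  refine arith_LemA hm2 hL ha hb hMx hMn hle (le_trans ?_ hξ4)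
  generalize (iteratedDeriv 4 (fun t => wC k p q e1 e2 (i + 2) t / vC k p q e1 e2 (i + 2) t)
    (ξ : ℂ)).re = x at *
  generalize (iteratedDeriv 4 (fun t => wC k q p e2 e1 (i' + 2) t / vC k q p e2 e1 (i' + 2) t)
    (ξ : ℂ)).re = y at *
  have hp := le_abs_self (x - y)
  have hn := neg_abs_le (x - y)
  rcases hD with ⟨h1, h2⟩ | ⟨h1, h2⟩ <;> rcases hsg with h3 | h3 <;> subst h1 <;> subst h2 <;>
    subst h3 <;> linarith

end Vale.Agent.P108
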