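import Vale.Agent.P108.Lin

/-!
P108 LemC: the contraction lemma.  Write rho i = (Q i, P i) for the rows, so xi i = rho i . y with
y = (xi 0, xi 1), N j = nrm V j.  For 1 <= j <= n let l j be the larger (l1 norm) of the rows
rho j, rho (j+1), so |l j| >= N j / 2 >= lam^j / 4 with lam = L / g.  Put b j = |l j . y| / |l j|.
Pluecker identity for covectors a, b, c in the plane: (a^b)(c.y) + (b^c)(a.y) + (c^a)(b.y) = 0.
With c a coordinate covector such that |l (j+1) ^ c| >= |l (j+1)| / 2, and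
|l j ^ l (j+1)| in {0, 1, |V (j+1)|} (Wronskian), get b j <= 32 L |y| / lam^(2j+1) + 2 b (j+1).
Downward induction: b j <= 64 L |y| / lam^(2j+1) + 2^(n-j) b n, and b n <= 2 vn xi n / N n.
The smaller row l' has l' ^ l = +-1, so |l' . y| <= 2 |l . y| + 2 |y| / |l|.
Finally |l j| <= N j <= L^j.
-/

namespace Vale.Agent.P108

/-- l1 norm of a row -/
def rw_LemC (V : ℕ → ℝ) (i : ℕ) : ℝ := |fld V 1 0 i| + |fld V 0 1 i|

/-- index of the larger row -/
noncomputable def ixx_LemC (V : ℕ → ℝ) (j : ℕ) : ℕ := if rw_LemC V j ≤ rw_LemC V (j + 1) then j + 1 else j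

theorem ix_LemC (V : ℕ → ℝ) (j : ℕ) : (ixx_LemC V j = j ∨ ixx_LemC V j = j + 1) ∧
    nrm V j ≤ 2 * rw_LemC V (ixx_LemC V j) ∧ rw_LemC V (ixx_LemC V j) ≤ nrm V j ∧
      rw_LemC V j ≤ rw_LemC V (ixx_LemC V j) ∧ rw_LemC V (j + 1) ≤ rw_LemC V (ixx_LemC V j) := by
  have e : nrm V j = rw_LemC V j + rw_LemC V (j + 1) := by
    rw [nrm, rw_LemC, rw_LemC]
    ring
  have h0 : ∀ i, 0 ≤ rw_LemC V i := fun i => add_nonneg (abs_nonneg _) (abs_nonneg _)
  have h1 := h0 j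
  have h2 := h0 (j + 1)
  rw [ixx_LemC]
  split_ifs with h
  · exact ⟨Or.inr rfl, by linarith, by linarith, h, le_rfl⟩
  · exact ⟨Or.inl rfl, by linarith, by linarith, le_rfl, by linarith⟩

theorem pl_LemC {V ξ : ℕ → ℝ} {n i k : ℕ} (hξ : FldOn V ξ n) (hi : i ≤ n + 1) (hk : k ≤ n + 1)
    {B : ℝ} (hB : |fld V 1 0 i * fld V 0 1 k - fld V 1 0 k * fld V 0 1 i| ≤ B) :
    rw_LemC V k * |ξ i| ≤ 2 * B * vn ξ 0 + rw_LemC V i * |ξ k| := by
  have a0 : |ξ 0| ≤ vn ξ 0 := le_max_left _ _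
  have a1 : |ξ 1| ≤ vn ξ 0 := le_max_right _ _
  have e1 : fld V 0 1 k * ξ i = (fld V 1 0 i * fld V 0 1 k - fld V 1 0 k * fld V 0 1 i) * ξ 0 +
      fld V 0 1 i * ξ k := by
    rw [hξ.eq_comb i hi, hξ.eq_comb k hk]
    ring
  have e2 : fld V 1 0 k * ξ i = fld V 1 0 i * ξ k -
      (fld V 1 0 i * fld V 0 1 k - fld V 1 0 k * fld V 0 1 i) * ξ 1 := by
    rw [hξ.eq_comb i hi, hξ.eq_comb k hk]
    ring
  have b1 := (congrArg abs e1).trans_le (abs_add_le _ _)
  have b2 := (congrArg abs e2).trans_le (abs_sub _ _)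
  have c0 := mul_le_mul hB a0 (abs_nonneg _) ((abs_nonneg _).trans hB)
  have c1 := mul_le_mul hB a1 (abs_nonneg _) ((abs_nonneg _).trans hB)
  simp only [abs_mul] at b1 b2
  rw [rw_LemC, rw_LemC]
  linarith

theorem wr_LemC (V : ℕ → ℝ) (j : ℕ) :
    fld V 1 0 j * fld V 0 1 (j + 1) - fld V 1 0 (j + 1) * fld V 0 1 j = 1 := by
  rw [(fld_fldOn V 1 0 j).wronsk (fld_fldOn V 0 1 j) j le_rfl]
  simp [fld]

theorem vn_LemC {V ξ : ℕ → ℝ} {n j : ℕ} (hξ : FldOn V ξ n) (hj : j ≤ n) :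
    vn ξ j ≤ 2 * vn ξ 0 / rw_LemC V (ixx_LemC V j) + |ξ (ixx_LemC V j)| := by
  obtain ⟨h1, h2, -, h3, h4⟩ := ix_LemC V j
  have r0 : 0 < rw_LemC V (ixx_LemC V j) := by linarith [two_le_nrm V j]
  have w := wr_LemC V j
  have key : ∀ i, (i = j ∨ i = j + 1) → rw_LemC V i ≤ rw_LemC V (ixx_LemC V j) →
      |ξ i| ≤ 2 * vn ξ 0 / rw_LemC V (ixx_LemC V j) + |ξ (ixx_LemC V j)| := fun i hi hr => by
    have h5 := pl_LemC (i := i) (k := ixx_LemC V j) (B := 1) hξ (by omega) (by omega) (by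
      rw [abs_le]
      rcases hi with rfl | rfl <;> rcases h1 with e | e <;> rw [e] <;> constructor <;> linarith)
    have h6 := mul_le_mul_of_nonneg_right hr (abs_nonneg (ξ (ixx_LemC V j)))
    rw [← sub_le_iff_le_add, le_div_iff₀' r0]
    linarith
  exact max_le (key j (Or.inl rfl) h3) (key (j + 1) (Or.inr rfl) h4)

theorem ind_LemC {L lam : ℝ} {V : ℕ → ℝ} (hV : ∀ j, |V j| ≤ L - 2) (hl : 2 ≤ lam) (L0 : 0 < L)
    {n : ℕ} (hfree : ∀ j, 1 ≤ j → j ≤ n → lam ^ j / 2 ≤ nrm V j) {ξ : ℕ → ℝ}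
    (hξ : FldOn V ξ n) {j : ℕ} (hj1 : 1 ≤ j) (hjn : j ≤ n) :
    |ξ (ixx_LemC V j)| / rw_LemC V (ixx_LemC V j) ≤ 64 * L / lam ^ (2 * j + 1) * vn ξ 0 +
      |ξ (ixx_LemC V n)| / rw_LemC V (ixx_LemC V n) := by
  have Y0 := vn_nonneg ξ 0
  have l0 : 0 < lam := by linarith
  induction hjn using Nat.decreasingInduction with
  | self => exact le_add_of_nonneg_left (by positivity)
  | of_succ j hj ih =>
    obtain ⟨a1, a2, -⟩ := ix_LemC V j
    obtain ⟨b1, b2, -⟩ := ix_LemC V (j + 1)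
    have w1 := wr_LemC V j
    have w2 := wr_LemC V (j + 1)
    have w3 : fld V 1 0 j * fld V 0 1 (j + 1 + 1) - fld V 1 0 (j + 1 + 1) * fld V 0 1 j =
        V (j + 1) := by
      rw [fld, fld]
      linear_combination V (j + 1) * w1
    have hv := abs_le.1 (hV (j + 1))
    have h1 := pl_LemC (i := ixx_LemC V j) (k := ixx_LemC V (j + 1)) (B := L) hξ (by omega) (by omega) (by
      rw [abs_le]
      rcases a1 with e | e <;> rcases b1 with e' | e' <;> rw [e, e'] <;> constructor <;> linarith)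
    have p1 : 0 < lam ^ j := by positivity
    have p2 : 0 < lam ^ (j + 1) := by positivity
    have r1 : lam ^ j / 4 ≤ rw_LemC V (ixx_LemC V j) := by linarith [hfree j hj1 hj.le]
    have r2 : lam ^ (j + 1) / 4 ≤ rw_LemC V (ixx_LemC V (j + 1)) := by
      linarith [hfree (j + 1) (by omega) hj]
    have h2 := ih (by omega)
    generalize rw_LemC V (ixx_LemC V j) = r at h1 r1 ⊢
    generalize rw_LemC V (ixx_LemC V (j + 1)) = r' at h1 r2 h2
    have q1 : 0 < r := by linarith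
    have q2 : 0 < r' := by linarith
    have h3 : |ξ (ixx_LemC V j)| / r ≤ 2 * L * vn ξ 0 / (r * r') + |ξ (ixx_LemC V (j + 1))| / r' := by
      refine le_of_mul_le_mul_left ((?_ : _ = r' * |ξ (ixx_LemC V j)|).trans_le (h1.trans_eq ?_))
        (mul_pos q1 q2) <;> field_simp
    have h4 : 2 * L * vn ξ 0 / (r * r') ≤ 32 * L / lam ^ (2 * j + 1) * vn ξ 0 := by
      refine (div_le_div_of_nonneg_left (by positivity) (by positivity)
        (mul_le_mul r1 r2 (by positivity) q1.le)).trans_eq ?_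
      rw [show 2 * j + 1 = j + (j + 1) by ring, pow_add lam j (j + 1)]
      field_simp
      ring
    have h5 : 64 * L / lam ^ (2 * (j + 1) + 1) ≤ 32 * L / lam ^ (2 * j + 1) := by
      rw [show 2 * (j + 1) + 1 = 2 * j + 1 + 2 by ring, pow_add _ _ 2,
        div_le_div_iff₀ (by positivity) (by positivity)]
      have := mul_le_mul_of_nonneg_left (show 2 ≤ lam ^ 2 by nlinarith)
        (show 0 ≤ 32 * L * lam ^ (2 * j + 1) by positivity)
      linarith
    have h6 := mul_le_mul_of_nonneg_right h5 Y0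
    have h7 : 64 * L / lam ^ (2 * j + 1) * vn ξ 0 = 2 * (32 * L / lam ^ (2 * j + 1) * vn ξ 0) := by
      ring
    linarith

theorem lemC {L g : ℝ} (hg : 300 ≤ g) (hL : g ^ 20 ≤ L) {V : ℕ → ℝ} (hV : ∀ j, |V j| ≤ L - 2)
    {n : ℕ} (hfree : ∀ j, 1 ≤ j → j ≤ n → (L / g) ^ j / 2 ≤ nrm V j) {ξ : ℕ → ℝ}
    (hξ : FldOn V ξ n) {j : ℕ} (hj1 : 1 ≤ j) (hjn : j ≤ n) :
    vn ξ j ≤ 200 * g * (g ^ 2 / L) ^ j * vn ξ 0 +
      2 ^ (n - j + 2) * (nrm V j / nrm V n) * vn ξ n := by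
  have g0 : 0 < g := by linarith
  have g1 : 1 ≤ g := by linarith
  have hL2 : g * g ≤ L := by
    rw [← sq]
    exact (pow_le_pow_right₀ g1 (by norm_num)).trans hL
  have L0 : 0 < L := (mul_pos g0 g0).trans_le hL2
  have hlam : 2 ≤ L / g := by
    rw [le_div_iff₀ g0]
    nlinarith
  have e1 : L ^ j * (64 * L / (L / g) ^ (2 * j + 1)) = 64 * g * (g ^ 2 / L) ^ j := by
    simp only [div_pow, pow_succ, pow_mul', pow_zero, one_mul, mul_pow]
    field_simp
  have e2 : 8 / (L / g) ^ j ≤ 8 * g * (g ^ 2 / L) ^ j := by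
    rw [div_eq_mul_inv, ← inv_pow, inv_div, mul_assoc]
    refine mul_le_mul_of_nonneg_left (le_trans (pow_le_pow_left₀ (by positivity)
      (div_le_div_of_nonneg_right (by nlinarith) L0.le) j)
      (le_mul_of_one_le_left (by positivity) g1)) (by norm_num)
  have Y0 := vn_nonneg ξ 0
  have Yn := vn_nonneg ξ n
  have Nj := two_le_nrm V j
  have Nn := two_le_nrm V n
  have h1 := ind_LemC hV hlam L0 hfree hξ hj1 hjn
  obtain ⟨i1, i2, i3, -⟩ := ix_LemC V n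
  have h2 : |ξ (ixx_LemC V n)| / rw_LemC V (ixx_LemC V n) ≤ 2 * vn ξ n / nrm V n := by
    rw [div_le_div_iff₀ (by linarith) (by linarith)]
    have : |ξ (ixx_LemC V n)| ≤ vn ξ n := by
      rcases i1 with e | e <;> rw [e]
      exacts [le_max_left _ _, le_max_right _ _]
    nlinarith [abs_nonneg (ξ (ixx_LemC V n))]
  have h3 := vn_LemC hξ hjn
  obtain ⟨-, j2, j3, -⟩ := ix_LemC V j
  have lp : 0 < (L / g) ^ j := by positivity
  have h4 : 2 * vn ξ 0 / rw_LemC V (ixx_LemC V j) ≤ 8 / (L / g) ^ j * vn ξ 0 := by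
    rw [mul_div_right_comm]
    refine mul_le_mul_of_nonneg_right ?_ Y0
    rw [div_le_div_iff₀ (by linarith) lp]
    linarith [hfree j hj1 hjn]
  have h5 : |ξ (ixx_LemC V j)| ≤ L ^ j * (64 * L / (L / g) ^ (2 * j + 1)) * vn ξ 0 +
      2 * (nrm V j / nrm V n) * vn ξ n := by
    rw [div_le_iff₀' (by linarith)] at h1
    refine h1.trans ?_
    rw [mul_add, mul_assoc (L ^ j)]
    refine add_le_add (mul_le_mul_of_nonneg_right (j3.trans (nrm_le_pow hV hj1)) (by positivity))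
      ((mul_le_mul j3 h2 (div_nonneg (abs_nonneg _) (by linarith)) (by linarith)).trans_eq ?_)
    ring
  have h6 : (2 : ℝ) ≤ 2 ^ (n - j + 2) := le_self_pow₀ one_le_two (by omega)
  have h7 := mul_le_mul_of_nonneg_right h6 (show 0 ≤ nrm V j / nrm V n * vn ξ n by positivity)
  have h8 := mul_le_mul_of_nonneg_right e2 Y0
  have h9 : 0 ≤ g * (g ^ 2 / L) ^ j * vn ξ 0 := by positivity
  rw [e1] at h5
  linarith

end Vale.Agent.P108
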