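import Vale.Agent.P108.Noise

/-!
P108 Levels (part of T1): peaks of height h have exponentially small area.
levels: Q natural with L^5 <= Q <= L^6, T j = L Q^j, I = Icc (h/20 + 1) (h/10).  The first
passages fp v (T j) are different for different j (steps are at most L, fp_spec), and an unclean
cut t lies in the window of at most 7 values of fp, so count_unclean on both arms bounds the
number of unclean levels by 14 (200 eta h + 2).
line_bound: a point of PkD lies in PkL (T j) for all j in its set S of clean levels; for fixed S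
grid with poro and Porous.mono bounds the measure by (1 - c/8)^card S; subset_bound sums over S.
Choose eta so small that (16/c)^(2800 eta) (1 - c/16)^(1/20) < 1.
t1: Pk is contained in PkD 1 0 union PkD 0 1; Fubini along horizontal and vertical lines
(meas_PkD, Measure.prod_apply and Measure.prod_apply_symm); mu = Lam^(1/100).
-/

namespace Vale.Agent.P108

open MeasureTheory Set Classical

theorem range_Levels {L η : ℝ} (hL : 1 ≤ L) (hη : 0 < η) (hη1 : η ≤ 1 / 100) {h : ℕ} (hh : 100 ≤ h)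
    {Q : ℝ} (hQ1 : L ^ 5 ≤ Q) (hQ2 : Q ≤ L ^ 6) {j : ℕ} (j1 : h / 20 + 1 ≤ j) (j2 : j ≤ h / 10) :
    L ^ (η * h + 3) ≤ L * Q ^ j ∧ L * Q ^ j ≤ L ^ ((1 - 2 * η) * h - 12) := by
  have hL0 : 0 < L := by linarith
  have hQ0 : 0 ≤ Q := (pow_pos hL0 5).le.trans hQ1
  have a1 : (h : ℝ) ≤ 20 * j := by exact_mod_cast (show h ≤ 20 * j by omega)
  have a2 : 10 * (j : ℝ) ≤ h := by exact_mod_cast (show 10 * j ≤ h by omega)
  have a3 : (100 : ℝ) ≤ h := by exact_mod_cast hh
  have a4 : η * h ≤ h / 100 := by nlinarith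
  constructor
  · calc L ^ (η * h + 3) ≤ L ^ (((5 * j + 1 : ℕ) : ℝ)) :=
          Real.rpow_le_rpow_of_exponent_le hL (by push_cast; linarith)
      _ = L * (L ^ 5) ^ j := by rw [Real.rpow_natCast, ← pow_mul, pow_succ']
      _ ≤ L * Q ^ j := by gcongr
  · calc L * Q ^ j ≤ L * (L ^ 6) ^ j := by gcongr
      _ = L ^ (((6 * j + 1 : ℕ) : ℝ)) := by rw [Real.rpow_natCast, ← pow_mul, pow_succ']
      _ ≤ _ := Real.rpow_le_rpow_of_exponent_le hL (by push_cast; linarith)

theorem lt_Levels {L Q : ℝ} (hL : 2 ≤ L) (hQ1 : L ^ 5 ≤ Q) {j j' : ℕ} (hj : j < j') :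
    L * (L * Q ^ j) < L * Q ^ j' := by
  have h1 : L < L ^ 5 := lt_self_pow₀ (by linarith) (by norm_num)
  have hQ : 1 ≤ Q := by linarith
  have h2 : Q ^ (j + 1) ≤ Q ^ j' := pow_le_pow_right₀ hQ hj
  have h3 : 0 < Q ^ j := pow_pos (by linarith) _
  refine mul_lt_mul_of_pos_left (lt_of_lt_of_le ?_ h2) (by linarith)
  rw [pow_succ']
  exact mul_lt_mul_of_pos_right (by linarith) h3

theorem levels {μ η : ℝ} (hμ : 300 ≤ μ) (hη : 0 < η) (hη1 : η ≤ 1 / 100) {V : ℕ → ℝ}
    (hV : ∀ j, |V j| ≤ μ ^ 100 - 2) {e1 e2 u1 u2 : ℝ} (he : Dir e1 e2) {h : ℕ} (hh : 100 ≤ h)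
    (hd : Dec V e1 e2 u1 u2 ((μ ^ 100) ^ η / μ ^ 100) h) {Q : ℕ} (hQ1 : (μ ^ 100) ^ 5 ≤ Q)
    (hQ2 : (Q : ℝ) ≤ (μ ^ 100) ^ 6) :
    (((Finset.Icc (h / 20 + 1) (h / 10)).filter
      (fun j => ¬ ClLev μ (μ ^ 100) V (fld V e1 e2) h (μ ^ 100 * (Q : ℝ) ^ j))).card : ℝ) ≤
      7 * (200 * η * h + 2) := by
  have hL : 2 ≤ μ ^ 100 := le_trans (by linarith) (le_self_pow₀ (by linarith) (by norm_num))
  have key := fun j (hj : j ∈ Finset.Icc (h / 20 + 1) (h / 10)) =>
    fp_spec hμ hη hη1 hV he hd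
      (range_Levels (by linarith) hη hη1 hh hQ1 hQ2 (Finset.mem_Icc.1 hj).1
        (Finset.mem_Icc.1 hj).2).1
      (range_Levels (by linarith) hη hη1 hh hQ1 hQ2 (Finset.mem_Icc.1 hj).1
        (Finset.mem_Icc.1 hj).2).2
  have hc := count_unclean hμ hη hV he hd
  generalize μ ^ 100 = L at *
  set U := (Finset.range (h + 1)).filter (fun t => ¬ Cl μ L V h t) with hU
  set S := (Finset.Icc (h / 20 + 1) (h / 10)).filter
      (fun j => ¬ ClLev μ L V (fld V e1 e2) h (L * (Q : ℝ) ^ j)) with hS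
  have hinj : Set.InjOn (fun j => fp (fld V e1 e2) (L * (Q : ℝ) ^ j)) S := by
    have aux : ∀ j ∈ S, ∀ j' ∈ S, j < j' → fp (fld V e1 e2) (L * (Q : ℝ) ^ j) ≠
        fp (fld V e1 e2) (L * (Q : ℝ) ^ j') := fun j hj j' hj' hlt e => by
      have h1 := (key j (Finset.mem_filter.1 hj).1).2.2.2.1
      have h2 := (key j' (Finset.mem_filter.1 hj').1).2.2.1
      rw [e] at h1
      exact absurd (h2.trans h1) (not_le.2 (lt_Levels hL hQ1 hlt))
    intro j hj j' hj' e
    rcases lt_trichotomy j j' with h1 | h1 | h1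
    · exact absurd e (aux j hj j' hj' h1)
    · exact h1
    · exact absurd e.symm (aux j' hj' j hj h1)
  have hsub : S.image (fun j => fp (fld V e1 e2) (L * (Q : ℝ) ^ j)) ⊆
      (U ×ˢ Finset.range 7).image fun x => x.1 + 1 - x.2 := by
    intro f hf
    obtain ⟨j, hj, rfl⟩ := Finset.mem_image.1 hf
    obtain ⟨hj1, hj2⟩ := Finset.mem_filter.1 hj
    have h1 := (key j hj1).2.1
    unfold ClLev at hj2
    push Not at hj2
    obtain ⟨t, t1, t2, t3⟩ := hj2
    generalize fp (fld V e1 e2) (L * (Q : ℝ) ^ j) = f at h1 t1 t2 ⊢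
    have h2 : f + 10 ≤ h := by
      have : (f : ℝ) + 10 ≤ h := by nlinarith [mul_nonneg hη.le (Nat.cast_nonneg (α := ℝ) h)]
      exact_mod_cast this
    refine Finset.mem_image.2 ⟨(t, t + 1 - f), Finset.mem_product.2
      ⟨Finset.mem_filter.2 ⟨Finset.mem_range.2 (by omega), t3⟩, Finset.mem_range.2 ?_⟩, ?_⟩
    · show t + 1 - f < 7
      omega
    · show t + 1 - (t + 1 - f) = f
      omega
  have h1 : S.card ≤ U.card * 7 := by
    rw [← Finset.card_image_of_injOn hinj]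
    refine (Finset.card_le_card hsub).trans (Finset.card_image_le.trans ?_)
    rw [Finset.card_product, Finset.card_range]
  have h2 : (S.card : ℝ) ≤ U.card * 7 := by exact_mod_cast h1
  linarith

end Vale.Agent.P108
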