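import Vale.Agent.P108.Defs

/-!
P108 LinA (part of Lin): linear algebra of Jacobi fields.  Q = fld V 1 0 and P = fld V 0 1 are the two columns
of the transfer matrix A n = [[Q n, P n], [Q (n+1), P (n+1)]], which has determinant one.
All proofs are inductions on j plus ring, abs inequalities and nlinarith.
nrm_rv: the backward product is the inverse of the forward product with the coordinates swapped,
and the l1 norm of the entries of a determinant one matrix is invariant under both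
(show that j maps to xi (s+n+1-j) is a field for rv V (s+n), use FldOn.eq_comb and the Wronskian).
-/

namespace Vale.Agent.P108

theorem fld_fldOn {R : Type*} [CommRing R] (V : ℕ → R) (a b : R) (n : ℕ) :
    FldOn V (fld V a b) n := fun _ _ => rfl

theorem FldOn.mono {R : Type*} [CommRing R] {V ξ : ℕ → R} {n m : ℕ} (h : FldOn V ξ n)
    (hm : m ≤ n) : FldOn V ξ m := fun j hj => h j (hj.trans_le hm)

theorem FldOn.eq_fld {R : Type*} [CommRing R] {V ξ : ℕ → R} {n : ℕ} (h : FldOn V ξ n) (j : ℕ)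
    (hj : j ≤ n + 1) : ξ j = fld V (ξ 0) (ξ 1) j := by
  induction j using Nat.twoStepInduction with
  | zero => rfl
  | one => rfl
  | more j h0 h1 => rw [h j (by omega), fld, ← h0 (by omega), ← h1 (by omega)]

theorem fld_comb {R : Type*} [CommRing R] (V : ℕ → R) (a b : R) (j : ℕ) :
    fld V a b j = a * fld V 1 0 j + b * fld V 0 1 j := by
  induction j using Nat.twoStepInduction with
  | zero => simp [fld]
  | one => simp [fld]
  | more j h0 h1 =>
    rw [fld, fld, fld, h0, h1]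
    ring

theorem FldOn.eq_comb {R : Type*} [CommRing R] {V ξ : ℕ → R} {n : ℕ} (h : FldOn V ξ n) (j : ℕ)
    (hj : j ≤ n + 1) : ξ j = ξ 0 * fld V 1 0 j + ξ 1 * fld V 0 1 j :=   (h.eq_fld j hj).trans (fld_comb V _ _ j)

theorem FldOn.wronsk {R : Type*} [CommRing R] {V ξ ζ : ℕ → R} {n : ℕ} (h : FldOn V ξ n)
    (h' : FldOn V ζ n) (j : ℕ) (hj : j ≤ n) :
    ξ j * ζ (j + 1) - ξ (j + 1) * ζ j = ξ 0 * ζ 1 - ξ 1 * ζ 0 := by
  induction j with
  | zero => rfl
  | succ j ih =>
    rw [h j hj, h' j hj, ← ih (by omega)]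
    ring

theorem fld_congr {R : Type*} [CommRing R] {V W : ℕ → R} {n : ℕ}
    (h : ∀ l, 1 ≤ l → l ≤ n → V l = W l) (a b : R) (j : ℕ) (hj : j ≤ n + 1) :
    fld V a b j = fld W a b j := by
  induction j using Nat.twoStepInduction with
  | zero => rfl
  | one => rfl
  | more j h0 h1 => rw [fld, fld, h0 (by omega), h1 (by omega), h (j + 1) (by omega) (by omega)]

theorem nrm_congr {V W : ℕ → ℝ} {n : ℕ} (h : ∀ l, 1 ≤ l → l ≤ n → V l = W l) :
    nrm V n = nrm W n := by
  unfold nrm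
  rw [fld_congr h 1 0 n (by omega), fld_congr h 1 0 (n + 1) le_rfl, fld_congr h 0 1 n (by omega),
    fld_congr h 0 1 (n + 1) le_rfl]

theorem FldOn.sh {V ξ : ℕ → ℝ} {s n : ℕ} (h : FldOn V ξ (s + n)) :
    FldOn (sh V s) (fun j => ξ (s + j)) n := fun j hj => h (s + j) (by omega)

theorem FldOn.rv {V ξ : ℕ → ℝ} {t : ℕ} (h : FldOn V ξ t) :
    FldOn (rv V t) (fun j => ξ (t + 1 - j)) t := by
  intro j hj
  obtain ⟨i, rfl⟩ : ∃ i, t = j + i + 1 := ⟨t - j - 1, by omega⟩
  have h1 := h i (by omega)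
  have e0 : j + i + 1 + 1 - (j + 2) = i := by omega
  have e1 : j + i + 1 + 1 - (j + 1) = i + 1 := by omega
  have e2 : j + i + 1 + 1 - j = i + 2 := by omega
  simp only [P108.rv, e0, e1, e2, h1]
  ring

theorem vn_nonneg (ξ : ℕ → ℝ) (j : ℕ) : 0 ≤ vn ξ j := le_max_of_le_left (abs_nonneg _)

theorem vn_rv (ξ : ℕ → ℝ) {t j : ℕ} (hj : j ≤ t) :
    vn (fun i => ξ (t + 1 - i)) j = vn ξ (t - j) := by
  have e0 : t + 1 - j = t - j + 1 := by omega
  have e1 : t + 1 - (j + 1) = t - j := by omega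
  simp only [vn, e0, e1, max_comm]

theorem nrm_zero (V : ℕ → ℝ) : nrm V 0 = 2 := by
  simp only [nrm, fld]
  norm_num

theorem nrm_one (V : ℕ → ℝ) : nrm V 1 = 2 + |V 1| := by
  simp only [nrm, fld, zero_add]
  norm_num

theorem two_le_nrm (V : ℕ → ℝ) (n : ℕ) : 2 ≤ nrm V n := by
  have h := (fld_fldOn V 1 0 n).wronsk (fld_fldOn V 0 1 n) n le_rfl
  have e : fld V 1 0 0 * fld V 0 1 1 - fld V 1 0 1 * fld V 0 1 0 = 1 := by simp [fld]
  rw [e] at h
  unfold nrm
  generalize fld V 1 0 n = a, fld V 0 1 (n + 1) = d, fld V 1 0 (n + 1) = c, fld V 0 1 n = b at h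
  have h1 : 1 ≤ |a| * |d| + |c| * |b| := by
    rw [← abs_mul, ← abs_mul]
    linarith [le_abs_self (a * d), neg_abs_le (c * b)]
  have ha := abs_nonneg a
  have hb := abs_nonneg b
  have hc := abs_nonneg c
  have hd := abs_nonneg d
  generalize |a| = a', |b| = b', |c| = c', |d| = d' at h1 ha hb hc hd
  refine le_of_pow_le_pow_left₀ two_ne_zero (by positivity) ?_
  nlinarith [sq_nonneg (a' - d'), sq_nonneg (c' - b'),
    mul_nonneg (add_nonneg ha hd) (add_nonneg hb hc)]

theorem sh_sh (V : ℕ → ℝ) (s n : ℕ) : sh (sh V s) n = sh V (s + n) := by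
  funext j
  simp only [sh, add_assoc]

end Vale.Agent.P108
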