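import Vale.Agent.P108.Defs
import Vale.Agent.P108.LinA

/-!
P108 Lin: linear algebra of Jacobi fields.  Q = fld V 1 0 and P = fld V 0 1 are the two columns
of the transfer matrix A n = [[Q n, P n], [Q (n+1), P (n+1)]], which has determinant one.
All proofs are inductions on j plus ring, abs inequalities and nlinarith.
nrm_rv: the backward product is the inverse of the forward product with the coordinates swapped,
and the l1 norm of the entries of a determinant one matrix is invariant under both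
(show that j maps to xi (s+n+1-j) is a field for rv V (s+n), use FldOn.eq_comb and the Wronskian).
-/

namespace Vale.Agent.P108

theorem comb_Lin {a b x y m : ℝ} (ha : |a| ≤ m) (hb : |b| ≤ m) :
    |a * x + b * y| ≤ (|x| + |y|) * m := by
  refine (abs_add_le _ _).trans ?_
  rw [abs_mul, abs_mul]
  nlinarith [abs_nonneg x, abs_nonneg y]

theorem wr_Lin (V : ℕ → ℝ) (n : ℕ) :
    fld V 1 0 n * fld V 0 1 (n + 1) - fld V 1 0 (n + 1) * fld V 0 1 n = 1 := by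
  rw [(fld_fldOn V 1 0 n).wronsk (fld_fldOn V 0 1 n) n le_rfl]
  simp [fld]

theorem add_Lin {V ξ : ℕ → ℝ} {s n : ℕ} (h : FldOn V ξ (s + n)) :
    |ξ (s + n)| + |ξ (s + n + 1)| ≤ (|ξ s| + |ξ (s + 1)|) * nrm (sh V s) n := by
  have e1 : ξ (s + n) = _ := h.sh.eq_comb n (Nat.le_succ n)
  have e2 : ξ (s + n + 1) = _ := h.sh.eq_comb (n + 1) le_rfl
  simp only [add_zero] at e1 e2
  have k1 := abs_add_le (ξ s * fld (sh V s) 1 0 n) (ξ (s + 1) * fld (sh V s) 0 1 n)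
  have k2 := abs_add_le (ξ s * fld (sh V s) 1 0 (n + 1)) (ξ (s + 1) * fld (sh V s) 0 1 (n + 1))
  rw [← e1, abs_mul, abs_mul] at k1
  rw [← e2, abs_mul, abs_mul] at k2
  unfold nrm
  nlinarith [mul_nonneg (abs_nonneg (ξ s)) (abs_nonneg (fld (sh V s) 0 1 n)),
    mul_nonneg (abs_nonneg (ξ s)) (abs_nonneg (fld (sh V s) 0 1 (n + 1))),
    mul_nonneg (abs_nonneg (ξ (s + 1))) (abs_nonneg (fld (sh V s) 1 0 n)),
    mul_nonneg (abs_nonneg (ξ (s + 1))) (abs_nonneg (fld (sh V s) 1 0 (n + 1)))]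

theorem rv_Lin (W : ℕ → ℝ) (n : ℕ) : nrm (rv W n) n = nrm W n := by
  have a1 := (fld_fldOn W 1 0 n).rv.eq_comb n (Nat.le_succ n)
  have a2 := (fld_fldOn W 1 0 n).rv.eq_comb (n + 1) le_rfl
  have a3 := (fld_fldOn W 0 1 n).rv.eq_comb n (Nat.le_succ n)
  have a4 := (fld_fldOn W 0 1 n).rv.eq_comb (n + 1) le_rfl
  have w := wr_Lin W n
  simp only [Nat.add_sub_cancel_left, Nat.sub_self, Nat.sub_zero, Nat.add_sub_cancel] at a1 a2 a3 a4
  rw [show fld W (1 : ℝ) 0 1 = 0 from rfl] at a1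
  rw [show fld W (1 : ℝ) 0 0 = 1 from rfl] at a2
  rw [show fld W (0 : ℝ) 1 1 = 1 from rfl] at a3
  rw [show fld W (0 : ℝ) 1 0 = 0 from rfl] at a4
  have e1 : fld (rv W n) 1 0 n = fld W 1 0 n := by
    linear_combination (-fld (rv W n) 1 0 n) * w - fld W 1 0 n * a3 + fld W 0 1 n * a1
  have e2 : fld (rv W n) 0 1 n = -fld W 1 0 (n + 1) := by
    linear_combination (-fld (rv W n) 0 1 n) * w - fld W 0 1 (n + 1) * a1 + fld W 1 0 (n + 1) * a3
  have e3 : fld (rv W n) 1 0 (n + 1) = -fld W 0 1 n := by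
    linear_combination (-fld (rv W n) 1 0 (n + 1)) * w - fld W 1 0 n * a4 + fld W 0 1 n * a2
  have e4 : fld (rv W n) 0 1 (n + 1) = fld W 0 1 (n + 1) := by
    linear_combination (-fld (rv W n) 0 1 (n + 1)) * w - fld W 0 1 (n + 1) * a2 +
      fld W 1 0 (n + 1) * a4
  unfold nrm
  rw [e1, e2, e3, e4, abs_neg, abs_neg]
  ring

theorem FldOn.vn_le_nrm {V ξ : ℕ → ℝ} {n : ℕ} (h : FldOn V ξ n) :
    vn ξ n ≤ nrm V n * vn ξ 0 := by
  have m0 := vn_nonneg ξ 0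
  have a : |ξ 0| ≤ vn ξ 0 := le_max_left _ _
  have b : |ξ 1| ≤ vn ξ 0 := le_max_right _ _
  refine max_le ?_ ?_
  · rw [h.eq_comb n (Nat.le_succ n)]
    refine (comb_Lin a b).trans (mul_le_mul_of_nonneg_right ?_ m0)
    unfold nrm
    linarith [abs_nonneg (fld V 1 0 (n + 1)), abs_nonneg (fld V 0 1 (n + 1))]
  · rw [h.eq_comb (n + 1) le_rfl]
    refine (comb_Lin a b).trans (mul_le_mul_of_nonneg_right ?_ m0)
    unfold nrm
    linarith [abs_nonneg (fld V 1 0 n), abs_nonneg (fld V 0 1 n)]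

theorem FldOn.vn_zero_le {V ξ : ℕ → ℝ} {n : ℕ} (h : FldOn V ξ n) :
    vn ξ 0 ≤ nrm V n * vn ξ n := by
  have m0 := vn_nonneg ξ n
  have a : |ξ n| ≤ vn ξ n := le_max_left _ _
  have b : |ξ (n + 1)| ≤ vn ξ n := le_max_right _ _
  have w1 := h.wronsk (fld_fldOn V 0 1 n) n le_rfl
  have w2 := h.wronsk (fld_fldOn V 1 0 n) n le_rfl
  rw [show fld V (0 : ℝ) 1 1 = 1 from rfl, show fld V (0 : ℝ) 1 0 = 0 from rfl] at w1
  rw [show fld V (1 : ℝ) 0 1 = 0 from rfl, show fld V (1 : ℝ) 0 0 = 1 from rfl] at w2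
  refine max_le ?_ ?_
  · rw [show ξ 0 = ξ n * fld V 0 1 (n + 1) + ξ (n + 1) * (-fld V 0 1 n) by linarith]
    refine (comb_Lin a b).trans (mul_le_mul_of_nonneg_right ?_ m0)
    unfold nrm
    rw [abs_neg]
    linarith [abs_nonneg (fld V 1 0 (n + 1)), abs_nonneg (fld V 1 0 n)]
  · rw [show ξ (0 + 1) = ξ n * (-fld V 1 0 (n + 1)) + ξ (n + 1) * fld V 1 0 n by
      rw [zero_add]; linarith]
    refine (comb_Lin a b).trans (mul_le_mul_of_nonneg_right ?_ m0)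
    unfold nrm
    rw [abs_neg]
    linarith [abs_nonneg (fld V 0 1 (n + 1)), abs_nonneg (fld V 0 1 n)]

theorem nrm_le_two_vn (V : ℕ → ℝ) (n : ℕ) :
    nrm V n ≤ 2 * (vn (fld V 1 0) n + vn (fld V 0 1) n) := by
  have a : |fld V 1 0 n| ≤ vn (fld V 1 0) n := le_max_left _ _
  have b : |fld V 1 0 (n + 1)| ≤ vn (fld V 1 0) n := le_max_right _ _
  have c : |fld V 0 1 n| ≤ vn (fld V 0 1) n := le_max_left _ _
  have d : |fld V 0 1 (n + 1)| ≤ vn (fld V 0 1) n := le_max_right _ _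
  unfold nrm
  linarith

theorem nrm_add_le (V : ℕ → ℝ) (s n : ℕ) : nrm V (s + n) ≤ nrm V s * nrm (sh V s) n := by
  have a := add_Lin (fld_fldOn V 1 0 (s + n))
  have b := add_Lin (fld_fldOn V 0 1 (s + n))
  rw [nrm, nrm]
  linarith

theorem nrm_rv (V : ℕ → ℝ) (s n : ℕ) : nrm (rv V (s + n)) n = nrm (sh V s) n := by
  rw [← rv_Lin (sh V s) n]
  refine nrm_congr fun l _ hl => ?_
  unfold rv sh
  congr 1
  omega

theorem nrm_le_pow {V : ℕ → ℝ} {L : ℝ} (hV : ∀ j, |V j| ≤ L - 2) {n : ℕ} (hn : 1 ≤ n) :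
    nrm V n ≤ L ^ n := by
  induction n, hn using Nat.le_induction with
  | base =>
    rw [nrm_one, pow_one]
    linarith [hV 1]
  | succ n hn ih =>
    have h1 : nrm (sh V n) 1 ≤ L := by
      rw [nrm_one]
      linarith [show |sh V n 1| ≤ L - 2 from hV (n + 1)]
    rw [pow_succ]
    refine (nrm_add_le V n 1).trans (mul_le_mul ih h1 ?_ ?_)
    · linarith [two_le_nrm (sh V n) 1]
    · linarith [two_le_nrm V n]

theorem FldOn.vn_succ_le {V ξ : ℕ → ℝ} {L : ℝ} (hV : ∀ j, |V j| ≤ L - 2) {n : ℕ}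
    (h : FldOn V ξ n) {j : ℕ} (hj : j < n) : vn ξ (j + 1) ≤ L * vn ξ j ∧ vn ξ j ≤ L * vn ξ (j + 1) := by
  have e := h j hj
  have hv := hV (j + 1)
  have L2 : 0 ≤ L - 2 := (abs_nonneg _).trans hv
  have a : |ξ j| ≤ vn ξ j := le_max_left _ _
  have b : |ξ (j + 1)| ≤ vn ξ j := le_max_right _ _
  have c : |ξ (j + 1)| ≤ vn ξ (j + 1) := le_max_left _ _
  have d : |ξ (j + 2)| ≤ vn ξ (j + 1) := le_max_right _ _
  have m0 := vn_nonneg ξ j
  have m1 := vn_nonneg ξ (j + 1)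
  refine ⟨max_le (by nlinarith) ?_, max_le ?_ (by nlinarith)⟩
  · have k := comb_Lin (x := V (j + 1)) (y := -1) b a
    rw [show ξ (j + 1 + 1) = ξ (j + 1) * V (j + 1) + ξ j * -1 by rw [e]; ring]
    refine k.trans (mul_le_mul_of_nonneg_right ?_ m0)
    rw [abs_neg, abs_one]
    linarith
  · have k := comb_Lin (x := V (j + 1)) (y := -1) c d
    rw [show ξ j = ξ (j + 1) * V (j + 1) + ξ (j + 2) * -1 by rw [e]; ring]
    refine k.trans (mul_le_mul_of_nonneg_right ?_ m1)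
    rw [abs_neg, abs_one]
    linarith

theorem FldOn.vn_le_pow {V ξ : ℕ → ℝ} {L : ℝ} (hV : ∀ j, |V j| ≤ L - 2) {n : ℕ}
    (h : FldOn V ξ n) {i j : ℕ} (hij : i ≤ j) (hj : j ≤ n) :
    vn ξ j ≤ L ^ (j - i) * vn ξ i ∧ vn ξ i ≤ L ^ (j - i) * vn ξ j := by
  have L0 : 0 ≤ L := by linarith [(abs_nonneg _).trans (hV 0)]
  induction j, hij using Nat.le_induction with
  | base => simp
  | succ j hij ih =>
    obtain ⟨a, b⟩ := ih (by omega)
    obtain ⟨c, d⟩ := h.vn_succ_le hV (j := j) (by omega)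
    rw [show j + 1 - i = j - i + 1 by omega]
    constructor
    · rw [pow_succ', mul_assoc]
      exact c.trans (mul_le_mul_of_nonneg_left a L0)
    · rw [pow_succ, mul_assoc]
      exact b.trans (mul_le_mul_of_nonneg_left d (pow_nonneg L0 _))

end Vale.Agent.P108
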