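import Vale.Agent.P108.Poro
import Vale.Agent.P108.Grid
import Vale.Agent.P108.Meas
import Vale.Agent.P108.Levels

/-!
P108 Line (part of T1): peaks of height h have exponentially small area.
levels: Q natural with L^5 <= Q <= L^6, T j = L Q^j, I = Icc (h/20 + 1) (h/10).  The first
passages fp v (T j) are different for different j (steps are at most L, fp_spec), and an unclean
cut t lies in the window of at most 7 values of fp, so count_unclean on both arms bounds the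
number of unclean levels by 14 (200 eta h + 2).
line_bound: a point of PkD lies in PkL (T j) for all j in its set S of clean levels; for fixed S
grid with poro and Porous.mono bounds the measure by (1 - c/8)^card S; subset_bound sums over S.
Choose eta so small that (16/c)^(2800 eta) (1 - c/16)^(1/20) < 1.
t1: Pk is contained in PkD 1 0 union PkD 0 1; Fubini along horizontal and vertical lines
(meas_PkD, Measure.prod_apply and Measure.prod_apply_symm); mu = Lam^(1/100).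
-/

namespace Vale.Agent.P108

open MeasureTheory Set Classical

theorem eta_Line {c : ℝ} (hc : 0 < c) (hc1 : c ≤ 1) : ∃ η : ℝ, 0 < η ∧ η ≤ 1 / 100 ∧ ∃ r C : ℝ,
    0 < r ∧ r < 1 ∧ 0 < C ∧ ∀ h n : ℕ, (h : ℝ) / 20 - 1 ≤ n →
      (1 - c / 2) ^ n * (2 / c) ^ (14 * (200 * η * h + 2)) ≤ C * r ^ h := by
  have ha : 0 < 1 - c / 2 := by linarith
  have hb : 1 ≤ 2 / c := by rw [le_div_iff₀ hc]; linarith
  obtain ⟨A, hA⟩ : ∃ A, A = -Real.log (1 - c / 2) := ⟨_, rfl⟩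
  obtain ⟨B, hB⟩ : ∃ B, B = Real.log (2 / c) := ⟨_, rfl⟩
  have hA0 : 0 < A := by rw [hA]; linarith [Real.log_neg ha (by linarith)]
  have hB0 : 0 ≤ B := by rw [hB]; exact Real.log_nonneg hb
  obtain ⟨η, h0, h1, h2⟩ : ∃ η : ℝ, 0 < η ∧ η ≤ 1 / 100 ∧ 2800 * η * B ≤ A / 40 := by
    refine ⟨min (1 / 100) (A / (112000 * (B + 1))), by positivity, min_le_left _ _, ?_⟩
    calc _ ≤ 2800 * (A / (112000 * (B + 1))) * (B + 1) := by
          gcongr
          · exact min_le_right _ _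
          · linarith
      _ = A / 40 := by field_simp; ring
  refine ⟨η, h0, h1, Real.exp (-(A / 40)), Real.exp (A + 28 * B), Real.exp_pos _,
    Real.exp_lt_one_iff.2 (by linarith), Real.exp_pos _, fun h n hn => ?_⟩
  rw [← Real.exp_log ha, ← Real.exp_nat_mul, Real.rpow_def_of_pos (by linarith), ← Real.exp_add,
    ← Real.exp_nat_mul, ← Real.exp_add, ← hB, show Real.log (1 - c / 2) = -A by rw [hA, neg_neg]]
  refine Real.exp_le_exp.2 ?_
  have hh : (0 : ℝ) ≤ h := Nat.cast_nonneg h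
  nlinarith [mul_le_mul_of_nonneg_right hn hA0.le, mul_le_mul_of_nonneg_right h2 hh]

theorem range_Line {L η : ℝ} (hL : 4 ≤ L) (hη : 0 < η) (hη1 : η ≤ 1 / 100) {h : ℕ} (hh : 100 ≤ h)
    {Q : ℕ} (hQ1 : L ^ 5 ≤ Q) (hQ2 : (Q : ℝ) ≤ L ^ 6) {j : ℕ}
    (hj : j ∈ Finset.Icc (h / 20 + 1) (h / 10)) :
    L ^ (η * h + 3) ≤ L * (Q : ℝ) ^ j ∧ L * (Q : ℝ) ^ j ≤ L ^ ((1 - 2 * η) * h - 12) := by
  obtain ⟨j1, j2⟩ := Finset.mem_Icc.1 hj
  have h1 : (h : ℝ) ≤ 20 * j := by exact_mod_cast (by omega : h ≤ 20 * j)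
  have h2 : (10 : ℝ) * j ≤ h := by exact_mod_cast (by omega : 10 * j ≤ h)
  have h3 : (100 : ℝ) ≤ h := by exact_mod_cast hh
  have h4 := mul_le_mul_of_nonneg_right hη1 (by linarith : (0 : ℝ) ≤ h)
  have hL0 : 0 < L := by linarith
  constructor
  · calc L ^ (η * h + 3) ≤ L ^ ((5 * j + 1 : ℕ) : ℝ) :=
          Real.rpow_le_rpow_of_exponent_le (by linarith) (by push_cast; linarith)
      _ = L * (L ^ 5) ^ j := by rw [Real.rpow_natCast, ← pow_mul, pow_succ']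
      _ ≤ _ := by gcongr
  · calc L * (Q : ℝ) ^ j ≤ L * (L ^ 6) ^ j := by gcongr
      _ = L ^ ((6 * j + 1 : ℕ) : ℝ) := by rw [Real.rpow_natCast, ← pow_mul, pow_succ']
      _ ≤ _ := Real.rpow_le_rpow_of_exponent_le (by linarith) (by push_cast; linarith)

theorem line_bound : ∃ η : ℝ, 0 < η ∧ η ≤ 1 / 100 ∧ ∃ r C : ℝ, 0 < r ∧ r < 1 ∧ 0 < C ∧ ∃ μ0 : ℝ,
    ∀ (k μ : ℝ), 0 < k → μ0 ≤ μ → μ ^ 100 = Lam k → ∀ (a b e1 e2 : ℝ) (h : ℕ), Dir e1 e2 →
    100 ≤ h →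
    volume ({t : ℝ | (a + e1 * t, b + e2 * t) ∈ PkD k e1 e2 (Lam k ^ η / Lam k) h} ∩ Ico 0 1) ≤
      ENNReal.ofReal (C * r ^ h) := by
  obtain ⟨c, hc, hc1, μ1, hp⟩ := poro
  have hc8 : 0 < c / 8 := by positivity
  obtain ⟨η, hη, hη1, r, C, hr, hr1, hC, hb⟩ := eta_Line hc8 (by linarith)
  refine ⟨η, hη, hη1, r, C, hr, hr1, hC, max μ1 300, fun k μ hk hμ hL a b e1 e2 h he hh => ?_⟩
  have hL4 := Lam_ge hk
  obtain ⟨Q, hQ1, hQ2⟩ : ∃ Q : ℕ, Lam k ^ 5 ≤ Q ∧ (Q : ℝ) ≤ Lam k ^ 6 := by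
    refine ⟨⌈Lam k ^ 5⌉₊, Nat.le_ceil _, (Nat.ceil_lt_add_one (by positivity)).le.trans ?_⟩
    have : 1 ≤ Lam k ^ 5 := one_le_pow₀ (by linarith)
    rw [pow_succ (Lam k) 5]
    nlinarith
  have hQ4 : 4 ≤ Q := by
    have : Lam k ^ 1 ≤ Lam k ^ 5 := pow_le_pow_right₀ (by linarith) (by norm_num)
    exact_mod_cast (by linarith : (4 : ℝ) ≤ Q)
  have hQ0 : (0 : ℝ) < Q := by positivity
  obtain ⟨I, hI⟩ : ∃ I, I = Finset.Icc (h / 20 + 1) (h / 10) := ⟨_, rfl⟩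
  obtain ⟨E, hE⟩ : ∃ E : ℝ, E = 14 * (200 * η * h + 2) := ⟨_, rfl⟩
  obtain ⟨P, hP⟩ : ∃ P : ℕ → Set ℝ, P = fun j => {s : ℝ | (a + e1 * s, b + e2 * s) ∈
    PkL k μ e1 e2 (Lam k ^ η / Lam k) h (Lam k * (Q : ℝ) ^ j)} := ⟨_, rfl⟩
  have hcov : {t : ℝ | (a + e1 * t, b + e2 * t) ∈ PkD k e1 e2 (Lam k ^ η / Lam k) h} ∩ Ico 0 1 ⊆
      ⋃ S ∈ I.powerset.filter (fun S => ((I \ S).card : ℝ) ≤ E),
        {t | ∀ j ∈ S, t ∈ P j} ∩ Ico 0 1 := by
    rintro t ⟨ht, ht'⟩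
    refine mem_iUnion₂.2 ⟨I.filter fun j => t ∈ P j, ?_,
      fun j hj => (Finset.mem_filter.1 hj).2, ht'⟩
    refine Finset.mem_filter.2 ⟨Finset.mem_powerset.2 (Finset.filter_subset _ _), ?_⟩
    obtain ⟨u1, u2, d1, d2⟩ := id ht
    have he' : Dir e2 e1 := he.symm.imp And.symm And.symm
    have hμ3 : 300 ≤ μ := (le_max_right _ _).trans hμ
    have l1 := levels (V := Vo k (a + e1 * t) (b + e2 * t)) hμ3 hη hη1
      (by rw [hL]; exact abs_Vo_le hk _ _) he hh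
      (by rw [hL]; exact d1) (Q := Q) (by rw [hL]; exact hQ1) (by rw [hL]; exact hQ2)
    have l2 := levels (V := Vo k (b + e2 * t) (a + e1 * t)) hμ3 hη hη1
      (by rw [hL]; exact abs_Vo_le hk _ _) he' hh
      (by rw [hL]; exact d2) (Q := Q) (by rw [hL]; exact hQ1) (by rw [hL]; exact hQ2)
    rw [hL, ← hI] at l1 l2
    refine le_trans (Nat.cast_le.2 ((Finset.card_le_card ?_).trans
      (Finset.card_union_le _ _)))
      ((Nat.cast_add _ _).trans_le ((add_le_add l1 l2).trans_eq (by rw [hE]; ring)))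
    intro j hj
    obtain ⟨j1, j2⟩ := Finset.mem_sdiff.1 hj
    by_contra hn
    simp only [Finset.mem_union, Finset.mem_filter, j1, true_and, not_or, not_not] at hn j2
    exact j2 (by rw [hP]; exact ⟨ht, hn.1, hn.2⟩)
  have hS : ∀ S ∈ I.powerset.filter (fun S => ((I \ S).card : ℝ) ≤ E),
      volume ({t | ∀ j ∈ S, t ∈ P j} ∩ Ico 0 1) ≤ ENNReal.ofReal ((1 - c / 8) ^ S.card) := by
    intro S hS
    refine grid hc hc1 hQ4 S fun j hj t ht => ?_
    have hjI := Finset.mem_powerset.1 (Finset.mem_filter.1 hS).1 hj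
    obtain ⟨r1, r2⟩ := range_Line hL4 hη hη1 hh hQ1 hQ2 (hI ▸ hjI)
    have e0 : Lam k / (Lam k * (Q : ℝ) ^ j) = 1 / (Q : ℝ) ^ j := by field_simp
    have := hp k μ η hk ((le_max_left _ _).trans hμ) hL hη hη1 a b e1 e2 _ (1 / (Q : ℝ) ^ (j + 1))
      h he r1 r2 (by positivity) (by rw [e0, div_div, pow_succ]; gcongr) t
      (by have := ht j hj; rwa [hP] at this)
    rw [e0] at this
    exact this.mono fun s hs => by have := hs j hj; rwa [hP] at this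
  refine (measure_mono hcov).trans ((measure_biUnion_finset_le _ _).trans
    ((Finset.sum_le_sum hS).trans ?_))
  rw [← ENNReal.ofReal_sum_of_nonneg fun S _ => pow_nonneg (by linarith) _]
  refine ENNReal.ofReal_le_ofReal ((subset_bound I hc8 (by linarith) (by rw [hE]; positivity)).trans ?_)
  rw [hE]
  refine hb h _ ?_
  rw [hI, Nat.card_Icc]
  have : h ≤ 20 * (h / 10 + 1 - (h / 20 + 1)) + 20 := by omega
  have : (h : ℝ) ≤ 20 * ((h / 10 + 1 - (h / 20 + 1) : ℕ) : ℝ) + 20 := by exact_mod_cast this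
  linarith

end Vale.Agent.P108
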