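import Vale.Agent.P108.Noise
import Vale.Agent.P108.LemA

/-!
P108 NearA (part of Near).
near_clean: i0 = fp at the base point, i0' = fp at the moved point.  fp_spec and dec_bd give BD at
the cuts i0 - 1 and i; disc_real compares vn at l <= i.  For l <= i0 - 2 the moved vn is below
(3/2) mu^(-96) T < T, so i0' >= i0 - 1.  If i0' >= i0 + 2 then BD at the clean cut i0' - 1 of the
moved point gives vn i0 < mu^(-96) T against vn i0 >= T / 2.  So ClLev at the moved point covers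
the cuts i0, ..., i0 + 4.
no_sixteen: dec_bd gives BD at the base point, lemA applies; for a point of the set, dec_noise on
both chains (the constant (u1 e1 + u2 e2) / (u1 e2 + u2 e1) is the same for both) bounds the
difference of the slopes by 2 * 2 * 484 mu^12 / (L^3 Mn^2).  Sixteen is monotone in the set.
pick_index: if the two first-passage sizes differ by more than mu^50, advance the smaller one by
one cut (its size is multiplied by a factor in [mu^96, mu^100] by BD and FldOn.vn_succ_le).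
-/

namespace Vale.Agent.P108

theorem quarter_NearA {μ : ℝ} (hμ : 300 ≤ μ) {v : ℕ → ℝ} {t l : ℕ} (h : BD μ (μ ^ 100) v t)
    (hl : l < t) : vn v l ≤ vn v t / 4 := by
  have h0 : 0 < μ := by linarith
  have h1 : (4 : ℝ) ≤ μ ^ 96 := le_trans (by linarith) (le_self_pow₀ (by linarith) (by norm_num))
  have h2 : μ ^ 2 * (μ ^ 2 / μ ^ 100) ≤ 1 / 4 := by
    have e : μ ^ 2 * (μ ^ 2 / μ ^ 100) = 1 / μ ^ 96 := by field_simp
    rw [e]
    exact one_div_le_one_div_of_le four_pos h1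
  have h3 : μ ^ 2 / μ ^ 100 ≤ 1 :=
    div_le_one_of_le₀ (pow_le_pow_right₀ (by linarith) (by norm_num)) (by positivity)
  have h4 : (μ ^ 2 / μ ^ 100) ^ (t - l) ≤ μ ^ 2 / μ ^ 100 :=
    pow_le_of_le_one (by positivity) h3 (by omega)
  have h5 := (mul_le_mul_of_nonneg_left h4 (by positivity : 0 ≤ μ ^ 2)).trans h2
  refine (h l hl.le).trans ((mul_le_mul_of_nonneg_right h5 (vn_nonneg v t)).trans_eq ?_)
  ring

theorem lev_NearA {μ η : ℝ} (hμ : 300 ≤ μ) (hη : 0 < η) (hη1 : η ≤ 1 / 100) {V : ℕ → ℝ}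
    (hV : ∀ j, |V j| ≤ μ ^ 100 - 2) {e1 e2 u1 u2 : ℝ} (he : Dir e1 e2) {h : ℕ}
    (hd : Dec V e1 e2 u1 u2 ((μ ^ 100) ^ η / μ ^ 100) h) {T : ℝ}
    (hT1 : (μ ^ 100) ^ (η * h + 3) ≤ T) (hT2 : T ≤ (μ ^ 100) ^ ((1 - 2 * η) * h - 12))
    (hc : ClLev μ (μ ^ 100) V (fld V e1 e2) h T) :
    T ≤ vn (fld V e1 e2) (fp (fld V e1 e2) T) ∧
      (∀ t, fp (fld V e1 e2) T ≤ t + 1 → t ≤ fp (fld V e1 e2) T + 5 →
        BD μ (μ ^ 100) (fld V e1 e2) t) ∧
      ∀ l, l + 2 ≤ fp (fld V e1 e2) T → vn (fld V e1 e2) l < T / 4 := by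
  obtain ⟨a1, a2, a3, -, a5⟩ := fp_spec hμ hη hη1 hV he hd hT1 hT2
  have hb : ∀ t, fp (fld V e1 e2) T ≤ t + 1 → t ≤ fp (fld V e1 e2) T + 5 →
      BD μ (μ ^ 100) (fld V e1 e2) t := by
    intro t h1 h2
    have h3 : (fp (fld V e1 e2) T : ℝ) ≤ t + 1 := by exact_mod_cast h1
    have h4 : (t : ℝ) ≤ fp (fld V e1 e2) T + 5 := by exact_mod_cast h2
    have h5 : 0 ≤ η * h := by positivity
    have h6 : (t : ℝ) ≤ h := by linarith
    exact dec_bd hμ hη hη1 hV he hd (by linarith) (by exact_mod_cast h6) (hc t h1 h2)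
  refine ⟨a3, hb, fun l hl => ?_⟩
  have h1 := quarter_NearA hμ (hb (fp (fld V e1 e2) T - 1) (by omega) (by omega))
    (show l < _ by omega)
  have h2 := a5 (fp (fld V e1 e2) T - 1) (by omega)
  linarith

theorem near_clean : ∃ μ0 : ℝ, ∀ (k μ η : ℝ), 0 < k → μ0 ≤ μ → μ ^ 100 = Lam k → 0 < η →
    η ≤ 1 / 100 → ∀ (p q e1 e2 u1 u2 u1' u2' T t : ℝ) (h i : ℕ), Dir e1 e2 →
    Lam k ^ (η * h + 3) ≤ T → T ≤ Lam k ^ ((1 - 2 * η) * h - 12) →
    Dec (Vo k p q) e1 e2 u1 u2 (Lam k ^ η / Lam k) h →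
    ClLev μ (Lam k) (Vo k p q) (vr k p q e1 e2) h T →
    (i = fp (vr k p q e1 e2) T ∨ i = fp (vr k p q e1 e2) T + 1) →
    |t| ≤ μ ^ 91 / vn (vr k p q e1 e2) i →
    Dec (Vo k (p + e1 * t) (q + e2 * t)) e1 e2 u1' u2' (Lam k ^ η / Lam k) h →
    ClLev μ (Lam k) (Vo k (p + e1 * t) (q + e2 * t)) (vr k (p + e1 * t) (q + e2 * t) e1 e2) h T →
    (∀ s, i ≤ s → s ≤ i + 3 → Cl μ (Lam k) (Vo k (p + e1 * t) (q + e2 * t)) h s) ∧
      vn (vr k p q e1 e2) i / 2 ≤ vn (vr k (p + e1 * t) (q + e2 * t) e1 e2) i ∧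
      vn (vr k (p + e1 * t) (q + e2 * t) e1 e2) i ≤ 3 / 2 * vn (vr k p q e1 e2) i := by
  obtain ⟨μ1, hd⟩ := disc_real
  refine ⟨max μ1 300, fun k μ η hk hμ hL hη hη1 p q e1 e2 u1 u2 u1' u2' T t h i he hT1 hT2 d1 c1 hi
    ht d2 c2 => ?_⟩
  have m1 := le_of_max_le_left hμ
  have m2 := le_of_max_le_right hμ
  have hT : 0 < T := lt_of_lt_of_le (Real.rpow_pos_of_pos (by linarith [Lam_ge hk]) _) hT1
  have hV : ∀ a b j, |Vo k a b j| ≤ μ ^ 100 - 2 := fun a b j => hL ▸ abs_Vo_le hk a b j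
  have D := hd k μ hk m1 hL p q e1 e2 i he
  rw [← hL] at hT1 hT2 d1 c1 d2 c2 D ⊢
  obtain ⟨a1, a2, a3⟩ := lev_NearA m2 hη hη1 (hV _ _) he d1 hT1 hT2 c1
  obtain ⟨b1, -, b3⟩ := lev_NearA m2 hη hη1 (hV _ _) he d2 hT1 hT2 c2
  unfold ClLev at c2
  unfold vr at *
  have D' := D (a2 i (by omega) (by omega)) t ht
  refine ⟨fun s h1 h2 => c2 s ?_ ?_, D' i le_rfl⟩
  · by_contra hc
    have k1 := b3 (fp (fld (Vo k p q) e1 e2) T) (by omega)
    have k2 := (D' (fp (fld (Vo k p q) e1 e2) T) (by omega)).1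
    linarith
  · by_contra hc
    have k1 := a3 (fp (fld (Vo k (p + e1 * t) (q + e2 * t)) e1 e2) T) (by omega)
    have k2 := (D' (fp (fld (Vo k (p + e1 * t) (q + e2 * t)) e1 e2) T) (by omega)).2
    linarith

end Vale.Agent.P108
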