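import Vale.Agent.P108.Noise
import Vale.Agent.P108.LemA
import Vale.Agent.P108.NearA

/-!
P108 NearB (part of Near).
near_clean: i0 = fp at the base point, i0' = fp at the moved point.  fp_spec and dec_bd give BD at
the cuts i0 - 1 and i; disc_real compares vn at l <= i.  For l <= i0 - 2 the moved vn is below
(3/2) mu^(-96) T < T, so i0' >= i0 - 1.  If i0' >= i0 + 2 then BD at the clean cut i0' - 1 of the
moved point gives vn i0 < mu^(-96) T against vn i0 >= T / 2.  So ClLev at the moved point covers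
the cuts i0, ..., i0 + 4.
no_sixteen: dec_bd gives BD at the base point, lemA applies; for a point of the set, dec_noise on
both chains (the constant (u1 e1 + u2 e2) / (u1 e2 + u2 e1) is the same for both) bounds the
difference of the slopes by 2 * 2 * 484 mu^12 / (L^3 Mn^2).  Sixteen is monotone in the set.
pick_index: if the two first-passage sizes differ by more than mu^50, advance the smaller one by
one cut (its size is multiplied by a factor in [mu^96, mu^100] by BD and FldOn.vn_succ_le).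
-/

namespace Vale.Agent.P108

theorem num_NearB {μ L M v : ℝ} (hμ : 300 ≤ μ) (hL : 0 < L) (hM : 0 < M) (hv : M / 22 ≤ v) :
    2 * μ ^ 12 / (L ^ 3 * v ^ 2) ≤ μ ^ 15 / (L ^ 3 * M ^ 2) / 2 := by
  have hμ0 : 0 < μ := by linarith
  have h1 : (M / 22) ^ 2 ≤ v ^ 2 := pow_le_pow_left₀ (by positivity) hv 2
  have h2 : (300 : ℝ) ^ 3 ≤ μ ^ 3 := pow_le_pow_left₀ (by norm_num) hμ 3
  have h3 : μ ^ 15 = μ ^ 12 * μ ^ 3 := by ring
  have h4 : 0 < μ ^ 12 := by positivity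
  calc 2 * μ ^ 12 / (L ^ 3 * v ^ 2) ≤ 2 * μ ^ 12 / (L ^ 3 * (M / 22) ^ 2) := by gcongr
    _ = μ ^ 12 * 1936 / (L ^ 3 * M ^ 2) / 2 := by field_simp; ring
    _ ≤ μ ^ 15 / (L ^ 3 * M ^ 2) / 2 := by
      rw [h3]
      gcongr
      linarith

theorem idx_NearB {η : ℝ} (hη : 0 < η) {h i : ℕ} (h1 : η * h + 1 ≤ i)
    (h2 : (i : ℝ) + 4 ≤ (1 - η) * h) : 1 ≤ i ∧ i ≤ h := by
  have h0 : 0 ≤ η * h := by positivity
  constructor
  · have : (1 : ℝ) ≤ i := by linarith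
    exact_mod_cast this
  · have : (i : ℝ) ≤ h := by linarith
    exact_mod_cast this

theorem no_sixteen : ∃ μ0 : ℝ, ∀ (k μ η : ℝ), 0 < k → μ0 ≤ μ → μ ^ 100 = Lam k → 0 < η →
    η ≤ 1 / 100 → ∀ (p q e1 e2 Mx Mn : ℝ) (h i i' : ℕ), Dir e1 e2 →
    η * h + 1 ≤ i → η * h + 1 ≤ i' → (i : ℝ) + 4 ≤ (1 - η) * h → (i' : ℝ) + 4 ≤ (1 - η) * h →
    (p, q) ∈ PkD k e1 e2 (Lam k ^ η / Lam k) h →
    Cl μ (Lam k) (Vo k p q) h i → Cl μ (Lam k) (Vo k q p) h i' →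
    Mx = max (vn (vr k p q e1 e2) i) (vn (vr k q p e2 e1) i') →
    Mn = min (vn (vr k p q e1 e2) i) (vn (vr k q p e2 e1) i') → Mx ≤ μ ^ 60 * Mn →
    Gd (orb k p q (i + 1)) (orb k q p (i' + 1)) →
    ¬ Sixteen {t : ℝ | |t| ≤ 1 / (100000 * Mx) ∧
      (p + e1 * t, q + e2 * t) ∈ PkD k e1 e2 (Lam k ^ η / Lam k) h ∧
      Cl μ (Lam k) (Vo k (p + e1 * t) (q + e2 * t)) h (i + 1) ∧
      Cl μ (Lam k) (Vo k (p + e1 * t) (q + e2 * t)) h (i + 2) ∧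
      Cl μ (Lam k) (Vo k (q + e2 * t) (p + e1 * t)) h (i' + 1) ∧
      Cl μ (Lam k) (Vo k (q + e2 * t) (p + e1 * t)) h (i' + 2) ∧
      Mn / 22 ≤ vn (vr k (p + e1 * t) (q + e2 * t) e1 e2) i ∧
      Mn / 22 ≤ vn (vr k (q + e2 * t) (p + e1 * t) e2 e1) i'} (1 / (μ ^ 10 * Mx)) := by
  obtain ⟨μ1, hA⟩ := lemA
  refine ⟨max μ1 300, fun k μ η hk hμ hL hη hη1 p q e1 e2 Mx Mn h i i' he a1 a2 a3 a4 hp c1 c2
    hMx hMn hM hG => ?_⟩
  have hμ1 : μ1 ≤ μ := (le_max_left _ _).trans hμ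
  have hμ3 : 300 ≤ μ := (le_max_right _ _).trans hμ
  have he' : Dir e2 e1 := he.elim (fun h => Or.inr ⟨h.2, h.1⟩) fun h => Or.inl ⟨h.2, h.1⟩
  have hV : ∀ a b j, |Vo k a b j| ≤ μ ^ 100 - 2 := fun a b j => hL ▸ abs_Vo_le hk a b j
  have hL0 : 0 < Lam k := by linarith [Lam_ge hk]
  obtain ⟨i1, i2⟩ := idx_NearB hη a1 a3
  obtain ⟨j1, j2⟩ := idx_NearB hη a2 a4
  obtain ⟨u1, u2, d1, d2⟩ := hp
  have b1 := dec_bd hμ3 hη hη1 (hV p q) he (hL ▸ d1) a1 i2 (hL ▸ c1)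
  have b2 := dec_bd hμ3 hη hη1 (hV q p) he' (hL ▸ d2) a2 j2 (hL ▸ c2)
  have n1 := (dec_nrm hμ3 hη hη1 (hV p q) he (hL ▸ d1) a1 i2).1
  have n2 := (dec_nrm hμ3 hη hη1 (hV q p) he' (hL ▸ d2) a2 j2).1
  rw [hL] at b1 b2
  have hMn0 : 0 < Mn := by
    rw [hMn]
    unfold vr
    exact lt_min (by linarith [two_le_nrm (Vo k p q) i]) (by linarith [two_le_nrm (Vo k q p) i'])
  rintro ⟨t, ht1, ht2⟩
  refine hA k μ hk hμ1 hL p q e1 e2 i i' Mx Mn he i1 j1 b1 b2 hMx hMn hM hG ⟨t, fun l hl => ?_, ht2⟩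
  obtain ⟨s0, ⟨w1, w2, f1, f2⟩, s1, s2, s3, s4, s5, s6⟩ := ht1 l hl
  refine ⟨s0, ?_⟩
  have r1 := dec_noise hμ3 hη hη1 (hV _ _) he (hL ▸ f1) a1 a3 (hL ▸ s1) (hL ▸ s2)
  have r2 := dec_noise hμ3 hη hη1 (hV _ _) he' (hL ▸ f2) a2 a4 (hL ▸ s3) (hL ▸ s4)
  rw [hL] at r1 r2
  have r3 := r1.trans (num_NearB hμ3 hL0 hMn0 s5)
  have r4 := r2.trans (num_NearB hμ3 hL0 hMn0 s6)
  rw [add_comm (w2 * e2), add_comm (w2 * e1)] at r4
  have r5 := abs_le.1 r3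
  have r6 := abs_le.1 r4
  unfold vr
  exact abs_le.2 ⟨by linarith [r5.1, r6.2], by linarith [r5.2, r6.1]⟩

end Vale.Agent.P108
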