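import Vale.Agent.P108.Noise
import Vale.Agent.P108.LemA
import Vale.Agent.P108.NearA
import Vale.Agent.P108.NearB

/-!
P108 Near.
near_clean: i0 = fp at the base point, i0' = fp at the moved point.  fp_spec and dec_bd give BD at
the cuts i0 - 1 and i; disc_real compares vn at l <= i.  For l <= i0 - 2 the moved vn is below
(3/2) mu^(-96) T < T, so i0' >= i0 - 1.  If i0' >= i0 + 2 then BD at the clean cut i0' - 1 of the
moved point gives vn i0 < mu^(-96) T against vn i0 >= T / 2.  So ClLev at the moved point covers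
the cuts i0, ..., i0 + 4.
no_sixteen: dec_bd gives BD at the base point, lemA applies; for a point of the set, dec_noise on
both chains (the constant (u1 e1 + u2 e2) / (u1 e2 + u2 e1) is the same for both) bounds the
difference of the slopes by 2 * 2 * 484 mu^12 / (L^3 Mn^2).  Sixteen is monotone in the set.
pick_index: if the two first-passage sizes differ by more than mu^50, advance the smaller one by
one cut (its size is multiplied by a factor in [mu^96, mu^100] by BD and FldOn.vn_succ_le).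
-/

namespace Vale.Agent.P108

theorem step_Near {μ : ℝ} (hμ : 300 ≤ μ) {v : ℕ → ℝ} {i : ℕ} (h : BD μ (μ ^ 100) v (i + 1)) :
    μ ^ 50 * vn v i ≤ vn v (i + 1) := by
  have h1 := h i (Nat.le_succ i)
  have m0 : 0 < μ := by linarith
  have m1 : 1 ≤ μ ^ 46 := one_le_pow₀ (by linarith)
  rw [Nat.add_sub_cancel_left, pow_one] at h1
  have h2 := mul_le_mul_of_nonneg_left h1 (pow_pos m0 96).le
  have e : μ ^ 96 * (μ ^ 2 * (μ ^ 2 / μ ^ 100) * vn v (i + 1)) = vn v (i + 1) := by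
    field_simp
  have e' : μ ^ 96 * vn v i = μ ^ 46 * (μ ^ 50 * vn v i) := by ring
  rw [e, e'] at h2
  exact (le_mul_of_one_le_left (mul_nonneg (pow_pos m0 50).le (vn_nonneg v i)) m1).trans h2

theorem arm_Near {μ η : ℝ} (hμ : 300 ≤ μ) (hη : 0 < η) (hη1 : η ≤ 1 / 100) {V : ℕ → ℝ}
    (hV : ∀ j, |V j| ≤ μ ^ 100 - 2) {e1 e2 u1 u2 : ℝ} (he : Dir e1 e2) {h : ℕ}
    (hd : Dec V e1 e2 u1 u2 ((μ ^ 100) ^ η / μ ^ 100) h) {T : ℝ}
    (hT1 : (μ ^ 100) ^ (η * h + 3) ≤ T) (hT2 : T ≤ (μ ^ 100) ^ ((1 - 2 * η) * h - 12))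
    (hc : ClLev μ (μ ^ 100) V (fld V e1 e2) h T) {i : ℕ} (hi : i = fp (fld V e1 e2) T) :
    η * h + 3 ≤ i ∧ (i : ℝ) + 10 ≤ (1 - η) * h ∧ BD μ (μ ^ 100) (fld V e1 e2) i ∧
      BD μ (μ ^ 100) (fld V e1 e2) (i + 1) ∧ T ≤ vn (fld V e1 e2) i ∧
      vn (fld V e1 e2) i ≤ μ ^ 100 * T ∧ μ ^ 50 * vn (fld V e1 e2) i ≤ vn (fld V e1 e2) (i + 1) ∧
      vn (fld V e1 e2) (i + 1) ≤ μ ^ 100 * vn (fld V e1 e2) i := by
  obtain ⟨a1, a2, a3, a4, -⟩ := fp_spec hμ hη hη1 hV he hd hT1 hT2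
  rw [← hi] at a1 a2 a3 a4
  have h0 : 0 ≤ η * h := mul_nonneg hη.le (Nat.cast_nonneg h)
  have h1 : i + 10 ≤ h := by
    have : (i : ℝ) + 10 ≤ h := by linarith
    exact_mod_cast this
  have b1 := dec_bd hμ hη hη1 hV he hd (t := i) (by linarith) (by omega)
    (hc i (by omega) (by omega))
  have b2 := dec_bd hμ hη hη1 hV he hd (t := i + 1) (by push_cast; linarith) (by omega)
    (hc (i + 1) (by omega) (by omega))
  exact ⟨a1, a2, b1, b2, a3, a4, step_Near hμ b2,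
    ((fld_fldOn V e1 e2 (i + 1)).vn_succ_le hV (Nat.lt_succ_self i)).1⟩

theorem num_Near {X T a b c : ℝ} (hX : 1 ≤ X) (hT : 0 ≤ T) (a2 : a ≤ X ^ 2 * T) (b1 : T ≤ b)
    (b2 : b ≤ X ^ 2 * T) (c1 : X * b ≤ c) (c2 : c ≤ X ^ 2 * b) (h : X * b < a) :
    T ≤ c ∧ c ≤ (X ^ 2) ^ 2 * T ∧ a ≤ X * c ∧ c ≤ X * a := by
  have X0 : 0 ≤ X := by linarith
  have b0 : 0 ≤ b := hT.trans b1
  refine ⟨b1.trans ((le_mul_of_one_le_left b0 hX).trans c1), ?_, ?_, ?_⟩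
  · nlinarith [mul_le_mul_of_nonneg_left b2 (sq_nonneg X)]
  · nlinarith [mul_le_mul_of_nonneg_left b1 (sq_nonneg X), mul_le_mul_of_nonneg_left c1 X0]
  · nlinarith [mul_le_mul_of_nonneg_left h.le X0]

theorem pick_index : ∃ μ0 : ℝ, ∀ (k μ η : ℝ), 0 < k → μ0 ≤ μ → μ ^ 100 = Lam k → 0 < η →
    η ≤ 1 / 100 → ∀ (p q e1 e2 T : ℝ) (h : ℕ), Dir e1 e2 →
    Lam k ^ (η * h + 3) ≤ T → T ≤ Lam k ^ ((1 - 2 * η) * h - 12) →
    (p, q) ∈ PkL k μ e1 e2 (Lam k ^ η / Lam k) h T →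
    ∃ i i' : ℕ, (i = fp (vr k p q e1 e2) T ∨ i = fp (vr k p q e1 e2) T + 1) ∧
      (i' = fp (vr k q p e2 e1) T ∨ i' = fp (vr k q p e2 e1) T + 1) ∧
      η * h + 3 ≤ i ∧ η * h + 3 ≤ i' ∧ (i : ℝ) + 9 ≤ (1 - η) * h ∧ (i' : ℝ) + 9 ≤ (1 - η) * h ∧
      BD μ (Lam k) (vr k p q e1 e2) i ∧ BD μ (Lam k) (vr k q p e2 e1) i' ∧
      T ≤ vn (vr k p q e1 e2) i ∧ T ≤ vn (vr k q p e2 e1) i' ∧
      vn (vr k p q e1 e2) i ≤ Lam k ^ 2 * T ∧ vn (vr k q p e2 e1) i' ≤ Lam k ^ 2 * T ∧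
      vn (vr k p q e1 e2) i ≤ μ ^ 50 * vn (vr k q p e2 e1) i' ∧
      vn (vr k q p e2 e1) i' ≤ μ ^ 50 * vn (vr k p q e1 e2) i := by
  refine ⟨300, fun k μ η hk hμ hL hη hη1 p q e1 e2 T h he hT1 hT2 hP => ?_⟩
  obtain ⟨⟨u1, u2, d1, d2⟩, c1, c2⟩ := hP
  have v1 := abs_Vo_le hk p q
  have v2 := abs_Vo_le hk q p
  have he' : Dir e2 e1 := he.symm.imp And.symm And.symm
  rw [← hL] at *
  have T0 : 0 ≤ T := (Real.rpow_nonneg (by positivity) _).trans hT1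
  obtain ⟨a1, a2, a3, a4, a5, a6, a7, a8⟩ := arm_Near hμ hη hη1 v1 he d1 hT1 hT2 c1 rfl
  obtain ⟨b1, b2, b3, b4, b5, b6, b7, b8⟩ := arm_Near hμ hη hη1 v2 he' d2 hT1 hT2 c2 rfl
  have X1 : 1 ≤ μ ^ 50 := one_le_pow₀ (by linarith)
  have eX : μ ^ 100 = (μ ^ 50) ^ 2 := by rw [← pow_mul]
  have L1 : μ ^ 100 * T ≤ (μ ^ 100) ^ 2 * T :=
    mul_le_mul_of_nonneg_right (le_self_pow₀ (one_le_pow₀ (by linarith)) two_ne_zero) T0
  unfold vr
  by_cases h1 : μ ^ 50 * vn (fld (Vo k q p) e2 e1) (fp (fld (Vo k q p) e2 e1) T) <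
      vn (fld (Vo k p q) e1 e2) (fp (fld (Vo k p q) e1 e2) T)
  · obtain ⟨n1, n2, n3, n4⟩ := num_Near X1 T0 (eX ▸ a6) b5 (eX ▸ b6) b7 (eX ▸ b8) h1
    rw [← eX] at n2
    exact ⟨_, _, Or.inl rfl, Or.inr rfl, a1, by push_cast; linarith, by linarith,
      by push_cast; linarith, a3, b4, a5, n1, a6.trans L1, n2, n3, n4⟩
  by_cases h2 : μ ^ 50 * vn (fld (Vo k p q) e1 e2) (fp (fld (Vo k p q) e1 e2) T) <
      vn (fld (Vo k q p) e2 e1) (fp (fld (Vo k q p) e2 e1) T)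
  · obtain ⟨n1, n2, n3, n4⟩ := num_Near X1 T0 (eX ▸ b6) a5 (eX ▸ a6) a7 (eX ▸ a8) h2
    rw [← eX] at n2
    exact ⟨_, _, Or.inr rfl, Or.inl rfl, by push_cast; linarith, b1, by push_cast; linarith,
      by linarith, a4, b3, n1, b5, n2, b6.trans L1, n4, n3⟩
  exact ⟨_, _, Or.inl rfl, Or.inl rfl, a1, b1, by linarith, by linarith, a3, b3, a5, b5,
    a6.trans L1, b6.trans L1, not_lt.1 h1, not_lt.1 h2⟩

theorem next_size : ∃ μ0 : ℝ, ∀ (k μ : ℝ), 0 < k → μ0 ≤ μ → μ ^ 100 = Lam k →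
    ∀ (p q e1 e2 : ℝ) (i : ℕ), 1 ≤ i → BD μ (Lam k) (vr k p q e1 e2) i →
    4 / 5 ≤ |Real.cos (2 * Real.pi * orb k p q (i + 1))| →
    3 / 10 * Lam k * vn (vr k p q e1 e2) i ≤ vn (vr k p q e1 e2) (i + 1) ∧
      vn (vr k p q e1 e2) (i + 1) ≤ Lam k * vn (vr k p q e1 e2) i := by
  refine ⟨300, fun k μ hk hμ hL p q e1 e2 i hi hb hc => ?_⟩
  obtain ⟨j, rfl⟩ := Nat.exists_eq_add_of_le' hi
  have hF : FldOn (Vo k p q) (vr k p q e1 e2) (j + 2) := fld_fldOn (Vo k p q) e1 e2 (j + 2)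
  refine ⟨?_, (hF.vn_succ_le (abs_Vo_le hk p q) (Nat.lt_succ_self _)).1⟩
  have e := hF (j + 1) (Nat.lt_succ_self _)
  have h1 := step_Near hμ (hL ▸ hb)
  have X1 : 300 ≤ μ ^ 50 := hμ.trans (le_self_pow₀ (by linarith) (by norm_num))
  have L1 : 300 ≤ Lam k := hL ▸ hμ.trans (le_self_pow₀ (by linarith) (by norm_num))
  have hV : 2 / 5 * (Lam k - 4) - 2 ≤ |Vo k p q (j + 1 + 1)| := by
    have a0 : 0 < 2 * Real.pi * k := by positivity
    have a1 := abs_sub (Vo k p q (j + 1 + 1)) 2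
    have a2 : Vo k p q (j + 1 + 1) - 2 =
        2 * Real.pi * k * Real.cos (2 * Real.pi * orb k p q (j + 1 + 1)) := by
      simp only [Vo, pot]; ring
    rw [a2, abs_mul, abs_of_pos a0, abs_two] at a1
    have a3 := mul_le_mul_of_nonneg_left hc a0.le
    unfold Lam
    linarith
  generalize vr k p q e1 e2 = v at *
  have n0 := vn_nonneg v j
  have n1 : |v (j + 1)| ≤ vn v j := le_max_right _ _
  have n2 : |v (j + 1)| ≤ vn v (j + 1) := le_max_left _ _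
  have n3 : |v (j + 1 + 2)| ≤ vn v (j + 1 + 1) := le_max_right _ _
  have n4 : vn v (j + 1) ≤ |v (j + 1 + 1)| := by
    rcases le_total |v (j + 1)| |v (j + 1 + 1)| with h | h
    · exact (max_eq_right h).le
    · have h2 : vn v (j + 1) = |v (j + 1)| := max_eq_left h
      nlinarith [abs_nonneg (v (j + 1 + 1))]
  have n5 := abs_sub_abs_le_abs_sub (Vo k p q (j + 1 + 1) * v (j + 1 + 1)) (v (j + 1))
  rw [← e, abs_mul] at n5
  have n6 := mul_le_mul hV n4 (vn_nonneg _ _) (abs_nonneg _)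
  nlinarith [vn_nonneg v (j + 1)]

end Vale.Agent.P108
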