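import Vale.Agent.P108.Cor
import Vale.Agent.P108.NoiseA
import Vale.Agent.P108.Count

/-!
P108 Noise: one arm of a peak, real linear algebra.  L = mu^100, u = fld V u1 u2, v = fld V e1 e2,
w = fld V e2 e1, rho = L^eta / L.
dec_nrm: 1 = vn u 0 <= nrm V h * vn u h gives L^((1-eta) h) <= nrm V h <= nrm V t L^(h-t);
vn u t <= L^(h-t) vn u h <= 1 / L; the Wronskian of u and v has size one, so vn v t >= L / 2, and
both columns are combinations of u and v with coefficients at most 1 and 2.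
dec_bd: back_decay with g = mu.
dec_noise: t = i + 2.  vn u t >= 1 / (2 vn v t) >= L^(-t) / 2 >= vn u h, so fwd_decay (j = 1, on
the window h - t >= 2) gives vn u (t+1) <= mu^5 / L vn u t; BD at t and t - 1 gives
|v t| = vn v (t-1) <= mu^4 / L vn v t; the Wronskian gives |u t| <= 2 / vn v t.  Finally
w = (u - (u1 e1 + u2 e2) v) / (u1 e2 + u2 e1) (fld_comb).
count_unclean: greedy covering from the right by deficient windows, nrm_add_le, nrm_rv,
nrm_le_pow: nrm V h <= L^h / mu^(number of cuts that are not left free); same on the right.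
fp_spec: elementary facts on the first passage.
-/

namespace Vale.Agent.P108

open Classical

theorem drop_Noise {x y z q : ℝ} (hq : q ≤ 1 / 2) (hx : 0 ≤ x) (hy : 0 ≤ y) (hz : x ≤ z)
    (h : z ≤ q * max x y) : max x y = y := by
  refine max_eq_right (le_of_not_gt fun hlt => ?_)
  rw [max_eq_left hlt.le] at h
  have := mul_le_mul_of_nonneg_right hq hx
  linarith

theorem num_Noise {q r v0 v1 v2 v3 u2 u3 u4 : ℝ} (q0 : 0 ≤ q) (hq : q ≤ 1 / 2) (r0 : 0 ≤ r)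
    (hr : r ≤ 1 / 2) (h1 : max |v0| |v1| ≤ q * max |v1| |v2|)
    (h2 : max |v1| |v2| ≤ q * max |v2| |v3|) (h3 : max |u3| |u4| ≤ r * max |u2| |u3|)
    (W : |u2 * v3 - u3 * v2| = 1) (a0 : 0 < max |v0| |v1|) :
    v2 ≠ 0 ∧ |u2| / |v2| ≤ 2 * q ^ 3 / max |v0| |v1| ^ 2 := by
  have e1 := drop_Noise hq (abs_nonneg _) (abs_nonneg _) (le_max_right _ _) h1
  have e2 := drop_Noise hq (abs_nonneg _) (abs_nonneg _) (le_max_right _ _) h2
  rw [max_comm |u2|] at h3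
  have e3 := drop_Noise hr (abs_nonneg _) (abs_nonneg _) (le_max_left _ _) h3
  rw [e1] at h1
  rw [e1, e2] at h2
  rw [e3] at h3
  replace h3 := (le_max_left _ _).trans h3
  have W' : |u2| * |v3| ≤ 1 + |u3| * |v2| := by
    rw [← abs_mul, ← abs_mul, ← W]
    have := abs_add_le (u2 * v3 - u3 * v2) (u3 * v2)
    rwa [sub_add_cancel] at this
  generalize max |v0| |v1| = a at h1 a0 ⊢
  have b0 : 0 < |v2| := pos_of_mul_pos_right (a0.trans_le h1) q0
  refine ⟨abs_pos.1 b0, ?_⟩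
  have x0 := abs_nonneg u2
  have y0 := abs_nonneg u3
  have c0 := abs_nonneg v3
  generalize |v2| = b at *
  generalize |v3| = c at *
  generalize |u2| = x at *
  generalize |u3| = y at *
  have k1 : y * b ≤ 1 / 2 * x * (1 / 2 * c) :=
    mul_le_mul (h3.trans (by gcongr)) (h2.trans (by gcongr)) b0.le (by positivity)
  have k2 : x * c ≤ 2 := by linarith
  rw [div_le_div_iff₀ b0 (by positivity)]
  calc x * a ^ 2 ≤ x * (q * b) ^ 2 := by gcongr
    _ = x * b * (q ^ 2 * b) := by ring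
    _ ≤ x * (q * c) * (q ^ 2 * b) := by gcongr
    _ = x * c * (q ^ 3 * b) := by ring
    _ ≤ 2 * (q ^ 3 * b) := by gcongr
    _ = _ := by ring

theorem wr_Noise {V : ℕ → ℝ} {e1 e2 u1 u2 : ℝ} (he : Dir e1 e2) (hσ : |u1 * e2 + u2 * e1| = 1)
    (j : ℕ) : |fld V u1 u2 j * fld V e1 e2 (j + 1) - fld V u1 u2 (j + 1) * fld V e1 e2 j| = 1 := by
  rw [(fld_fldOn V u1 u2 j).wronsk (fld_fldOn V e1 e2 j) j le_rfl, ← hσ]
  rcases he with ⟨rfl, rfl⟩ | ⟨rfl, rfl⟩ <;> simp [fld]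

theorem low_Noise {u v : ℕ → ℝ} {j : ℕ} (h : |u j * v (j + 1) - u (j + 1) * v j| = 1) :
    1 ≤ 2 * (vn u j * vn v j) := by
  have h1 : |u j| * |v (j + 1)| ≤ vn u j * vn v j :=
    mul_le_mul (le_max_left _ _) (le_max_right _ _) (abs_nonneg _) (vn_nonneg _ _)
  have h2 : |u (j + 1)| * |v j| ≤ vn u j * vn v j :=
    mul_le_mul (le_max_right _ _) (le_max_left _ _) (abs_nonneg _) (vn_nonneg _ _)
  have h3 := abs_sub (u j * v (j + 1)) (u (j + 1) * v j)
  rw [abs_mul, abs_mul] at h3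
  linarith

theorem down_Noise {L η x y : ℝ} {h t : ℕ} (hL : 2 ≤ L) (ht : (t : ℝ) + 2 ≤ (1 - η) * h)
    (x0 : 0 ≤ x) (hy : y ≤ L ^ t) (hxy : 1 ≤ 2 * (x * y)) : (L ^ η / L) ^ h ≤ x := by
  have L0 : 0 < L := by linarith
  have e : (L ^ η / L) ^ h * L ^ (t + 1) = L ^ ((η - 1) * h + (t + 1 : ℕ)) := by
    rw [Real.rpow_add L0, Real.rpow_natCast, Real.rpow_mul L0.le, Real.rpow_natCast,
      Real.rpow_sub L0, Real.rpow_one]
  have h1 : (L ^ η / L) ^ h * L ^ (t + 1) ≤ 1 := by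
    rw [e]
    refine Real.rpow_le_one_of_one_le_of_nonpos (by linarith) ?_
    push_cast
    linarith
  refine le_of_mul_le_mul_right (h1.trans (hxy.trans ?_)) (pow_pos L0 (t + 1))
  calc 2 * (x * y) ≤ L * (x * L ^ t) := by
        refine mul_le_mul hL (mul_le_mul_of_nonneg_left hy x0) ?_ L0.le
        linarith
    _ = _ := by ring

theorem half_Noise {μ : ℝ} (hμ : 300 ≤ μ) {n : ℕ} (hn : n ≤ 3) :
    μ ^ 2 * (μ ^ n / μ ^ 100) ^ 1 ≤ 1 / 2 := by
  have m0 : 0 < μ := by linarith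
  rw [pow_one, ← mul_div_assoc, ← pow_add, div_le_div_iff₀ (pow_pos m0 _) two_pos, one_mul]
  calc μ ^ (2 + n) * 2 ≤ μ ^ (2 + n) * μ := by gcongr; linarith
    _ = μ ^ (2 + n + 1) := (pow_succ _ _).symm
    _ ≤ μ ^ 100 := pow_le_pow_right₀ (by linarith) (by omega)

theorem dec_noise {μ η : ℝ} (hμ : 300 ≤ μ) (hη : 0 < η) (hη1 : η ≤ 1 / 100) {V : ℕ → ℝ}
    (hV : ∀ j, |V j| ≤ μ ^ 100 - 2) {e1 e2 u1 u2 : ℝ} (he : Dir e1 e2) {h : ℕ}
    (hd : Dec V e1 e2 u1 u2 ((μ ^ 100) ^ η / μ ^ 100) h) {i : ℕ} (hi1 : η * h + 1 ≤ i)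
    (hi2 : (i : ℝ) + 4 ≤ (1 - η) * h) (hc1 : Cl μ (μ ^ 100) V h (i + 1))
    (hc2 : Cl μ (μ ^ 100) V h (i + 2)) :
    |fld V e2 e1 (i + 2) / fld V e1 e2 (i + 2) + (u1 * e1 + u2 * e2) / (u1 * e2 + u2 * e1)| ≤
      2 * μ ^ 12 / ((μ ^ 100) ^ 3 * vn (fld V e1 e2) i ^ 2) := by
  have m0 : 0 < μ := by linarith
  have h4 : i + 4 ≤ h := by
    have : (i : ℝ) + 4 ≤ h := by linarith [mul_nonneg hη.le (Nat.cast_nonneg (α := ℝ) h)]
    exact_mod_cast this
  obtain ⟨-, -, hσ, hu⟩ := id hd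
  have B1 := dec_bd hμ hη hη1 hV he hd (t := i + 1) (by push_cast; linarith) (by omega) hc1 i
    (by omega)
  have B2 := dec_bd hμ hη hη1 hV he hd (t := i + 2) (by push_cast; linarith) (by omega) hc2 (i + 1)
    (by omega)
  rw [show i + 1 - i = 1 by omega] at B1
  rw [show i + 2 - (i + 1) = 1 by omega] at B2
  have L2 : 2 ≤ μ ^ 100 := le_trans (by linarith) (le_self_pow₀ (by linarith) (by norm_num))
  have v0 : vn (fld V e1 e2) 0 = 1 := by
    rcases he with ⟨rfl, rfl⟩ | ⟨rfl, rfl⟩ <;> simp [vn, fld]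
  have vt := ((fld_fldOn V e1 e2 (i + 2)).vn_le_pow hV (Nat.zero_le _) le_rfl).1
  rw [v0, mul_one, Nat.sub_zero] at vt
  have dn := hu.trans (down_Noise L2 (t := i + 2) (by push_cast; linarith) (vn_nonneg _ _) vt
    (low_Noise (wr_Noise he hσ (i + 2))))
  obtain ⟨n, rfl⟩ : ∃ n, h = i + 2 + n := ⟨h - (i + 2), by omega⟩
  have F := fwd_decay hμ (pow_le_pow_right₀ (by linarith) (by norm_num)) (V := sh V (i + 2))
    (fun j => hV _) (n := n) (fun j j1 j2 => hc2.2 j j1 (by omega))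
    (fld_fldOn V u1 u2 (i + 2 + n)).sh dn (j := 1) (by omega)
  have a0 : 0 < vn (fld V e1 e2) i := by
    refine (vn_nonneg _ _).lt_of_ne fun h0 => ?_
    have := low_Noise (wr_Noise (V := V) he hσ i)
    rw [← h0] at this
    linarith
  obtain ⟨z, hz⟩ := num_Noise (by positivity) (half_Noise hμ (n := 2) (by norm_num))
    (by positivity) (half_Noise hμ (n := 3) le_rfl) B1 B2 F (wr_Noise he hσ (i + 2)) a0
  have σ0 : u1 * e2 + u2 * e1 ≠ 0 := abs_pos.1 (by rw [hσ]; exact one_pos)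
  have cb : fld V u1 u2 (i + 2) = (u1 * e1 + u2 * e2) * fld V e1 e2 (i + 2) +
      (u1 * e2 + u2 * e1) * fld V e2 e1 (i + 2) := by
    rw [fld_comb V u1 u2]
    rcases he with ⟨rfl, rfl⟩ | ⟨rfl, rfl⟩ <;> ring
  have e : fld V e2 e1 (i + 2) / fld V e1 e2 (i + 2) + (u1 * e1 + u2 * e2) / (u1 * e2 + u2 * e1) =
      fld V u1 u2 (i + 2) / (fld V e1 e2 (i + 2) * (u1 * e2 + u2 * e1)) := by
    rw [div_add_div _ _ z σ0, cb]
    congr 1
    ring
  rw [e, abs_div, abs_mul, hσ, mul_one]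
  refine hz.trans_eq ?_
  rw [vn]
  generalize μ ^ 100 = L
  ring

end Vale.Agent.P108
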