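import Vale.Agent.P108.Cor

/-!
P108 PertA (part of Pert): perturbation of the potentials.
duhamel: the difference d of the two fields solves d (l+1) = V l d l - d (l-1) + (W l - V l) xi' l,
so it is the sum of the sources propagated by fld (sh V l) 0 1 (induction on j, two steps).
green_le: let n' = min j n, s the field of decay_row for the window n' (larger row i) and
v = fld V 0 1, Wronskian of s and v is 1.  The field zeta = fld (sh V l) 0 1 (. - l) equals
alpha s + beta v with |alpha| = |v l| <= L^l and |beta| = |s l| <= g^2 (g^2/L)^l.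
At cut j: vn v j <= nrm V j and vn s j <= L^(j-n') 4 / nrm V n'.
pert1, pert2: sum duhamel over the four entries, with |fld W a b l| <= L^(l-1) * 2 (nrm_le_pow,
the entry at l lies in the cut l-1), green_le for l <= n and nrm_le_pow for l > n; all sums are
geometric.
-/

namespace Vale.Agent.P108

theorem fld_two_PertA (V : ℕ → ℝ) (a b : ℝ) (j : ℕ) :
    fld V a b (j + 2) = V (j + 1) * fld V a b (j + 1) - fld V a b j := rfl

theorem top_PertA (V c : ℕ → ℝ) (j : ℕ) :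
    ∑ l ∈ Finset.Ico 1 (j + 1), fld (sh V l) 0 1 (j - l) * c l =
      ∑ l ∈ Finset.Ico 1 j, fld (sh V l) 0 1 (j - l) * c l := by
  rcases j with _ | j
  · simp
  · rw [Finset.sum_Ico_succ_top (by omega), Nat.sub_self]
    simp [fld]

theorem step_PertA (V c : ℕ → ℝ) (j : ℕ) :
    ∑ l ∈ Finset.Ico 1 (j + 2), fld (sh V l) 0 1 (j + 2 - l) * c l =
      V (j + 1) * ∑ l ∈ Finset.Ico 1 (j + 1), fld (sh V l) 0 1 (j + 1 - l) * c l -
        ∑ l ∈ Finset.Ico 1 j, fld (sh V l) 0 1 (j - l) * c l + c (j + 1) := by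
  rw [Finset.sum_Ico_succ_top (by omega : 1 ≤ j + 1), ← top_PertA V c j, Finset.mul_sum,
    ← Finset.sum_sub_distrib]
  have e1 : j + 2 - (j + 1) = 1 := by omega
  rw [e1]
  have e2 : fld (sh V (j + 1)) (0 : ℝ) 1 1 = 1 := rfl
  rw [e2, one_mul]
  congr 1
  refine Finset.sum_congr rfl fun l hl => ?_
  have hl' := (Finset.mem_Ico.1 hl).2
  have a1 : j + 2 - l = (j - l) + 2 := by omega
  have a2 : j + 1 - l = (j - l) + 1 := by omega
  have a3 : sh V l (j - l + 1) = V (j + 1) := by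
    unfold sh
    congr 1
    omega
  rw [a1, a2, fld_two_PertA, a3]
  ring

theorem duhamel (V W : ℕ → ℝ) (a b : ℝ) (j : ℕ) :
    fld W a b j - fld V a b j =
      ∑ l ∈ Finset.Ico 1 j, fld (sh V l) 0 1 (j - l) * ((W l - V l) * fld W a b l) := by
  induction j using Nat.twoStepInduction with
  | zero => simp [fld]
  | one => simp [fld]
  | more j h0 h1 =>
    rw [step_PertA V (fun l => (W l - V l) * fld W a b l) j, ← h0, ← h1, fld_two_PertA,
      fld_two_PertA]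
    ring

theorem comb_PertA (V : ℕ → ℝ) (c : ℝ) (l m : ℕ) :
    fld (sh V l) 0 1 m =
      fld V 1 c l * fld V 0 1 (l + m) - fld V 0 1 l * fld V 1 c (l + m) := by
  have hw := (fld_fldOn V 1 c l).wronsk (fld_fldOn V 0 1 l) l le_rfl
  have e0 : fld V (1 : ℝ) c 0 = 1 := rfl
  have e1 : fld V (0 : ℝ) 1 0 = 0 := rfl
  have e2 : fld V (0 : ℝ) 1 1 = 1 := rfl
  rw [e0, e1, e2] at hw
  induction m using Nat.twoStepInduction with
  | zero =>
    have : fld (sh V l) (0 : ℝ) 1 0 = 0 := rfl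
    rw [this, Nat.add_zero]
    ring
  | one =>
    have : fld (sh V l) (0 : ℝ) 1 1 = 1 := rfl
    rw [this]
    linarith
  | more m h0 h1 =>
    rw [fld_two_PertA, h0, h1, ← Nat.add_assoc l m 2, fld_two_PertA, fld_two_PertA,
      ← Nat.add_assoc l m 1]
    have : sh V l (m + 1) = V (l + m + 1) := rfl
    rw [this]
    ring

theorem abs_le_PertA {a b c d A B C D : ℝ} (ha : |a| ≤ A) (hb : |b| ≤ B) (hc : |c| ≤ C)
    (hd : |d| ≤ D) : |a * b - c * d| ≤ A * B + C * D := by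
  refine (abs_sub _ _).trans ?_
  rw [abs_mul, abs_mul]
  exact add_le_add (mul_le_mul ha hb (abs_nonneg _) ((abs_nonneg _).trans ha))
    (mul_le_mul hc hd (abs_nonneg _) ((abs_nonneg _).trans hc))

theorem v_le_PertA (V : ℕ → ℝ) (j : ℕ) :
    |fld V 0 1 j| ≤ nrm V j ∧ |fld V 0 1 (j + 1)| ≤ nrm V j := by
  unfold nrm
  have := abs_nonneg (fld V 1 0 j)
  have := abs_nonneg (fld V 1 0 (j + 1))
  have := abs_nonneg (fld V 0 1 j)
  have := abs_nonneg (fld V 0 1 (j + 1))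
  constructor <;> linarith

theorem exists_s_PertA {L g : ℝ} (hg : 300 ≤ g) (hL : g ^ 20 ≤ L) {V : ℕ → ℝ}
    (hV : ∀ j, |V j| ≤ L - 2) {n : ℕ} (hn : 1 ≤ n)
    (hfree : ∀ j, 1 ≤ j → j ≤ n → (L / g) ^ j / 2 ≤ nrm V j) :
    ∃ c : ℝ, vn (fld V 1 c) n ≤ 4 / nrm V n ∧
      ∀ j, 1 ≤ j → j ≤ n → vn (fld V 1 c) j ≤ g ^ 2 * (g ^ 2 / L) ^ j := by
  have h2 := two_le_nrm V n
  obtain ⟨i, hi, hrow⟩ : ∃ i, (i = n ∨ i = n + 1) ∧
      nrm V n / 3 ≤ |fld V 1 0 i| + |fld V 0 1 i| := by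
    by_cases h : nrm V n / 3 ≤ |fld V 1 0 n| + |fld V 0 1 n|
    · exact ⟨n, Or.inl rfl, h⟩
    · refine ⟨n + 1, Or.inr rfl, ?_⟩
      have e : nrm V n =
        |fld V 1 0 n| + |fld V 1 0 (n + 1)| + |fld V 0 1 n| + |fld V 0 1 (n + 1)| := rfl
      push Not at h
      linarith
  have hc := cone_row hg hL hV hn hfree hi hrow
  have hP : fld V 0 1 i ≠ 0 := by
    intro h0
    rw [h0, abs_zero] at hc hrow
    linarith
  have hz : fld V 1 (-(fld V 1 0 i / fld V 0 1 i)) i = 0 := by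
    rw [fld_comb]
    field_simp
    ring
  obtain ⟨-, b1, b2⟩ := decay_row hg hL hV hn hfree hi hrow (fld_fldOn V 1 _ n) rfl hz
  exact ⟨_, b1, b2⟩

theorem green_le {L g : ℝ} (hg : 300 ≤ g) (hL : g ^ 20 ≤ L) {V : ℕ → ℝ} (hV : ∀ j, |V j| ≤ L - 2)
    {n : ℕ} (hfree : ∀ j, 1 ≤ j → j ≤ n → (L / g) ^ j ≤ nrm V j) {l j : ℕ} (hl : 1 ≤ l)
    (hln : l ≤ n) (hlj : l ≤ j) :
    vn (fld (sh V l) 0 1) (j - l) ≤ g ^ 2 * (g ^ 2 / L) ^ l * nrm V j +
      L ^ l * (L ^ (j - min j n) * (4 / nrm V (min j n))) := by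
  have hg0 : 0 < g := by linarith
  have hL0 : 0 < L := lt_of_lt_of_le (by positivity) hL
  have hn1 : l ≤ min j n := le_min hlj hln
  obtain ⟨c, b1, b2⟩ := exists_s_PertA hg hL hV (hl.trans hn1) fun i hi1 hi2 => by
    have h1 := hfree i hi1 (hi2.trans (min_le_right _ _))
    have h2 : 0 ≤ (L / g) ^ i := by positivity
    linarith
  have s1 : |fld V 1 c l| ≤ g ^ 2 * (g ^ 2 / L) ^ l := (le_max_left _ _).trans (b2 l hl hn1)
  have s2 : |fld V 0 1 l| ≤ L ^ l := (v_le_PertA V l).1.trans (nrm_le_pow hV hl)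
  have s3 : vn (fld V 1 c) j ≤ L ^ (j - min j n) * (4 / nrm V (min j n)) :=
    ((fld_fldOn V 1 c j).vn_le_pow hV (min_le_left j n) le_rfl).1.trans
      (mul_le_mul_of_nonneg_left b1 (by positivity))
  have e1 : l + (j - l) = j := by omega
  have e2 : l + (j - l + 1) = j + 1 := by omega
  refine max_le ?_ ?_
  · rw [comb_PertA V c, e1]
    exact abs_le_PertA s1 (v_le_PertA V j).1 s2 ((le_max_left _ _).trans s3)
  · rw [comb_PertA V c, e2]
    exact abs_le_PertA s1 (v_le_PertA V j).2 s2 ((le_max_right _ _).trans s3)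

end Vale.Agent.P108
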