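import Vale.Agent.P108.PertA

/-!
P108 PertB (part of Pert): perturbation of the potentials.
duhamel: the difference d of the two fields solves d (l+1) = V l d l - d (l-1) + (W l - V l) xi' l,
so it is the sum of the sources propagated by fld (sh V l) 0 1 (induction on j, two steps).
green_le: let n' = min j n, s the field of decay_row for the window n' (larger row i) and
v = fld V 0 1, Wronskian of s and v is 1.  The field zeta = fld (sh V l) 0 1 (. - l) equals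
alpha s + beta v with |alpha| = |v l| <= L^l and |beta| = |s l| <= g^2 (g^2/L)^l.
At cut j: vn v j <= nrm V j and vn s j <= L^(j-n') 4 / nrm V n'.
pert1, pert2: sum duhamel over the four entries, with |fld W a b l| <= L^(l-1) * 2 (nrm_le_pow,
the entry at l lies in the cut l-1), green_le for l <= n and nrm_le_pow for l > n; all sums are
geometric.
-/

namespace Vale.Agent.P108

theorem col_PertB {L : ℝ} (hL1 : 1 ≤ L) {W : ℕ → ℝ} (hW : ∀ j, |W j| ≤ L - 2) {l : ℕ}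
    (hl : 1 ≤ l) : |fld W 1 0 l| + |fld W 0 1 l| ≤ 2 * L ^ (l - 1) := by
  obtain ⟨m, rfl⟩ : ∃ m, l = m + 1 := ⟨l - 1, by omega⟩
  have h1 : |fld W 1 0 (m + 1)| + |fld W 0 1 (m + 1)| ≤ nrm W m := by
    unfold nrm
    have := abs_nonneg (fld W 1 0 m)
    have := abs_nonneg (fld W 0 1 m)
    linarith
  rw [Nat.add_sub_cancel]
  rcases Nat.eq_zero_or_pos m with hm | hm
  · subst hm
    rw [nrm_zero] at h1
    simpa using h1
  · have h2 := nrm_le_pow hW (n := m) hm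
    have h3 : 0 ≤ L ^ m := by positivity
    linarith

theorem term_PertB {L g N : ℝ} (hg : 300 ≤ g) (hL : g ^ 20 ≤ L) {l : ℕ} (hl : 1 ≤ l)
    (hN : (L / g) ^ l ≤ N) :
    (g ^ 2 * (g ^ 2 / L) ^ l * N + L ^ l * (4 / N)) * (8 * L * (g ^ 2 * (g ^ 2 / L) ^ l)) *
      (2 * L ^ (l - 1)) ≤ 80 * g ^ 4 * (g ^ 4 / L) ^ l * N := by
  have hg0 : 0 < g := by linarith
  have hg1 : 1 ≤ g := by linarith
  have hL0 : 0 < L := lt_of_lt_of_le (by positivity) hL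
  have hA : 0 < (L / g) ^ l := by positivity
  have hN0 : 0 < N := lt_of_lt_of_le hA hN
  obtain ⟨m, rfl⟩ : ∃ m, l = m + 1 := ⟨l - 1, by omega⟩
  rw [Nat.add_sub_cancel]
  set l := m + 1 with hlm
  have e1 : 8 * L * (g ^ 2 * (g ^ 2 / L) ^ l) * (2 * L ^ m) = 16 * g ^ 2 * (g ^ 2) ^ l := by
    have : L * L ^ m = L ^ l := by rw [hlm, pow_succ]; ring
    have h2 : (g ^ 2 / L) ^ l * L ^ l = (g ^ 2) ^ l := by
      rw [← mul_pow, div_mul_cancel₀ _ hL0.ne']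
    calc 8 * L * (g ^ 2 * (g ^ 2 / L) ^ l) * (2 * L ^ m)
        = 16 * g ^ 2 * ((g ^ 2 / L) ^ l * (L * L ^ m)) := by ring
      _ = 16 * g ^ 2 * (g ^ 2) ^ l := by rw [this, h2]
  have e2 : (g ^ 2 / L) ^ l * (g ^ 2) ^ l = (g ^ 4 / L) ^ l := by
    rw [← mul_pow]; congr 1; ring
  have e3 : L ^ l * (g ^ 2) ^ l = (g ^ 4 / L) ^ l * ((L / g) ^ l * (L / g) ^ l) := by
    rw [← mul_pow, ← mul_pow, ← mul_pow]; congr 1; field_simp
  have hq : 0 ≤ (g ^ 4 / L) ^ l := by positivity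
  have h4 : (L / g) ^ l * (L / g) ^ l / N ≤ N := by
    rw [div_le_iff₀ hN0]
    exact mul_le_mul hN hN hA.le hN0.le
  have hg24 : g ^ 2 ≤ g ^ 4 := pow_le_pow_right₀ hg1 (by norm_num)
  have hg2 : 0 ≤ g ^ 2 := by positivity
  rw [mul_assoc, e1]
  have e4 : (g ^ 2 * (g ^ 2 / L) ^ l * N + L ^ l * (4 / N)) * (16 * g ^ 2 * (g ^ 2) ^ l) =
      16 * g ^ 4 * ((g ^ 2 / L) ^ l * (g ^ 2) ^ l) * N +
        64 * g ^ 2 * (L ^ l * (g ^ 2) ^ l) / N := by ring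
  rw [e4, e2, e3]
  have h5 : 64 * g ^ 2 * ((g ^ 4 / L) ^ l * ((L / g) ^ l * (L / g) ^ l)) / N =
      64 * g ^ 2 * (g ^ 4 / L) ^ l * ((L / g) ^ l * (L / g) ^ l / N) := by ring
  rw [h5]
  have h6 : 64 * g ^ 2 * (g ^ 4 / L) ^ l * ((L / g) ^ l * (L / g) ^ l / N) ≤
      64 * g ^ 4 * (g ^ 4 / L) ^ l * N := by
    have h7 : 0 ≤ (L / g) ^ l * (L / g) ^ l / N := by positivity
    gcongr
  linarith

theorem geo_PertB {L g : ℝ} (hg : 300 ≤ g) (hL : g ^ 20 ≤ L) (j : ℕ) :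
    160 * g ^ 4 * ∑ l ∈ Finset.Ico 1 (j + 1), (g ^ 4 / L) ^ l ≤ 1 / 10 := by
  have hg0 : 0 < g := by linarith
  have hg1 : 1 ≤ g := by linarith
  have hL0 : 0 < L := lt_of_lt_of_le (by positivity) hL
  have h12 : (3200 : ℝ) ≤ g ^ 12 := by
    have h1 : g ^ 2 ≤ g ^ 12 := pow_le_pow_right₀ hg1 (by norm_num)
    nlinarith
  have hg4 : 1 ≤ g ^ 4 := one_le_pow₀ hg1
  have hq0 : 0 ≤ g ^ 4 / L := by positivity
  have hq : g ^ 4 * (g ^ 4 / L) ≤ 1 / 3200 := by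
    rw [← mul_div_assoc, div_le_div_iff₀ hL0 (by norm_num)]
    have h8 : 0 ≤ g ^ 4 * g ^ 4 := by positivity
    have : g ^ 20 = g ^ 4 * g ^ 4 * g ^ 12 := by ring
    nlinarith
  have hq2 : g ^ 4 / L ≤ 1 / 2 := by nlinarith
  have hs := geom_sum_Ico_le_of_lt_one (m := 1) (n := j + 1) hq0 (by linarith)
  have hs2 : (g ^ 4 / L) ^ 1 / (1 - g ^ 4 / L) ≤ 2 * (g ^ 4 / L) := by
    rw [pow_one, div_le_iff₀ (by linarith)]
    nlinarith
  have hs3 := hs.trans hs2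
  have h9 : 160 * g ^ 4 * ∑ l ∈ Finset.Ico 1 (j + 1), (g ^ 4 / L) ^ l ≤
      160 * g ^ 4 * (2 * (g ^ 4 / L)) := by gcongr
  nlinarith

theorem duh_PertB (V W : ℕ → ℝ) (a b : ℝ) (j : ℕ) :
    |fld W a b j - fld V a b j| + |fld W a b (j + 1) - fld V a b (j + 1)| ≤
      ∑ l ∈ Finset.Ico 1 (j + 1),
        2 * (vn (fld (sh V l) 0 1) (j - l) * |W l - V l| * |fld W a b l|) := by
  have h1 : |fld W a b j - fld V a b j| ≤ ∑ l ∈ Finset.Ico 1 (j + 1),
      vn (fld (sh V l) 0 1) (j - l) * |W l - V l| * |fld W a b l| := by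
    rw [duhamel]
    refine (Finset.abs_sum_le_sum_abs _ _).trans ?_
    refine le_trans (Finset.sum_le_sum fun l _ => ?_)
      (Finset.sum_le_sum_of_subset_of_nonneg (Finset.Ico_subset_Ico_right (Nat.le_succ j))
        fun l _ _ => ?_)
    · rw [abs_mul, abs_mul, mul_assoc]
      exact mul_le_mul_of_nonneg_right (le_max_left _ _) (by positivity)
    · have := vn_nonneg (fld (sh V l) 0 1) (j - l)
      positivity
  have h2 : |fld W a b (j + 1) - fld V a b (j + 1)| ≤ ∑ l ∈ Finset.Ico 1 (j + 1),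
      vn (fld (sh V l) 0 1) (j - l) * |W l - V l| * |fld W a b l| := by
    rw [duhamel]
    refine (Finset.abs_sum_le_sum_abs _ _).trans (Finset.sum_le_sum fun l hl => ?_)
    have hl2 : l ≤ j := by have := (Finset.mem_Ico.1 hl).2; omega
    rw [abs_mul, abs_mul, mul_assoc, show j + 1 - l = j - l + 1 by omega]
    exact mul_le_mul_of_nonneg_right (le_max_right _ _) (by positivity)
  rw [← Finset.mul_sum]
  linarith

theorem pert1 {L g : ℝ} (hg : 300 ≤ g) (hL : g ^ 20 ≤ L) {V W : ℕ → ℝ} (hV : ∀ j, |V j| ≤ L - 2)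
    (hW : ∀ j, |W j| ≤ L - 2) {n : ℕ} (hfree : ∀ j, 1 ≤ j → j ≤ n → (L / g) ^ j ≤ nrm V j)
    (hd : ∀ l, 1 ≤ l → l ≤ n → |W l - V l| ≤ 8 * L * (g ^ 2 * (g ^ 2 / L) ^ l)) {j : ℕ}
    (hj : j ≤ n) :
    |fld W 1 0 j - fld V 1 0 j| + |fld W 1 0 (j + 1) - fld V 1 0 (j + 1)| +
      |fld W 0 1 j - fld V 0 1 j| + |fld W 0 1 (j + 1) - fld V 0 1 (j + 1)| ≤ nrm V j / 10 := by
  have hg0 : 0 < g := by linarith
  have hg1 : 1 ≤ g := by linarith
  have hgL : g ≤ L := le_trans (le_self_pow₀ hg1 (by norm_num)) hL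
  have hL1 : 1 ≤ L := hg1.trans hgL
  have hN2 := two_le_nrm V j
  have h1 := duh_PertB V W 1 0 j
  have h2 := duh_PertB V W 0 1 j
  have h3 : ∑ l ∈ Finset.Ico 1 (j + 1),
        2 * (vn (fld (sh V l) 0 1) (j - l) * |W l - V l| * |fld W 1 0 l|) +
      ∑ l ∈ Finset.Ico 1 (j + 1),
        2 * (vn (fld (sh V l) 0 1) (j - l) * |W l - V l| * |fld W 0 1 l|) ≤
      ∑ l ∈ Finset.Ico 1 (j + 1), 160 * g ^ 4 * (g ^ 4 / L) ^ l * nrm V j := by
    rw [← Finset.sum_add_distrib]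
    refine Finset.sum_le_sum fun l hl => ?_
    have hl1 : 1 ≤ l := (Finset.mem_Ico.1 hl).1
    have hl2 : l ≤ j := by have := (Finset.mem_Ico.1 hl).2; omega
    have hG := green_le hg hL hV hfree hl1 (hl2.trans hj) hl2
    rw [min_eq_left hj, Nat.sub_self, pow_zero, one_mul] at hG
    have hD := hd l hl1 (hl2.trans hj)
    have hC := col_PertB hL1 hW hl1
    have hN : (L / g) ^ l ≤ nrm V j :=
      (pow_le_pow_right₀ ((one_le_div hg0).2 hgL) hl2).trans (hfree j (hl1.trans hl2) hj)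
    have hT := term_PertB hg hL hl1 hN
    have hv := vn_nonneg (fld (sh V l) 0 1) (j - l)
    have h4 : vn (fld (sh V l) 0 1) (j - l) * |W l - V l| * (|fld W 1 0 l| + |fld W 0 1 l|) ≤
        (g ^ 2 * (g ^ 2 / L) ^ l * nrm V j + L ^ l * (4 / nrm V j)) *
          (8 * L * (g ^ 2 * (g ^ 2 / L) ^ l)) * (2 * L ^ (l - 1)) :=
      mul_le_mul (mul_le_mul hG hD (abs_nonneg _) (hv.trans hG)) hC (by positivity)
        (mul_nonneg (hv.trans hG) ((abs_nonneg _).trans hD))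
    nlinarith
  have h5 : ∑ l ∈ Finset.Ico 1 (j + 1), 160 * g ^ 4 * (g ^ 4 / L) ^ l * nrm V j =
      (160 * g ^ 4 * ∑ l ∈ Finset.Ico 1 (j + 1), (g ^ 4 / L) ^ l) * nrm V j := by
    rw [Finset.mul_sum, Finset.sum_mul]
  have h6 := mul_le_mul_of_nonneg_right (geo_PertB hg hL j) (by linarith : 0 ≤ nrm V j)
  linarith

end Vale.Agent.P108
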