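import Vale.Agent.P108.Cor
import Vale.Agent.P108.PertA
import Vale.Agent.P108.PertB

/-!
P108 Pert: perturbation of the potentials.
duhamel: the difference d of the two fields solves d (l+1) = V l d l - d (l-1) + (W l - V l) xi' l,
so it is the sum of the sources propagated by fld (sh V l) 0 1 (induction on j, two steps).
green_le: let n' = min j n, s the field of decay_row for the window n' (larger row i) and
v = fld V 0 1, Wronskian of s and v is 1.  The field zeta = fld (sh V l) 0 1 (. - l) equals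
alpha s + beta v with |alpha| = |v l| <= L^l and |beta| = |s l| <= g^2 (g^2/L)^l.
At cut j: vn v j <= nrm V j and vn s j <= L^(j-n') 4 / nrm V n'.
pert1, pert2: sum duhamel over the four entries, with |fld W a b l| <= L^(l-1) * 2 (nrm_le_pow,
the entry at l lies in the cut l-1), green_le for l <= n and nrm_le_pow for l > n; all sums are
geometric.
-/

namespace Vale.Agent.P108

theorem key_Pert {L g : ℝ} (hg : 300 ≤ g) (hL : g ^ 20 ≤ L) {a b c : ℕ}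
    (h : a + 20 * b ≤ 20 * c) : g ^ a * L ^ b ≤ L ^ c := by
  obtain ⟨d, rfl⟩ : ∃ d, c = b + d := ⟨c - b, by omega⟩
  have h1 : 1 ≤ g := by linarith
  have hL0 : 0 ≤ L := le_trans (by positivity) hL
  calc g ^ a * L ^ b ≤ L ^ d * L ^ b := by
        refine mul_le_mul_of_nonneg_right ?_ (by positivity)
        calc g ^ a ≤ g ^ (20 * d) := pow_le_pow_right₀ h1 (by omega)
          _ = (g ^ 20) ^ d := pow_mul _ _ _
          _ ≤ L ^ d := pow_le_pow_left₀ (by positivity) hL d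
    _ = L ^ (b + d) := by ring

theorem key2_Pert {L g : ℝ} (hg : 300 ≤ g) (hL : g ^ 20 ≤ L) {a b c l : ℕ}
    (h : 2 + l + a + 20 * b ≤ 20 * c) : 640 * 2 ^ l * (g ^ a * L ^ b) ≤ L ^ c := by
  have hL0 : 0 ≤ L := le_trans (by positivity) hL
  have hg0 : 0 ≤ g := by linarith
  have h2 : (2 : ℝ) ^ l ≤ g ^ l := pow_le_pow_left₀ (by norm_num) (by linarith) _
  have h3 : (640 : ℝ) ≤ g ^ 2 := by nlinarith
  calc 640 * 2 ^ l * (g ^ a * L ^ b) ≤ g ^ 2 * g ^ l * (g ^ a * L ^ b) := by gcongr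
    _ = g ^ (2 + l + a) * L ^ b := by ring
    _ ≤ L ^ c := key_Pert hg hL h

theorem t1_Pert {L g : ℝ} (hg : 300 ≤ g) (hL : g ^ 20 ≤ L) (p : ℕ) :
    2 * (g ^ 2 * (g ^ 2 / L) ^ (p + 1)) * (8 * L * (g ^ 2 * (g ^ 2 / L) ^ (p + 1))) * L ^ p ≤
      (1 / 2) ^ (p + 1) / 10 := by
  have hg0 : 0 < g := by linarith
  have hL0 : 0 < L := lt_of_lt_of_le (by positivity) hL
  have hk := key2_Pert hg hL (a := 4 + 4 * (p + 1)) (b := 0) (c := p + 1) (l := p + 1) (by omega)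
  have e : 2 * (g ^ 2 * (g ^ 2 / L) ^ (p + 1)) * (8 * L * (g ^ 2 * (g ^ 2 / L) ^ (p + 1))) *
      L ^ p = 16 * g ^ (4 + 4 * (p + 1)) / L ^ (p + 1) := by
    rw [div_pow]; field_simp; ring
  have e2 : ((1 : ℝ) / 2) ^ (p + 1) / 10 = 1 / (10 * 2 ^ (p + 1)) := by
    rw [div_pow]; field_simp; simp
  rw [e, e2, div_le_div_iff₀ (by positivity) (by positivity)]
  have hp : 0 ≤ (2 : ℝ) ^ (p + 1) * g ^ (4 + 4 * (p + 1)) := by positivity
  rw [pow_zero] at hk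
  nlinarith

theorem t2_Pert {L g : ℝ} (hg : 300 ≤ g) (hL : g ^ 20 ≤ L) {p n r : ℕ} (hp : p + 1 ≤ n)
    (hr : r ≤ n) {Y : ℝ} (hY : (L / g) ^ n ≤ Y) :
    2 * (L ^ (p + 1) * (L ^ r * (4 / Y))) * (8 * L * (g ^ 2 * (g ^ 2 / L) ^ (p + 1))) * L ^ p ≤
      (1 / 2) ^ (p + 1) * ((L / g) ^ (n + r) / 10) := by
  have hg0 : 0 < g := by linarith
  have hL0 : 0 < L := lt_of_lt_of_le (by positivity) hL
  have hk := key2_Pert hg hL (a := 2 + 2 * (p + 1) + n + n + r) (b := p + 1) (c := 2 * n)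
    (l := p + 1) (by omega)
  have hY' : 4 / Y ≤ 4 / (L / g) ^ n := div_le_div_of_nonneg_left (by norm_num) (by positivity) hY
  calc _ ≤ 2 * (L ^ (p + 1) * (L ^ r * (4 / (L / g) ^ n))) *
        (8 * L * (g ^ 2 * (g ^ 2 / L) ^ (p + 1))) * L ^ p := by gcongr
    _ = (640 * 2 ^ (p + 1) * (g ^ (2 + 2 * (p + 1) + n + n + r) * L ^ (p + 1))) *
        (L ^ r / (10 * 2 ^ (p + 1) * L ^ n * g ^ (n + r))) := by
        rw [div_pow, div_pow]; field_simp; ring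
    _ ≤ L ^ (2 * n) * (L ^ r / (10 * 2 ^ (p + 1) * L ^ n * g ^ (n + r))) := by gcongr
    _ = _ := by
        rw [div_pow, div_pow]; field_simp; ring

theorem t3_Pert {L g : ℝ} (hg : 300 ≤ g) (hL : g ^ 20 ≤ L) {n s u : ℕ}
    (hm : 2 * (n + s + 1 + u) ≤ 3 * n + 1) :
    2 * L ^ u * (8 * L * (g ^ 2 * (g ^ 2 / L) ^ n * L ^ s)) * L ^ (n + s) ≤
      (1 / 2) ^ (n + s + 1) * ((L / g) ^ (n + s + 1 + u) / 10) := by
  have hg0 : 0 < g := by linarith
  have hL0 : 0 < L := lt_of_lt_of_le (by positivity) hL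
  have hk := key2_Pert hg hL (a := 2 + 2 * n + (n + s + 1 + u)) (b := s) (c := n)
    (l := n + s + 1) (by omega)
  calc _ = (640 * 2 ^ (n + s + 1) * (g ^ (2 + 2 * n + (n + s + 1 + u)) * L ^ s)) *
        (L ^ (s + 1 + u) / (40 * 2 ^ (n + s + 1) * g ^ (n + s + 1 + u))) := by
        rw [div_pow]; field_simp; ring
    _ ≤ L ^ n * (L ^ (s + 1 + u) / (10 * 2 ^ (n + s + 1) * g ^ (n + s + 1 + u))) := by
        gcongr; norm_num
    _ = _ := by
        rw [div_pow, div_pow]; field_simp; ring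

theorem geom_Pert (m : ℕ) : ∑ l ∈ Finset.Ico 1 (m + 1), ((1 : ℝ) / 2) ^ l = 1 - (1 / 2) ^ m := by
  induction m with
  | zero => simp
  | succ k ih => rw [Finset.sum_Ico_succ_top (by omega), ih]; ring

theorem col_Pert {L : ℝ} {W : ℕ → ℝ} (hW : ∀ j, |W j| ≤ L - 2) (p : ℕ) :
    |fld W 1 0 (p + 1)| + |fld W 0 1 (p + 1)| ≤ L ^ p := by
  rcases Nat.eq_zero_or_pos p with rfl | hp
  · simp [fld]
  · have h := nrm_le_pow hW (n := p) hp
    unfold nrm at h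
    linarith [abs_nonneg (fld W 1 0 p), abs_nonneg (fld W 0 1 p)]

theorem err_Pert (V W : ℕ → ℝ) (a b : ℝ) {m j : ℕ} (hj : j = m ∨ j = m + 1) :
    |fld W a b j - fld V a b j| ≤ ∑ l ∈ Finset.Ico 1 (m + 1),
      vn (fld (sh V l) 0 1) (m - l) * |W l - V l| * |fld W a b l| := by
  rw [duhamel]
  refine (Finset.abs_sum_le_sum_abs _ _).trans ?_
  calc _ ≤ ∑ l ∈ Finset.Ico 1 j, vn (fld (sh V l) 0 1) (m - l) * |W l - V l| * |fld W a b l| := by
        refine Finset.sum_le_sum fun l hl => ?_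
        rw [abs_mul, abs_mul, ← mul_assoc]
        have hl' := Finset.mem_Ico.mp hl
        have h : |fld (sh V l) 0 1 (j - l)| ≤ vn (fld (sh V l) 0 1) (m - l) := by
          rcases hj with rfl | rfl
          · exact le_max_left _ _
          · rw [show m + 1 - l = m - l + 1 by omega]
            exact le_max_right _ _
        gcongr
    _ ≤ _ := by
        refine Finset.sum_le_sum_of_subset_of_nonneg
          (Finset.Ico_subset_Ico le_rfl (by omega)) fun l _ _ => ?_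
        have := vn_nonneg (fld (sh V l) 0 1) (m - l)
        positivity

theorem term_Pert {L g : ℝ} (hg : 300 ≤ g) (hL : g ^ 20 ≤ L) {V W : ℕ → ℝ}
    (hV : ∀ j, |V j| ≤ L - 2) (hW : ∀ j, |W j| ≤ L - 2) {n : ℕ} (hn : 1 ≤ n)
    (hfree : ∀ j, 1 ≤ j → j ≤ n → (L / g) ^ j ≤ nrm V j)
    (hd : ∀ l, 1 ≤ l → l ≤ n → |W l - V l| ≤ 8 * L * (g ^ 2 * (g ^ 2 / L) ^ l)) {m : ℕ}
    (hnm : n < m) (hm : 2 * m ≤ 3 * n + 1)
    (hd' : ∀ l, n < l → l ≤ m →
      |W l - V l| ≤ 8 * L * (g ^ 2 * (g ^ 2 / L) ^ n * L ^ (l - n - 1)))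
    {l : ℕ} (hl : 1 ≤ l) (hlm : l ≤ m) :
    2 * vn (fld (sh V l) 0 1) (m - l) * |W l - V l| * (|fld W 1 0 l| + |fld W 0 1 l|) ≤
      (1 / 2) ^ l * (nrm V m / 10 + (L / g) ^ m / 10) := by
  have hg0 : 0 < g := by linarith
  have hL0 : 0 < L := lt_of_lt_of_le (by positivity) hL
  have hN : 0 ≤ nrm V m := le_trans (by norm_num) (two_le_nrm V m)
  have hvn := vn_nonneg (fld (sh V l) 0 1) (m - l)
  by_cases hc : l ≤ n
  · obtain ⟨p, rfl⟩ : ∃ p, l = p + 1 := ⟨l - 1, by omega⟩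
    obtain ⟨r, rfl⟩ : ∃ r, m = n + r := ⟨m - n, by omega⟩
    have hG := green_le hg hL hV hfree hl hc hlm
    rw [min_eq_right hnm.le, Nat.add_sub_cancel_left] at hG
    have hNn : 0 ≤ nrm V n := le_trans (by norm_num) (two_le_nrm V n)
    have h1 := t1_Pert hg hL p
    have h2 := t2_Pert hg hL hc (r := r) (by omega) (hfree n hn le_rfl)
    have hcol := col_Pert hW p
    have hdl := hd _ hl hc
    calc _ ≤ 2 * (g ^ 2 * (g ^ 2 / L) ^ (p + 1) * nrm V (n + r) +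
          L ^ (p + 1) * (L ^ r * (4 / nrm V n))) *
          (8 * L * (g ^ 2 * (g ^ 2 / L) ^ (p + 1))) * L ^ p := by gcongr
      _ = (2 * (g ^ 2 * (g ^ 2 / L) ^ (p + 1)) * (8 * L * (g ^ 2 * (g ^ 2 / L) ^ (p + 1))) *
            L ^ p) * nrm V (n + r) +
          2 * (L ^ (p + 1) * (L ^ r * (4 / nrm V n))) *
            (8 * L * (g ^ 2 * (g ^ 2 / L) ^ (p + 1))) * L ^ p := by ring
      _ ≤ (1 / 2) ^ (p + 1) / 10 * nrm V (n + r) +
          (1 / 2) ^ (p + 1) * ((L / g) ^ (n + r) / 10) := by gcongr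
      _ = _ := by ring
  · obtain ⟨s, rfl⟩ : ∃ s, l = n + s + 1 := ⟨l - n - 1, by omega⟩
    obtain ⟨u, rfl⟩ : ∃ u, m = n + s + 1 + u := ⟨m - (n + s + 1), by omega⟩
    rw [Nat.add_sub_cancel_left] at hvn ⊢
    have hdl := hd' (n + s + 1) (by omega) hlm
    rw [show n + s + 1 - n - 1 = s by omega] at hdl
    have hcol := col_Pert hW (n + s)
    have hsh : ∀ j, |sh V (n + s + 1) j| ≤ L - 2 := fun j => hV _
    have hG := ((fld_fldOn (sh V (n + s + 1)) 0 1 u).vn_le_pow hsh (Nat.zero_le u) le_rfl).1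
    have h0 : vn (fld (sh V (n + s + 1)) 0 1) 0 = 1 := by simp [vn, fld]
    rw [h0, mul_one, Nat.sub_zero] at hG
    have h3 := t3_Pert hg hL hm
    calc _ ≤ 2 * L ^ u * (8 * L * (g ^ 2 * (g ^ 2 / L) ^ n * L ^ s)) * L ^ (n + s) := by gcongr
      _ ≤ _ := h3
      _ ≤ _ := by
        gcongr
        linarith

theorem pert2 {L g : ℝ} (hg : 300 ≤ g) (hL : g ^ 20 ≤ L) {V W : ℕ → ℝ} (hV : ∀ j, |V j| ≤ L - 2)
    (hW : ∀ j, |W j| ≤ L - 2) {n : ℕ} (hn : 1 ≤ n)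
    (hfree : ∀ j, 1 ≤ j → j ≤ n → (L / g) ^ j ≤ nrm V j)
    (hd : ∀ l, 1 ≤ l → l ≤ n → |W l - V l| ≤ 8 * L * (g ^ 2 * (g ^ 2 / L) ^ l)) {m : ℕ}
    (hnm : n < m) (hm : 2 * m ≤ 3 * n + 1)
    (hd' : ∀ l, n < l → l ≤ m →
      |W l - V l| ≤ 8 * L * (g ^ 2 * (g ^ 2 / L) ^ n * L ^ (l - n - 1))) :
    nrm W m ≤ 11 / 10 * nrm V m + (L / g) ^ m / 10 := by
  have e1 := err_Pert V W 1 0 (m := m) (Or.inl rfl)
  have e2 := err_Pert V W 1 0 (m := m) (Or.inr rfl)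
  have e3 := err_Pert V W 0 1 (m := m) (Or.inl rfl)
  have e4 := err_Pert V W 0 1 (m := m) (Or.inr rfl)
  have hg0 : 0 < g := by linarith
  have hL0 : 0 < L := lt_of_lt_of_le (by positivity) hL
  have hN : 0 ≤ nrm V m := le_trans (by norm_num) (two_le_nrm V m)
  have hs : 2 * (∑ l ∈ Finset.Ico 1 (m + 1),
      vn (fld (sh V l) 0 1) (m - l) * |W l - V l| * |fld W 1 0 l|) +
      2 * (∑ l ∈ Finset.Ico 1 (m + 1),
      vn (fld (sh V l) 0 1) (m - l) * |W l - V l| * |fld W 0 1 l|) ≤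
      nrm V m / 10 + (L / g) ^ m / 10 := by
    rw [Finset.mul_sum, Finset.mul_sum, ← Finset.sum_add_distrib]
    calc _ ≤ ∑ l ∈ Finset.Ico 1 (m + 1), (1 / 2) ^ l * (nrm V m / 10 + (L / g) ^ m / 10) := by
          refine Finset.sum_le_sum fun l hl => ?_
          have hl' := Finset.mem_Ico.mp hl
          have h := term_Pert hg hL hV hW hn hfree hd hnm hm hd' hl'.1 (by omega)
          linarith
      _ = (1 - (1 / 2) ^ m) * (nrm V m / 10 + (L / g) ^ m / 10) := by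
          rw [← Finset.sum_mul, geom_Pert]
      _ ≤ 1 * (nrm V m / 10 + (L / g) ^ m / 10) := by
          have : 0 ≤ ((1 : ℝ) / 2) ^ m := by positivity
          gcongr
          linarith
      _ = _ := one_mul _
  have a1 := abs_sub_abs_le_abs_sub (fld W 1 0 m) (fld V 1 0 m)
  have a2 := abs_sub_abs_le_abs_sub (fld W 1 0 (m + 1)) (fld V 1 0 (m + 1))
  have a3 := abs_sub_abs_le_abs_sub (fld W 0 1 m) (fld V 0 1 m)
  have a4 := abs_sub_abs_le_abs_sub (fld W 0 1 (m + 1)) (fld V 0 1 (m + 1))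
  have eW : nrm W m = |fld W 1 0 m| + |fld W 1 0 (m + 1)| + |fld W 0 1 m| +
    |fld W 0 1 (m + 1)| := rfl
  have eV : nrm V m = |fld V 1 0 m| + |fld V 1 0 (m + 1)| + |fld V 0 1 m| +
    |fld V 0 1 (m + 1)| := rfl
  linarith

end Vale.Agent.P108
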