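import Vale.Agent.P108.PoroI
import Vale.Agent.P108.Data

/-!
P108 Poro: porosity at one clean level.  Translate the line so that the given point is t = 0
(p = a + e1 t, q = b + e2 t; Porous is translation invariant).  pick_index gives i, i'.  Apply
holes with the larger chain first (swap the roles and use gd_comm when the left chain is larger),
with c replaced by min c 1, then poroI or poroII.
-/

namespace Vale.Agent.P108

open MeasureTheory Set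

theorem shift_Poro {A : Set ℝ} {c del del' t : ℝ} (h : Porous {s | t + s ∈ A} c del del' 0) :
    Porous A c del del' t := by
  obtain ⟨R, h1, h2, h3⟩ := h
  refine ⟨R, h1, h2, le_trans ?_ h3⟩
  rw [← measure_preimage_add volume t]
  refine measure_mono fun s hs => ?_
  obtain ⟨⟨a1, a2⟩, a, ha, hsa⟩ := hs
  refine ⟨⟨by linarith, by linarith⟩, a - t, ?_, ?_⟩
  · rwa [mem_ofPred_eq, add_sub_cancel]
  · rwa [show s - (a - t) = t + s - a by ring]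

theorem holeI_Poro {μ c c' : ℝ} {P Q : ℝ → ℝ} (hc : c' ≤ c) (h : HoleI μ c P Q) :
    HoleI μ c' P Q ∧ HoleI μ c' Q P := by
  obtain ⟨R, h1, h2, G, hG, hs, hv, hg⟩ := h
  have hv' : ENNReal.ofReal (c' * R) ≤ volume G :=
    le_trans (ENNReal.ofReal_le_ofReal (mul_le_mul_of_nonneg_right hc (by linarith))) hv
  exact ⟨⟨R, h1, h2, G, hG, hs, hv', hg⟩,
    ⟨R, h1, h2, G, hG, hs, hv', fun s h s' h' => gd_comm.1 (hg s h s' h')⟩⟩

theorem both_Poro : ∃ c : ℝ, 0 < c ∧ c ≤ 1 ∧ ∃ μ0 : ℝ, ∀ (k μ : ℝ), 0 < k → μ0 ≤ μ →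
    μ ^ 100 = Lam k → ∀ (p q e1 e2 : ℝ) (i i' : ℕ) (M : ℝ), Dir e1 e2 → 1 ≤ i → 1 ≤ i' →
    BD μ (Lam k) (vr k p q e1 e2) i → BD μ (Lam k) (vr k q p e2 e1) i' →
    M = max (vn (vr k p q e1 e2) i) (vn (vr k q p e2 e1) i') →
    vn (vr k p q e1 e2) i ≤ μ ^ 55 * vn (vr k q p e2 e1) i' →
    vn (vr k q p e2 e1) i' ≤ μ ^ 55 * vn (vr k p q e1 e2) i →
    HoleI μ c (fun s => orb k (p + e1 * (s / M)) (q + e2 * (s / M)) (i + 1))
      (fun s => orb k (q + e2 * (s / M)) (p + e1 * (s / M)) (i' + 1)) ∨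
    (M ≤ 2 * min (vn (vr k p q e1 e2) i) (vn (vr k q p e2 e1) i') ∧
      ∃ G : Set ℝ, MeasurableSet G ∧ G ⊆ Icc 0 4 ∧
      ENNReal.ofReal (c * 4) ≤ volume G ∧ ∀ s ∈ G, ∀ s', |s' - s| ≤ 1 / (10000 * Lam k) →
        Gd (orb k (p + e1 * (s' / M)) (q + e2 * (s' / M)) (i + 2))
          (orb k (q + e2 * (s' / M)) (p + e1 * (s' / M)) (i' + 2)) ∧
        4 / 5 ≤ |Real.cos (2 * Real.pi * orb k (p + e1 * (s' / M)) (q + e2 * (s' / M)) (i + 1))| ∧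
        4 / 5 ≤ |Real.cos (2 * Real.pi *
          orb k (q + e2 * (s' / M)) (p + e1 * (s' / M)) (i' + 1))|) := by
  obtain ⟨c, hc, μ0, H⟩ := holes
  have h1 := min_le_left c 1
  have h2 : ENNReal.ofReal (min c 1 * 4) ≤ ENNReal.ofReal (c * 4) :=
    ENNReal.ofReal_le_ofReal (by linarith)
  refine ⟨min c 1, lt_min hc one_pos, min_le_right _ _, μ0,
    fun k μ hk hμ hL p q e1 e2 i i' M he hi hi' b1 b2 hM m1 m2 => ?_⟩
  have he' : Dir e2 e1 := he.symm.imp And.symm And.symm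
  rcases le_total (vn (vr k q p e2 e1) i') (vn (vr k p q e1 e2) i) with hle | hle
  · rw [max_eq_left hle] at hM
    rw [min_eq_right hle]
    rcases H k μ hk hμ hL p q e1 e2 q p e2 e1 i i' M he he' hi hi' b1 b2 hM (hle.trans hM.ge)
      (hM.le.trans m1) with h | ⟨a, G, g1, g2, g3, g4⟩
    · exact Or.inl (holeI_Poro h1 h).1
    · exact Or.inr ⟨a, G, g1, g2, h2.trans g3, g4⟩
  · rw [max_eq_right hle] at hM
    rw [min_eq_left hle]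
    rcases H k μ hk hμ hL q p e2 e1 p q e1 e2 i' i M he' he hi' hi b2 b1 hM (hle.trans hM.ge)
      (hM.le.trans m2) with h | ⟨a, G, g1, g2, g3, g4⟩
    · exact Or.inl (holeI_Poro h1 h).2
    · exact Or.inr ⟨a, G, g1, g2, h2.trans g3, fun s hs s' hs' =>
        ⟨gd_comm.1 (g4 s hs s' hs').1, (g4 s hs s' hs').2.2, (g4 s hs s' hs').2.1⟩⟩

theorem zero_Poro : ∃ c : ℝ, 0 < c ∧ c ≤ 1 ∧ ∃ μ0 : ℝ, ∀ (k μ η : ℝ), 0 < k → μ0 ≤ μ →
    μ ^ 100 = Lam k → 0 < η → η ≤ 1 / 100 → ∀ (p q e1 e2 T del' : ℝ) (h : ℕ), Dir e1 e2 →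
    Lam k ^ (η * h + 3) ≤ T → T ≤ Lam k ^ ((1 - 2 * η) * h - 12) →
    0 ≤ del' → del' ≤ Lam k / T / Lam k ^ 5 →
    (p, q) ∈ PkL k μ e1 e2 (Lam k ^ η / Lam k) h T →
    Porous {s : ℝ | (p + e1 * s, q + e2 * s) ∈ PkL k μ e1 e2 (Lam k ^ η / Lam k) h T} c
      (Lam k / T) del' 0 := by
  obtain ⟨c, hc, hc1, μ1, H1⟩ := both_Poro
  obtain ⟨μ2, H2⟩ := poroI c hc hc1
  obtain ⟨μ3, H3⟩ := poroII c hc hc1
  obtain ⟨μ4, H4⟩ := pick_index
  refine ⟨c / 2, by linarith, by linarith, max (max (max μ1 μ2) (max μ3 μ4)) 1,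
    fun k μ η hk hμ hL hη hη1 p q e1 e2 T del' h he hT1 hT2 hd0 hd hP => ?_⟩
  simp only [max_le_iff] at hμ
  obtain ⟨⟨⟨m1, m2⟩, m3, m4⟩, m5⟩ := hμ
  obtain ⟨i, i', hi, hi', i1, i2, i3, i4, b1, b2, t1, t2, t3, t4, r1, r2⟩ :=
    H4 k μ η hk m4 hL hη hη1 p q e1 e2 T h he hT1 hT2 hP
  have hh : 0 ≤ η * h := by positivity
  have j1 : 1 ≤ i := by
    have : (1 : ℝ) ≤ i := by linarith
    exact_mod_cast this
  have j2 : 1 ≤ i' := by
    have : (1 : ℝ) ≤ i' := by linarith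
    exact_mod_cast this
  have n1 : 0 ≤ vn (vr k p q e1 e2) i := le_max_of_le_left (abs_nonneg _)
  have n2 : 0 ≤ vn (vr k q p e2 e1) i' := le_max_of_le_left (abs_nonneg _)
  have p1 : μ ^ 50 ≤ μ ^ 55 := pow_le_pow_right₀ m5 (by norm_num)
  have p2 : 1 ≤ μ ^ 50 := one_le_pow₀ m5
  have hTM := t1.trans (le_max_left _ (vn (vr k q p e2 e1) i'))
  rcases H1 k μ hk m1 hL p q e1 e2 i i' _ he j1 j2 b1 b2 rfl
    (r1.trans (mul_le_mul_of_nonneg_right p1 n2))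
    (r2.trans (mul_le_mul_of_nonneg_right p1 n1)) with hI | ⟨a, hII⟩
  · refine H2 k μ η hk m2 hL hη hη1 p q e1 e2 T _ del' h i i' he hT1 hT2 hP hi hi' i1 i2 i3 i4 rfl
      hTM (max_le t3 t4) ?_ hd0 hd hI
    rw [mul_min_of_nonneg _ _ (zero_le_one.trans p2)]
    exact max_le (le_min (le_mul_of_one_le_left n1 p2) r1) (le_min r2 (le_mul_of_one_le_left n2 p2))
  · exact H3 k μ η hk m3 hL hη hη1 p q e1 e2 T _ del' h i i' he hT1 hT2 hP hi hi' i1 i2 i3 i4 rfl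
      hTM (max_le t3 t4) a hd0 hd hII

theorem poro : ∃ c : ℝ, 0 < c ∧ c ≤ 1 ∧ ∃ μ0 : ℝ, ∀ (k μ η : ℝ), 0 < k → μ0 ≤ μ →
    μ ^ 100 = Lam k → 0 < η → η ≤ 1 / 100 → ∀ (a b e1 e2 T del' : ℝ) (h : ℕ), Dir e1 e2 →
    Lam k ^ (η * h + 3) ≤ T → T ≤ Lam k ^ ((1 - 2 * η) * h - 12) →
    0 ≤ del' → del' ≤ Lam k / T / Lam k ^ 5 →
    ∀ t, (a + e1 * t, b + e2 * t) ∈ PkL k μ e1 e2 (Lam k ^ η / Lam k) h T →
    Porous {s : ℝ | (a + e1 * s, b + e2 * s) ∈ PkL k μ e1 e2 (Lam k ^ η / Lam k) h T} c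
      (Lam k / T) del' t := by
  obtain ⟨c, hc, hc1, μ0, H⟩ := zero_Poro
  refine ⟨c, hc, hc1, μ0, fun k μ η hk hμ hL hη hη1 a b e1 e2 T del' h he hT1 hT2 hd0 hd t ht =>
    shift_Poro ?_⟩
  have := H k μ η hk hμ hL hη hη1 _ _ e1 e2 T del' h he hT1 hT2 hd0 hd ht
  simpa only [mem_ofPred_eq, mul_add, add_assoc] using this

end Vale.Agent.P108
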