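import Vale.Agent.P108.Near

/-!
P108 PoroII (part of PoroI): from a good set to porosity.  A is the set of t with (p + e1 t, q + e2 t) in PkL,
the base point t = 0 lies in A, i, i' come from pick_index and M is the larger size.
poroI: G, R from the hypothesis, rescaled by 1 / M.  cover_hole with
G' = {t | Gd at t and |t| <= mu^58 / M}, ell = 1 / (200000 M), lam = 2 / (mu^10 M), del = del'.
For a in A and G', near_clean on both chains gives the clean cuts and sizes within [1/2, 3/2],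
no_sixteen at the base point (p + e1 a, q + e2 a) (translate Sixteen by a) gives the hypothesis.
The error 32 (lam + del')(R / (M ell) + 3) is at most c R / (2 M); note del' <= 1 / (Lam^2 M).
poroII: the same with the indices i + 1, i' + 1, R = 4, ell = 1 / (200000 Lam M),
lam = 20 / (mu^10 Lam M); next_size (BD at i from dec_bd) gives sizes in [0.07 Lam M, 1.5 Lam M].
-/

namespace Vale.Agent.P108

open MeasureTheory Set

theorem sixteen_shift_PoroII {A B : Set ℝ} {lam lam' a : ℝ} (h : Sixteen A lam) (hl : lam' ≤ lam)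
    (hAB : ∀ t ∈ A, t - a ∈ B) : Sixteen B lam' := by
  obtain ⟨t, ht, hs⟩ := h
  refine ⟨fun l => t l - a, fun l hl' => hAB _ (ht l hl'), fun l hl' => ?_⟩
  have := hs l hl'
  simp only
  linarith

theorem dir_swap_PoroII {e1 e2 : ℝ} (h : Dir e1 e2) : Dir e2 e1 := by
  rcases h with ⟨h1, h2⟩ | ⟨h1, h2⟩
  · exact Or.inr ⟨h2, h1⟩
  · exact Or.inl ⟨h2, h1⟩

/-- rescaling by 1 / M and the final count. -/
theorem wrap_PoroII {A G0 G' : Set ℝ} {c R0 M ell lam del del' : ℝ} (hc : 0 < c) (hM : 0 < M)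
    (hR0 : 0 ≤ R0) (hell : 0 < ell) (hlam : 0 < lam) (hdel : 0 ≤ del') (hdl : del' ≤ ell)
    (hG : MeasurableSet G0) (hGR : G0 ⊆ Icc 0 R0) (hvol : ENNReal.ofReal (c * R0) ≤ volume G0)
    (hG' : ∀ t, t * M ∈ G0 → ∀ t', |t' - t| ≤ del' → t' ∈ G')
    (hno : ∀ a ∈ A ∩ G', ¬ Sixteen (A ∩ G' ∩ Icc (a - ell) (a + ell)) lam)
    (herr : 32 * (lam + del') * (R0 / M / ell + 3) ≤ c / 2 * (R0 / M))
    (h1 : 8 / (c / 2) * del' ≤ R0 / M) (h2 : R0 / M ≤ del / 2) :
    Porous A (c / 2) del del' 0 := by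
  have hR : 0 ≤ R0 / M := div_nonneg hR0 hM.le
  have hmeas : MeasurableSet ((fun t : ℝ => t * M) ⁻¹' G0) :=
    (measurable_id.mul_const M) hG
  have hsub : ((fun t : ℝ => t * M) ⁻¹' G0) ⊆ Icc 0 (R0 / M) := by
    intro t ht
    obtain ⟨ha, hb⟩ := hGR ht
    refine ⟨?_, ?_⟩
    · by_contra hneg
      have : t * M < 0 := mul_neg_of_neg_of_pos (not_le.mp hneg) hM
      linarith
    · rw [le_div_iff₀ hM]
      exact hb
  have hcov := cover_hole (A := A) (G := (fun t : ℝ => t * M) ⁻¹' G0) (G' := G') hR hell hlam hdel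
    hdl hmeas hsub (fun s hs s' hs' => hG' s hs s' hs') hno
  have hv : ENNReal.ofReal (c * (R0 / M)) ≤ volume ((fun t : ℝ => t * M) ⁻¹' G0) := by
    rw [Real.volume_preimage_mul_right hM.ne', abs_of_pos (inv_pos.mpr hM)]
    have e : c * (R0 / M) = M⁻¹ * (c * R0) := by field_simp
    rw [e, ENNReal.ofReal_mul (inv_pos.mpr hM).le]
    exact mul_le_mul_right hvol _
  refine ⟨R0 / M, h1, h2, ?_⟩
  rw [zero_add]
  have h3 : volume {s | s ∈ Icc 0 (R0 / M) ∧ ∃ a ∈ A, |s - a| ≤ del'} +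
      ENNReal.ofReal (c * (R0 / M)) ≤ ENNReal.ofReal (R0 / M + c / 2 * (R0 / M)) :=
    le_trans (add_le_add_right hv _) (le_trans hcov (ENNReal.ofReal_le_ofReal (by linarith)))
  have h4 := ENNReal.le_sub_of_add_le_right ENNReal.ofReal_ne_top h3
  rw [← ENNReal.ofReal_sub _ (mul_nonneg hc.le hR)] at h4
  have e : R0 / M + c / 2 * (R0 / M) - c * (R0 / M) = (1 - c / 2) * (R0 / M) := by ring
  rwa [e] at h4

/-- one chain at a point of the set: clean cuts and the size at the next cut. -/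
theorem chain_PoroII : ∃ μ0 : ℝ, ∀ (k μ η : ℝ), 0 < k → μ0 ≤ μ → μ ^ 100 = Lam k → 0 < η →
    η ≤ 1 / 100 → ∀ (p q e1 e2 u1 u2 u1' u2' T M t : ℝ) (h i : ℕ), Dir e1 e2 →
    Lam k ^ (η * h + 3) ≤ T → T ≤ Lam k ^ ((1 - 2 * η) * h - 12) →
    Dec (Vo k p q) e1 e2 u1 u2 (Lam k ^ η / Lam k) h →
    ClLev μ (Lam k) (Vo k p q) (vr k p q e1 e2) h T →
    (i = fp (vr k p q e1 e2) T ∨ i = fp (vr k p q e1 e2) T + 1) →
    η * h + 3 ≤ i → (i : ℝ) + 9 ≤ (1 - η) * h → 0 < M → vn (vr k p q e1 e2) i ≤ M →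
    M ≤ 2 * vn (vr k p q e1 e2) i → |t| ≤ 5 / M →
    Dec (Vo k (p + e1 * t) (q + e2 * t)) e1 e2 u1' u2' (Lam k ^ η / Lam k) h →
    ClLev μ (Lam k) (Vo k (p + e1 * t) (q + e2 * t)) (vr k (p + e1 * t) (q + e2 * t) e1 e2) h T →
    4 / 5 ≤ |Real.cos (2 * Real.pi * orb k (p + e1 * t) (q + e2 * t) (i + 1))| →
    (∀ s, i ≤ s → s ≤ i + 3 → Cl μ (Lam k) (Vo k (p + e1 * t) (q + e2 * t)) h s) ∧
      3 / 40 * (Lam k * M) ≤ vn (vr k (p + e1 * t) (q + e2 * t) e1 e2) (i + 1) ∧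
      vn (vr k (p + e1 * t) (q + e2 * t) e1 e2) (i + 1) ≤ 3 / 2 * (Lam k * M) := by
  obtain ⟨μ1, h1⟩ := near_clean
  obtain ⟨μ2, h2⟩ := next_size
  refine ⟨max 300 (max μ1 μ2), ?_⟩
  intro k μ η hk hμ hL hη hη1 p q e1 e2 u1 u2 u1' u2' T M t h i he hT1 hT2 hd hcl hi hi1 hi2 hM
    hvM hMv ht hd' hcl' hcos
  have hμ300 : 300 ≤ μ := le_trans (le_max_left _ _) hμ
  have hμ1 : μ1 ≤ μ := le_trans (le_trans (le_max_left _ _) (le_max_right _ _)) hμ
  have hμ2 : μ2 ≤ μ := le_trans (le_trans (le_max_right _ _) (le_max_right _ _)) hμ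
  have hv0 : 0 < vn (vr k p q e1 e2) i := by linarith
  have h91 : (5 : ℝ) ≤ μ ^ 91 := by
    have : μ ^ 1 ≤ μ ^ 91 := pow_le_pow_right₀ (by linarith) (by norm_num)
    rw [pow_one] at this
    linarith
  have ht' : |t| ≤ μ ^ 91 / vn (vr k p q e1 e2) i :=
    le_trans ht (div_le_div₀ (by linarith) h91 hv0 hvM)
  obtain ⟨hC, hlo, hhi⟩ := h1 k μ η hk hμ1 hL hη hη1 p q e1 e2 u1 u2 u1' u2' T t h i he hT1 hT2
    hd hcl hi ht' hd' hcl'
  have hh0 : (0 : ℝ) ≤ η * h := mul_nonneg hη.le (Nat.cast_nonneg h)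
  have hih : i ≤ h := by
    have : (i : ℝ) ≤ h := by linarith
    exact_mod_cast this
  have hi0 : 1 ≤ i := by
    have : (1 : ℝ) ≤ i := by linarith
    exact_mod_cast this
  have hBD : BD μ (Lam k) (vr k (p + e1 * t) (q + e2 * t) e1 e2) i := by
    have hV : ∀ j, |Vo k (p + e1 * t) (q + e2 * t) j| ≤ μ ^ 100 - 2 := by
      intro j
      rw [hL]
      exact abs_Vo_le hk _ _ j
    have hd2 := hd'
    have hc2 := hC i le_rfl (by omega)
    rw [← hL] at hd2 hc2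
    have := dec_bd hμ300 hη hη1 hV he hd2 (t := i) (by linarith) hih hc2
    rw [hL] at this
    exact this
  obtain ⟨ha, hb⟩ := h2 k μ hk hμ2 hL (p + e1 * t) (q + e2 * t) e1 e2 i hi0 hBD hcos
  have hL0 : 0 < Lam k := by linarith [Lam_ge hk]
  refine ⟨hC, le_trans ?_ ha, le_trans hb ?_⟩
  · have : M / 4 ≤ vn (vr k (p + e1 * t) (q + e2 * t) e1 e2) i := by linarith
    have := mul_le_mul_of_nonneg_left this hL0.le
    linarith
  · have : vn (vr k (p + e1 * t) (q + e2 * t) e1 e2) i ≤ 3 / 2 * M := by linarith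
    have := mul_le_mul_of_nonneg_left this hL0.le
    linarith

/-- the numerical side conditions. -/
theorem num_PoroII {c m L M T d : ℝ} (hc : 0 < c) (hc1 : c ≤ 1) (hm : 300000000 / c ≤ m)
    (hmL : m ≤ L) (hT : 0 < T) (hTM : T ≤ M) (hMT : M ≤ L ^ 2 * T) (hd0 : 0 ≤ d)
    (hd : d ≤ L / T / L ^ 5) :
    d ≤ 1 / (200000 * (L * M)) ∧ d * M ≤ 1 / (10000 * L) ∧ d ≤ 1 / M ∧
      32 * (20 / (m * (L * M)) + d) * (4 / M / (1 / (200000 * (L * M))) + 3) ≤ c / 2 * (4 / M) ∧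
      8 / (c / 2) * d ≤ 4 / M ∧ 4 / M ≤ L / T / 2 := by
  have hcm : 300000000 ≤ c * m := by
    rw [div_le_iff₀ hc] at hm
    linarith
  have hm0 : 0 < m := by
    by_contra hneg
    have : c * m ≤ 0 := mul_nonpos_of_nonneg_of_nonpos hc.le (not_lt.mp hneg)
    linarith
  have hm1 : 300000000 ≤ m := by nlinarith
  have hL : 300000000 ≤ L := le_trans hm1 hmL
  have hL0 : 0 < L := by linarith
  have hM : 0 < M := by linarith
  have hd1 : d ≤ 1 / (L * (L * M)) := by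
    refine le_trans hd ?_
    rw [div_div, div_le_div_iff₀ (by positivity) (by positivity)]
    have := mul_le_mul_of_nonneg_left hMT (show (0 : ℝ) ≤ L ^ 3 by positivity)
    nlinarith
  have hLM : 0 < L * M := mul_pos hL0 hM
  have hd2 : d ≤ 1 / (m * (L * M)) :=
    le_trans hd1 (one_div_le_one_div_of_le (mul_pos hm0 hLM)
      (mul_le_mul_of_nonneg_right hmL hLM.le))
  have hd3 : d ≤ 1 / (200000 * (L * M)) :=
    le_trans hd1 (one_div_le_one_div_of_le (by positivity)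
      (mul_le_mul_of_nonneg_right (by linarith) hLM.le))
  refine ⟨hd3, ?_, ?_, ?_, ?_, ?_⟩
  · have h1 : d * M ≤ 1 / (200000 * (L * M)) * M := mul_le_mul_of_nonneg_right hd3 hM.le
    have h2 : 1 / (200000 * (L * M)) * M = 1 / (200000 * L) := by field_simp
    rw [h2] at h1
    exact le_trans h1 (one_div_le_one_div_of_le (by positivity) (by linarith))
  · exact le_trans hd3 (one_div_le_one_div_of_le hM (by nlinarith))
  · have h1 : 20 / (m * (L * M)) + d ≤ 21 / (m * (L * M)) := by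
      have : 21 / (m * (L * M)) = 20 / (m * (L * M)) + 1 / (m * (L * M)) := by ring
      linarith
    have h2 : 4 / M / (1 / (200000 * (L * M))) + 3 ≤ 800001 * L := by
      have : 4 / M / (1 / (200000 * (L * M))) = 800000 * L := by
        field_simp
        norm_num
      linarith
    have h3 : 0 ≤ 4 / M / (1 / (200000 * (L * M))) + 3 := by positivity
    have h4 : 32 * (20 / (m * (L * M)) + d) * (4 / M / (1 / (200000 * (L * M))) + 3) ≤
        32 * (21 / (m * (L * M))) * (800001 * L) :=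
      mul_le_mul (by linarith) h2 h3 (by positivity)
    refine le_trans h4 ?_
    have h5 : 32 * (21 / (m * (L * M))) * (800001 * L) = (32 * 21 * 800001 / m) / M := by
      field_simp
    have h6 : c / 2 * (4 / M) = (2 * c) / M := by ring
    rw [h5, h6]
    refine div_le_div_of_nonneg_right ?_ hM.le
    rw [div_le_iff₀ hm0]
    linarith
  · have h1 : 8 / (c / 2) * d ≤ 8 / (c / 2) * (1 / (m * (L * M))) :=
      mul_le_mul_of_nonneg_left hd2 (by positivity)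
    refine le_trans h1 ?_
    have h2 : 8 / (c / 2) * (1 / (m * (L * M))) = (16 / (c * m * L)) / M := by
      field_simp
      norm_num
    rw [h2]
    refine div_le_div_of_nonneg_right ?_ hM.le
    rw [div_le_iff₀ (by positivity)]
    nlinarith
  · have h1 : 4 / M ≤ 4 / T := div_le_div_of_nonneg_left (by norm_num) hT hTM
    refine le_trans h1 ?_
    have h2 : L / T / 2 = (L / 2) / T := by ring
    rw [h2]
    exact div_le_div_of_nonneg_right (by linarith) hT.le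

theorem poroII (c : ℝ) (hc : 0 < c) (hc1 : c ≤ 1) : ∃ μ0 : ℝ, ∀ (k μ η : ℝ), 0 < k → μ0 ≤ μ →
    μ ^ 100 = Lam k → 0 < η → η ≤ 1 / 100 → ∀ (p q e1 e2 T M del' : ℝ) (h i i' : ℕ), Dir e1 e2 →
    Lam k ^ (η * h + 3) ≤ T → T ≤ Lam k ^ ((1 - 2 * η) * h - 12) →
    (p, q) ∈ PkL k μ e1 e2 (Lam k ^ η / Lam k) h T →
    (i = fp (vr k p q e1 e2) T ∨ i = fp (vr k p q e1 e2) T + 1) →
    (i' = fp (vr k q p e2 e1) T ∨ i' = fp (vr k q p e2 e1) T + 1) →
    η * h + 3 ≤ i → η * h + 3 ≤ i' → (i : ℝ) + 9 ≤ (1 - η) * h → (i' : ℝ) + 9 ≤ (1 - η) * h →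
    M = max (vn (vr k p q e1 e2) i) (vn (vr k q p e2 e1) i') → T ≤ M → M ≤ Lam k ^ 2 * T →
    M ≤ 2 * min (vn (vr k p q e1 e2) i) (vn (vr k q p e2 e1) i') →
    0 ≤ del' → del' ≤ Lam k / T / Lam k ^ 5 →
    (∃ G : Set ℝ, MeasurableSet G ∧ G ⊆ Icc 0 4 ∧
      ENNReal.ofReal (c * 4) ≤ volume G ∧ ∀ s ∈ G, ∀ s', |s' - s| ≤ 1 / (10000 * Lam k) →
        Gd (orb k (p + e1 * (s' / M)) (q + e2 * (s' / M)) (i + 2))
          (orb k (q + e2 * (s' / M)) (p + e1 * (s' / M)) (i' + 2)) ∧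
        4 / 5 ≤ |Real.cos (2 * Real.pi * orb k (p + e1 * (s' / M)) (q + e2 * (s' / M)) (i + 1))| ∧
        4 / 5 ≤ |Real.cos (2 * Real.pi *
          orb k (q + e2 * (s' / M)) (p + e1 * (s' / M)) (i' + 1))|) →
    Porous {t : ℝ | (p + e1 * t, q + e2 * t) ∈ PkL k μ e1 e2 (Lam k ^ η / Lam k) h T} (c / 2)
      (Lam k / T) del' 0 := by
  obtain ⟨μ1, h1⟩ := chain_PoroII
  obtain ⟨μ2, h2⟩ := no_sixteen
  refine ⟨max (300000000 / c) (max μ1 μ2), ?_⟩
  intro k μ η hk hμ hL hη hη1 p q e1 e2 T M del' h i i' he hT1 hT2 hP hi hi' hi1 hi1' hi2 hi2' hM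
    hTM hMT hMm hd0 hd hG
  obtain ⟨G0, hG0, hGR, hvol, hgood⟩ := hG
  have hμc : 300000000 / c ≤ μ := le_trans (le_max_left _ _) hμ
  have hμ1 : μ1 ≤ μ := le_trans (le_trans (le_max_left _ _) (le_max_right _ _)) hμ
  have hμ2 : μ2 ≤ μ := le_trans (le_trans (le_max_right _ _) (le_max_right _ _)) hμ
  have hμ20 : 20 ≤ μ := by
    refine le_trans ?_ hμc
    rw [le_div_iff₀ hc]
    linarith
  have hL0 : 0 < Lam k := by linarith [Lam_ge hk]
  have hT : 0 < T := lt_of_lt_of_le (Real.rpow_pos_of_pos hL0 _) hT1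
  have hM0 : 0 < M := lt_of_lt_of_le hT hTM
  have hm1 : μ ≤ μ ^ 10 := by
    have : μ ^ 1 ≤ μ ^ 10 := pow_le_pow_right₀ (by linarith) (by norm_num)
    rwa [pow_one] at this
  have hm60 : 20 ≤ μ ^ 60 := by
    have : μ ^ 1 ≤ μ ^ 60 := pow_le_pow_right₀ (by linarith) (by norm_num)
    rw [pow_one] at this
    linarith
  have hmL : μ ^ 10 ≤ Lam k := by
    rw [← hL]
    exact pow_le_pow_right₀ (by linarith) (by norm_num)
  have hm0 : 0 < μ ^ 10 := by linarith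
  obtain ⟨n1, n2, n3, n4, n5, n6⟩ := num_PoroII hc hc1 (le_trans hμc hm1) hmL hT hTM hMT hd0 hd
  have hLM : 0 < Lam k * M := mul_pos hL0 hM0
  obtain ⟨⟨u1, u2, hdR, hdL⟩, hcR, hcL⟩ := hP
  simp only at hdR hdL hcR hcL
  have hvR : vn (vr k p q e1 e2) i ≤ M := by rw [hM]; exact le_max_left _ _
  have hvL : vn (vr k q p e2 e1) i' ≤ M := by rw [hM]; exact le_max_right _ _
  have hwR : M ≤ 2 * vn (vr k p q e1 e2) i := by
    linarith [min_le_left (vn (vr k p q e1 e2) i) (vn (vr k q p e2 e1) i')]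
  have hwL : M ≤ 2 * vn (vr k q p e2 e1) i' := by
    linarith [min_le_right (vn (vr k p q e1 e2) i) (vn (vr k q p e2 e1) i')]
  refine wrap_PoroII (G' := {t : ℝ |
      (Gd (orb k (p + e1 * t) (q + e2 * t) (i + 2)) (orb k (q + e2 * t) (p + e1 * t) (i' + 2)) ∧
        4 / 5 ≤ |Real.cos (2 * Real.pi * orb k (p + e1 * t) (q + e2 * t) (i + 1))| ∧
        4 / 5 ≤ |Real.cos (2 * Real.pi * orb k (q + e2 * t) (p + e1 * t) (i' + 1))|) ∧
      |t| ≤ 5 / M}) (ell := 1 / (200000 * (Lam k * M))) (lam := 20 / (μ ^ 10 * (Lam k * M)))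
    hc hM0 (by norm_num) (by positivity) (by positivity) hd0 n1 hG0 hGR hvol ?_ ?_ n4 n5 n6
  · intro t ht t' htt
    have hs : |t' * M - t * M| ≤ 1 / (10000 * Lam k) := by
      rw [← sub_mul, abs_mul, abs_of_pos hM0]
      exact le_trans (mul_le_mul_of_nonneg_right htt hM0.le) n2
    have hg := hgood _ ht _ hs
    rw [mul_div_cancel_right₀ _ hM0.ne'] at hg
    refine ⟨hg, ?_⟩
    obtain ⟨ha, hb⟩ := hGR ht
    have ht0 : 0 ≤ t := by
      by_contra hneg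
      have : t * M < 0 := mul_neg_of_neg_of_pos (not_le.mp hneg) hM0
      linarith
    have ht4 : t ≤ 4 / M := by
      rw [le_div_iff₀ hM0]
      exact hb
    have e : 5 / M = 4 / M + 1 / M := by ring
    have hp : 0 ≤ 4 / M := by positivity
    rw [abs_le] at htt ⊢
    constructor <;> linarith [htt.1, htt.2]
  · have key : ∀ t : ℝ, (p + e1 * t, q + e2 * t) ∈ PkL k μ e1 e2 (Lam k ^ η / Lam k) h T →
        4 / 5 ≤ |Real.cos (2 * Real.pi * orb k (p + e1 * t) (q + e2 * t) (i + 1))| →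
        4 / 5 ≤ |Real.cos (2 * Real.pi * orb k (q + e2 * t) (p + e1 * t) (i' + 1))| →
        |t| ≤ 5 / M →
        ((∀ s, i ≤ s → s ≤ i + 3 → Cl μ (Lam k) (Vo k (p + e1 * t) (q + e2 * t)) h s) ∧
          3 / 40 * (Lam k * M) ≤ vn (vr k (p + e1 * t) (q + e2 * t) e1 e2) (i + 1) ∧
          vn (vr k (p + e1 * t) (q + e2 * t) e1 e2) (i + 1) ≤ 3 / 2 * (Lam k * M)) ∧
        ((∀ s, i' ≤ s → s ≤ i' + 3 → Cl μ (Lam k) (Vo k (q + e2 * t) (p + e1 * t)) h s) ∧
          3 / 40 * (Lam k * M) ≤ vn (vr k (q + e2 * t) (p + e1 * t) e2 e1) (i' + 1) ∧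
          vn (vr k (q + e2 * t) (p + e1 * t) e2 e1) (i' + 1) ≤ 3 / 2 * (Lam k * M)) := by
      intro t htA hc1' hc2' ht
      obtain ⟨⟨w1, w2, heR, heL⟩, hfR, hfL⟩ := htA
      simp only at heR heL hfR hfL
      exact ⟨h1 k μ η hk hμ1 hL hη hη1 p q e1 e2 u1 u2 w1 w2 T M t h i he hT1 hT2 hdR hcR hi hi1 hi2
          hM0 hvR hwR ht heR hfR hc1',
        h1 k μ η hk hμ1 hL hη hη1 q p e2 e1 u2 u1 w2 w1 T M t h i' (dir_swap_PoroII he) hT1 hT2 hdL
          hcL hi' hi1' hi2' hM0 hvL hwL ht heL hfL hc2'⟩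
    rintro a ⟨haA, ⟨hgd, hc1', hc2'⟩, ha5⟩ hsix
    obtain ⟨⟨hCR, hloR, hhiR⟩, hCL, hloL, hhiL⟩ := key a haA hc1' hc2' ha5
    obtain ⟨Mx, hMx⟩ : ∃ Mx, Mx = max (vn (vr k (p + e1 * a) (q + e2 * a) e1 e2) (i + 1))
      (vn (vr k (q + e2 * a) (p + e1 * a) e2 e1) (i' + 1)) := ⟨_, rfl⟩
    obtain ⟨Mn, hMn⟩ : ∃ Mn, Mn = min (vn (vr k (p + e1 * a) (q + e2 * a) e1 e2) (i + 1))
      (vn (vr k (q + e2 * a) (p + e1 * a) e2 e1) (i' + 1)) := ⟨_, rfl⟩
    have hx1 : 3 / 40 * (Lam k * M) ≤ Mx := by rw [hMx]; exact le_trans hloR (le_max_left _ _)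
    have hx2 : Mx ≤ 3 / 2 * (Lam k * M) := by rw [hMx]; exact max_le hhiR hhiL
    have hn1 : 3 / 40 * (Lam k * M) ≤ Mn := by rw [hMn]; exact le_min hloR hloL
    have hn2 : Mn ≤ 3 / 2 * (Lam k * M) := by rw [hMn]; exact le_trans (min_le_left _ _) hhiR
    have hx0 : 0 < Mx := by linarith
    have hxn : Mx ≤ μ ^ 60 * Mn := by
      have : 20 * Mn ≤ μ ^ 60 * Mn := mul_le_mul_of_nonneg_right hm60 (by linarith)
      linarith
    refine h2 k μ η hk hμ2 hL hη hη1 (p + e1 * a) (q + e2 * a) e1 e2 Mx Mn h (i + 1) (i' + 1) he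
      (by push_cast; linarith) (by push_cast; linarith) (by push_cast; linarith)
      (by push_cast; linarith) haA.1 (hCR _ (by omega) (by omega)) (hCL _ (by omega) (by omega))
      hMx hMn hxn hgd (sixteen_shift_PoroII (a := a) hsix ?_ ?_)
    · rw [div_le_div_iff₀ (by positivity) (by positivity)]
      have : μ ^ 10 * (Lam k * M) ≤ μ ^ 10 * (20 * Mx) :=
        mul_le_mul_of_nonneg_left (by linarith) hm0.le
      linarith
    · rintro t ⟨⟨htA, ⟨_, hd1', hd2'⟩, ht5⟩, hta, htb⟩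
      obtain ⟨⟨hDR, hlR, _⟩, hDL, hlL, _⟩ := key t htA hd1' hd2' ht5
      have ep : p + e1 * a + e1 * (t - a) = p + e1 * t := by ring
      have eq' : q + e2 * a + e2 * (t - a) = q + e2 * t := by ring
      simp only [mem_setOf_eq]
      rw [ep, eq']
      refine ⟨?_, htA.1, hDR _ (by omega) (by omega), hDR _ (by omega) (by omega),
        hDL _ (by omega) (by omega), hDL _ (by omega) (by omega), by linarith, by linarith⟩
      have : 1 / (200000 * (Lam k * M)) ≤ 1 / (100000 * Mx) :=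
        one_div_le_one_div_of_le (by positivity) (by linarith)
      rw [abs_le]
      constructor <;> linarith

end Vale.Agent.P108
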