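import Vale.Agent.P108.Near
import Vale.Agent.P108.PoroII

/-!
P108 PoroI: from a good set to porosity.  A is the set of t with (p + e1 t, q + e2 t) in PkL,
the base point t = 0 lies in A, i, i' come from pick_index and M is the larger size.
poroI: G, R from the hypothesis, rescaled by 1 / M.  cover_hole with
G' = {t | Gd at t and |t| <= mu^58 / M}, ell = 1 / (200000 M), lam = 2 / (mu^10 M), del = del'.
For a in A and G', near_clean on both chains gives the clean cuts and sizes within [1/2, 3/2],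
no_sixteen at the base point (p + e1 a, q + e2 a) (translate Sixteen by a) gives the hypothesis.
The error 32 (lam + del')(R / (M ell) + 3) is at most c R / (2 M); note del' <= 1 / (Lam^2 M).
poroII: the same with the indices i + 1, i' + 1, R = 4, ell = 1 / (200000 Lam M),
lam = 20 / (mu^10 Lam M); next_size (BD at i from dec_bd) gives sizes in [0.07 Lam M, 1.5 Lam M].
-/

namespace Vale.Agent.P108

open MeasureTheory Set

theorem six_PoroI {A B : Set ℝ} {lam lam' a : ℝ} (h : Sixteen A lam) (hB : ∀ x ∈ A, x - a ∈ B)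
    (hl : lam' ≤ lam) : Sixteen B lam' := by
  obtain ⟨t, h1, h2⟩ := h
  exact ⟨fun l => t l - a, fun l hl' => hB _ (h1 l hl'), fun l hl' => by linarith [h2 l hl']⟩

theorem meas_PoroI {A G G' : Set ℝ} {c R M ν del' D : ℝ} (hc : 0 < c) (hc1 : c ≤ 1) (hM : 0 < M)
    (hR : 1 ≤ R) (hν : 40000000 ≤ c * ν) (hd0 : 0 ≤ del') (hd : del' * M ≤ 1 / ν)
    (hD : R / M ≤ D / 2) (hG : MeasurableSet G) (hGR : G ⊆ Icc 0 R)
    (hv : ENNReal.ofReal (c * R) ≤ volume G)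
    (hG' : ∀ s, s * M ∈ G → ∀ s', |s' - s| ≤ del' → s' ∈ G')
    (hno : ∀ a ∈ A ∩ G', ¬ Sixteen (A ∩ G' ∩ Icc (a - 1 / (200000 * M)) (a + 1 / (200000 * M)))
      (2 / (ν * M))) : Porous A (c / 2) D del' 0 := by
  have hν0 : 0 < ν := by
    by_contra hn
    nlinarith [mul_nonneg hc.le (neg_nonneg.2 (not_lt.1 hn))]
  have hν1 : 40000000 ≤ ν := hν.trans (mul_le_of_le_one_left hν0.le hc1)
  have hd1 : del' ≤ 1 / (ν * M) := by
    rw [← div_div, le_div_iff₀ hM]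
    exact hd
  have hdl : del' ≤ 1 / (200000 * M) :=
    hd1.trans (one_div_le_one_div_of_le (by positivity) (by nlinarith))
  have hR0 : 0 ≤ R / M := by positivity
  have hsub : (fun t => t * M) ⁻¹' G ⊆ Icc 0 (R / M) := fun t ht =>
    ⟨nonneg_of_mul_nonneg_left (hGR ht).1 hM, (le_div_iff₀ hM).2 (hGR ht).2⟩
  have H := cover_hole (A := A) (G := (fun t => t * M) ⁻¹' G) (G' := G') hR0 (by positivity)
    (by positivity) hd0 hdl (hG.preimage (measurable_id.mul_const M)) hsub hG' hno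
  have hv' : ENNReal.ofReal (c * (R / M)) ≤ volume ((fun t => t * M) ⁻¹' G) := by
    rw [Real.volume_preimage_mul_right hM.ne', abs_of_pos (inv_pos.2 hM),
      show c * (R / M) = M⁻¹ * (c * R) by field_simp, ENNReal.ofReal_mul (inv_pos.2 hM).le]
    gcongr
  have herr : 32 * (2 / (ν * M) + del') * (R / M / (1 / (200000 * M)) + 3) ≤ c / 2 * (R / M) := by
    have e1 : R / M / (1 / (200000 * M)) = 200000 * R := by field_simp
    have e2 : 2 / (ν * M) + del' ≤ 3 / (ν * M) := by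
      have : 3 / (ν * M) = 2 / (ν * M) + 1 / (ν * M) := by ring
      linarith
    rw [e1]
    calc _ ≤ 32 * (3 / (ν * M)) * (200003 * R) := by
          gcongr
          linarith
      _ = 19200288 / ν * (R / M) := by field_simp; norm_num
      _ ≤ c / 2 * (R / M) := by
          refine mul_le_mul_of_nonneg_right ?_ hR0
          rw [div_le_iff₀ hν0]
          linarith
  refine ⟨R / M, ?_, hD, ?_⟩
  · have e1 : 8 / (c / 2) * (1 / (ν * M)) = 16 / (c * ν) / M := by field_simp; norm_num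
    calc _ ≤ 8 / (c / 2) * (1 / (ν * M)) := by gcongr
      _ ≤ R / M := by
        rw [e1]
        refine div_le_div_of_nonneg_right ?_ hM.le
        rw [div_le_iff₀ (by positivity)]
        nlinarith
  · rw [zero_add]
    have h1 := (add_le_add_right hv' _).trans (H.trans (ENNReal.ofReal_le_ofReal
      (show _ ≤ (1 - c / 2) * (R / M) + c * (R / M) by linarith)))
    rw [ENNReal.ofReal_add (mul_nonneg (by linarith) hR0) (by positivity)] at h1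
    exact ENNReal.le_of_add_le_add_right ENNReal.ofReal_ne_top h1

/-- the facts known at a point of the line -/
def Loc_PoroI (k μ p q e1 e2 : ℝ) (h i : ℕ) (t : ℝ) : Prop :=
  (∀ s, i ≤ s → s ≤ i + 3 → Cl μ (Lam k) (Vo k (p + e1 * t) (q + e2 * t)) h s) ∧
    vn (vr k p q e1 e2) i / 2 ≤ vn (vr k (p + e1 * t) (q + e2 * t) e1 e2) i ∧
    vn (vr k (p + e1 * t) (q + e2 * t) e1 e2) i ≤ 3 / 2 * vn (vr k p q e1 e2) i

theorem rad_PoroI {μ m M t : ℝ} (hμ : 1 ≤ μ) (hm : 0 < m) (hM : m ≤ M) (ht : |t| ≤ μ ^ 58 / M) :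
    |t| ≤ μ ^ 91 / m :=
  ht.trans (div_le_div₀ (by positivity) (pow_le_pow_right₀ hμ (by norm_num)) hm hM)

theorem loc_PoroI : ∃ μ0 : ℝ, ∀ (k μ η : ℝ), 0 < k → μ0 ≤ μ → μ ^ 100 = Lam k → 0 < η →
    η ≤ 1 / 100 → ∀ (p q e1 e2 T : ℝ) (h i i' : ℕ), Dir e1 e2 →
    Lam k ^ (η * h + 3) ≤ T → T ≤ Lam k ^ ((1 - 2 * η) * h - 12) →
    (p, q) ∈ PkL k μ e1 e2 (Lam k ^ η / Lam k) h T →
    (i = fp (vr k p q e1 e2) T ∨ i = fp (vr k p q e1 e2) T + 1) →
    (i' = fp (vr k q p e2 e1) T ∨ i' = fp (vr k q p e2 e1) T + 1) →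
    ∀ t : ℝ, |t| ≤ μ ^ 91 / vn (vr k p q e1 e2) i → |t| ≤ μ ^ 91 / vn (vr k q p e2 e1) i' →
    (p + e1 * t, q + e2 * t) ∈ PkL k μ e1 e2 (Lam k ^ η / Lam k) h T →
    Loc_PoroI k μ p q e1 e2 h i t ∧ Loc_PoroI k μ q p e2 e1 h i' t := by
  obtain ⟨μ0, H⟩ := near_clean
  refine ⟨μ0, fun k μ η hk hμ hL hη hη1 p q e1 e2 T h i i' he hT1 hT2 hP hi hi' t ht ht' hA => ?_⟩
  obtain ⟨⟨u1, u2, d1, d2⟩, c1, c2⟩ := hP
  obtain ⟨⟨w1, w2, d3, d4⟩, c3, c4⟩ := hA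
  have he' : Dir e2 e1 := he.symm.imp And.symm And.symm
  exact ⟨H k μ η hk hμ hL hη hη1 p q e1 e2 u1 u2 w1 w2 T t h i he hT1 hT2 d1 c1 hi ht d3 c3,
    H k μ η hk hμ hL hη hη1 q p e2 e1 u2 u1 w2 w1 T t h i' he' hT1 hT2 d2 c2 hi' ht' d4 c4⟩

theorem size_PoroI {μ m m' n n' : ℝ} (hμ : 3 ≤ μ) (hm : 0 < m) (hm' : 0 < m')
    (hM : max m m' ≤ μ ^ 50 * min m m') (h1 : m / 2 ≤ n) (h2 : n ≤ 3 / 2 * m) (h3 : m' / 2 ≤ n')
    (h4 : n' ≤ 3 / 2 * m') :
    max m m' / 2 ≤ max n n' ∧ max n n' ≤ 3 / 2 * max m m' ∧ max n n' ≤ μ ^ 60 * min n n' ∧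
      min n n' / 22 ≤ m / 2 ∧ min n n' / 22 ≤ m' / 2 := by
  have a1 := le_max_left m m'
  have a2 := le_max_right m m'
  have a3 := le_max_left n n'
  have a4 := le_max_right n n'
  have a5 := min_le_left n n'
  have a6 := min_le_right n n'
  have b1 : max m m' ≤ 2 * max n n' := max_le (by linarith) (by linarith)
  have b2 : max n n' ≤ 3 / 2 * max m m' := max_le (by linarith) (by linarith)
  have b3 : min m m' / 2 ≤ min n n' :=
    le_min (by linarith [min_le_left m m']) (by linarith [min_le_right m m'])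
  refine ⟨by linarith, b2, ?_, by linarith, by linarith⟩
  have b4 : 0 < min m m' := lt_min hm hm'
  have b5 : 3 ≤ μ ^ 10 := hμ.trans (le_self_pow₀ (by linarith) (by norm_num))
  have b6 : 0 < μ ^ 50 := pow_pos (by linarith) _
  rw [show μ ^ 60 = μ ^ 50 * μ ^ 10 by ring]
  generalize μ ^ 50 = x at hM b6 ⊢
  generalize μ ^ 10 = y at b5 ⊢
  calc max n n' ≤ 3 / 2 * (x * min m m') := by linarith
    _ = x * 3 * (min m m' / 2) := by ring
    _ ≤ x * y * min n n' := by gcongr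

theorem nos_PoroI : ∃ μ0 : ℝ, ∀ (k μ η : ℝ), 0 < k → μ0 ≤ μ → μ ^ 100 = Lam k → 0 < η →
    η ≤ 1 / 100 → ∀ (p q e1 e2 M a : ℝ) (h i i' : ℕ) (B : Set ℝ), Dir e1 e2 →
    η * h + 3 ≤ i → η * h + 3 ≤ i' → (i : ℝ) + 9 ≤ (1 - η) * h → (i' : ℝ) + 9 ≤ (1 - η) * h →
    M = max (vn (vr k p q e1 e2) i) (vn (vr k q p e2 e1) i') →
    0 < vn (vr k p q e1 e2) i → 0 < vn (vr k q p e2 e1) i' →
    M ≤ μ ^ 50 * min (vn (vr k p q e1 e2) i) (vn (vr k q p e2 e1) i') →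
    (p + e1 * a, q + e2 * a) ∈ PkD k e1 e2 (Lam k ^ η / Lam k) h →
    Loc_PoroI k μ p q e1 e2 h i a → Loc_PoroI k μ q p e2 e1 h i' a →
    Gd (orb k (p + e1 * a) (q + e2 * a) (i + 1)) (orb k (q + e2 * a) (p + e1 * a) (i' + 1)) →
    (∀ x ∈ B, |x - a| ≤ 1 / (200000 * M) ∧
      (p + e1 * x, q + e2 * x) ∈ PkD k e1 e2 (Lam k ^ η / Lam k) h ∧
      Loc_PoroI k μ p q e1 e2 h i x ∧ Loc_PoroI k μ q p e2 e1 h i' x) →
    ¬ Sixteen B (2 / (μ ^ 10 * M)) := by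
  obtain ⟨μ0, H⟩ := no_sixteen
  refine ⟨max μ0 3, fun k μ η hk hμ hL hη hη1 p q e1 e2 M a h i i' B he i1 i2 i3 i4 hM m1 m2 hMm hP
    l1 l2 hG hB h16 => ?_⟩
  have hμ3 : 3 ≤ μ := (le_max_right _ _).trans hμ
  rw [hM] at hMm
  obtain ⟨s1, s2, s3, s4, s5⟩ := size_PoroI hμ3 m1 m2 hMm l1.2.1 l1.2.2 l2.2.1 l2.2.2
  rw [← hM] at s1 s2
  have hM0 : 0 < M := hM ▸ lt_max_of_lt_left m1
  refine H k μ η hk ((le_max_left _ _).trans hμ) hL hη hη1 (p + e1 * a) (q + e2 * a) e1 e2 _ _ h i i'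
    he (by linarith) (by linarith) (by linarith) (by linarith) hP (l1.1 i le_rfl (by omega))
    (l2.1 i' le_rfl (by omega)) rfl rfl s3 hG (six_PoroI (a := a) h16 (fun x hx => ?_) ?_)
  · obtain ⟨x1, x2, x3, x4⟩ := hB x hx
    have e1' : p + e1 * a + e1 * (x - a) = p + e1 * x := by ring
    have e2' : q + e2 * a + e2 * (x - a) = q + e2 * x := by ring
    simp only [mem_setOf_eq, e1', e2']
    refine ⟨x1.trans (one_div_le_one_div_of_le (by linarith) (by linarith)), x2,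
      x3.1 _ (by omega) (by omega), x3.1 _ (by omega) (by omega), x4.1 _ (by omega) (by omega),
      x4.1 _ (by omega) (by omega), s4.trans x3.2.1, s5.trans x4.2.1⟩
  · have b6 : 0 < μ ^ 10 := pow_pos (by linarith) _
    generalize μ ^ 10 = y at b6 ⊢
    generalize max (vn (vr k (p + e1 * a) (q + e2 * a) e1 e2) i)
      (vn (vr k (q + e2 * a) (p + e1 * a) e2 e1) i') = N at s1 ⊢
    have hN : 0 < N := by linarith
    rw [div_le_div_iff₀ (by positivity) (by positivity)]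
    nlinarith

theorem del_PoroI {L T M d : ℝ} (hL : 1 ≤ L) (hT : 0 < T) (hM : M ≤ L ^ 2 * T) (hd0 : 0 ≤ d)
    (hd : d ≤ L / T / L ^ 5) : d * M ≤ 1 / L := by
  have hL0 : 0 < L := by linarith
  calc d * M ≤ d * (L ^ 2 * T) := by gcongr
    _ ≤ L / T / L ^ 5 * (L ^ 2 * T) := by gcongr
    _ = 1 / L ^ 2 := by field_simp
    _ ≤ 1 / L := one_div_le_one_div_of_le hL0 (le_self_pow₀ hL (by norm_num))

theorem poroI (c : ℝ) (hc : 0 < c) (hc1 : c ≤ 1) : ∃ μ0 : ℝ, ∀ (k μ η : ℝ), 0 < k → μ0 ≤ μ →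
    μ ^ 100 = Lam k → 0 < η → η ≤ 1 / 100 → ∀ (p q e1 e2 T M del' : ℝ) (h i i' : ℕ), Dir e1 e2 →
    Lam k ^ (η * h + 3) ≤ T → T ≤ Lam k ^ ((1 - 2 * η) * h - 12) →
    (p, q) ∈ PkL k μ e1 e2 (Lam k ^ η / Lam k) h T →
    (i = fp (vr k p q e1 e2) T ∨ i = fp (vr k p q e1 e2) T + 1) →
    (i' = fp (vr k q p e2 e1) T ∨ i' = fp (vr k q p e2 e1) T + 1) →
    η * h + 3 ≤ i → η * h + 3 ≤ i' → (i : ℝ) + 9 ≤ (1 - η) * h → (i' : ℝ) + 9 ≤ (1 - η) * h →
    M = max (vn (vr k p q e1 e2) i) (vn (vr k q p e2 e1) i') → T ≤ M → M ≤ Lam k ^ 2 * T →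
    M ≤ μ ^ 50 * min (vn (vr k p q e1 e2) i) (vn (vr k q p e2 e1) i') →
    0 ≤ del' → del' ≤ Lam k / T / Lam k ^ 5 →
    HoleI μ c (fun s => orb k (p + e1 * (s / M)) (q + e2 * (s / M)) (i + 1))
      (fun s => orb k (q + e2 * (s / M)) (p + e1 * (s / M)) (i' + 1)) →
    Porous {t : ℝ | (p + e1 * t, q + e2 * t) ∈ PkL k μ e1 e2 (Lam k ^ η / Lam k) h T} (c / 2)
      (Lam k / T) del' 0 := by
  obtain ⟨μ1, H1⟩ := loc_PoroI
  obtain ⟨μ2, H2⟩ := nos_PoroI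
  refine ⟨max (max μ1 μ2) (40000000 / c), fun k μ η hk hμ hL hη hη1 p q e1 e2 T M del' h i i' he
    hT1 hT2 hP hi hi' i1 i2 i3 i4 hM hTM hMT hMm hd0 hd hH => ?_⟩
  have hμ1 : μ1 ≤ μ := (le_max_left _ _).trans ((le_max_left _ _).trans hμ)
  have hμ2 : μ2 ≤ μ := (le_max_right _ _).trans ((le_max_left _ _).trans hμ)
  have hμc : 40000000 ≤ c * μ := by
    have := (le_max_right _ _).trans hμ
    rwa [div_le_iff₀ hc, mul_comm] at this
  have hμ0 : 0 < μ := by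
    by_contra hn
    nlinarith [mul_nonneg hc.le (neg_nonneg.2 (not_lt.1 hn))]
  have hμ4 : 40000000 ≤ μ := hμc.trans (mul_le_of_le_one_left hμ0.le hc1)
  have hμ' : 1 ≤ μ := by linarith
  have hL1 : 1 ≤ Lam k := hL ▸ one_le_pow₀ hμ'
  have hT : 0 < T := (Real.rpow_pos_of_pos (by linarith) _).trans_le hT1
  have hM0 : 0 < M := hT.trans_le hTM
  have hmin : 0 < min (vn (vr k p q e1 e2) i) (vn (vr k q p e2 e1) i') :=
    pos_of_mul_pos_left (hM0.trans_le hMm |>.trans_eq (mul_comm _ _)) (by positivity) |>.trans_le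
      le_rfl
  obtain ⟨m1, m2⟩ := lt_min_iff.1 hmin
  have n1 : vn (vr k p q e1 e2) i ≤ M := hM ▸ le_max_left _ _
  have n2 : vn (vr k q p e2 e1) i' ≤ M := hM ▸ le_max_right _ _
  have hdM : del' * M ≤ 1 / μ ^ 10 :=
    (del_PoroI hL1 hT hMT hd0 hd).trans (one_div_le_one_div_of_le (by positivity)
      (hL ▸ pow_le_pow_right₀ hμ' (by norm_num)))
  have h10 : μ ≤ μ ^ 10 := le_self_pow₀ hμ' (by norm_num)
  have hdM' : del' * M ≤ 1 / 10000 :=
    hdM.trans (one_div_le_one_div_of_le (by norm_num) (by linarith))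
  obtain ⟨R, hR1, hR2, G, hG, hGR, hv, hgd⟩ := hH
  have h57 : 2 * μ ^ 57 ≤ μ ^ 58 := by
    rw [pow_succ μ 57, mul_comm]
    exact mul_le_mul_of_nonneg_left (by linarith) (by positivity)
  have key := fun t (ht : |t| ≤ μ ^ 58 / M) => H1 k μ η hk hμ1 hL hη hη1 p q e1 e2 T h i i' he hT1
    hT2 hP hi hi' t (rad_PoroI hμ' m1 n1 ht) (rad_PoroI hμ' m2 n2 ht)
  refine meas_PoroI (G' := {t | Gd (orb k (p + e1 * t) (q + e2 * t) (i + 1))
    (orb k (q + e2 * t) (p + e1 * t) (i' + 1)) ∧ |t| ≤ μ ^ 58 / M}) (ν := μ ^ 10) hc hc1 hM0 hR1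
    (hμc.trans (mul_le_mul_of_nonneg_left h10 hc.le)) hd0 hdM ?_ hG hGR hv
    (fun s hs s' hs' => ?_) fun a ha => ?_
  · have h58 : μ ^ 58 ≤ Lam k := hL ▸ pow_le_pow_right₀ hμ' (by norm_num)
    rw [div_right_comm]
    exact div_le_div₀ (by positivity) (by linarith) hT hTM
  · have e : |s' * M - s * M| ≤ 1 / 10000 := by
      rw [← sub_mul, abs_mul, abs_of_pos hM0]
      exact (mul_le_mul_of_nonneg_right hs' hM0.le).trans hdM'
    have := hgd _ hs _ e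
    simp only [mul_div_cancel_right₀ s' hM0.ne'] at this
    refine ⟨this, ?_⟩
    rw [le_div_iff₀ hM0, ← abs_of_pos hM0, ← abs_mul, abs_le]
    obtain ⟨g1, g2⟩ := hGR hs
    obtain ⟨g3, g4⟩ := abs_le.1 e
    constructor <;> linarith
  · obtain ⟨l1, l2⟩ := key a ha.2.2 ha.1
    refine H2 k μ η hk hμ2 hL hη hη1 p q e1 e2 M a h i i' _ he i1 i2 i3 i4 hM m1 m2 hMm ha.1.1 l1 l2
      ha.2.1 fun x hx => ⟨?_, hx.1.1.1, key x hx.1.2.2 hx.1.1⟩
    rw [abs_le]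
    constructor <;> linarith [hx.2.1, hx.2.2]

end Vale.Agent.P108
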