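import Vale.Agent.P108.Disc

/-!
P108 Smooth: the slope wC (i+1) / vC (i+1) has a small fourth derivative.
For j <= i let pi j in {j, j+1} with |v (pi j)| = vn v j, and S j = wC (pi j) / vC (pi j); choose
pi 0 so that S 0 = 0 (Dir) and pi i = i + 1 (disc_top).  On the ball of radius
R (j+1) = (mu^96)^(i-j-1) mu^91 / M both denominators are at least half of vn v j, vn v (j+1)
(disc_main), and the numerator wC a vC b - wC b vC a, b - a in {0, 1, 2}, is 0, +-1 or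
+-potC (xC (a+1)) (FldOn.wronsk over the complex numbers), so
|S j - S (j+1)| <= 4 L^(2d+2) / M^2 with d = i - j - 1 (vn v j >= M / L^(i-j)).
Cauchy estimate Complex.norm_iteratedDeriv_le_of_forall_mem_sphere_norm_le on the sphere of radius
R (j+1) / 2 around t: fourth derivative <= 24 * 16 * 4 L^(2d+2) M^2 / (mu^(384 d) mu^364).
Sum over d (iteratedDeriv of a finite sum on the open ball of radius mu^91 / M).
-/

namespace Vale.Agent.P108

/-- the index of the larger entry at cut j. -/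
noncomputable def piv_Smooth (v : ℕ → ℝ) (j : ℕ) : ℕ := if |v j| ≤ |v (j + 1)| then j + 1 else j

theorem piv_cases_Smooth (v : ℕ → ℝ) (j : ℕ) :
    (piv_Smooth v j = j ∨ piv_Smooth v j = j + 1) ∧ |v (piv_Smooth v j)| = vn v j := by
  unfold piv_Smooth vn
  split_ifs with h
  · exact ⟨Or.inr rfl, (max_eq_right h).symm⟩
  · exact ⟨Or.inl rfl, (max_eq_left (le_of_lt (not_le.1 h))).symm⟩

theorem piv_top_Smooth (v : ℕ → ℝ) (i : ℕ) (h : |v (i + 1)| = vn v i) :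
    piv_Smooth v i = i + 1 := by
  unfold piv_Smooth
  have : |v i| ≤ |v (i + 1)| := by rw [h]; exact le_max_left _ _
  rw [if_pos this]

theorem w_zero_Smooth (k p q e1 e2 : ℝ) (hD : Dir e1 e2) (t : ℂ) :
    wC k p q e1 e2 (piv_Smooth (vr k p q e1 e2) 0) t = 0 := by
  rcases hD with ⟨h1, h2⟩ | ⟨h1, h2⟩
  · have : piv_Smooth (vr k p q e1 e2) 0 = 0 := by
      unfold piv_Smooth vr
      have h : ¬ |fld (Vo k p q) e1 e2 0| ≤ |fld (Vo k p q) e1 e2 (0 + 1)| := by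
        show ¬ |e1| ≤ |e2|
        rw [h1, h2]; norm_num
      rw [if_neg h]
    rw [this]
    show (e2 : ℂ) = 0
    rw [h2]; simp
  · have : piv_Smooth (vr k p q e1 e2) 0 = 1 := by
      unfold piv_Smooth vr
      have h : |fld (Vo k p q) e1 e2 0| ≤ |fld (Vo k p q) e1 e2 (0 + 1)| := by
        show |e1| ≤ |e2|
        rw [h1, h2]; norm_num
      rw [if_pos h]
    rw [this]
    show (e1 : ℂ) = 0
    rw [h1]; simp

theorem wr_Smooth (k p q e1 e2 : ℝ) (hD : Dir e1 e2) (j : ℕ) (t : ℂ) :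
    ‖wC k p q e1 e2 j t * vC k p q e1 e2 (j + 1) t -
      wC k p q e1 e2 (j + 1) t * vC k p q e1 e2 j t‖ = 1 := by
  have h := FldOn.wronsk (fld_fldOn (fun l => potC k (xC k p q e1 e2 l t)) (e2 : ℂ) (e1 : ℂ) j)
    (fld_fldOn (fun l => potC k (xC k p q e1 e2 l t)) (e1 : ℂ) (e2 : ℂ) j) j le_rfl
  have h' : wC k p q e1 e2 j t * vC k p q e1 e2 (j + 1) t -
      wC k p q e1 e2 (j + 1) t * vC k p q e1 e2 j t = (e2 : ℂ) * e2 - (e1 : ℂ) * e1 := h
  rw [h']
  rcases hD with ⟨h1, h2⟩ | ⟨h1, h2⟩ <;> rw [h1, h2] <;> simp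

theorem num_Smooth (k p q e1 e2 L : ℝ) (hD : Dir e1 e2) (j a b : ℕ) (t : ℂ) (hL : 1 ≤ L)
    (ha : a = j ∨ a = j + 1) (hb : b = j + 1 ∨ b = j + 1 + 1)
    (hp : ‖potC k (xC k p q e1 e2 (j + 1) t)‖ ≤ L) :
    ‖wC k p q e1 e2 a t * vC k p q e1 e2 b t - wC k p q e1 e2 b t * vC k p q e1 e2 a t‖ ≤ L := by
  rcases ha with rfl | rfl <;> rcases hb with rfl | rfl
  · rw [wr_Smooth k p q e1 e2 hD]; exact hL
  · have hw : wC k p q e1 e2 (a + 1 + 1) t = potC k (xC k p q e1 e2 (a + 1) t) *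
        wC k p q e1 e2 (a + 1) t - wC k p q e1 e2 a t := rfl
    have hv : vC k p q e1 e2 (a + 1 + 1) t = potC k (xC k p q e1 e2 (a + 1) t) *
        vC k p q e1 e2 (a + 1) t - vC k p q e1 e2 a t := rfl
    have : wC k p q e1 e2 a t * vC k p q e1 e2 (a + 1 + 1) t -
        wC k p q e1 e2 (a + 1 + 1) t * vC k p q e1 e2 a t = potC k (xC k p q e1 e2 (a + 1) t) *
        (wC k p q e1 e2 a t * vC k p q e1 e2 (a + 1) t -
          wC k p q e1 e2 (a + 1) t * vC k p q e1 e2 a t) := by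
      rw [hw, hv]; ring
    rw [this, norm_mul, wr_Smooth k p q e1 e2 hD, mul_one]
    exact hp
  · rw [sub_self, norm_zero]; linarith
  · rw [wr_Smooth k p q e1 e2 hD]; exact hL

theorem den_Smooth (v : ℕ → ℝ) (z : ℕ → ℂ) (l : ℕ) (h0 : ‖z l - v l‖ ≤ vn v l / 2)
    (h1 : ‖z (l + 1) - v (l + 1)‖ ≤ vn v l / 2) : vn v l / 2 ≤ ‖z (piv_Smooth v l)‖ := by
  obtain ⟨hc, he⟩ := piv_cases_Smooth v l
  have h2 : ‖z (piv_Smooth v l) - v (piv_Smooth v l)‖ ≤ vn v l / 2 := by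
    rcases hc with h | h <;> rw [h] <;> assumption
  have h3 : ‖((v (piv_Smooth v l) : ℝ) : ℂ)‖ = vn v l := by
    rw [Complex.norm_real, Real.norm_eq_abs, he]
  have h4 := norm_sub_norm_le ((v (piv_Smooth v l) : ℝ) : ℂ) (z (piv_Smooth v l))
  rw [norm_sub_rev] at h4
  linarith

theorem low_Smooth {k : ℝ} (hk : 0 < k) (p q e1 e2 : ℝ) (i l : ℕ) (hl : l ≤ i) :
    vn (vr k p q e1 e2) i ≤ Lam k ^ (i - l) * vn (vr k p q e1 e2) l :=
  (FldOn.vn_le_pow (abs_Vo_le hk p q) (fld_fldOn (Vo k p q) e1 e2 i) hl le_rfl).1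

theorem quot_Smooth (wa va wb vb : ℂ) (A B L : ℝ) (hA : 0 < A) (hB : 0 < B) (ha : A / 2 ≤ ‖va‖)
    (hb : B / 2 ≤ ‖vb‖) (hn : ‖wa * vb - wb * va‖ ≤ L) :
    ‖wb / vb - wa / va‖ ≤ 4 * L / (A * B) := by
  have ha0 : 0 < ‖va‖ := by linarith
  have hb0 : 0 < ‖vb‖ := by linarith
  have hva : va ≠ 0 := norm_pos_iff.1 ha0
  have hvb : vb ≠ 0 := norm_pos_iff.1 hb0
  have hL : 0 ≤ L := le_trans (norm_nonneg _) hn
  have : wb / vb - wa / va = -(wa * vb - wb * va) / (va * vb) := by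
    field_simp
    ring
  rw [this, norm_div, norm_neg, norm_mul, div_le_div_iff₀ (by positivity) (by positivity)]
  have h1 : A * B ≤ 4 * (‖va‖ * ‖vb‖) := by
    have := mul_le_mul ha hb (by positivity) ha0.le
    nlinarith
  calc ‖wa * vb - wb * va‖ * (A * B) ≤ L * (4 * (‖va‖ * ‖vb‖)) :=
        mul_le_mul hn h1 (by positivity) hL
    _ = 4 * L * (‖va‖ * ‖vb‖) := by ring

theorem arith_Smooth (μ M A B : ℝ) (d : ℕ) (hμ : 2 ≤ μ) (hM : 0 < M) (hA0 : 0 < A) (hB0 : 0 < B)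
    (hA : M ≤ (μ ^ 100) ^ (d + 1) * A) (hB : M ≤ (μ ^ 100) ^ d * B) :
    ((4 : ℕ).factorial : ℝ) * (4 * μ ^ 100 / (A * B)) / ((μ ^ 96) ^ d * μ ^ 91 / M / 2) ^ 4 ≤
      1536 * M ^ 2 / μ ^ 164 * (1 / 2) ^ d := by
  have hμ0 : 0 < μ := by linarith
  have hf : ((4 : ℕ).factorial : ℝ) = 24 := by norm_num [Nat.factorial]
  have h1 : 4 * μ ^ 100 / (A * B) ≤ 4 * (μ ^ 200 * (μ ^ 200) ^ d) / M ^ 2 := by
    rw [div_le_div_iff₀ (by positivity) (by positivity)]
    have h2 : M * M ≤ (μ ^ 100) ^ (d + 1) * A * ((μ ^ 100) ^ d * B) :=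
      mul_le_mul hA hB hM.le (by positivity)
    have h3 : μ ^ 100 * ((μ ^ 100) ^ (d + 1) * (μ ^ 100) ^ d) = μ ^ 200 * (μ ^ 200) ^ d := by
      rw [← pow_mul, ← pow_mul, ← pow_mul, ← pow_add, ← pow_add, ← pow_add]
      congr 1
      ring
    calc 4 * μ ^ 100 * M ^ 2 = 4 * μ ^ 100 * (M * M) := by ring
      _ ≤ 4 * μ ^ 100 * ((μ ^ 100) ^ (d + 1) * A * ((μ ^ 100) ^ d * B)) :=
          mul_le_mul_of_nonneg_left h2 (by positivity)
      _ = 4 * (μ ^ 100 * ((μ ^ 100) ^ (d + 1) * (μ ^ 100) ^ d)) * (A * B) := by ring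
      _ = 4 * (μ ^ 200 * (μ ^ 200) ^ d) * (A * B) := by rw [h3]
  have h4 : (μ ^ 200) ^ d ≤ ((μ ^ 96) ^ d) ^ 4 * (1 / 2) ^ d := by
    have h5 : ((μ ^ 96) ^ d) ^ 4 = (μ ^ 384) ^ d := by
      rw [← pow_mul, ← pow_mul, ← pow_mul]
      congr 1
      ring
    rw [h5, ← mul_pow]
    apply pow_le_pow_left₀ (by positivity)
    have h6 : μ ^ 384 = μ ^ 200 * μ ^ 184 := by rw [← pow_add]
    have h7 : 2 ≤ μ ^ 184 := le_trans hμ (le_self_pow₀ (by linarith) (by norm_num))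
    have h8 : 0 < μ ^ 200 := by positivity
    rw [h6]
    nlinarith
  have h9 : (μ ^ 91) ^ 4 = μ ^ 200 * μ ^ 164 := by rw [← pow_mul, ← pow_add]
  generalize hX : (μ ^ 96) ^ d = X at *
  have hX0 : 0 < X := by rw [← hX]; positivity
  generalize hY : (μ ^ 200) ^ d = Y at *
  have hY0 : 0 < Y := by rw [← hY]; positivity
  generalize hZ : μ ^ 91 = Z at *
  have hZ0 : 0 < Z := by rw [← hZ]; positivity
  generalize hU : μ ^ 200 = U at *
  have hU0 : 0 < U := by rw [← hU]; positivity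
  generalize hW : μ ^ 164 = W at *
  have hW0 : 0 < W := by rw [← hW]; positivity
  generalize hH : ((1 : ℝ) / 2) ^ d = H at *
  have hH0 : 0 < H := by rw [← hH]; positivity
  rw [hf]
  have h10 : (X * Z / M / 2) ^ 4 = X ^ 4 * (U * W) / (16 * M ^ 4) := by
    rw [← h9]; field_simp; ring
  rw [h10, div_le_iff₀ (by positivity)]
  calc 24 * (4 * μ ^ 100 / (A * B)) ≤ 24 * (4 * (U * Y) / M ^ 2) := by linarith
    _ ≤ 24 * (4 * (U * (X ^ 4 * H)) / M ^ 2) := by gcongr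
    _ = 1536 * M ^ 2 / W * H * (X ^ 4 * (U * W) / (16 * M ^ 4)) := by
        field_simp
        ring

theorem tele_Smooth (a : ℕ → ℂ) (C : ℝ) (i : ℕ) (hC : 0 ≤ C) (h0 : a 0 = 0)
    (hs : ∀ j, j < i → ‖a (j + 1) - a j‖ ≤ C * (1 / 2) ^ (i - (j + 1))) :
    ‖a i‖ ≤ 2 * C := by
  have key : ∀ j, j ≤ i → ‖a j‖ ≤ 2 * C * (1 / 2) ^ (i - j) := by
    intro j
    induction j with
    | zero => intro _; rw [h0, norm_zero]; positivity
    | succ j ih =>
      intro hj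
      have h1 := ih (by omega)
      have h2 := hs j (by omega)
      have h3 : i - j = i - (j + 1) + 1 := by omega
      rw [h3, pow_succ] at h1
      have h4 : ‖a (j + 1)‖ ≤ ‖a (j + 1) - a j‖ + ‖a j‖ := by
        simpa using norm_add_le (a (j + 1) - a j) (a j)
      linarith
  simpa using key i le_rfl

theorem smooth4 : ∃ μ0 : ℝ, ∀ (k μ : ℝ), 0 < k → μ0 ≤ μ → μ ^ 100 = Lam k →
    ∀ (p q e1 e2 : ℝ) (i : ℕ), Dir e1 e2 → BD μ (Lam k) (vr k p q e1 e2) i → 1 ≤ i →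
    DifferentiableOn ℂ (fun t => wC k p q e1 e2 (i + 1) t / vC k p q e1 e2 (i + 1) t)
      (Metric.ball 0 (μ ^ 91 / vn (vr k p q e1 e2) i)) ∧
    ∀ t : ℂ, ‖t‖ ≤ μ ^ 91 / (2 * vn (vr k p q e1 e2) i) →
      ‖iteratedDeriv 4 (fun t => wC k p q e1 e2 (i + 1) t / vC k p q e1 e2 (i + 1) t) t‖ ≤
        vn (vr k p q e1 e2) i ^ 2 / μ ^ 150 := by
  obtain ⟨μ1, H1⟩ := disc_main
  obtain ⟨μ2, H2⟩ := disc_top
  refine ⟨max 2 (max μ1 μ2), fun k μ hk hμ hL p q e1 e2 i hD hB hi => ?_⟩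
  have hμ2 : 2 ≤ μ := le_trans (le_max_left _ _) hμ
  have hμa : μ1 ≤ μ := le_trans (le_trans (le_max_left _ _) (le_max_right _ _)) hμ
  have hμb : μ2 ≤ μ := le_trans (le_trans (le_max_right _ _) (le_max_right _ _)) hμ
  have hμ0 : 0 < μ := by linarith
  obtain ⟨hM, htop, -⟩ := H2 k μ hk hμb hL p q e1 e2 i hD hB hi
  have hL4 := Lam_ge hk
  have hpos : ∀ l, l ≤ i → 0 < vn (vr k p q e1 e2) l := by
    intro l hl
    have h1 := low_Smooth hk p q e1 e2 i l hl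
    have h2 : 0 < Lam k ^ (i - l) := by positivity
    by_contra h3
    have h4 := mul_nonpos_of_nonneg_of_nonpos h2.le (not_lt.1 h3)
    linarith
  have hden : ∀ j, j ≤ i → ∀ t : ℂ, ‖t‖ ≤ (μ ^ 96) ^ (i - j) * μ ^ 91 / vn (vr k p q e1 e2) i →
      ∀ l, l ≤ j → vn (vr k p q e1 e2) l / 2 ≤
        ‖vC k p q e1 e2 (piv_Smooth (vr k p q e1 e2) l) t‖ := by
    intro j hj t ht l hl
    obtain ⟨h1, h2, -, -⟩ := H1 k μ hk hμa hL p q e1 e2 i j hD hB hj t ht l hl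
    exact den_Smooth (vr k p q e1 e2) (fun l => vC k p q e1 e2 l t) l h1 h2
  set S : ℕ → ℂ → ℂ := fun l t => wC k p q e1 e2 (piv_Smooth (vr k p q e1 e2) l) t /
    vC k p q e1 e2 (piv_Smooth (vr k p q e1 e2) l) t with hS
  have hdiff : ∀ j, j ≤ i → ∀ l, l ≤ j → DifferentiableOn ℂ (S l)
      (Metric.closedBall 0 ((μ ^ 96) ^ (i - j) * μ ^ 91 / vn (vr k p q e1 e2) i)) := by
    intro j hj l hl t ht
    have h1 := hden j hj t (by simpa using ht) l hl
    have h2 := hpos l (le_trans hl hj)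
    have h3 : vC k p q e1 e2 (piv_Smooth (vr k p q e1 e2) l) t ≠ 0 :=
      norm_pos_iff.1 (by linarith)
    exact ((differentiable_wC k p q e1 e2 _ t).div (differentiable_vC k p q e1 e2 _ t)
      h3).differentiableWithinAt
  have hdi : ∀ l, l ≤ i → DifferentiableOn ℂ (S l)
      (Metric.ball 0 (μ ^ 91 / vn (vr k p q e1 e2) i)) := by
    intro l hl
    have h1 := hdiff i le_rfl l hl
    rw [Nat.sub_self, pow_zero, one_mul] at h1
    exact h1.mono Metric.ball_subset_closedBall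
  have hSi : S i = fun t => wC k p q e1 e2 (i + 1) t / vC k p q e1 e2 (i + 1) t := by
    funext t
    simp only [hS, piv_top_Smooth _ i htop]
  rw [← hSi]
  refine ⟨hdi i le_rfl, fun t ht => ?_⟩
  have h91 : 0 < μ ^ 91 := by positivity
  have ht' : ‖t‖ ≤ μ ^ 91 / vn (vr k p q e1 e2) i / 2 := by
    rw [div_div, mul_comm]; exact ht
  have hq : 0 < μ ^ 91 / vn (vr k p q e1 e2) i := by positivity
  have hcd : ∀ l, l ≤ i → ContDiffAt ℂ (4 : ℕ) (S l) t := by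
    intro l hl
    refine ((hdi l hl).analyticAt (Metric.isOpen_ball.mem_nhds ?_)).contDiffAt
    rw [mem_ball_zero_iff]
    linarith
  have hstep : ∀ j, j < i → ‖iteratedDeriv 4 (S (j + 1)) t - iteratedDeriv 4 (S j) t‖ ≤
      1536 * vn (vr k p q e1 e2) i ^ 2 / μ ^ 164 * (1 / 2) ^ (i - (j + 1)) := by
    intro j hj
    rw [← iteratedDeriv_sub (hcd (j + 1) hj) (hcd j hj.le)]
    have h96 : 1 ≤ (μ ^ 96) ^ (i - (j + 1)) := one_le_pow₀ (one_le_pow₀ (by linarith))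
    set R := (μ ^ 96) ^ (i - (j + 1)) * μ ^ 91 / vn (vr k p q e1 e2) i with hR
    have hRge : μ ^ 91 / vn (vr k p q e1 e2) i ≤ R := by
      rw [hR, mul_div_assoc]
      exact le_mul_of_one_le_left hq.le h96
    have hsub : Metric.closedBall t (R / 2) ⊆ Metric.closedBall 0 R := by
      intro z hz
      rw [mem_closedBall_zero_iff]
      rw [mem_closedBall_iff_norm] at hz
      have h1 : ‖z‖ ≤ ‖z - t‖ + ‖t‖ := by simpa using norm_add_le (z - t) t
      linarith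
    have hdc : DiffContOnCl ℂ (S (j + 1) - S j) (Metric.ball t (R / 2)) :=
      ((hdiff (j + 1) hj (j + 1) le_rfl).sub (hdiff (j + 1) hj j (by omega))).diffContOnCl_ball hsub
    have hbd : ∀ z ∈ Metric.sphere t (R / 2), ‖(S (j + 1) - S j) z‖ ≤
        4 * μ ^ 100 / (vn (vr k p q e1 e2) j * vn (vr k p q e1 e2) (j + 1)) := by
      intro z hz
      have hz' : ‖z‖ ≤ R := by
        simpa using hsub (Metric.sphere_subset_closedBall hz)
      obtain ⟨-, -, -, h4⟩ := H1 k μ hk hμa hL p q e1 e2 i (j + 1) hD hB hj z hz' (j + 1) le_rfl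
      refine quot_Smooth _ _ _ _ _ _ _ (hpos j hj.le) (hpos (j + 1) hj)
        (hden (j + 1) hj z hz' j (by omega)) (hden (j + 1) hj z hz' (j + 1) le_rfl) ?_
      refine num_Smooth k p q e1 e2 _ hD j _ _ z (by rw [hL]; linarith)
        (piv_cases_Smooth _ j).1 (piv_cases_Smooth _ (j + 1)).1 ?_
      have := h4 (by omega)
      rw [hL]; linarith
    refine le_trans (Complex.norm_iteratedDeriv_le_of_forall_mem_sphere_norm_le 4
      (by linarith) hdc hbd) ?_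
    refine arith_Smooth μ _ _ _ (i - (j + 1)) hμ2 hM (hpos j hj.le) (hpos (j + 1) hj) ?_ ?_
    · have h1 := low_Smooth hk p q e1 e2 i j hj.le
      have h2 : i - j = i - (j + 1) + 1 := by omega
      rw [hL, ← h2]; exact h1
    · rw [hL]; exact low_Smooth hk p q e1 e2 i (j + 1) hj
  have h0 : iteratedDeriv 4 (S 0) t = 0 := by
    have : S 0 = fun _ => 0 := by
      funext z
      simp only [hS, w_zero_Smooth k p q e1 e2 hD z, zero_div]
    rw [this, iteratedDeriv_fun_const_zero]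
  have hfin := tele_Smooth (fun l => iteratedDeriv 4 (S l) t) _ i (by positivity) h0 hstep
  refine le_trans hfin ?_
  have h14 : (3072 : ℝ) ≤ μ ^ 14 :=
    le_trans (by norm_num) (pow_le_pow_left₀ (by norm_num) hμ2 14)
  have h164 : μ ^ 164 = μ ^ 150 * μ ^ 14 := by rw [← pow_add]
  have h150 : 0 < μ ^ 150 := by positivity
  have hM2 : 0 < vn (vr k p q e1 e2) i ^ 2 := by positivity
  rw [h164]
  generalize μ ^ 150 = X at *
  generalize μ ^ 14 = Y at *
  generalize vn (vr k p q e1 e2) i ^ 2 = Z at *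
  have hY : 0 < Y := by linarith
  rw [← mul_div_assoc, div_le_div_iff₀ (by positivity) h150]
  have := mul_le_mul_of_nonneg_left h14 (mul_pos hM2 h150).le
  nlinarith

end Vale.Agent.P108
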