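import Mathlib

namespace Vale.Agent.P108

open MeasureTheory Filter

/-- The lift to the plane of the standard map of the torus. -/
noncomputable def stdLift (k : ℝ) (z : EuclideanSpace ℝ (Fin 2)) : EuclideanSpace ℝ (Fin 2) :=
  WithLp.toLp 2 ![z 0 + z 1 + k * Real.sin (2 * Real.pi * z 0),
    z 1 + k * Real.sin (2 * Real.pi * z 0)]

/-- The lower limit of (1/n) log of the operator norm of the derivative of the n-th iterate. -/
noncomputable def lyap (k : ℝ) (z : EuclideanSpace ℝ (Fin 2)) : EReal :=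
  liminf (fun n : ℕ => ((Real.log ‖fderiv ℝ ((stdLift k)^[n]) z‖ / n : ℝ) : EReal)) atTop

/-- The exponent is positive on a set of positive area of the unit square. -/
def PosExp (k : ℝ) : Prop :=
  0 < volume {z : EuclideanSpace ℝ (Fin 2) |
    z 0 ∈ Set.Ico (0 : ℝ) 1 ∧ z 1 ∈ Set.Ico (0 : ℝ) 1 ∧ 0 < lyap k z}

end Vale.Agent.P108
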