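import Mathlib

namespace Vale.Agent.P108

open MeasureTheory Filter

/-- sin (2 pi x) for x on the circle R / Z. -/
noncomputable def sinC (x : UnitAddCircle) : ℝ := (AddCircle.toCircle x : ℂ).im

/-- The standard map of the torus. -/
noncomputable def stdMap (k : ℝ) (z : UnitAddCircle × UnitAddCircle) :
    UnitAddCircle × UnitAddCircle :=
  (z.1 + z.2 + ((k * sinC z.1 : ℝ) : UnitAddCircle), z.2 + ((k * sinC z.1 : ℝ) : UnitAddCircle))

/-- Shannon entropy, for area, of the join of the preimages of the partition xi under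
f^0, ..., f^(n-1). -/
noncomputable def blockEnt {N : ℕ}
    (f : UnitAddCircle × UnitAddCircle → UnitAddCircle × UnitAddCircle)
    (ξ : UnitAddCircle × UnitAddCircle → Fin N) (n : ℕ) : ℝ :=
  ∑ w : Fin n → Fin N, Real.negMulLog (volume {z | ∀ i : Fin n, ξ (f^[i] z) = w i}).toReal

/-- Kolmogorov-Sinai entropy for area: supremum over finite measurable partitions. -/
noncomputable def ksEnt (f : UnitAddCircle × UnitAddCircle → UnitAddCircle × UnitAddCircle) :
    EReal :=
  ⨆ (N : ℕ) (ξ : UnitAddCircle × UnitAddCircle → Fin N) (_ : Measurable ξ),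
    liminf (fun n : ℕ => ((blockEnt f ξ n / n : ℝ) : EReal)) atTop

end Vale.Agent.P108
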