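import Vale.Agent.P108.Poro
import Vale.Agent.P108.Grid
import Vale.Agent.P108.Meas
import Vale.Agent.P108.Levels
import Vale.Agent.P108.Line

/-!
P108 T1: peaks of height h have exponentially small area.
levels: Q natural with L^5 <= Q <= L^6, T j = L Q^j, I = Icc (h/20 + 1) (h/10).  The first
passages fp v (T j) are different for different j (steps are at most L, fp_spec), and an unclean
cut t lies in the window of at most 7 values of fp, so count_unclean on both arms bounds the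
number of unclean levels by 14 (200 eta h + 2).
line_bound: a point of PkD lies in PkL (T j) for all j in its set S of clean levels; for fixed S
grid with poro and Porous.mono bounds the measure by (1 - c/8)^card S; subset_bound sums over S.
Choose eta so small that (16/c)^(2800 eta) (1 - c/16)^(1/20) < 1.
t1: Pk is contained in PkD 1 0 union PkD 0 1; Fubini along horizontal and vertical lines
(meas_PkD, Measure.prod_apply and Measure.prod_apply_symm); mu = Lam^(1/100).
-/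

namespace Vale.Agent.P108

open MeasureTheory Set Classical

theorem sub_T1 (k ρ : ℝ) (h : ℕ) :
    Pk k ρ h ⊆ PkD k 0 1 ρ h ∪ Prod.swap ⁻¹' PkD k 0 1 ρ h := by
  rintro z ⟨u1, u2, hm, h1, h2⟩
  have a1 : |u1| ≤ 1 := hm ▸ le_max_left _ _
  have a2 : |u2| ≤ 1 := hm ▸ le_max_right _ _
  rcases max_choice |u1| |u2| with e | e <;> rw [hm] at e
  · exact Or.inl ⟨u1, u2, ⟨a1, a2, by simpa using e.symm, h1⟩, a2, a1, by simpa using e.symm, h2⟩
  · exact Or.inr ⟨u2, u1, ⟨a2, a1, by simpa using e.symm, h2⟩, a1, a2, by simpa using e.symm, h1⟩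

theorem fub_T1 {S : Set (ℝ × ℝ)} (hS : MeasurableSet S) {x : ENNReal}
    (h : ∀ a : ℝ, volume ({t : ℝ | (a + 0 * t, 0 + 1 * t) ∈ S} ∩ Ico 0 1) ≤ x) : Pr S ≤ x := by
  rw [Pr, box, fub_MeasA hS]
  refine (lintegral_mono fun a => (?_ : _ ≤ x)).trans (by simp)
  have h1 := h a
  simp only [zero_mul, add_zero, one_mul, zero_add] at h1
  exact h1

theorem t1 : ∃ η : ℝ, 0 < η ∧ η ≤ 1 / 100 ∧ ∃ r C : ℝ, 0 < r ∧ r < 1 ∧ 0 < C ∧ ∃ k0 : ℝ,
    ∀ k, k0 ≤ k → ∀ h : ℕ, 100 ≤ h →
    Pr (Pk k (Lam k ^ η / Lam k) h) ≤ ENNReal.ofReal (C * r ^ h) := by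
  obtain ⟨η, h0, h1, r, C, r0, r1, hC, μ0, H⟩ := line_bound
  refine ⟨η, h0, h1, r, 2 * C, r0, r1, by positivity, max 1 (μ0 ^ 100), fun k hk h hh => ?_⟩
  have hk1 : 1 ≤ k := (le_max_left _ _).trans hk
  have hk0 : 0 < k := one_pos.trans_le hk1
  have hL : k ≤ Lam k := by
    unfold Lam
    nlinarith [Real.pi_gt_three]
  have hL0 : 0 ≤ Lam k := hk0.le.trans hL
  have e : (Lam k ^ (((100 : ℕ) : ℝ)⁻¹)) ^ 100 = Lam k :=
    Real.rpow_inv_natCast_pow hL0 (by norm_num)
  have hμ : μ0 ≤ Lam k ^ (((100 : ℕ) : ℝ)⁻¹) :=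
    le_of_pow_le_pow_left₀ (n := 100) (by norm_num) (Real.rpow_nonneg hL0 _)
      (by rw [e]; exact ((le_max_right _ _).trans hk).trans hL)
  have hm := meas_PkD k 0 1 (Lam k ^ η / Lam k) h
  have key := fub_T1 hm fun a => H k _ hk0 hμ e a 0 0 1 h (Or.inr ⟨rfl, rfl⟩) hh
  refine (pr_mono (sub_T1 k _ h)).trans ((pr_union_le _ _).trans ?_)
  rw [pr_swap hm, mul_assoc, two_mul, ENNReal.ofReal_add (by positivity) (by positivity)]
  exact add_le_add key key

end Vale.Agent.P108
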