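import Vale.Agent.P108.Decouple
import Vale.Agent.P108.Avg

/-!
P108 T2: doubly shadowed points.  Take g from avg.  For z in Rsh g N take the least deficient m.
If m = 1 then 2 + |pot z.2| <= Lam / g (nrm_one), so z is Weak g0.  Otherwise ns_class gives a < N
with z in Ecl g (ns a) N, and one of the rows ns a, ns a + 1 carries half of the norm.  Same for
the swapped point.  Union bound with decouple (four row choices), pr_swap, pr_weak.
-/

namespace Vale.Agent.P108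

open MeasureTheory Set

theorem cls_T2 {k g0 g : ℝ} (hk : 0 < k) (hg0 : 0 < g0) (hg : g0 ≤ g) {N : ℕ} {z : ℝ × ℝ}
    (hz : z ∈ Rsh k g N) : z ∈ Weak k g0 ∨
      ∃ p : Fin N × Fin 2, z ∈ Ecl k g (ns p.1) N ∩ Row k (ns p.1) (ns p.1 + p.2) := by
  classical
  obtain ⟨h1, h2, h3⟩ := Nat.find_spec hz
  have h4 := fun j => Nat.find_min hz (m := j)
  generalize Nat.find hz = m at h1 h2 h3 h4
  rcases h1.eq_or_lt with rfl | h1
  · left
    rw [nrm_one, pow_one] at h3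
    have h5 : Lam k / g ≤ Lam k / g0 :=
      div_le_div_of_nonneg_left (by linarith [Lam_ge hk]) hg0 hg
    have h6 : Vo k z.1 z.2 1 = pot k z.2 := rfl
    change |pot k z.2| < Lam k / g0
    rw [h6] at h3
    linarith
  right
  obtain ⟨a, ha, hb, hc⟩ := ns_class h1
  have hE : z ∈ Ecl k g (ns a) N := ⟨fun j hj hj' => le_of_not_ge fun h =>
    h4 j (hj'.trans_lt hb) ⟨hj, by omega, h⟩, m, hb, hc, h2, h3⟩
  by_cases h : z ∈ Row k (ns a) (ns a)
  · exact ⟨(⟨a, ha.trans_le h2⟩, 0), hE, h⟩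
  · refine ⟨(⟨a, ha.trans_le h2⟩, 1), hE, ?_⟩
    change z ∈ Row k (ns a) (ns a + 1)
    simp only [Row, nrm, mem_ofPred_eq, not_le] at h ⊢
    linarith

theorem row_T2 (n : ℕ) (b : Fin 2) : n + b = n ∨ n + b = n + 1 := by omega

theorem t2 {k g0 : ℝ} (hk : 1 ≤ k) (hg0 : 300 ≤ g0) (hL : g0 ^ 80 ≤ Lam k) (N : ℕ) :
    ∃ g, g0 ^ 2 ≤ g ∧ g ≤ g0 ^ 4 ∧ Pr (Lsh k g N ∩ Rsh k g N) ≤
      ENNReal.ofReal (20 / g0) + 5000 * (Pr (Rsh k g0 N) * Pr (Rsh k g0 N)) := by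
  have hk0 : 0 < k := by linarith
  have h1 : 1 ≤ g0 := by linarith
  obtain ⟨g, hg1, hg2, hav⟩ := avg hk0 hg0 N
  have hg : g0 ≤ g := (le_self_pow₀ h1 two_ne_zero).trans hg1
  have hgL : g ^ 20 ≤ Lam k := by
    refine (pow_le_pow_left₀ (by linarith) hg2 20).trans ?_
    rwa [← pow_mul]
  refine ⟨g, hg1, hg2, ?_⟩
  set C : Fin N × Fin 2 → Set (ℝ × ℝ) := fun p =>
    Ecl k g (ns p.1) N ∩ Row k (ns p.1) (ns p.1 + p.2) with hC
  have hsub : Lsh k g N ∩ Rsh k g N ⊆ (Weak k g0 ∪ Prod.swap ⁻¹' Weak k g0) ∪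
      ⋃ q : (Fin N × Fin 2) × (Fin N × Fin 2), C q.1 ∩ Prod.swap ⁻¹' C q.2 := fun z hz => by
    rcases cls_T2 hk0 (by linarith) hg hz.2 with h | ⟨p, hp⟩
    · exact Or.inl (Or.inl h)
    rcases cls_T2 hk0 (by linarith) hg (show z.swap ∈ Rsh k g N from hz.1) with h | ⟨q, hq⟩
    · exact Or.inl (Or.inr h)
    exact Or.inr (mem_iUnion.2 ⟨(p, q), hp, hq⟩)
  have hw := pr_weak hk h1 ((le_self_pow₀ h1 (by norm_num)).trans hL)
  refine (pr_mono hsub).trans ((pr_union_le _ _).trans (add_le_add ?_ ?_))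
  · refine (pr_union_le _ _).trans ?_
    rw [pr_swap (meas_Weak k g0), show 20 / g0 = 10 / g0 + 10 / g0 by ring,
      ENNReal.ofReal_add (by positivity) (by positivity)]
    exact add_le_add hw hw
  have h2 : ∑ p : Fin N × Fin 2, Pr (Etl k g (ns p.1) N) ≤ 8 * Pr (Rsh k g0 N) := by
    rw [Fintype.sum_prod_type_right]
    simp only [← Finset.sum_range fun a => Pr (Etl k g (ns a) N), Fin.sum_univ_two]
    exact (add_le_add hav hav).trans_eq (by ring)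
  refine (pr_iUnion_le _).trans ?_
  rw [tsum_fintype]
  refine (Finset.sum_le_sum fun q _ => decouple hk0 (hg0.trans hg) hgL (ns_pos _) (row_T2 _ _)
    (ns_pos _) (row_T2 _ _) N).trans ?_
  rw [← Finset.mul_sum, Fintype.sum_prod_type' fun p q : Fin N × Fin 2 =>
    Pr (Etl k g (ns p.1) N) * Pr (Etl k g (ns q.1) N), ← Finset.sum_mul_sum]
  calc _ ≤ 72 * (8 * Pr (Rsh k g0 N) * (8 * Pr (Rsh k g0 N))) := by gcongr
    _ = 4608 * (Pr (Rsh k g0 N) * Pr (Rsh k g0 N)) := by ring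
    _ ≤ _ := by gcongr; norm_num

end Vale.Agent.P108
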